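import Crest.Agent.R160.PostB

/-!
Row 160, AC1: lower bound for the second moment of a cavity field.

Let `e = eta (i-1)`, `n = n0 i` (`n * e = 1`, `8 ≤ n`), `α = e/6`,
`xi x o = act i o.2 (i-1,x) * cl (o.1 (i-1,x))`, and `X o = ∑ x ∈ sb c w (n-1), θ^(dist c x) * xi x o`.
* `xi_mean`, `xi_corr`: Fubini; given `σ` and `T` the observations are independent with
  `∫ cl (sp b * Qf a ζ) dlam = a * sp b / 3` (`integral_sp_Qf`, `integral_lam_id`,
  `integral_lam_sq`, or `obs_density`), `act i T (i-1,x) = 1 ↔ cl (T (i-1,x)) < 0`, which has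
  probability 1/2, independently for different `x`.
* With `corr`: `E[σ_w X] = α θ S1`, `S1 = ∑ x ∈ sb c w (n-1), θ^(2 dist c x) = ∑ k < n, ((d-1)θ²)^k`
  (`sum_sb_succ`, `card_kids`, `dist_of_mem_sub`), so `n/4 ≤ n (1-1/n)^n ≤ S1 ≤ n` and
  `E[σ_w X] ≥ θ/24`.
* `E X² ≤ S1 + α² S2` with `S2 = ∑ x x', θ^(dist c x + dist c x' + dist x x') ≤ n³`
  (`sum2_le`: induction with `sum_sb_succ`; for `x, x'` below different children use `dist_cross`):
  so `E X² ≤ 2n`.
* `a = θ * cav c w y = Mg w ((sub c w).indicator y)` a.s. (`theta_cav`, `ae_conv_fS`) and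
  `(sub c w).indicator (fS S s o) = fS (S ∩ sub c w) s o`; `X` is `Dep (bef (S ∩ sub c w) s)` by
  `hinfo` (an active round `i-1` observation has time `< i`).  `post` gives `E[σ_w X] = E[a X]`, so
  `(θ/24)² ≤ E a² * 2n`, i.e. `E a² ≥ θ² e / 1152 ≥ eta i / (3000 d)` (`NC.seven`,
  `eta_le_two_mul_pred`).  `cav_mean` is `post` with `Φ = a`.
-/

set_option autoImplicit false

open MeasureTheory Filter Topology
open scoped Classical

namespace Crest.Agent.R160

noncomputable section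

universe u

variable {V : Type u} {G : SimpleGraph V} [G.LocallyFinite] {d : ℕ} {θ : ℝ}
  {ν : Measure (V → Bool)}

/-- an active observation of round `j` at `x` -/
def xi (j : ℤ) (x : V) (o : Ob V) : ℝ := act (j + 1) o.2 (j, x) * cl (o.1 (j, x))

lemma abs_xi_le (j : ℤ) (x : V) (o : Ob V) : |xi j x o| ≤ 1 := by
  unfold xi
  rw [abs_mul, abs_of_nonneg (act_nonneg _ _ _)]
  exact mul_le_one₀ (act_le_one _ _ _) (abs_nonneg _) (abs_cl_le _)

lemma measurable_xi (j : ℤ) (x : V) : Measurable (xi j x : Ob V → ℝ) := by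
  unfold xi
  exact ((measurable_act (j, x)).comp (measurable_const.prodMk measurable_snd)).mul
    (measurable_cl.comp ((measurable_pi_apply _).comp measurable_fst))

def ia (t : ℝ) : ℝ := if cl t < 0 then 1 else 0

def kz (j : ℤ) (b : Bool) (t z : ℝ) : ℝ :=
  ia t * cl (sp b * Qf (if cl t < 0 then eta j else 0) z)

lemma measurable_ia : Measurable ia :=
  Measurable.ite (measurableSet_lt measurable_cl measurable_const) measurable_const
    measurable_const

lemma abs_ia_le (t : ℝ) : |ia t| ≤ 1 := by unfold ia; split_ifs <;> simp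

lemma abs_kz_le (j : ℤ) (b : Bool) (t z : ℝ) : |kz j b t z| ≤ 1 := by
  unfold kz
  rw [abs_mul]
  exact mul_le_one₀ (abs_ia_le t) (abs_nonneg _) (abs_cl_le _)

lemma measurable_kz (j : ℤ) (b : Bool) (t : ℝ) : Measurable (kz j b t) := by
  unfold kz
  exact (measurable_cl.comp
    ((measurable_Qf.comp (measurable_const.prodMk measurable_id)).const_mul _)).const_mul _

lemma xi_obs (j : ℤ) (x : V) (ω : Om V) :
    xi j x (obs ω) = kz j (ω.1 x) (ω.2.2 (j, x)) (ω.2.1 (j, x)) := by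
  have h : act (j + 1) ω.2.2 (j, x) = ia (ω.2.2 (j, x)) := by
    unfold act ia
    have := tm_lt_iff ω.2.2 (j, x)
    simp only at this
    simp [this]
  change act (j + 1) ω.2.2 (j, x) * _ = _
  rw [h]
  rfl

lemma integral_kz (j : ℤ) (b : Bool) (t : ℝ) :
    ∫ z, kz j b t z ∂lam = ia t * (eta j / 3 * sp b) := by
  unfold kz ia
  split_ifs with h
  swap
  · simp
  rw [integral_const_mul, integral_sp_Qf (a := eta j)
    (by rw [abs_of_pos (eta_pos j)]; exact eta_le j) b cl]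
  congr 1
  have e : ∫ y, cl y * (1 + eta j * sp b * y) ∂lam =
      ∫ y, (cl y + eta j * sp b * cl y ^ 2) ∂lam := by
    refine integral_congr_ae ?_
    filter_upwards [ae_lam] with y hy
    rw [cl_of_abs_le hy]; ring
  have e1 : ∫ y, cl y ∂lam = 0 := by
    rw [← integral_lam_id]
    refine integral_congr_ae ?_
    filter_upwards [ae_lam] with y hy using cl_of_abs_le hy
  have e2 : ∫ y, cl y ^ 2 ∂lam = 1 / 3 := by
    rw [← integral_lam_sq]
    refine integral_congr_ae ?_
    filter_upwards [ae_lam] with y hy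
    rw [cl_of_abs_le hy]
  have i2 : Integrable (fun y => cl y ^ 2) lam :=
    integrable_of_bdd (measurable_cl.pow_const 2) (C := 1) fun y => by
      rw [abs_pow]; exact pow_le_one₀ (abs_nonneg _) (abs_cl_le y)
  rw [e, integral_add (integrable_of_bdd measurable_cl abs_cl_le) (i2.const_mul _),
    integral_const_mul, e1, e2]
  ring

lemma integral_ia : ∫ t, ia t ∂lam = 1 / 2 := by
  have h : ia = (Set.Iio (0 : ℝ)).indicator 1 := by
    funext t
    have : cl t < 0 ↔ t < 0 := by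
      unfold cl
      simp only [max_lt_iff, min_lt_iff]
      norm_num
    simp only [ia, this, Set.indicator, Set.mem_Iio, Pi.one_apply]
  rw [h, integral_indicator_one measurableSet_Iio, Measure.real, lam, Measure.smul_apply,
    Measure.restrict_apply measurableSet_Iio]
  have : Set.Iio (0 : ℝ) ∩ Set.Icc (-1) 1 = Set.Ico (-1) 0 := by
    ext t
    simp only [Set.mem_inter_iff, Set.mem_Iio, Set.mem_Icc, Set.mem_Ico]
    constructor
    · rintro ⟨h1, h2, -⟩; exact ⟨h2, h1⟩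
    · rintro ⟨h1, h2⟩; exact ⟨h2, h1, by linarith⟩
  rw [this]
  simp

lemma integral_Lam_eval (c : ℤ × V) {f : ℝ → ℝ} (hf : Measurable f) :
    ∫ ζ, f (ζ c) ∂Lam V = ∫ z, f z ∂lam := by
  have h := measurePreserving_eval_infinitePi (fun _ : ℤ × V => lam) c
  rw [← h.map_eq, integral_map h.measurable.aemeasurable hf.aestronglyMeasurable]
  rfl

lemma integral_Lam_pair {c c' : ℤ × V} (h : c ≠ c') {f g : ℝ → ℝ} (hf : Measurable f)
    (hg : Measurable g) :
    ∫ ζ, f (ζ c) * g (ζ c') ∂Lam V = (∫ z, f z ∂lam) * ∫ z, g z ∂lam := by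
  have h1 := Measure.infinitePi_map_eval_prod (P := fun _ : ℤ × V => lam) h
  have hm : Measurable fun z : ℝ × ℝ => f z.1 * g z.2 :=
    (hf.comp measurable_fst).mul (hg.comp measurable_snd)
  rw [← integral_prod_mul, ← h1, integral_map (by fun_prop) hm.aestronglyMeasurable]
  rfl

lemma integral_PP (ν : Measure (V → Bool)) [IsProbabilityMeasure ν] {F : Om V → ℝ}
    (hF : Measurable F) {C : ℝ} (hC : ∀ ω, |F ω| ≤ C) :
    ∫ ω, F ω ∂PP ν = ∫ σ, ∫ T, ∫ ζ, F (σ, ζ, T) ∂Lam V ∂Lam V ∂ν := by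
  unfold PP
  rw [integral_prod _ (integrable_of_bdd hF hC)]
  refine integral_congr_ae (ae_of_all _ fun σ => ?_)
  exact integral_prod_symm _
    (integrable_of_bdd (hF.comp measurable_prodMk_left) fun p => hC _)

lemma xi_mean (ν : Measure (V → Bool)) [IsProbabilityMeasure ν] (j : ℤ) (x : V)
    {φ : (V → Bool) → ℝ} (hφ : Measurable φ) {C : ℝ} (hC : ∀ σ, |φ σ| ≤ C) :
    ∫ ω, φ ω.1 * xi j x (obs ω) ∂PP ν = eta j / 6 * ∫ σ, φ σ * sp (σ x) ∂ν := by
  rw [integral_PP ν (F := fun ω => φ ω.1 * xi j x (obs ω)) ((hφ.comp measurable_fst).mul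
    ((measurable_xi j x).comp measurable_obs)) (C := C) (fun ω => by
      rw [abs_mul]
      exact (mul_le_of_le_one_right (abs_nonneg _) (abs_xi_le _ _ _)).trans (hC _)),
    ← integral_const_mul]
  refine integral_congr_ae (ae_of_all _ fun σ => ?_)
  simp only [xi_obs, integral_const_mul]
  have e : ∀ T : Cf V, ∫ ζ, kz j (σ x) (T (j, x)) (ζ (j, x)) ∂Lam V =
      ia (T (j, x)) * (eta j / 3 * sp (σ x)) := fun T => by
    rw [integral_Lam_eval (j, x) (measurable_kz j (σ x) (T (j, x))), integral_kz]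
  simp only [e, integral_mul_const]
  rw [integral_Lam_eval (j, x) measurable_ia, integral_ia]
  ring

lemma xi_corr (ν : Measure (V → Bool)) [IsProbabilityMeasure ν] {j j' : ℤ} {x x' : V}
    (h : (j, x) ≠ (j', x')) :
    ∫ ω, xi j x (obs ω) * xi j' x' (obs ω) ∂PP ν =
      eta j / 6 * (eta j' / 6) * ∫ σ, sp (σ x) * sp (σ x') ∂ν := by
  rw [integral_PP ν (F := fun ω => xi j x (obs ω) * xi j' x' (obs ω))
    (((measurable_xi j x).comp measurable_obs).mul
    ((measurable_xi j' x').comp measurable_obs)) (C := 1) (fun ω => by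
      rw [abs_mul]
      exact mul_le_one₀ (abs_xi_le _ _ _) (abs_nonneg _) (abs_xi_le _ _ _)),
    ← integral_const_mul]
  refine integral_congr_ae (ae_of_all _ fun σ => ?_)
  simp only [xi_obs]
  have e : ∀ T : Cf V, ∫ ζ, kz j (σ x) (T (j, x)) (ζ (j, x)) *
      kz j' (σ x') (T (j', x')) (ζ (j', x')) ∂Lam V =
      ia (T (j, x)) * ia (T (j', x')) *
        ((eta j / 3 * sp (σ x)) * (eta j' / 3 * sp (σ x'))) := fun T => by
    rw [integral_Lam_pair h (measurable_kz j (σ x) (T (j, x)))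
      (measurable_kz j' (σ x') (T (j', x'))), integral_kz, integral_kz]
    ring
  simp only [e, integral_mul_const]
  rw [integral_Lam_pair h measurable_ia measurable_ia, integral_ia]
  ring

lemma card_kids_cast (hT : Tr G d) {z x : V} (h : G.Adj z x) :
    ((kids G z x).card : ℝ) = (d : ℝ) - 1 := by
  rw [card_kids hT h, Nat.cast_sub (by have := hT.three; omega), Nat.cast_one]

lemma sum1_eq (hT : Tr G d) (θ : ℝ) {c w : V} (h : G.Adj c w) (n : ℕ) :
    ∑ x ∈ sb G c w n, θ ^ (2 * G.dist c x) =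
      ∑ k ∈ Finset.range (n + 1), (((d : ℝ) - 1) * θ ^ 2) ^ k := by
  induction n generalizing c w with
  | zero => simp [sb_zero h]
  | succ n ih =>
    rw [sum_sb_succ hT h, Finset.sum_range_succ']
    have e : ∀ c' ∈ kids G c w, ∑ x ∈ sb G c' c n, θ ^ (2 * G.dist c x) =
        θ ^ 2 * ∑ k ∈ Finset.range (n + 1), (((d : ℝ) - 1) * θ ^ 2) ^ k := by
      intro c' hc'
      have ha := (mem_kids.1 hc').1.symm
      rw [← ih ha, Finset.mul_sum]
      refine Finset.sum_congr rfl fun x hx => ?_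
      rw [dist_of_mem_sub hT ha ((mem_sb hT).1 hx).2]
      ring
    rw [Finset.sum_congr rfl e, Finset.sum_const, nsmul_eq_mul, card_kids_cast hT h]
    simp only [SimpleGraph.dist_self, pow_succ, ← Finset.sum_mul]
    ring

lemma sum1_le (hW : Wd G d θ ν) {c w : V} (h : G.Adj c w) (n : ℕ) :
    ∑ x ∈ sb G c w n, θ ^ (2 * G.dist c x) ≤ (n : ℝ) + 1 := by
  rw [sum1_eq hW.tr θ h]
  have h0 : 0 ≤ ((d : ℝ) - 1) * θ ^ 2 := mul_nonneg (by linarith [hW.tr.two_le]) (sq_nonneg _)
  simpa using Finset.sum_le_sum (s := Finset.range (n + 1)) fun k _ => pow_le_one₀ (n := k) h0 hW.θ1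

lemma sum2_le (hW : Wd G d θ ν) {c w : V} (h : G.Adj c w) (n : ℕ) :
    ∑ x ∈ sb G c w n, ∑ x' ∈ sb G c w n, θ ^ (G.dist c x + G.dist c x' + G.dist x x') ≤
      ((n : ℝ) + 1) ^ 3 := by
  have hT := hW.tr
  have h0 := hW.θ0
  have h1 := hW.θ1
  induction n generalizing c w with
  | zero => simp [sb_zero h]
  | succ n ih =>
    have hk := card_kids_cast hT h
    have hn : (0 : ℝ) ≤ n := Nat.cast_nonneg n
    have e1 : ∑ c' ∈ kids G c w, ∑ x ∈ sb G c' c n, θ ^ (2 * G.dist c x) ≤ (n : ℝ) + 1 := by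
      have e : ∀ c' ∈ kids G c w, ∑ x ∈ sb G c' c n, θ ^ (2 * G.dist c x) ≤
          θ ^ 2 * ((n : ℝ) + 1) := by
        intro c' hc'
        have ha := (mem_kids.1 hc').1.symm
        refine le_trans (le_of_eq ?_) (mul_le_mul_of_nonneg_left (sum1_le hW ha n) (sq_nonneg θ))
        rw [Finset.mul_sum]
        refine Finset.sum_congr rfl fun x hx => ?_
        rw [dist_of_mem_sub hT ha ((mem_sb hT).1 hx).2]
        ring
      refine (Finset.sum_le_sum e).trans ?_
      rw [Finset.sum_const, nsmul_eq_mul, hk, ← mul_assoc]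
      exact mul_le_of_le_one_left (by positivity) h1
    have e2 : ∀ c' ∈ kids G c w, ∀ c'' ∈ kids G c w,
        ∑ x ∈ sb G c' c n, ∑ x' ∈ sb G c'' c n, θ ^ (G.dist c x + G.dist c x' + G.dist x x') ≤
          (if c' = c'' then θ ^ 2 * ((n : ℝ) + 1) ^ 3 else 0) + θ ^ 4 * ((n : ℝ) + 1) ^ 2 := by
      intro c' hc' c'' hc''
      have ha := (mem_kids.1 hc').1.symm
      have hb := (mem_kids.1 hc'').1.symm
      split_ifs with he
      · subst he
        refine le_trans ?_ (le_add_of_nonneg_right (by positivity))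
        refine le_trans (le_of_eq ?_) (mul_le_mul_of_nonneg_left (ih ha) (sq_nonneg θ))
        simp only [Finset.mul_sum]
        refine Finset.sum_congr rfl fun x hx => Finset.sum_congr rfl fun x' hx' => ?_
        rw [dist_of_mem_sub hT ha ((mem_sb hT).1 hx).2, dist_of_mem_sub hT ha ((mem_sb hT).1 hx').2]
        ring
      · rw [zero_add]
        have b1 := sum1_le hW ha n
        have b2 := sum1_le hW hb n
        have b3 : (∑ x ∈ sb G c' c n, θ ^ (2 * G.dist c' x)) *
            ∑ x ∈ sb G c'' c n, θ ^ (2 * G.dist c'' x) ≤ ((n : ℝ) + 1) ^ 2 := by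
          rw [sq]
          exact mul_le_mul b1 b2 (Finset.sum_nonneg fun _ _ => by positivity) (by positivity)
        refine le_trans (le_of_eq ?_) (mul_le_mul_of_nonneg_left b3 (by positivity))
        rw [Finset.sum_mul_sum]
        simp only [Finset.mul_sum]
        refine Finset.sum_congr rfl fun x hx => Finset.sum_congr rfl fun x' hx' => ?_
        have m1 := ((mem_sb hT).1 hx).2
        have m2 := ((mem_sb hT).1 hx').2
        have m3 : x' ∈ sub G c c' := sub_subset hT ha.symm (mem_kids.2 ⟨hb.symm, Ne.symm he⟩) m2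
        rw [dist_cross hT ha m1 m3, dist_of_mem_sub hT ha m1, dist_of_mem_sub hT hb m2,
          SimpleGraph.dist_comm (u := x) (v := c')]
        ring
    have e3 : ∑ c' ∈ kids G c w, ∑ c'' ∈ kids G c w,
        ∑ x ∈ sb G c' c n, ∑ x' ∈ sb G c'' c n, θ ^ (G.dist c x + G.dist c x' + G.dist x x') ≤
          ((n : ℝ) + 1) ^ 3 + ((n : ℝ) + 1) ^ 2 := by
      refine (Finset.sum_le_sum fun c' hc' => Finset.sum_le_sum (e2 c' hc')).trans ?_
      have : ∀ c' ∈ kids G c w, ∑ c'' ∈ kids G c w,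
          ((if c' = c'' then θ ^ 2 * ((n : ℝ) + 1) ^ 3 else 0) + θ ^ 4 * ((n : ℝ) + 1) ^ 2) =
          θ ^ 2 * ((n : ℝ) + 1) ^ 3 + ((d : ℝ) - 1) * (θ ^ 4 * ((n : ℝ) + 1) ^ 2) := by
        intro c' hc'
        rw [Finset.sum_add_distrib, Finset.sum_ite_eq, if_pos hc', Finset.sum_const, nsmul_eq_mul,
          hk]
      rw [Finset.sum_congr rfl this, Finset.sum_const, nsmul_eq_mul, hk]
      have q0 : 0 ≤ ((d : ℝ) - 1) * θ ^ 2 := mul_nonneg (by linarith [hT.two_le]) (sq_nonneg _)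
      have q2 : (((d : ℝ) - 1) * θ ^ 2) ^ 2 ≤ 1 := pow_le_one₀ q0 h1
      calc _ = ((d : ℝ) - 1) * θ ^ 2 * ((n : ℝ) + 1) ^ 3 +
            (((d : ℝ) - 1) * θ ^ 2) ^ 2 * ((n : ℝ) + 1) ^ 2 := by ring
        _ ≤ 1 * ((n : ℝ) + 1) ^ 3 + 1 * ((n : ℝ) + 1) ^ 2 := by gcongr
        _ = _ := by ring
    rw [sum_sb_succ hT h]
    simp only [sum_sb_succ hT h n, Finset.sum_add_distrib]
    have e4 : ∑ c' ∈ kids G c w, ∑ x ∈ sb G c' c n, ∑ c'' ∈ kids G c w,
        ∑ x' ∈ sb G c'' c n, θ ^ (G.dist c x + G.dist c x' + G.dist x x') =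
        ∑ c' ∈ kids G c w, ∑ c'' ∈ kids G c w,
        ∑ x ∈ sb G c' c n, ∑ x' ∈ sb G c'' c n, θ ^ (G.dist c x + G.dist c x' + G.dist x x') :=
      Finset.sum_congr rfl fun c' _ => Finset.sum_comm
    have e5 : ∀ x, G.dist c x + G.dist c c + G.dist x c = 2 * G.dist c x := fun x => by
      rw [SimpleGraph.dist_self, SimpleGraph.dist_comm (u := x)]; ring
    have e6 : ∀ x, G.dist c c + G.dist c x + G.dist c x = 2 * G.dist c x := fun x => by
      rw [SimpleGraph.dist_self]; ring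
    simp only [e4, e5, e6]
    simp only [SimpleGraph.dist_self, mul_zero, pow_zero]
    push_cast
    nlinarith

lemma dep_cav (ν : Measure (V → Bool)) (θ : ℝ) (S : Set V) (s : V → ℝ) (c w : V) :
    Dep (bef (S ∩ sub G c w) s) fun o => θ * cav G ν c w (fS S s o) := by
  have := dep_fld (bef (S ∩ sub G c w) s) (fun y => θ * Mg G ν c y)
  simp only [cav, indicator_fS]
  exact this

lemma post_cav (hW : Wd G d θ ν) (S : Set V) {s : V → ℝ} {I : ℝ} (hs : ∀ v, s v ≤ I) {c w : V}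
    (h : G.Adj c w) {Φ : Ob V → ℝ} (hΦ : Measurable Φ) {C : ℝ} (hC : ∀ o, |Φ o| ≤ C)
    (hd : Dep (bef (S ∩ sub G c w) s) Φ) :
    ∫ ω, sp (ω.1 w) * Φ (obs ω) ∂PP ν =
      ∫ ω, θ * cav G ν c w (fS S s (obs ω)) * Φ (obs ω) ∂PP ν := by
  rw [post hW (rule_bef (S ∩ sub G c w) hs) w hΦ hC hd]
  refine integral_congr_ae ?_
  filter_upwards [ae_conv_fS hW S hs] with ω hω
  rw [← theta_cav hW hω h, indicator_fS]
  rfl

lemma abs_theta_cav_le (hW : Wd G d θ ν) (c w : V) (y : V → ℝ) : |θ * cav G ν c w y| ≤ 1 := by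
  have := hW.prob
  rw [abs_mul, abs_of_nonneg hW.θ0]
  exact mul_le_one₀ hW.le_one (abs_nonneg _) (abs_cav_le ν c w y)

lemma cav_mean (hW : Wd G d θ ν) (S : Set V) {s : V → ℝ} {I : ℝ} (hs : ∀ v, s v ≤ I) {c w : V}
    (h : G.Adj c w) :
    ∫ ω, θ * cav G ν c w (fS S s (obs ω)) * sp (ω.1 w) ∂PP ν =
      ∫ ω, (θ * cav G ν c w (fS S s (obs ω))) ^ 2 ∂PP ν := by
  have := hW.prob
  have := post_cav hW S hs h (Φ := fun o => θ * cav G ν c w (fS S s o))
    (((measurable_cav ν c w).comp (measurable_fS S hs)).const_mul θ) (C := 1)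
    (fun o => abs_theta_cav_le hW _ _ _) (dep_cav ν θ S s c w)
  simp only [mul_comm (sp _), ← sq] at this
  exact this

lemma quarter_le {n : ℕ} (hn : 2 ≤ n) : (1 / 4 : ℝ) ≤ (1 - 1 / n) ^ n := by
  obtain ⟨m, rfl⟩ : ∃ m, n = m + 1 := ⟨n - 1, by omega⟩
  have hm : (1 : ℝ) ≤ m := by exact_mod_cast (show 1 ≤ m by omega)
  have h1 : (1 + 1 / (m : ℝ)) ^ m ≤ Real.exp 1 := by
    calc (1 + 1 / (m : ℝ)) ^ m ≤ Real.exp (1 / m) ^ m :=
          pow_le_pow_left₀ (by positivity) (by linarith [Real.add_one_le_exp (1 / (m : ℝ))]) m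
      _ = Real.exp 1 := by rw [← Real.exp_nat_mul]; congr 1; field_simp
  have h2 : (1 - 1 / ((m + 1 : ℕ) : ℝ)) = (1 + 1 / (m : ℝ))⁻¹ := by push_cast; field_simp; ring
  rw [h2, inv_pow, one_div (4 : ℝ)]
  refine inv_anti₀ (by positivity) ?_
  rcases Nat.lt_or_ge m 3 with h3 | h3
  · have : m = 1 ∨ m = 2 := by
      have : 1 ≤ m := by omega
      omega
    rcases this with rfl | rfl <;> norm_num
  · have h4 : (3 : ℝ) ≤ m := by exact_mod_cast h3
    have h5 : 1 / (m : ℝ) ≤ 1 / 3 := one_div_le_one_div_of_le (by norm_num) h4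
    have h6 := Real.exp_one_lt_d9
    rw [pow_succ]
    calc (1 + 1 / (m : ℝ)) ^ m * (1 + 1 / m) ≤ Real.exp 1 * (1 + 1 / 3) := by gcongr
      _ ≤ 4 := by linarith

theorem cav_sq_ge (hW : Wd G d θ ν) {i : ℤ} (hN : NC d θ i) (S : Set V) {s : V → ℝ} {I : ℝ}
    (hs : ∀ v, s v ≤ I) {c w : V} (h : G.Adj c w)
    (hinfo : ∀ x ∈ sub G c w, G.dist c x < n0 i → x ∈ S ∧ (i : ℝ) ≤ s x) :
    eta i / (3000 * d) ≤ ∫ ω, (θ * cav G ν c w (fS S s (obs ω))) ^ 2 ∂PP ν := by
  have := hW.prob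
  have hT := hW.tr
  have h0 := hW.θ0
  obtain ⟨n, hn⟩ : ∃ n, n0 i = n + 1 := ⟨n0 i - 1, by have := eight_le_n0 i; omega⟩
  have hn8 : 8 ≤ n + 1 := hn ▸ eight_le_n0 i
  have hne : ((n : ℝ) + 1) * eta (i - 1) = 1 := by
    have := n0_mul_eta i
    rw [hn] at this
    exact_mod_cast this
  set e := eta (i - 1) with he
  have he0 : 0 < e := eta_pos _
  set N : ℝ := (n : ℝ) + 1 with hN'
  have hN0 : 0 < N := by positivity
  set X : Ob V → ℝ := fun o => ∑ x ∈ sb G c w n, θ ^ G.dist c x * xi (i - 1) x o with hX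
  have mX : Measurable X :=
    Finset.measurable_sum _ fun x _ => (measurable_xi (i - 1) x).const_mul _
  have bt : ∀ x o, |θ ^ G.dist c x * xi (i - 1) x o| ≤ 1 := fun x o => by
    rw [abs_mul, abs_of_nonneg (by positivity)]
    exact mul_le_one₀ (pow_le_one₀ h0 hW.le_one) (abs_nonneg _) (abs_xi_le _ _ _)
  have bX : ∀ o, |X o| ≤ (sb G c w n).card := fun o =>
    (Finset.abs_sum_le_sum_abs _ _).trans (by
      simpa using Finset.sum_le_sum (s := sb G c w n) fun x _ => bt x o)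
  have dX : Dep (bef (S ∩ sub G c w) s) X := by
    intro o o' h1 h2
    refine Finset.sum_congr rfl fun x hx => ?_
    obtain ⟨m1, m2⟩ := (mem_sb hT).1 hx
    obtain ⟨m3, m4⟩ := hinfo x m2 (by omega)
    unfold xi act
    rw [← h1]
    split_ifs with hact
    · rw [h2 (i - 1, x) ⟨⟨m3, m2⟩, lt_of_lt_of_le hact.2 (by push_cast; linarith)⟩]
    · simp
  have mt : ∀ x, Measurable fun ω : Om V => xi (i - 1) x (obs ω) := fun x =>
    (measurable_xi (i - 1) x).comp measurable_obs
  have e1 : ∫ ω, sp (ω.1 w) * X (obs ω) ∂PP ν =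
      e / 6 * θ * ∑ x ∈ sb G c w n, θ ^ (2 * G.dist c x) := by
    simp only [hX, Finset.mul_sum]
    rw [integral_finsetSum]
    · refine Finset.sum_congr rfl fun x hx => ?_
      have := xi_mean ν (i - 1) x (φ := fun σ => sp (σ w)) (by fun_prop) (C := 1)
        (fun σ => (abs_sp _).le)
      simp only [mul_left_comm (sp _), integral_const_mul]
      rw [this, corr hW, dist_of_mem_sub hT h ((mem_sb hT).1 hx).2]
      ring
    · intro x _
      exact integrable_of_bdd ((by fun_prop : Measurable fun ω : Om V => sp (ω.1 w)).mul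
        ((mt x).const_mul _)) (C := 1) fun ω => by rw [abs_mul, abs_sp, one_mul]; exact bt x _
  have e2 : N / 4 ≤ ∑ x ∈ sb G c w n, θ ^ (2 * G.dist c x) := by
    rw [sum1_eq hT θ h]
    have q1 : 1 - 1 / N ≤ ((d : ℝ) - 1) * θ ^ 2 := by
      have : e = 1 / N := by rw [eq_div_iff hN0.ne']; linarith
      rw [← this]; exact hN
    have q2 : (1 / 4 : ℝ) ≤ (1 - 1 / N) ^ (n + 1) := by
      have := quarter_le (n := n + 1) (by omega)
      push_cast at this
      exact this
    have q0 : 0 ≤ 1 - 1 / N := by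
      have : 1 / N ≤ 1 := by rw [div_le_one hN0]; linarith [Nat.cast_nonneg (α := ℝ) n]
      linarith
    have q3 : ∀ k ∈ Finset.range (n + 1), (1 / 4 : ℝ) ≤ (((d : ℝ) - 1) * θ ^ 2) ^ k := by
      intro k hk
      refine q2.trans ((pow_le_pow_left₀ q0 q1 _).trans ?_)
      exact pow_le_pow_of_le_one (q0.trans q1) hW.θ1 (Finset.mem_range.1 hk).le
    have := Finset.sum_le_sum q3
    simp only [Finset.sum_const, Finset.card_range, nsmul_eq_mul] at this
    push_cast at this
    linarith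
  have e3 : θ / 24 ≤ ∫ ω, θ * cav G ν c w (fS S s (obs ω)) * X (obs ω) ∂PP ν := by
    rw [← post_cav hW S hs h mX bX dX, e1]
    calc θ / 24 = e / 6 * θ * (N / 4) := by
          have : e * N = 1 := by linarith
          calc θ / 24 = θ / 24 * (e * N) := by rw [this, mul_one]
            _ = _ := by ring
      _ ≤ _ := by gcongr
  have ii : ∀ x x', Integrable (fun ω : Om V => θ ^ G.dist c x * xi (i - 1) x (obs ω) *
      (θ ^ G.dist c x' * xi (i - 1) x' (obs ω))) (PP ν) := fun x x' =>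
    integrable_of_bdd (((mt x).const_mul _).mul ((mt x').const_mul _)) (C := 1) fun ω => by
      rw [abs_mul]; exact mul_le_one₀ (bt _ _) (abs_nonneg _) (bt _ _)
  have e4 : ∫ ω, X (obs ω) ^ 2 ∂PP ν ≤ 2 * N := by
    simp only [hX, sq, Finset.sum_mul_sum]
    rw [integral_finsetSum _ fun x _ => integrable_finsetSum _ fun x' _ => ii x x']
    have b : ∀ x ∈ sb G c w n, ∫ ω, ∑ x' ∈ sb G c w n, θ ^ G.dist c x * xi (i - 1) x (obs ω) *
        (θ ^ G.dist c x' * xi (i - 1) x' (obs ω)) ∂PP ν ≤ θ ^ (2 * G.dist c x) +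
          (e / 6) ^ 2 * ∑ x' ∈ sb G c w n, θ ^ (G.dist c x + G.dist c x' + G.dist x x') := by
      intro x hx
      rw [integral_finsetSum _ fun x' _ => ii x x', Finset.mul_sum]
      have b1 : ∀ x' ∈ sb G c w n, ∫ ω, θ ^ G.dist c x * xi (i - 1) x (obs ω) *
          (θ ^ G.dist c x' * xi (i - 1) x' (obs ω)) ∂PP ν ≤
          (if x = x' then θ ^ (2 * G.dist c x) else 0) +
            (e / 6) ^ 2 * θ ^ (G.dist c x + G.dist c x' + G.dist x x') := by
        intro x' _
        split_ifs with hxx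
        · subst hxx
          refine le_trans ?_ (le_add_of_nonneg_right (by positivity))
          have : ∫ ω, θ ^ G.dist c x * xi (i - 1) x (obs ω) *
              (θ ^ G.dist c x * xi (i - 1) x (obs ω)) ∂PP ν ≤
              ∫ _ω, θ ^ (2 * G.dist c x) ∂PP ν := by
            refine integral_mono (ii x x) (integrable_const _) fun ω => ?_
            have h3 := (sq_le_one_iff_abs_le_one _).2 (abs_xi_le (i - 1) x (obs ω))
            calc _ = θ ^ (2 * G.dist c x) * xi (i - 1) x (obs ω) ^ 2 := by ring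
              _ ≤ _ := mul_le_of_le_one_right (by positivity) h3
          simpa using this
        · have := xi_corr ν (j := i - 1) (j' := i - 1) (x := x) (x' := x')
            (fun h' => hxx (Prod.ext_iff.1 h').2)
          have e5 : ∀ ω : Om V, θ ^ G.dist c x * xi (i - 1) x (obs ω) *
              (θ ^ G.dist c x' * xi (i - 1) x' (obs ω)) = θ ^ G.dist c x * θ ^ G.dist c x' *
                (xi (i - 1) x (obs ω) * xi (i - 1) x' (obs ω)) := fun ω => by ring
          simp only [e5, integral_const_mul]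
          rw [this, corr hW]
          exact le_of_eq (by ring)
      refine (Finset.sum_le_sum b1).trans (le_of_eq ?_)
      rw [Finset.sum_add_distrib, Finset.sum_ite_eq, if_pos hx]
    refine (Finset.sum_le_sum b).trans ?_
    rw [Finset.sum_add_distrib, ← Finset.mul_sum]
    have s1 := sum1_le hW h n
    have s2 := sum2_le hW h n
    have s3 : (e / 6) ^ 2 * N ^ 3 ≤ N := by
      have : e * N = 1 := by linarith
      calc (e / 6) ^ 2 * N ^ 3 = (e * N) ^ 2 * N / 36 := by ring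
        _ = N / 36 := by rw [this]; ring
        _ ≤ N := by linarith
    calc _ ≤ N + (e / 6) ^ 2 * N ^ 3 := by gcongr
      _ ≤ 2 * N := by linarith
  set a : Om V → ℝ := fun ω => θ * cav G ν c w (fS S s (obs ω)) with ha
  have ma : Measurable a :=
    ((measurable_cav ν c w).comp ((measurable_fS S hs).comp measurable_obs)).const_mul θ
  have ba : ∀ ω, |a ω| ≤ 1 := fun ω => abs_theta_cav_le hW _ _ _
  have mX' : Measurable fun ω : Om V => X (obs ω) := mX.comp measurable_obs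
  have i1 : Integrable (fun ω => a ω ^ 2) (PP ν) :=
    integrable_of_bdd (ma.pow_const 2) (C := 1) fun ω => by
      rw [abs_pow]; exact pow_le_one₀ (abs_nonneg _) (ba ω)
  have i2 : Integrable (fun ω => a ω * X (obs ω)) (PP ν) :=
    integrable_of_bdd (ma.mul mX') (C := (sb G c w n).card) fun ω => by
      rw [abs_mul]; exact (mul_le_of_le_one_left (abs_nonneg _) (ba ω)).trans (bX _)
  have i3 : Integrable (fun ω => X (obs ω) ^ 2) (PP ν) :=
    integrable_of_bdd (mX'.pow_const 2) (C := ((sb G c w n).card : ℝ) ^ 2) fun ω => by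
      rw [abs_pow]; exact pow_le_pow_left₀ (abs_nonneg _) (bX _) 2
  set μ : ℝ := θ / 24 * e / 2 with hμ
  have hμ0 : 0 ≤ μ := by positivity
  have e5 : ∫ ω, 2 * μ * (a ω * X (obs ω)) ∂PP ν ≤
      ∫ ω, (a ω ^ 2 + μ ^ 2 * X (obs ω) ^ 2) ∂PP ν :=
    integral_mono (i2.const_mul _) (i1.add (i3.const_mul _)) fun ω => by
      simp only
      nlinarith [sq_nonneg (a ω - μ * X (obs ω))]
  rw [integral_const_mul, integral_add i1 (i3.const_mul _), integral_const_mul] at e5
  have e6 : 2 * μ * (θ / 24) ≤ 2 * μ * ∫ ω, a ω * X (obs ω) ∂PP ν := by gcongr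
  have e7 : μ ^ 2 * ∫ ω, X (obs ω) ^ 2 ∂PP ν ≤ μ ^ 2 * (2 * N) := by gcongr
  have e8 : θ ^ 2 * e / 1152 ≤ ∫ ω, a ω ^ 2 ∂PP ν := by
    have h1 : e * N = 1 := by linarith
    have h2 : μ ^ 2 * (2 * N) = θ ^ 2 * e / 1152 := by
      calc μ ^ 2 * (2 * N) = θ ^ 2 * e / 1152 * (e * N) := by rw [hμ]; ring
        _ = _ := by rw [h1, mul_one]
    have h3 : 2 * μ * (θ / 24) = 2 * (θ ^ 2 * e / 1152) := by rw [hμ]; ring
    linarith
  refine le_trans ?_ e8
  have h7 := hN.seven
  have h8 := eta_le_two_mul_pred i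
  have h9 := hT.two_le
  have h10 := eta_pos i
  rw [div_le_div_iff₀ (by linarith) (by norm_num)]
  have h11 : 7 / 8 ≤ θ ^ 2 * d := by nlinarith [sq_nonneg θ]
  nlinarith

end

end Crest.Agent.R160
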