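import Crest.Agent.R160.Basic

/-!
Row 160, ChanA: the one-dimensional channel.  `Ff a` restricted to [-1,1] is an increasing
bijection of [-1,1] with derivative `1 + a y`, and `Qf a` is its inverse
(`y = Qf a u` is the root of `(a/2) y² + y - (a/2 + cl u) = 0` in [-1,1]).
For `integral_Ff` use `integral_image_eq_integral_abs_deriv_smul` as in
Crest/Agent/R168/Channel.lean (`integral_dens_Fm`).
-/

set_option autoImplicit false

open MeasureTheory Filter Topology
open scoped Classical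

namespace Crest.Agent.R160

noncomputable section

universe u


@[fun_prop] lemma measurable_Qf : Measurable fun p : ℝ × ℝ => Qf p.1 p.2 := by
  unfold Qf; fun_prop

@[fun_prop] lemma measurable_Ff : Measurable fun p : ℝ × ℝ => Ff p.1 p.2 := by
  unfold Ff; fun_prop

@[fun_prop] lemma measurable_dl : Measurable fun p : ℝ × ℝ => dl p.1 p.2 := by
  unfold dl; fun_prop

@[fun_prop] lemma measurable_psi : Measurable fun p : ℝ × ℝ × ℝ => psi p.1 p.2.1 p.2.2 := by
  unfold psi Qf; fun_prop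

lemma Qf_disc {a : ℝ} (ha : |a| ≤ 1 / 8) (u : ℝ) : 0 ≤ 1 + a ^ 2 + 2 * a * cl u := by
  have h1 : |a * cl u| ≤ 1 / 8 := by
    rw [abs_mul]; exact (mul_le_of_le_one_right (abs_nonneg _) (abs_cl_le u)).trans ha
  nlinarith [(abs_le.1 h1).1, sq_nonneg a]

lemma Qf_quad {a : ℝ} (ha : |a| ≤ 1 / 8) (u : ℝ) :
    a / 2 * Qf a u ^ 2 + Qf a u - a / 2 = cl u := by
  have h1 := Real.mul_self_sqrt (Qf_disc ha u)
  have h2 := Real.sqrt_nonneg (1 + a ^ 2 + 2 * a * cl u)
  unfold Qf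
  set S := √(1 + a ^ 2 + 2 * a * cl u)
  have h3 : 1 + S ≠ 0 := by positivity
  have h4 : a * ((a + 2 * cl u) / (1 + S)) = S - 1 := by
    field_simp; linarith
  have h5 : (a + 2 * cl u) / (1 + S) * (1 + S) = a + 2 * cl u := div_mul_cancel₀ _ h3
  set y := (a + 2 * cl u) / (1 + S)
  have : a / 2 * y ^ 2 = y * (a * y) / 2 := by ring
  rw [this, h4]; linarith

lemma Qf_le_one {a : ℝ} (u : ℝ) : Qf a u ≤ 1 := by
  have h2 := Real.sqrt_nonneg (1 + a ^ 2 + 2 * a * cl u)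
  unfold Qf
  rw [div_le_one (by positivity)]
  rcases le_total (a + 2 * cl u) 0 with h | h
  · linarith
  · have h3 : (a + 2 * cl u - 1) ^ 2 ≤ 1 + a ^ 2 + 2 * a * cl u := by
      nlinarith [mul_nonneg h (sub_nonneg.2 (cl_le_one u))]
    have := Real.le_sqrt_of_sq_le h3
    linarith

lemma Qf_neg' (a u : ℝ) : Qf (-a) (-u) = -Qf a u := by
  unfold Qf
  rw [cl_neg, ← neg_div]
  congr 1
  · ring
  · congr 2; ring

lemma abs_Qf_le {a : ℝ} (ha : |a| ≤ 1 / 8) (u : ℝ) : |Qf a u| ≤ 1 := by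
  refine abs_le.2 ⟨?_, Qf_le_one u⟩
  have := Qf_le_one (a := -a) (-u)
  rw [Qf_neg'] at this
  linarith

lemma abs_Ff_le {a : ℝ} (ha : |a| ≤ 1 / 8) (y : ℝ) : |Ff a y| ≤ 1 := by
  have h1 := neg_one_le_cl y
  have h2 := cl_le_one y
  have h3 := abs_le.1 ha
  unfold Ff
  refine abs_le.2 ⟨?_, ?_⟩
  · have : 0 ≤ (1 + cl y) * (1 - a / 2 * (1 - cl y)) :=
      mul_nonneg (by linarith) (by nlinarith)
    nlinarith
  · have : 0 ≤ (1 - cl y) * (1 + a / 2 * (1 + cl y)) :=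
      mul_nonneg (by linarith) (by nlinarith)
    nlinarith

lemma Ff_Qf {a : ℝ} (ha : |a| ≤ 1 / 8) (u : ℝ) : Ff a (Qf a u) = cl u := by
  have := Qf_quad ha u
  unfold Ff
  rw [cl_of_abs_le (abs_Qf_le ha u)]
  linarith

lemma Qf_Ff {a : ℝ} (ha : |a| ≤ 1 / 8) (y : ℝ) : Qf a (Ff a y) = cl y := by
  have h1 : |a * cl y| ≤ 1 / 8 := by
    rw [abs_mul]; exact (mul_le_of_le_one_right (abs_nonneg _) (abs_cl_le y)).trans ha
  have h2 := abs_le.1 h1
  unfold Qf
  rw [cl_of_abs_le (abs_Ff_le ha y)]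
  have e : 1 + a ^ 2 + 2 * a * Ff a y = (1 + a * cl y) ^ 2 := by unfold Ff; ring
  rw [e, Real.sqrt_sq (by linarith), div_eq_iff (by linarith)]
  unfold Ff; ring

lemma Qf_neg (a u : ℝ) : Qf (-a) (-u) = -Qf a u := by
  exact Qf_neg' a u

lemma Ff_neg (a y : ℝ) : Ff (-a) (-y) = -Ff a y := by
  unfold Ff; rw [cl_neg]; ring

lemma integral_Ff {a : ℝ} (ha : |a| ≤ 1 / 8) (g : ℝ → ℝ) :
    ∫ y, g (Ff a y) * (1 + a * y) ∂lam = ∫ u, g u ∂lam := by
  have h3 := abs_le.1 ha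
  set f : ℝ → ℝ := fun x => x - a / 2 * (1 - x ^ 2) with hf
  have hder : ∀ x, HasDerivAt f (1 + a * x) x := by
    intro x
    have := (hasDerivAt_id x).sub
      (((hasDerivAt_const x (1 : ℝ)).sub (hasDerivAt_pow 2 x)).const_mul (a / 2))
    refine HasDerivAt.congr_deriv this ?_
    norm_num
    ring
  have hmono : StrictMonoOn f (Set.Icc (-1) 1) := by
    intro x hx y hy hxy
    simp only [hf]
    have h2 : 0 < 1 + a / 2 * (x + y) := by nlinarith [hx.1, hx.2, hy.1, hy.2]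
    nlinarith [mul_pos (sub_pos.2 hxy) h2]
  have hcont : Continuous f := by rw [hf]; fun_prop
  have himg : f '' Set.Icc (-1) 1 = Set.Icc (-1) 1 := by
    have := hcont.continuousOn.image_Icc_of_monotoneOn (by norm_num) hmono.monotoneOn
    rw [this]
    simp [hf]
  have := integral_image_eq_integral_abs_deriv_smul (s := Set.Icc (-1 : ℝ) 1) (f := f)
    (f' := fun x => 1 + a * x) measurableSet_Icc
    (fun x _ => (hder x).hasDerivWithinAt) hmono.injOn g
  rw [himg] at this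
  unfold lam
  rw [integral_smul_measure, integral_smul_measure, this]
  congr 1
  refine setIntegral_congr_fun measurableSet_Icc fun x hx => ?_
  simp only [Ff, cl_of_abs_le (abs_le.2 hx), smul_eq_mul, hf]
  rw [abs_of_nonneg (by nlinarith [hx.1, hx.2]), mul_comm]

lemma integral_Qf {a : ℝ} (ha : |a| ≤ 1 / 8) (g : ℝ → ℝ) :
    ∫ u, g (Qf a u) ∂lam = ∫ y, g y * (1 + a * y) ∂lam := by
  rw [← integral_Ff ha fun u => g (Qf a u)]
  refine integral_congr_ae ?_
  filter_upwards [ae_lam] with y hy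
  rw [Qf_Ff ha, cl_of_abs_le hy]

lemma integral_sp_Qf {a : ℝ} (ha : |a| ≤ 1 / 8) (b : Bool) (g : ℝ → ℝ) :
    ∫ u, g (sp b * Qf a u) ∂lam = ∫ y, g y * (1 + a * sp b * y) ∂lam := by
  cases b
  · have h1 := integral_Qf ha fun y => g (-y)
    have h2 := integral_lam_neg fun y => g y * (1 + a * -1 * y)
    simp only [sp_false, neg_mul, one_mul, mul_neg, mul_one, neg_neg] at h1 h2 ⊢
    rw [h1, h2]
  · simpa using integral_Qf ha g

lemma integral_lam_id : ∫ y, y ∂lam = 0 := by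
  rw [integral_lam]; simp

lemma integral_lam_sq : ∫ y, y ^ 2 ∂lam = 1 / 3 := by
  rw [integral_lam, integral_pow]; norm_num

lemma abs_mul_le_eighth {e m : ℝ} (he0 : 0 ≤ e) (he : e ≤ 1 / 8) (hm : |m| ≤ 1) :
    |e * m| ≤ 1 / 8 := by
  rw [abs_mul, abs_of_nonneg he0]; exact (mul_le_of_le_one_right he0 hm).trans he

lemma den_ge {a y : ℝ} (ha : |a| ≤ 1 / 8) (hy : |y| ≤ 1) : 7 / 8 ≤ 1 + a * y := by
  have h1 : |a * y| ≤ 1 / 8 := by
    rw [abs_mul]; exact (mul_le_of_le_one_right (abs_nonneg _) hy).trans ha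
  linarith [(abs_le.1 h1).1]

lemma abs_psi_le {e m : ℝ} (he0 : 0 ≤ e) (he : e ≤ 1 / 8) (hm : |m| ≤ 1) (u : ℝ) :
    |psi e m u| ≤ 2 * e := by
  have ha := abs_mul_le_eighth he0 he hm
  have hy := abs_Qf_le ha u
  have hd := den_ge ha hy
  unfold psi
  rw [abs_div, abs_mul, abs_of_nonneg he0, abs_of_pos (by linarith : 0 < 1 + e * m * Qf (e * m) u),
    div_le_iff₀ (by linarith)]
  nlinarith [mul_le_mul_of_nonneg_left hy he0]

lemma Qf_lip {a a' : ℝ} (ha : |a| ≤ 1 / 8) (ha' : |a'| ≤ 1 / 8) (u : ℝ) :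
    |Qf a u - Qf a' u| ≤ 4 / 7 * |a - a'| := by
  have h1 := Qf_quad ha u
  have h2 := Qf_quad ha' u
  have hy := abs_Qf_le ha u
  have hy' := abs_Qf_le ha' u
  set y := Qf a u
  set y' := Qf a' u
  have h3 : (y - y') * (1 + a * ((y + y') / 2)) = (a - a') * ((1 - y' ^ 2) / 2) := by
    linear_combination h1 - h2
  have h4 : |(y + y') / 2| ≤ 1 := by
    rw [abs_le] at hy hy' ⊢; constructor <;> linarith [hy.1, hy.2, hy'.1, hy'.2]
  have h5 := den_ge ha h4
  have h6 : y' ^ 2 ≤ 1 := by rw [← sq_abs]; exact pow_le_one₀ (abs_nonneg _) hy'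
  have h7 := congrArg abs h3
  rw [abs_mul, abs_mul, abs_of_pos (by linarith : 0 < 1 + a * ((y + y') / 2)),
    abs_of_nonneg (by linarith : 0 ≤ (1 - y' ^ 2) / 2)] at h7
  have h8 := mul_le_mul_of_nonneg_left h5 (abs_nonneg (y - y'))
  have h9 := mul_nonneg (abs_nonneg (a - a')) (sq_nonneg y')
  linarith

/-- with `a = e m`, `y = Qf a u`: `|y - y'| ≤ (4/7) |a - a'|` from the quadratic equation, and
`y/(1+ay) - y'/(1+a'y') = ((y - y') - (a - a') y y') / ((1+ay)(1+a'y'))`. -/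
lemma psi_lip {e m m' : ℝ} (he0 : 0 ≤ e) (he : e ≤ 1 / 8) (hm : |m| ≤ 1) (hm' : |m'| ≤ 1)
    (u : ℝ) : |psi e m u - psi e m' u| ≤ 3 * e ^ 2 * |m - m'| := by
  have ha := abs_mul_le_eighth he0 he hm
  have ha' := abs_mul_le_eighth he0 he hm'
  have hy := abs_Qf_le ha u
  have hy' := abs_Qf_le ha' u
  have hd := den_ge ha hy
  have hd' := den_ge ha' hy'
  have hl := Qf_lip ha ha' u
  unfold psi
  set y := Qf (e * m) u
  set y' := Qf (e * m') u
  have e1 : |e * m - e * m'| = e * |m - m'| := by rw [← mul_sub, abs_mul, abs_of_nonneg he0]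
  have e2 : e * y / (1 + e * m * y) - e * y' / (1 + e * m' * y') =
      e * ((y - y') - (e * m - e * m') * (y * y')) / ((1 + e * m * y) * (1 + e * m' * y')) := by
    rw [div_sub_div _ _ (by linarith) (by linarith)]
    congr 1; ring
  have h1 : |y * y'| ≤ 1 := by rw [abs_mul]; exact mul_le_one₀ hy (abs_nonneg _) hy'
  have h2 : |(y - y') - (e * m - e * m') * (y * y')| ≤ 11 / 7 * (e * |m - m'|) := by
    refine (abs_sub _ _).trans ?_
    rw [abs_mul, e1]
    rw [e1] at hl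
    have := mul_le_mul_of_nonneg_left h1 (mul_nonneg he0 (abs_nonneg (m - m')))
    linarith
  have h3 : 7 / 8 * (7 / 8) ≤ (1 + e * m * y) * (1 + e * m' * y') :=
    mul_le_mul hd hd' (by norm_num) (by linarith)
  rw [e2, abs_div, abs_mul, abs_of_nonneg he0,
    abs_of_pos (by linarith : 0 < (1 + e * m * y) * (1 + e * m' * y')), div_le_iff₀ (by linarith)]
  have h4 := mul_le_mul_of_nonneg_left h2 he0
  have h5 : 0 ≤ e ^ 2 * |m - m'| := by positivity
  have h6 := mul_le_mul_of_nonneg_left h3 h5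
  linarith

lemma integral_psi {e m : ℝ} (he0 : 0 ≤ e) (he : e ≤ 1 / 8) (hm : |m| ≤ 1) :
    ∫ u, psi e m u ∂lam = 0 := by
  have ha := abs_mul_le_eighth he0 he hm
  have h1 := integral_Qf ha fun y => e * y / (1 + e * m * y)
  unfold psi
  rw [h1]
  have h2 : ∫ y, e * y / (1 + e * m * y) * (1 + e * m * y) ∂lam = ∫ y, e * y ∂lam := by
    refine integral_congr_ae ?_
    filter_upwards [ae_lam] with y hy
    exact div_mul_cancel₀ _ (by linarith [den_ge ha hy])
  rw [h2, integral_const_mul, integral_lam_id, mul_zero]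

lemma psi_neg (e m u : ℝ) : psi e (-m) (-u) = -psi e m u := by
  unfold psi
  rw [mul_neg, Qf_neg, ← neg_div]
  congr 1 <;> ring

lemma psi_Ff {e m : ℝ} (he0 : 0 ≤ e) (he : e ≤ 1 / 8) (hm : |m| ≤ 1) (y : ℝ) :
    psi e m (Ff (e * m) y) = e * cl y / (1 + e * m * cl y) := by
  unfold psi
  rw [Qf_Ff (abs_mul_le_eighth he0 he hm)]

lemma dl_zero (y : ℝ) : dl 0 y = 0 := by
  simp [dl]

lemma dl_neg (e y : ℝ) : dl e (-y) = -dl e y := by
  unfold dl
  rw [cl_neg, mul_neg, ← sub_eq_add_neg, sub_neg_eq_add]; ring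

lemma abs_log_one_add_le {t : ℝ} (ht : |t| ≤ 1 / 8) : |Real.log (1 + t)| ≤ 2 * |t| := by
  have h1 := abs_le.1 ht
  have h2 : 0 < 1 + t := by linarith
  have h3 := Real.log_le_sub_one_of_pos h2
  have h4 := Real.one_sub_inv_le_log_of_pos h2
  have h5 := le_abs_self t
  have h6 := neg_abs_le t
  have h7 : (1 + t)⁻¹ ≤ 1 + 2 * |t| := by
    rw [inv_eq_one_div, div_le_iff₀ h2]
    nlinarith [mul_le_mul_of_nonneg_left h1.1 (abs_nonneg t), abs_nonneg t]
  exact abs_le.2 ⟨by linarith, by linarith [abs_nonneg t]⟩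

lemma abs_dl_le {e : ℝ} (he0 : 0 ≤ e) (he : e ≤ 1 / 8) (y : ℝ) : |dl e y| ≤ 2 * e := by
  have h1 := abs_mul_le_eighth he0 he (abs_cl_le y)
  have h2 : |e * cl y| ≤ e := by
    rw [abs_mul, abs_of_nonneg he0]; exact mul_le_of_le_one_right he0 (abs_cl_le y)
  have h3 := abs_le.1 (abs_log_one_add_le h1)
  have h4 := abs_le.1 (abs_log_one_add_le (t := -(e * cl y)) (by rwa [abs_neg]))
  rw [abs_neg, ← sub_eq_add_neg] at h4
  unfold dl
  exact abs_le.2 ⟨by linarith, by linarith⟩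

lemma tanh_dl {e : ℝ} (he0 : 0 ≤ e) (he : e ≤ 1 / 8) (y : ℝ) :
    Real.tanh (dl e y) = e * cl y := by
  have h1 := abs_le.1 (abs_mul_le_eighth he0 he (abs_cl_le y))
  have h2 : dl e y = Real.artanh (e * cl y) := by
    rw [Real.artanh_eq_half_log ⟨by linarith, by linarith⟩,
      Real.log_div (by linarith) (by linarith), dl]
    ring
  rw [h2, Real.tanh_artanh ⟨by linarith, by linarith⟩]

lemma exp_dl {e : ℝ} (he0 : 0 ≤ e) (he : e ≤ 1 / 8) (y : ℝ) (b : Bool) :
    1 + e * sp b * cl y = √(1 - e ^ 2 * cl y ^ 2) * Real.exp (dl e y * sp b) := by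
  have h1 := abs_le.1 (abs_mul_le_eighth he0 he (abs_cl_le y))
  have p1 : 0 < 1 + e * cl y := by linarith
  have p2 : 0 < 1 - e * cl y := by linarith
  have h2 : √(1 - e ^ 2 * cl y ^ 2) =
      Real.exp ((Real.log (1 + e * cl y) + Real.log (1 - e * cl y)) / 2) := by
    rw [Real.exp_half, Real.exp_add, Real.exp_log p1, Real.exp_log p2]
    congr 1; ring
  rw [h2, ← Real.exp_add]
  unfold dl
  cases b
  · rw [sp_false, show (Real.log (1 + e * cl y) + Real.log (1 - e * cl y)) / 2 +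
      (Real.log (1 + e * cl y) - Real.log (1 - e * cl y)) / 2 * -1 = Real.log (1 - e * cl y) by
        ring, Real.exp_log p2]
    ring
  · rw [sp_true, show (Real.log (1 + e * cl y) + Real.log (1 - e * cl y)) / 2 +
      (Real.log (1 + e * cl y) - Real.log (1 - e * cl y)) / 2 * 1 = Real.log (1 + e * cl y) by
        ring, Real.exp_log p1]
    ring

lemma tanh_le_aux {x : ℝ} (hx : 0 ≤ x) :
    0 ≤ Real.tanh x ∧ Real.tanh x ≤ (1 - Real.tanh x) * (x * Real.exp (2 * x)) := by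
  have h1 := Real.exp_pos x
  have h2 : 1 ≤ Real.exp x := Real.one_le_exp hx
  have h3 := Real.add_one_le_exp (-(2 * x))
  have e1 : Real.exp (2 * x) = Real.exp x * Real.exp x := by rw [two_mul, Real.exp_add]
  have e2 : Real.tanh x = (Real.exp (2 * x) - 1) / (Real.exp (2 * x) + 1) := by
    rw [Real.tanh_eq, Real.exp_neg, e1]; field_simp
  have h4 : 1 ≤ Real.exp (2 * x) := Real.one_le_exp (by linarith)
  rw [Real.exp_neg] at h3
  set F := Real.exp (2 * x)
  have h5 : F * F⁻¹ = 1 := mul_inv_cancel₀ (by linarith)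
  have h6 := mul_le_mul_of_nonneg_left h3 (by linarith : 0 ≤ F)
  rw [e2]
  refine ⟨div_nonneg (by linarith) (by linarith), ?_⟩
  have e3 : (1 - (F - 1) / (F + 1)) * (x * F) = 2 * x * F / (F + 1) := by field_simp; ring
  rw [e3]
  exact div_le_div_of_nonneg_right (by linarith) (by linarith)

/-- size of a jump factor: `|tanh δ| ≤ |δ|` and `1 - |tanh δ| ≥ exp (-2|δ|)` -/
lemma abs_jump_le {δ m Y : ℝ} (hδ : |δ| ≤ Y) (hm : |m| ≤ 1) :
    |Real.tanh δ / (1 + m * Real.tanh δ)| ≤ Y * Real.exp (2 * Y) := by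
  obtain ⟨h1, h2⟩ := tanh_le_aux (abs_nonneg δ)
  have h3 : |Real.tanh δ| = Real.tanh |δ| := by
    rcases le_total 0 δ with h | h
    · rw [abs_of_nonneg h] at h1 ⊢; exact abs_of_nonneg h1
    · rw [abs_of_nonpos h, Real.tanh_neg] at h1 ⊢; exact abs_of_nonpos (by linarith)
  have h4 := Real.tanh_lt_one |δ|
  have h5 : |m * Real.tanh δ| ≤ Real.tanh |δ| := by
    rw [abs_mul, h3]; exact mul_le_of_le_one_left h1 hm
  have h6 := (abs_le.1 h5).1
  have h7 : |δ| * Real.exp (2 * |δ|) ≤ Y * Real.exp (2 * Y) :=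
    mul_le_mul hδ (Real.exp_le_exp.2 (by linarith)) (Real.exp_pos _).le ((abs_nonneg _).trans hδ)
  rw [abs_div, h3, abs_of_pos (by linarith : 0 < 1 + m * Real.tanh δ), div_le_iff₀ (by linarith),
    mul_comm]
  exact h2.trans (mul_le_mul (by linarith) h7 (by positivity) (by linarith))

end

end Crest.Agent.R160
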