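import Crest.Agent.R160.IsingB
import Crest.Agent.R160.ChanA

/-!
Row 160, Markov: the Markov property across an edge.

`mk_nu`, `mk_theta`: write `ν = rep G θ x` (`Wd.eq_rep`).  For `v ∈ sub x z` the path `pth x v` lies
in `sub x z` (`pth_subset_sub`), for `v ∈ sub z x` it lies in `sub z x` (`pth_eq_insert_first`,
`pth_subset_sub`).  So for fixed root spin `s`, `τ ↦ φ1 (cfg x s τ)` depends on `sub z x` and
`τ ↦ φ2 (cfg x s τ)` depends on `sub x z = (sub z x)ᶜ`: they are independent under the product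
measure (`indep_blocks`).  With `a_i s = ∫ φi (cfg x s τ)`:
`∫ φ1 φ2 = (a1 t * a2 t + a1 f * a2 f)/2`, `∫ φi = (ai t + ai f)/2`, `∫ φi σx = (ai t - ai f)/2`.
`mk_theta`: write `ν = rep G θ z`; `σ x = xor s (τ x)` (`cfg_step`), `φ1 (cfg z s τ)` depends on
`sub z x ∌ x`, `sp (xor s t) = sp s * (-sp t)` and `∫ -sp t ∂coin θ = θ`.
`corr`: induction on `dist u v` with `mk_theta` (edge `tw u v ∼ v`, `u ∈ sub (tw u v) v`).
`mk_PP`: Fubini (`integral_prod_symm`); for fixed `(ζ,T)` use `mk_nu`; then the four functions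
`(ζ,T) ↦ ∫ Φi`, `∫ Φi σx` depend on the coordinates over `sub z x` resp. `sub x z`, so they are
independent under `Lam ⊗ Lam` (`indep_blocks` twice, or after identifying `Lam ⊗ Lam` with a product
measure).
-/

set_option autoImplicit false

open MeasureTheory Filter Topology
open scoped Classical

namespace Crest.Agent.R160

noncomputable section

universe u

variable {V : Type u} {G : SimpleGraph V} [G.LocallyFinite] {d : ℕ} {θ : ℝ}
  {ν : Measure (V → Bool)}

namespace Markov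

lemma measurable_merge {K X : Type*} [MeasurableSpace X] (S : Set K) :
    Measurable fun p : (K → X) × (K → X) => S.piecewise p.1 p.2 := by
  refine measurable_pi_lambda _ fun i => ?_
  by_cases hi : i ∈ S
  · simp only [Set.piecewise_eq_of_mem _ _ _ hi]; fun_prop
  · simp only [Set.piecewise_eq_of_notMem _ _ _ hi]; fun_prop

lemma map_merge {K X : Type*} [MeasurableSpace X] (μ : K → Measure X)
    [∀ i, IsProbabilityMeasure (μ i)] (S : Set K) :
    ((Measure.infinitePi μ).prod (Measure.infinitePi μ)).map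
      (fun p : (K → X) × (K → X) => S.piecewise p.1 p.2) = Measure.infinitePi μ := by
  refine Measure.eq_infinitePi _ fun s t ht => ?_
  rw [Measure.map_apply (measurable_merge S) (.pi s.countable_toSet fun _ _ => ht _)]
  have : (fun p : (K → X) × (K → X) => S.piecewise p.1 p.2) ⁻¹' (s : Set K).pi t =
      ((s.filter (· ∈ S) : Finset K) : Set K).pi t ×ˢ
        ((s.filter (fun i => ¬ i ∈ S) : Finset K) : Set K).pi t := by
    ext p
    simp only [Set.mem_preimage, Set.mem_pi, Finset.mem_coe, Set.mem_prod, Finset.mem_filter]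
    constructor
    · intro h
      refine ⟨fun i hi => ?_, fun i hi => ?_⟩
      · have := h i hi.1
        rwa [Set.piecewise_eq_of_mem _ _ _ hi.2] at this
      · have := h i hi.1
        rwa [Set.piecewise_eq_of_notMem _ _ _ hi.2] at this
    · rintro ⟨h1, h2⟩ i hi
      by_cases hS : i ∈ S
      · rw [Set.piecewise_eq_of_mem _ _ _ hS]; exact h1 i ⟨hi, hS⟩
      · rw [Set.piecewise_eq_of_notMem _ _ _ hS]; exact h2 i ⟨hi, hS⟩
  rw [this, Measure.prod_prod, Measure.infinitePi_pi _ (fun i _ => ht i),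
    Measure.infinitePi_pi _ (fun i _ => ht i), Finset.prod_filter_mul_prod_filter_not]

end Markov

/-- functions of disjoint blocks of coordinates are uncorrelated under a product measure -/
lemma indep_blocks {K X : Type*} [MeasurableSpace X] (μ : K → Measure X)
    [∀ i, IsProbabilityMeasure (μ i)] (S : Set K) {f g : (K → X) → ℝ} (hf : Measurable f)
    (hg : Measurable g) {C : ℝ} (bf : ∀ x, |f x| ≤ C) (bg : ∀ x, |g x| ≤ C)
    (df : DependsOn f S) (dg : DependsOn g Sᶜ) :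
    ∫ x, f x * g x ∂Measure.infinitePi μ =
      (∫ x, f x ∂Measure.infinitePi μ) * ∫ x, g x ∂Measure.infinitePi μ := by
  conv_lhs => rw [← Markov.map_merge μ S]
  rw [integral_map (Markov.measurable_merge S).aemeasurable (hf.fun_mul hg).aestronglyMeasurable,
    ← integral_prod_mul]
  refine integral_congr_ae (ae_of_all _ fun p => ?_)
  have e1 : f (S.piecewise p.1 p.2) = f p.1 :=
    df fun i hi => Set.piecewise_eq_of_mem _ _ _ hi
  have e2 : g (S.piecewise p.1 p.2) = g p.2 :=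
    dg fun i hi => Set.piecewise_eq_of_notMem _ _ _ hi
  simp only [e1, e2]

namespace Markov

lemma abs_integral_le {Ω : Type*} [MeasurableSpace Ω] {P : Measure Ω} [IsProbabilityMeasure P]
    {f : Ω → ℝ} {C : ℝ} (hC : ∀ x, |f x| ≤ C) : |∫ x, f x ∂P| ≤ C := by
  have := norm_integral_le_of_norm_le_const (μ := P) (f := f) (C := C) (ae_of_all _ hC)
  simpa using this

lemma abs_mul_sp {a C : ℝ} (h : |a| ≤ C) (b : Bool) : |a * sp b| ≤ C := by
  rwa [abs_mul, abs_sp, mul_one]

lemma integral_coin (θ : ℝ) (f : Bool → ℝ) :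
    ∫ b, f b ∂coin θ = (1 - cl θ) / 2 * f true + (1 + cl θ) / 2 * f false := by
  have h1 := neg_one_le_cl θ
  have h2 := cl_le_one θ
  unfold coin
  rw [integral_add_measure (Integrable.smul_measure Integrable.of_finite ENNReal.ofReal_ne_top)
    (Integrable.smul_measure Integrable.of_finite ENNReal.ofReal_ne_top), integral_smul_measure,
    integral_smul_measure, integral_dirac, integral_dirac, ENNReal.toReal_ofReal (by linarith),
    ENNReal.toReal_ofReal (by linarith), smul_eq_mul, smul_eq_mul]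

lemma measurable_cfg' (x : V) (s : Bool) : Measurable fun τ : V → Bool => cfg G x s τ :=
  (measurable_cfg x).comp (measurable_const.prodMk measurable_id)

lemma integral_rep (θ : ℝ) (x : V) {φ : (V → Bool) → ℝ} (hφ : Measurable φ) {C : ℝ}
    (hC : ∀ σ, |φ σ| ≤ C) :
    ∫ σ, φ σ ∂rep G θ x =
      (∫ τ, φ (cfg G x true τ) ∂(Measure.infinitePi fun _ : V => coin θ) +
        ∫ τ, φ (cfg G x false τ) ∂(Measure.infinitePi fun _ : V => coin θ)) / 2 := by
  unfold rep
  rw [integral_map (measurable_cfg x).aemeasurable hφ.aestronglyMeasurable,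
    integral_prod (fun p : Bool × (V → Bool) => φ (cfg G x p.1 p.2))
      (integrable_of_bdd (hφ.comp (measurable_cfg x)) fun _ => hC _),
    integral_coin, cl_zero]
  ring

lemma cfg_congr (x : V) (s : Bool) {τ τ' : V → Bool} {v : V}
    (h : ∀ w ∈ pth G x v, τ w = τ' w) : cfg G x s τ v = cfg G x s τ' v := by
  unfold cfg
  rw [Finset.filter_congr (q := fun w => τ' w = true) fun w hw => by rw [h w hw]]

/-- rooted on the same side -/
lemma dependsOn_same (hT : Tr G d) {z x : V} (h : G.Adj z x) {φ : (V → Bool) → ℝ}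
    (hφ : DependsOn φ (sub G z x)) (s : Bool) :
    DependsOn (fun τ => φ (cfg G z s τ)) (sub G z x) := fun _ _ hτ =>
  hφ fun _ hv => cfg_congr z s fun w hw => hτ w (pth_subset_sub hT h hv hw)

/-- rooted at the other end of the edge -/
lemma dependsOn_other (hT : Tr G d) {z x : V} (h : G.Adj z x) {φ : (V → Bool) → ℝ}
    (hφ : DependsOn φ (sub G z x)) (s : Bool) :
    DependsOn (fun τ => φ (cfg G x s τ)) (sub G z x) := fun _ _ hτ =>
  hφ fun _ hv => cfg_congr x s fun w hw => hτ w (by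
    rw [pth_eq_insert_first hT h hv, Finset.mem_insert] at hw
    rcases hw with rfl | hw
    · exact mem_sub_self h
    · exact pth_subset_sub hT h hv hw)

end Markov

theorem mk_nu (hW : Wd G d θ ν) {z x : V} (h : G.Adj z x) {φ1 φ2 : (V → Bool) → ℝ}
    (m1 : Measurable φ1) (m2 : Measurable φ2) {C : ℝ} (b1 : ∀ σ, |φ1 σ| ≤ C)
    (b2 : ∀ σ, |φ2 σ| ≤ C) (d1 : DependsOn φ1 (sub G z x)) (d2 : DependsOn φ2 (sub G x z)) :
    ∫ σ, φ1 σ * φ2 σ ∂ν = (∫ σ, φ1 σ ∂ν) * (∫ σ, φ2 σ ∂ν) +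
      (∫ σ, φ1 σ * sp (σ x) ∂ν) * ∫ σ, φ2 σ * sp (σ x) ∂ν := by
  have hm : Measurable fun σ : V → Bool => sp (σ x) := measurable_sp.comp (measurable_pi_apply x)
  have hC : 0 ≤ C := (abs_nonneg _).trans (b1 fun _ => true)
  have key : ∀ s, ∫ τ, φ1 (cfg G x s τ) * φ2 (cfg G x s τ)
      ∂(Measure.infinitePi fun _ : V => coin θ) =
      (∫ τ, φ1 (cfg G x s τ) ∂(Measure.infinitePi fun _ : V => coin θ)) *
        ∫ τ, φ2 (cfg G x s τ) ∂(Measure.infinitePi fun _ : V => coin θ) := fun s =>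
    indep_blocks _ (sub G z x) (m1.comp (Markov.measurable_cfg' x s))
      (m2.comp (Markov.measurable_cfg' x s)) (fun _ => b1 _) (fun _ => b2 _)
      (Markov.dependsOn_other hW.tr h d1 s)
      (by rw [compl_sub hW.tr h]; exact Markov.dependsOn_same hW.tr h.symm d2 s)
  rw [hW.eq_rep x, Markov.integral_rep θ x (m1.fun_mul m2) (C := C * C)
      (fun σ => by rw [abs_mul]; exact mul_le_mul (b1 σ) (b2 σ) (abs_nonneg _) hC),
    Markov.integral_rep θ x m1 b1, Markov.integral_rep θ x m2 b2,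
    Markov.integral_rep θ x (m1.fun_mul hm) (fun σ => Markov.abs_mul_sp (b1 σ) _),
    Markov.integral_rep θ x (m2.fun_mul hm) (fun σ => Markov.abs_mul_sp (b2 σ) _), key, key]
  simp only [cfg_self hW.tr, integral_mul_const, sp_true, sp_false]
  ring

theorem mk_theta (hW : Wd G d θ ν) {z x : V} (h : G.Adj z x) {φ1 : (V → Bool) → ℝ}
    (m1 : Measurable φ1) {C : ℝ} (b1 : ∀ σ, |φ1 σ| ≤ C) (d1 : DependsOn φ1 (sub G z x)) :
    ∫ σ, φ1 σ * sp (σ x) ∂ν = θ * ∫ σ, φ1 σ * sp (σ z) ∂ν := by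
  have hm : ∀ w, Measurable fun σ : V → Bool => sp (σ w) := fun w =>
    measurable_sp.comp (measurable_pi_apply w)
  have hC : 0 ≤ C := (abs_nonneg _).trans (b1 fun _ => true)
  have hθ : cl θ = θ := cl_of_abs_le (abs_le.2 ⟨by linarith [hW.θ0], hW.le_one⟩)
  have h0 : ∫ τ, sp (τ x) ∂(Measure.infinitePi fun _ : V => coin θ) = -θ := by
    have := integral_map (μ := Measure.infinitePi fun _ : V => coin θ) (φ := fun τ => τ x)
      (f := sp) (measurable_pi_apply x).aemeasurable measurable_sp.aestronglyMeasurable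
    rw [← this, Measure.infinitePi_map_eval, Markov.integral_coin, hθ, sp_true, sp_false]
    ring
  have key : ∀ s, ∫ τ, φ1 (cfg G z s τ) * sp (cfg G z s τ x)
      ∂(Measure.infinitePi fun _ : V => coin θ) =
      θ * ∫ τ, φ1 (cfg G z s τ) * sp (cfg G z s τ z)
        ∂(Measure.infinitePi fun _ : V => coin θ) := fun s => by
    have h1 := indep_blocks (fun _ : V => coin θ) (sub G z x)
      (m1.comp (Markov.measurable_cfg' (G := G) z s)) (hm x) (C := max C 1)
      (fun _ => (b1 _).trans (le_max_left _ _)) (fun _ => (abs_sp _).le.trans (le_max_right _ _))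
      (Markov.dependsOn_same hW.tr h d1 s)
      (fun τ τ' hτ => by simp only [hτ x (notMem_sub z x)])
    have h2 : ∀ τ, φ1 (cfg G z s τ) * sp (cfg G z s τ x) =
        -sp s * (φ1 (cfg G z s τ) * sp (τ x)) := fun τ => by
      rw [cfg_step hW.tr h.ne, tw_of_mem_sub hW.tr h (mem_sub_self h), cfg_self hW.tr, sp_xor]
      ring
    simp only [Function.comp_def] at h1
    simp only [h2, integral_const_mul, h1, h0, cfg_self hW.tr, integral_mul_const]
    ring
  rw [hW.eq_rep z, Markov.integral_rep θ z (m1.fun_mul (hm x)) (fun σ => Markov.abs_mul_sp (b1 σ) _),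
    Markov.integral_rep θ z (m1.fun_mul (hm z)) (fun σ => Markov.abs_mul_sp (b1 σ) _), key, key]
  ring

theorem integral_sp (hW : Wd G d θ ν) (u : V) : ∫ σ, sp (σ u) ∂ν = 0 := by
  rw [hW.eq_rep u, Markov.integral_rep θ u (φ := fun σ => sp (σ u))
    (measurable_sp.comp (measurable_pi_apply u)) (fun σ => (abs_sp _).le)]
  simp [cfg_self hW.tr]

theorem corr (hW : Wd G d θ ν) (u v : V) :
    ∫ σ, sp (σ u) * sp (σ v) ∂ν = θ ^ G.dist u v := by
  have := hW.prob
  induction hn : G.dist u v generalizing v with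
  | zero =>
    obtain rfl := hW.tr.dist_eq_zero.1 hn
    simp [sp_mul_self]
  | succ n ih =>
    have huv : u ≠ v := fun h => by
      rw [hW.tr.dist_eq_zero.2 h] at hn
      omega
    have h1 := dist_tw hW.tr huv
    rw [mk_theta hW (tw_adj hW.tr huv).symm (φ1 := fun σ => sp (σ u))
      (measurable_sp.comp (measurable_pi_apply u)) (fun σ => (abs_sp _).le)
      (fun σ σ' hσ => by simp only [hσ u (mem_sub_tw hW.tr huv)]), ih _ (by omega), pow_succ']

namespace Markov

lemma indep_Lam (S : Set V) {f g : Cf V × Cf V → ℝ} (hf : Measurable f) (hg : Measurable g) {C : ℝ}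
    (bf : ∀ p, |f p| ≤ C) (bg : ∀ p, |g p| ≤ C)
    (df : ∀ p q : Cf V × Cf V, (∀ c : ℤ × V, c.2 ∈ S → p.1 c = q.1 c ∧ p.2 c = q.2 c) → f p = f q)
    (dg : ∀ p q : Cf V × Cf V, (∀ c : ℤ × V, c.2 ∉ S → p.1 c = q.1 c ∧ p.2 c = q.2 c) → g p = g q) :
    ∫ p, f p * g p ∂(Lam V).prod (Lam V) =
      (∫ p, f p ∂(Lam V).prod (Lam V)) * ∫ p, g p ∂(Lam V).prod (Lam V) := by
  have hC : 0 ≤ C := (abs_nonneg _).trans (bf (0, 0))
  rw [integral_prod _ (integrable_of_bdd (hf.fun_mul hg) (C := C * C) fun p => by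
      rw [abs_mul]; exact mul_le_mul (bf p) (bg p) (abs_nonneg _) hC),
    integral_prod _ (integrable_of_bdd hf bf), integral_prod _ (integrable_of_bdd hg bg)]
  have h1 : ∀ ζ : Cf V, ∫ T, f (ζ, T) * g (ζ, T) ∂Lam V =
      (∫ T, f (ζ, T) ∂Lam V) * ∫ T, g (ζ, T) ∂Lam V := fun ζ =>
    indep_blocks (fun _ => lam) {c : ℤ × V | c.2 ∈ S} (hf.comp measurable_prodMk_left)
      (hg.comp measurable_prodMk_left) (fun _ => bf _) (fun _ => bg _)
      (fun T T' h => df _ _ fun c hc => ⟨rfl, h c hc⟩)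
      (fun T T' h => dg _ _ fun c hc => ⟨rfl, h c hc⟩)
  simp only [h1]
  exact indep_blocks (fun _ => lam) {c : ℤ × V | c.2 ∈ S}
    hf.stronglyMeasurable.integral_prod_right'.measurable
    hg.stronglyMeasurable.integral_prod_right'.measurable
    (fun _ => abs_integral_le fun _ => bf _) (fun _ => abs_integral_le fun _ => bg _)
    (fun ζ ζ' h => integral_congr_ae (ae_of_all _ fun T => df _ _ fun c hc => ⟨h c hc, rfl⟩))
    (fun ζ ζ' h => integral_congr_ae (ae_of_all _ fun T => dg _ _ fun c hc => ⟨h c hc, rfl⟩))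

end Markov

theorem mk_PP (hW : Wd G d θ ν) {z x : V} (h : G.Adj z x) {Φ1 Φ2 : Om V → ℝ}
    (m1 : Measurable Φ1) (m2 : Measurable Φ2) {C : ℝ} (b1 : ∀ ω, |Φ1 ω| ≤ C)
    (b2 : ∀ ω, |Φ2 ω| ≤ C) (d1 : DepOn (sub G z x) Φ1) (d2 : DepOn (sub G x z) Φ2) :
    ∫ ω, Φ1 ω * Φ2 ω ∂PP ν = (∫ ω, Φ1 ω ∂PP ν) * (∫ ω, Φ2 ω ∂PP ν) +
      (∫ ω, Φ1 ω * sp (ω.1 x) ∂PP ν) * ∫ ω, Φ2 ω * sp (ω.1 x) ∂PP ν := by
  have := hW.prob
  have hC : 0 ≤ C := (abs_nonneg _).trans (b1 (fun _ => true, 0, 0))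
  have hm : Measurable fun ω : Om V => sp (ω.1 x) :=
    measurable_sp.comp ((measurable_pi_apply x).comp measurable_fst)
  have m1' := m1.fun_mul hm
  have m2' := m2.fun_mul hm
  have b1' : ∀ ω, |Φ1 ω * sp (ω.1 x)| ≤ C := fun ω => Markov.abs_mul_sp (b1 ω) _
  have b2' : ∀ ω, |Φ2 ω * sp (ω.1 x)| ≤ C := fun ω => Markov.abs_mul_sp (b2 ω) _
  have c1 : ∀ p q : Cf V × Cf V, (∀ c : ℤ × V, c.2 ∈ sub G z x → p.1 c = q.1 c ∧ p.2 c = q.2 c) →
      ∀ σ, Φ1 (σ, p) = Φ1 (σ, q) := fun p q hpq σ =>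
    d1 _ _ fun v hv => ⟨rfl, fun j => hpq (j, v) hv⟩
  have c2 : ∀ p q : Cf V × Cf V, (∀ c : ℤ × V, c.2 ∉ sub G z x → p.1 c = q.1 c ∧ p.2 c = q.2 c) →
      ∀ σ, Φ2 (σ, p) = Φ2 (σ, q) := fun p q hpq σ =>
    d2 _ _ fun v hv => ⟨rfl, fun j => hpq (j, v) ((mem_sub_iff_notMem hW.tr h.symm).1 hv)⟩
  have bd : ∀ {a b : ℝ}, |a| ≤ C → |b| ≤ C → |a * b| ≤ C * C := fun ha hb => by
    rw [abs_mul]; exact mul_le_mul ha hb (abs_nonneg _) hC
  have n1 := (m1.stronglyMeasurable.integral_prod_left' (μ := ν)).measurable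
  have n2 := (m2.stronglyMeasurable.integral_prod_left' (μ := ν)).measurable
  have n1' := (m1'.stronglyMeasurable.integral_prod_left' (μ := ν)).measurable
  have n2' := (m2'.stronglyMeasurable.integral_prod_left' (μ := ν)).measurable
  have a1 : ∀ p, |∫ σ, Φ1 (σ, p) ∂ν| ≤ C := fun p => Markov.abs_integral_le fun _ => b1 _
  have a2 : ∀ p, |∫ σ, Φ2 (σ, p) ∂ν| ≤ C := fun p => Markov.abs_integral_le fun _ => b2 _
  have a1' : ∀ p, |∫ σ, Φ1 (σ, p) * sp (σ x) ∂ν| ≤ C := fun p =>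
    Markov.abs_integral_le fun σ => b1' (σ, p)
  have a2' : ∀ p, |∫ σ, Φ2 (σ, p) * sp (σ x) ∂ν| ≤ C := fun p =>
    Markov.abs_integral_le fun σ => b2' (σ, p)
  have key : ∀ p : Cf V × Cf V, ∫ σ, Φ1 (σ, p) * Φ2 (σ, p) ∂ν =
      (∫ σ, Φ1 (σ, p) ∂ν) * (∫ σ, Φ2 (σ, p) ∂ν) +
        (∫ σ, Φ1 (σ, p) * sp (σ x) ∂ν) * ∫ σ, Φ2 (σ, p) * sp (σ x) ∂ν := fun p =>
    mk_nu hW h (m1.comp measurable_prodMk_right) (m2.comp measurable_prodMk_right)
      (fun _ => b1 _) (fun _ => b2 _)
      (fun σ σ' hσ => d1 _ _ fun v hv => ⟨hσ v hv, fun _ => ⟨rfl, rfl⟩⟩)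
      (fun σ σ' hσ => d2 _ _ fun v hv => ⟨hσ v hv, fun _ => ⟨rfl, rfl⟩⟩)
  unfold PP
  rw [integral_prod_symm _ (integrable_of_bdd (m1.fun_mul m2) fun ω => bd (b1 ω) (b2 ω)),
    integral_prod_symm _ (integrable_of_bdd m1 b1), integral_prod_symm _ (integrable_of_bdd m2 b2),
    integral_prod_symm _ (integrable_of_bdd m1' b1'),
    integral_prod_symm _ (integrable_of_bdd m2' b2')]
  simp only [key]
  rw [integral_add (integrable_of_bdd (n1.fun_mul n2) fun p => bd (a1 p) (a2 p))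
      (integrable_of_bdd (n1'.fun_mul n2') fun p => bd (a1' p) (a2' p)),
    Markov.indep_Lam (sub G z x) n1 n2 a1 a2 (fun p q hpq => by simp only [c1 p q hpq])
      (fun p q hpq => by simp only [c2 p q hpq]),
    Markov.indep_Lam (sub G z x) n1' n2' a1' a2' (fun p q hpq => by simp only [c1 p q hpq])
      (fun p q hpq => by simp only [c2 p q hpq])]

lemma measurable_flip : Measurable (flip : Om V → Om V) := by
  refine Measurable.prodMk (measurable_pi_lambda _ fun v => ?_) measurable_snd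
  exact (measurable_of_countable fun b : Bool => !b).comp
    ((measurable_pi_apply v).comp measurable_fst)

lemma measurable_pull (g : V → V) : Measurable (pull g : Om V → Om V) := by
  unfold pull pullC
  refine Measurable.prodMk (measurable_pi_lambda _ fun v => ?_) (Measurable.prodMk ?_ ?_)
  · exact (measurable_pi_apply (g v)).comp measurable_fst
  · fun_prop
  · fun_prop

theorem Wd.map_flip (hW : Wd G d θ ν) : (PP ν).map flip = PP ν := by
  have := hW.prob
  have hm : Measurable fun (σ : V → Bool) v => !σ v := measurable_pi_lambda _ fun v =>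
    (measurable_of_countable fun b : Bool => !b).comp (measurable_pi_apply v)
  have := Measure.map_prod_map ν ((Lam V).prod (Lam V)) hm measurable_id
  rw [hW.map_not, Measure.map_id] at this
  exact this.symm

/-- `Lam` is invariant under the bijection `(j,v) ↦ (j, g v)` (`Measure.infinitePi_map_piCongrLeft`
or `Measure.map_infinitePi_infinitePi_of_inj`), `Measure.map_prod_map`. -/
theorem Wd.map_pull (hW : Wd G d θ ν) (g : G ≃g G) : (PP ν).map (pull g) = PP ν := by
  have := hW.prob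
  have hm : Measurable fun σ : V → Bool => σ ∘ g := measurable_pi_lambda _ fun v =>
    measurable_pi_apply (g v)
  have hc : Measurable (pullC g : Cf V → Cf V) := by unfold pullC; fun_prop
  have hL : (Lam V).map (pullC g) = Lam V :=
    Measure.map_infinitePi_infinitePi_of_inj (P := fun _ : ℤ × V => lam)
      (f := fun c : ℤ × V => (c.1, g c.2)) fun c c' h => by
        simp only [Prod.mk.injEq, EmbeddingLike.apply_eq_iff_eq] at h
        exact Prod.ext h.1 h.2
  have h1 := Measure.map_prod_map (Lam V) (Lam V) hc hc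
  rw [hL] at h1
  have h2 := Measure.map_prod_map ν ((Lam V).prod (Lam V)) hm (hc.prodMap hc)
  rw [hW.map_comp, ← h1] at h2
  exact h2.symm

lemma integral_flip (hW : Wd G d θ ν) {F : Om V → ℝ} (hF : Measurable F) :
    ∫ ω, F (flip ω) ∂PP ν = ∫ ω, F ω ∂PP ν := by
  rw [← integral_map measurable_flip.aemeasurable hF.aestronglyMeasurable, hW.map_flip]

lemma integral_pull (hW : Wd G d θ ν) (g : G ≃g G) {F : Om V → ℝ} (hF : Measurable F) :
    ∫ ω, F (pull g ω) ∂PP ν = ∫ ω, F ω ∂PP ν := by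
  rw [← integral_map (measurable_pull g).aemeasurable hF.aestronglyMeasurable, hW.map_pull]

lemma integral_odd (hW : Wd G d θ ν) {F : Om V → ℝ} (hF : Measurable F)
    (h : ∀ᵐ ω ∂PP ν, F (flip ω) = -F ω) : ∫ ω, F ω ∂PP ν = 0 := by
  have h1 := integral_flip hW hF
  rw [integral_congr_ae h, integral_neg] at h1
  linarith

/-- an even function of one side is independent of the other side -/
theorem mk_even (hW : Wd G d θ ν) {z x : V} (h : G.Adj z x) {Φ1 Φ2 : Om V → ℝ}
    (m1 : Measurable Φ1) (m2 : Measurable Φ2) {C : ℝ} (b1 : ∀ ω, |Φ1 ω| ≤ C)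
    (b2 : ∀ ω, |Φ2 ω| ≤ C) (d1 : DepOn (sub G z x) Φ1) (d2 : DepOn (sub G x z) Φ2)
    (he : ∀ᵐ ω ∂PP ν, Φ1 (flip ω) = Φ1 ω) :
    ∫ ω, Φ1 ω * Φ2 ω ∂PP ν = (∫ ω, Φ1 ω ∂PP ν) * ∫ ω, Φ2 ω ∂PP ν := by
  have h0 : ∫ ω, Φ1 ω * sp (ω.1 x) ∂PP ν = 0 := by
    refine integral_odd hW (m1.fun_mul (measurable_sp.comp ((measurable_pi_apply x).comp
      measurable_fst))) ?_
    filter_upwards [he] with ω hω
    rw [hω]
    simp only [flip, sp_not, mul_neg]
  rw [mk_PP hW h m1 m2 b1 b2 d1 d2, h0, zero_mul, add_zero]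

end

end Crest.Agent.R160
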