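import Crest.Agent.R160.AC1
import Crest.Agent.R160.Markov

/-!
Row 160, AC2: anti-concentration and decay of covariances.

`ac`: let `y = fS S s (obs ω)`, `a = θ * cav c w y` (`DepOn (sub c w)`, odd under `flip`:
`depOn_fS`, `dependsOn_cav`, `obs_flip`, `fS_negO`, `cav_neg`),
`b = Mg w ((sub w p \\ sub c w).indicator y)` (`DepOn (sub w c)`, `compl_sub`), `g = E a² ∈
[eta i/(3000 d), 1/2]`.  A.s. `rr θ (cav w p y) ≤ 1 - (a+b)²/8` (`rr_le`, `cav_merge`).  By `mk_even`,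
`E[a² Φ] = g E Φ`; by `mk_PP`, `integral_odd`, `cav_mean`: `E[a b Φ] = g E[b Φ σ_w]`.  Hence
`E[(a+b)² Φ] = (g - g²) E Φ + E[(b + g σ_w)² Φ] ≥ (g/2) E Φ`, and `g/16 ≥ cA d * eta i`.
`decay`: induction on `m` generalizing `u`.  For `m+1`: `u ≠ v`, `w = tw v u`, `v ∈ sub w u`
(`tw_adj`, `mem_sub_tw`), `Wp u v = rr (cav w u) * Wp w v` (`Wp_first`); pick `c ∼ w` with `c ≠ u`,
`c ≠ tw v w` (`exists_third`); then `v ∈ sub w c` (else `tw v w = c` by `tw_of_mem_sub`; `v = w` is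
`mem_sub_self`), so `Wp w v` is `DepOn (sub w c)` (`dependsOn_Wp`); apply `ac` (with `w ∈ pth u v`,
`tw u w = u`, `sub_subset`, `dist_of_mem_sub`) and the induction hypothesis (`pth_eq_insert_first`,
`tw_cross`).
-/

set_option autoImplicit false

open MeasureTheory Filter Topology
open scoped Classical

namespace Crest.Agent.R160

noncomputable section

universe u

variable {V : Type u} {G : SimpleGraph V} [G.LocallyFinite] {d : ℕ} {θ : ℝ}
  {ν : Measure (V → Bool)}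

lemma ac_mul {a b A B : ℝ} (ha : |a| ≤ A) (hb : |b| ≤ B) : |a * b| ≤ A * B := by
  rw [abs_mul]
  exact mul_le_mul ha hb (abs_nonneg _) ((abs_nonneg _).trans ha)

lemma ac_alg {Ω : Type*} [MeasurableSpace Ω] (P : Measure Ω) [IsProbabilityMeasure P]
    {a b σ Φ : Ω → ℝ} (ma : Measurable a) (mb : Measurable b) (mσ : Measurable σ)
    (mΦ : Measurable Φ) (ba : ∀ ω, |a ω| ≤ 1) (bb : ∀ ω, |b ω| ≤ 1) (bσ : ∀ ω, |σ ω| = 1)
    (h0 : ∀ ω, 0 ≤ Φ ω) {C : ℝ} (bΦ : ∀ ω, |Φ ω| ≤ C) {g : ℝ}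
    (h1 : ∫ ω, a ω ^ 2 * Φ ω ∂P = g * ∫ ω, Φ ω ∂P)
    (h2 : ∫ ω, a ω * (b ω * Φ ω) ∂P = g * ∫ ω, b ω * Φ ω * σ ω ∂P) :
    (g - g ^ 2) * ∫ ω, Φ ω ∂P ≤ ∫ ω, (a ω + b ω) ^ 2 * Φ ω ∂P := by
  have i0 := integrable_of_bdd (P := P) mΦ bΦ
  have i1 : Integrable (fun ω => a ω ^ 2 * Φ ω) P := integrable_of_bdd ((ma.pow_const 2).mul mΦ)
    fun ω => ac_mul (by rw [sq]; exact ac_mul (ba ω) (ba ω)) (bΦ ω)
  have i2 : Integrable (fun ω => a ω * (b ω * Φ ω)) P := integrable_of_bdd (ma.mul (mb.mul mΦ))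
    fun ω => ac_mul (ba ω) (ac_mul (bb ω) (bΦ ω))
  have i3 : Integrable (fun ω => b ω * Φ ω * σ ω) P := integrable_of_bdd ((mb.mul mΦ).mul mσ)
    fun ω => ac_mul (ac_mul (bb ω) (bΦ ω)) (bσ ω).le
  have i4 : Integrable (fun ω => b ω ^ 2 * Φ ω) P := integrable_of_bdd ((mb.pow_const 2).mul mΦ)
    fun ω => ac_mul (by rw [sq]; exact ac_mul (bb ω) (bb ω)) (bΦ ω)
  have e1 : ∀ ω, (a ω + b ω) ^ 2 * Φ ω =
      a ω ^ 2 * Φ ω + 2 * (a ω * (b ω * Φ ω)) + b ω ^ 2 * Φ ω := fun ω => by ring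
  have h3 : 0 ≤ ∫ ω, g ^ 2 * Φ ω + 2 * g * (b ω * Φ ω * σ ω) + b ω ^ 2 * Φ ω ∂P :=
    integral_nonneg fun ω => by
      have h4 : σ ω ^ 2 = 1 := by rw [← sq_abs, bσ, one_pow]
      refine (mul_nonneg (sq_nonneg (b ω + g * σ ω)) (h0 ω)).trans_eq ?_
      linear_combination g ^ 2 * Φ ω * h4
  simp only [e1]
  rw [integral_add ((i0.const_mul _).fun_add (i3.const_mul _)) i4,
    integral_add (i0.const_mul _) (i3.const_mul _), integral_const_mul, integral_const_mul] at h3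
  rw [integral_add (i1.fun_add (i2.const_mul _)) i4, integral_add i1 (i2.const_mul _),
    integral_const_mul, h1, h2]
  linarith

lemma ac_rate (hT : Tr G d) (i : ℤ) : 0 ≤ 1 - cA d * eta i := by
  have := mul_le_mul (cA_le hT.three) (eta_le i) (eta_pos i).le (by norm_num)
  linarith

theorem ac (hW : Wd G d θ ν) {i : ℤ} (hN : NC d θ i) (S : Set V) {s : V → ℝ} {I : ℝ}
    (hs : ∀ v, s v ≤ I) {c w p : V} (hwp : G.Adj w p) (hc : c ∈ kids G w p)
    (hinfo : ∀ x ∈ sub G c w, G.dist c x < n0 i → x ∈ S ∧ (i : ℝ) ≤ s x)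
    {Φ : Om V → ℝ} (hΦ : Measurable Φ) (h0 : ∀ ω, 0 ≤ Φ ω) {C : ℝ} (hC : ∀ ω, Φ ω ≤ C)
    (hd : DepOn (sub G w c) Φ) :
    ∫ ω, rr θ (cav G ν w p (fS S s (obs ω))) * Φ ω ∂PP ν ≤
      (1 - cA d * eta i) * ∫ ω, Φ ω ∂PP ν := by
  have := hW.prob
  have hT := hW.tr
  have hcw : G.Adj c w := (mem_kids.1 hc).1.symm
  have my : Measurable fun ω => fS S s (obs ω) := (measurable_fS S hs).comp measurable_obs
  have ma : Measurable fun ω => θ * cav G ν c w (fS S s (obs ω)) :=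
    ((measurable_cav ν c w).comp my).const_mul θ
  have mb : Measurable fun ω => Mg G ν w ((sub G w p \ sub G c w).indicator (fS S s (obs ω))) := by
    simp only [indicator_fS]
    exact (measurable_Mg ν w).comp ((measurable_fS _ hs).comp measurable_obs)
  have mσ : Measurable fun ω : Om V => sp (ω.1 w) :=
    measurable_sp.comp ((measurable_pi_apply w).comp measurable_fst)
  have bθ : |θ| ≤ 1 := by rw [abs_of_nonneg hW.θ0]; exact hW.le_one
  have ba : ∀ ω, |θ * cav G ν c w (fS S s (obs ω))| ≤ 1 := fun ω => by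
    simpa using ac_mul bθ (abs_cav_le ν c w _)
  have bΦ : ∀ ω, |Φ ω| ≤ max 1 C := fun ω => by
    rw [abs_of_nonneg (h0 ω)]; exact (hC ω).trans (le_max_right _ _)
  have da := depOn_fS (dependsOn_cav (G := G) ν c w) S s
  have db : DepOn (sub G w c) fun ω =>
      Mg G ν w ((sub G w p \ sub G c w).indicator (fS S s (obs ω))) :=
    depOn_fS (Ψ := fun y => Mg G ν w ((sub G w p \ sub G c w).indicator y)) (fun y y' h =>
      congrArg _ (Set.indicator_congr fun v hv => h v (compl_sub hT hcw ▸ hv.2))) S s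
  have ho : ∀ ω, θ * cav G ν c w (fS S s (obs (flip ω))) = -(θ * cav G ν c w (fS S s (obs ω))) :=
    fun ω => by rw [obs_flip, fS_negO, cav_neg hW, mul_neg]
  have b2 : ∀ ω, (θ * cav G ν c w (fS S s (obs ω))) ^ 2 ≤ 1 / 2 := fun ω => by
    have h1 := (sq_le_one_iff_abs_le_one _).2 (abs_cav_le (G := G) ν c w (fS S s (obs ω)))
    rw [mul_pow]
    exact (mul_le_of_le_one_right (sq_nonneg _) h1).trans hW.sq_le
  have h1 := mk_even hW hcw (ma.pow_const 2) hΦ (fun ω => by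
      rw [abs_of_nonneg (sq_nonneg _)]; exact (b2 ω).trans (le_max_of_le_left (by norm_num))) bΦ
    (fun ω ω' h => by simp only [da ω ω' h]) hd (ae_of_all _ fun ω => by simp only [ho, neg_sq])
  have h2 := mk_PP hW hcw ma (mb.mul hΦ) (fun ω => (ba ω).trans (le_max_left _ _))
    (fun ω => by simpa using ac_mul (abs_Mg_le ν w _) (bΦ ω))
    (fun ω ω' h => by simp only [da ω ω' h])
    (fun ω ω' h => by simp only [Pi.mul_apply, db ω ω' h, hd ω ω' h])
  rw [integral_odd hW ma (ae_of_all _ ho), zero_mul, zero_add, cav_mean hW S hs hcw] at h2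
  have h3 := ac_alg _ ma mb mσ hΦ ba (fun _ => abs_Mg_le ν w _) (fun _ => abs_sp _) h0 bΦ h1 h2
  have h4 := cav_sq_ge hW hN S hs hcw hinfo
  have h5 : ∫ ω, (θ * cav G ν c w (fS S s (obs ω))) ^ 2 ∂PP ν ≤ 1 / 2 := by
    simpa using integral_mono_of_nonneg (μ := PP ν) (ae_of_all _ fun ω => sq_nonneg _)
      (integrable_const (1 / 2 : ℝ)) (ae_of_all _ b2)
  generalize ∫ ω, (θ * cav G ν c w (fS S s (obs ω))) ^ 2 ∂PP ν = g at h3 h4 h5
  have i0 := integrable_of_bdd (P := PP ν) hΦ bΦ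
  have i1 := integrable_of_bdd (P := PP ν) (((ma.add mb).pow_const 2).mul hΦ) (C := 2 * 2 * max 1 C)
    fun ω => by
      have := (abs_add_le _ _).trans (add_le_add (ba ω) (abs_Mg_le (G := G) ν w
        ((sub G w p \ sub G c w).indicator (fS S s (obs ω)))))
      rw [one_add_one_eq_two] at this
      exact ac_mul (by beta_reduce; rw [sq]; exact ac_mul this this) (bΦ ω)
  have h6 : 0 ≤ ∫ ω, Φ ω ∂PP ν := integral_nonneg h0
  have h7 : cA d * eta i ≤ (g - g ^ 2) / 8 := by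
    have hd : (0 : ℝ) < d := by linarith [hT.two_le]
    have e : cA d * eta i = eta i / (3000 * d) * (3 / 50) := by unfold cA; field_simp; ring
    have : 0 < eta i / (3000 * d) := by have := eta_pos i; positivity
    nlinarith
  refine (integral_mono_of_nonneg (ae_of_all _ fun ω => mul_nonneg
    (rr_nonneg hW.sq_le (abs_cav_le ν w p _)) (h0 ω)) (i0.sub (i1.div_const 8)) ?_).trans ?_
  · filter_upwards [ae_conv_fS hW S hs] with ω hω
    have h8 := cav_merge hW hω hwp hc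
    have h9 := rr_le hW.sq_le (abs_cav_le (G := G) ν w p (fS S s (obs ω)))
    simp only [Pi.sub_apply, Pi.mul_apply, Pi.add_apply]
    nlinarith [h0 ω]
  · rw [integral_sub' i0 (i1.div_const 8), integral_div]
    simp only [Pi.mul_apply, Pi.add_apply]
    nlinarith

theorem decay (hW : Wd G d θ ν) {i : ℤ} (hN : NC d θ i) (S : Set V) {s : V → ℝ} {I : ℝ}
    (hs : ∀ v, s v ≤ I) (u v : V) {m : ℕ} (hm : m ≤ G.dist u v)
    (hinfo : ∀ w ∈ pth G u v, G.dist u w ≤ m → ∀ x ∈ sub G w (tw G u w), G.dist w x ≤ n0 i →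
      x ∈ S ∧ (i : ℝ) ≤ s x) :
    ∫ ω, Wp G ν θ u v (fS S s (obs ω)) ∂PP ν ≤ (1 - cA d * eta i) ^ m := by
  have := hW.prob
  have hT := hW.tr
  induction m generalizing u with
  | zero =>
    simpa using integral_mono_of_nonneg (μ := PP ν) (ae_of_all _ fun ω => Wp_nonneg hW u v _)
      (integrable_const (1 : ℝ)) (ae_of_all _ fun ω => Wp_le_one hW u v (fS S s (obs ω)))
  | succ m ih =>
    have hne : v ≠ u := by rintro rfl; simp at hm
    have hwu := (tw_adj hT hne).symm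
    have hv := mem_sub_tw hT hne
    generalize tw G v u = w at hwu hv
    obtain ⟨c, hwc, hcu, hc⟩ := exists_third hT w u (tw G v w)
    have hvc : v ∈ sub G w c :=
      (mem_sub_iff_notMem hT hwc).2 fun h => hc (tw_of_mem_sub hT hwc.symm h).symm
    have hk : c ∈ kids G w u := mem_kids.2 ⟨hwc, hcu⟩
    have huw : G.dist u w = 1 := SimpleGraph.dist_eq_one_iff_adj.2 hwu.symm
    have hd := dist_of_mem_sub hT hwu hv
    rw [pth_eq_insert_first hT hwu hv] at hinfo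
    simp only [Wp_first hT ν θ hwu hv]
    refine (ac hW hN S hs hwu hk (fun x hx hx' => ?_) ((measurable_Wp ν θ w v).comp
      ((measurable_fS S hs).comp measurable_obs)) (fun _ => Wp_nonneg hW _ _ _)
      (fun _ => Wp_le_one hW _ _ _) (depOn_fS (dependsOn_Wp hT ν θ hwc hvc) S s)).trans ?_
    · refine hinfo w (Finset.mem_insert_self _ _) (by omega) x ?_ ?_
      · rw [tw_eq hT hwu (by simp [huw])]
        exact sub_subset hT hwu hk hx
      · rw [dist_of_mem_sub hT hwc.symm hx]; omega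
    · rw [pow_succ']
      refine mul_le_mul_of_nonneg_left (ih w (by omega) fun w' hw' h => ?_) (ac_rate hT i)
      rw [← tw_cross hT hwu (mem_sub_self hwu.symm) (pth_subset_sub hT hwu hv hw')
        ((mem_pth hT).1 hw').1]
      exact hinfo w' (Finset.mem_insert_of_mem hw') (by have := hT.triangle u w w'; omega)

theorem dec_nc (hW : Wd G d θ ν) {i : ℤ} (hN : NC d θ i) :
    Dec G ν θ i fun k => θ ^ (2 * k) * (1 - cA d * eta i) ^ k := by
  intro s hs u v
  have := hW.prob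
  have h0 := hW.θ0
  refine le_trans ?_ (mul_le_mul_of_nonneg_left (decay hW hN Set.univ (fun v => (hs v).2) u v le_rfl
    fun _ _ _ x _ _ => ⟨trivial, (hs x).1⟩) (by positivity))
  rw [← integral_const_mul]
  refine integral_mono_of_nonneg (ae_of_all _ fun ω => sq_nonneg _) ((integrable_of_bdd
    ((measurable_Wp ν θ u v).comp ((measurable_fS _ fun v => (hs v).2).comp measurable_obs))
    (C := 1) fun ω => abs_le.2 ⟨le_trans (by norm_num) (Wp_nonneg hW _ _ _),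
      Wp_le_one hW _ _ _⟩).const_mul _) (ae_of_all _ fun ω => ?_)
  refine (pow_le_pow_left₀ (Cv_nonneg hW _ _ _) (Cv_le hW _ _ _) 2).trans ?_
  rw [mul_pow, ← pow_mul, mul_comm _ 2, sq]
  exact mul_le_mul_of_nonneg_left (mul_le_of_le_one_left (Wp_nonneg hW _ _ _)
    (Wp_le_one hW _ _ _)) (by positivity)

theorem dec_triv (hW : Wd G d θ ν) (i : ℤ) : Dec G ν θ i fun k => θ ^ (2 * k) := by
  intro s _ u v
  have := hW.prob
  simpa using integral_mono_of_nonneg (μ := PP ν) (ae_of_all _ fun ω => sq_nonneg _)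
    (integrable_const (θ ^ (2 * G.dist u v))) (ae_of_all _ fun ω => by
      rw [mul_comm, pow_mul]
      exact pow_le_pow_left₀ (Cv_nonneg hW u v (fS Set.univ s (obs ω))) (Cv_le_pow hW _ _ _) 2)

lemma ac_geom (hT : Tr G d) {b : ℕ → ℝ} (hb : ∀ k, 0 ≤ b k) {q : ℝ} (hq0 : 0 ≤ q) (hq : q < 1)
    {C : ℝ} (h : ∀ k, ((d : ℝ) - 1) ^ k * b k ≤ C * q ^ k) (u : V) (n R : ℕ) :
    ∑ v ∈ ball G u R, (if n ≤ G.dist u v then b (G.dist u v) else 0) ≤ 2 * C * q ^ n / (1 - q) := by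
  have hC : 0 ≤ C := by simpa using (hb 0).trans (by simpa using h 0)
  refine (sum_ball_le hT u R (h := fun k => if n ≤ k then b k else 0)
    fun k => ite_nonneg (hb k) le_rfl).trans ?_
  rw [mul_assoc, mul_div_assoc, mul_div_assoc]
  refine mul_le_mul_of_nonneg_left (le_trans ?_ (mul_le_mul_of_nonneg_left
    (geom_sum_Ico_le_of_lt_one (n := R + 1) hq0 hq) hC)) zero_le_two
  simp only [mul_ite, mul_zero]
  rw [← Finset.sum_filter, Finset.mul_sum]
  refine le_of_le_of_eq (Finset.sum_le_sum fun k _ => h k) (Finset.sum_congr ?_ fun _ _ => rfl)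
  ext k
  simp [and_comm]

/-- tails of the decay series (`sum_ball_le` with the indicator of `R < k`, geometric series) -/
lemma tail_small (hT : Tr G d) {b : ℕ → ℝ} (hb : ∀ k, 0 ≤ b k) {q : ℝ} (hq0 : 0 ≤ q) (hq : q < 1)
    {C : ℝ} (h : ∀ k, ((d : ℝ) - 1) ^ k * b k ≤ C * q ^ k) (u : V) (R R' : ℕ) :
    ∑ v ∈ ball G u R' \ ball G u R, b (G.dist u v) ≤ 2 * C * q ^ (R + 1) / (1 - q) := by
  refine le_trans (le_of_eq ?_) (ac_geom hT hb hq0 hq h u (R + 1) R')
  rw [← Finset.sum_filter]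
  refine Finset.sum_congr ?_ fun _ _ => rfl
  ext v
  simp [mem_ball hT]

lemma total_le (hT : Tr G d) {b : ℕ → ℝ} (hb : ∀ k, 0 ≤ b k) {q : ℝ} (hq0 : 0 ≤ q) (hq : q < 1)
    {C : ℝ} (h : ∀ k, ((d : ℝ) - 1) ^ k * b k ≤ C * q ^ k) (u : V) (R : ℕ) :
    ∑ v ∈ ball G u R, b (G.dist u v) ≤ 2 * C / (1 - q) := by
  simpa using ac_geom hT hb hq0 hq h u 0 R

end

end Crest.Agent.R160
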