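import Crest.Agent.R160.Defs

/-!
Row 160: elementary facts about the one-dimensional objects (all proved).
-/

set_option autoImplicit false

open MeasureTheory Filter Topology
open scoped Classical

namespace Crest.Agent.R160

noncomputable section

universe u

lemma integrable_of_bdd {Ω : Type*} [MeasurableSpace Ω] {P : Measure Ω} [IsFiniteMeasure P]
    {f : Ω → ℝ} (hf : Measurable f) {C : ℝ} (hC : ∀ x, |f x| ≤ C) : Integrable f P :=
  Integrable.of_bound hf.aestronglyMeasurable C (ae_of_all _ hC)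

@[simp] lemma sp_true : sp true = 1 := rfl
@[simp] lemma sp_false : sp false = -1 := rfl
lemma sp_mul_self (b : Bool) : sp b * sp b = 1 := by cases b <;> simp
lemma sp_sq (b : Bool) : sp b ^ 2 = 1 := by cases b <;> simp
lemma abs_sp (b : Bool) : |sp b| = 1 := by cases b <;> simp
lemma sp_not (b : Bool) : sp (!b) = -sp b := by cases b <;> simp
lemma sp_xor (a b : Bool) : sp (xor a b) = -(sp a * sp b) := by cases a <;> cases b <;> simp
@[fun_prop] lemma measurable_sp : Measurable sp := measurable_of_countable _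

lemma neg_one_le_cl (x : ℝ) : -1 ≤ cl x := le_max_left _ _
lemma cl_le_one (x : ℝ) : cl x ≤ 1 := max_le (by norm_num) (min_le_right _ _)
lemma abs_cl_le (x : ℝ) : |cl x| ≤ 1 := abs_le.2 ⟨neg_one_le_cl x, cl_le_one x⟩
lemma cl_of_abs_le {x : ℝ} (h : |x| ≤ 1) : cl x = x := by
  rw [abs_le] at h
  rw [cl, min_eq_left h.2, max_eq_right h.1]
lemma cl_cl (x : ℝ) : cl (cl x) = cl x := cl_of_abs_le (abs_cl_le x)
@[simp] lemma cl_zero : cl 0 = 0 := cl_of_abs_le (by simp)
lemma cl_neg (x : ℝ) : cl (-x) = -cl x := by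
  unfold cl
  rcases le_total x 1 with h | h <;> rcases le_total x (-1) with h' | h' <;>
    simp only [max_def, min_def] <;> split_ifs <;> linarith
lemma abs_sub_cl_le {m : ℝ} (hm : |m| ≤ 1) (x : ℝ) : |m - cl x| ≤ |m - x| := by
  rw [abs_le] at hm
  unfold cl
  simp only [max_def, min_def]
  split_ifs <;> rw [abs_le] <;> constructor <;>
    linarith [le_abs_self (m - x), neg_abs_le (m - x)]
lemma sq_sub_cl_le {m : ℝ} (hm : |m| ≤ 1) (x : ℝ) : (m - cl x) ^ 2 ≤ (m - x) ^ 2 :=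
  sq_le_sq.2 (abs_sub_cl_le hm x)
@[fun_prop] lemma continuous_cl : Continuous cl := by unfold cl; fun_prop
@[fun_prop] lemma measurable_cl : Measurable cl := continuous_cl.measurable

lemma eta_pos (j : ℤ) : 0 < eta j := by unfold eta; positivity
lemma eta_mono {i j : ℤ} (h : i ≤ j) : eta i ≤ eta j := by
  unfold eta
  gcongr
  norm_num
lemma eta_of_nonneg {j : ℤ} (h : 0 ≤ j) : eta j = 1 / 8 := by simp [eta, min_eq_right h]
lemma eta_le (j : ℤ) : eta j ≤ 1 / 8 := by
  rcases le_total 0 j with h | h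
  · exact (eta_of_nonneg h).le
  · exact (eta_mono h).trans (eta_of_nonneg le_rfl).le
lemma eta_eq (j : ℤ) : eta j = 1 / (8 * 2 ^ (-j).toNat) := by
  unfold eta
  rcases le_total 0 j with h | h
  · rw [min_eq_right h, Int.toNat_of_nonpos (by omega)]; norm_num
  · obtain ⟨m, rfl⟩ : ∃ m : ℕ, j = -(m : ℤ) := ⟨(-j).toNat, by omega⟩
    rw [min_eq_left h, neg_neg, Int.toNat_natCast, zpow_neg, zpow_natCast]
    field_simp
lemma eta_pred_of_nonpos {j : ℤ} (h : j ≤ 0) : eta (j - 1) = eta j / 2 := by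
  unfold eta
  rw [min_eq_left h, min_eq_left (by omega), zpow_sub_one₀ (by norm_num)]
  ring
lemma eta_le_two_mul_pred (j : ℤ) : eta j ≤ 2 * eta (j - 1) := by
  rcases le_total j 0 with h | h
  · rw [eta_pred_of_nonpos h]; linarith
  · rcases eq_or_lt_of_le h with h' | h'
    · subst h'; rw [eta_pred_of_nonpos le_rfl]; linarith
    · rw [eta_of_nonneg h, eta_of_nonneg (by omega)]; norm_num
lemma n0_mul_eta (i : ℤ) : (n0 i : ℝ) * eta (i - 1) = 1 := by
  rw [eta_eq, n0, show -(i - 1) = 1 - i by ring]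
  push_cast
  field_simp
  ring
lemma eight_le_n0 (i : ℤ) : 8 ≤ n0 i := by
  unfold n0
  rw [pow_add]
  have : 1 ≤ 2 ^ (1 - i).toNat := Nat.one_le_two_pow
  omega
lemma n0_le (i : ℤ) : (n0 i : ℝ) ≤ 2 / eta i := by
  rw [le_div_iff₀ (eta_pos i)]
  have h1 := n0_mul_eta i
  have h2 := eta_le_two_mul_pred i
  have h3 : (0 : ℝ) ≤ n0 i := Nat.cast_nonneg _
  nlinarith
lemma eta_sq_le_exp {j : ℤ} {r : ℝ} (h : (j : ℝ) ≤ r) : eta j ^ 2 ≤ Real.exp r := by
  refine le_trans ?_ (Real.exp_le_exp.2 h)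
  rcases le_total 0 j with hj | hj
  · rw [eta_of_nonneg hj]
    have : (1 : ℝ) ≤ Real.exp j := Real.one_le_exp (by exact_mod_cast hj)
    linarith
  · obtain ⟨m, rfl⟩ : ∃ m : ℕ, j = -(m : ℤ) := ⟨(-j).toNat, by omega⟩
    rw [eta_eq, neg_neg, Int.toNat_natCast]
    push_cast
    rw [Real.exp_neg, div_pow, one_pow, one_div]
    refine inv_anti₀ (Real.exp_pos _) ?_
    have h1 : Real.exp m ≤ 4 ^ m := by
      rw [← Real.exp_one_pow]
      exact pow_le_pow_left₀ (Real.exp_pos _).le (by linarith [Real.exp_one_lt_d9]) m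
    have h2 : ((2 : ℝ) ^ m) ^ 2 = 4 ^ m := by rw [← pow_mul, mul_comm, pow_mul]; norm_num
    have h3 : (0 : ℝ) < 4 ^ m := by positivity
    rw [mul_pow, h2]
    linarith
lemma Yb_pos (i : ℤ) : 0 < Yb i := by have := eta_pos i; unfold Yb; positivity
lemma Yb_le {i : ℤ} {I : ℕ} (h : i ≤ I) : Yb i ≤ (4 + 2 * I) * eta i := by
  unfold Yb
  have : (i.toNat : ℝ) ≤ I := by exact_mod_cast (show i.toNat ≤ I by omega)
  have := eta_pos i
  gcongr
lemma Yb_le' {i : ℤ} {I : ℕ} (h : i ≤ I) : Yb i ≤ 1 + I := by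
  have h1 := Yb_le h
  have h2 := eta_le i
  have h3 : (0 : ℝ) ≤ I := Nat.cast_nonneg _
  nlinarith
lemma cA_pos {d : ℕ} (hd : 3 ≤ d) : 0 < cA d := by
  have : (0 : ℝ) < d := by exact_mod_cast (show 0 < d by omega)
  unfold cA; positivity
lemma cA_le {d : ℕ} (hd : 3 ≤ d) : cA d ≤ 1 / 150000 := by
  have : (3 : ℝ) ≤ d := by exact_mod_cast hd
  unfold cA
  exact one_div_le_one_div_of_le (by norm_num) (by linarith)
lemma NC.mono {d : ℕ} {θ : ℝ} {i j : ℤ} (h : NC d θ i) (hij : i ≤ j) : NC d θ j := by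
  unfold NC at *
  linarith [eta_mono (show i - 1 ≤ j - 1 by omega)]
lemma NC.seven {d : ℕ} {θ : ℝ} {i : ℤ} (h : NC d θ i) : 7 / 8 ≤ ((d : ℝ) - 1) * θ ^ 2 := by
  unfold NC at h
  linarith [eta_le (i - 1)]
lemma kp_nonneg (i : ℤ) (k : ℕ) : 0 ≤ kp i k := by
  have := eta_pos i
  unfold kp
  have : 0 ≤ min 1 (8 ^ k * eta i) := le_min zero_le_one (by positivity)
  positivity

lemma slim_of_tendsto {a : ℕ → ℝ} {l : ℝ} (h : Tendsto a atTop (𝓝 l)) : slim a = l := by
  rw [slim, h.limsup_eq, h.liminf_eq]; ring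
lemma slim_neg (a : ℕ → ℝ) : slim (fun n => -a n) = -slim a := by
  have h1 : limsup (fun n => -a n) atTop = -liminf a atTop := by
    rw [limsup_eq, liminf_eq, ← Real.sInf_neg]
    congr 1
    ext x
    simp only [Set.mem_setOf_eq, Set.mem_neg, neg_le]
  have h2 : liminf (fun n => -a n) atTop = -limsup a atTop := by
    rw [limsup_eq, liminf_eq, ← Real.sSup_neg]
    congr 1
    ext x
    simp only [Set.mem_setOf_eq, Set.mem_neg, le_neg]
  rw [slim, slim, h1, h2]; ring
lemma abs_slim_le {a : ℕ → ℝ} {c : ℝ} (h : ∀ n, |a n| ≤ c) : |slim a| ≤ c := by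
  have hu : IsBoundedUnder (· ≤ ·) atTop a := ⟨c, by
    simp only [eventually_map]; exact Eventually.of_forall fun n => (abs_le.1 (h n)).2⟩
  have hl : IsBoundedUnder (· ≥ ·) atTop a := ⟨-c, by
    simp only [eventually_map]; exact Eventually.of_forall fun n => (abs_le.1 (h n)).1⟩
  have h1 : limsup a atTop ≤ c :=
    limsup_le_of_le hl.isCoboundedUnder_le (Eventually.of_forall fun n => (abs_le.1 (h n)).2)
  have h2 : -c ≤ liminf a atTop :=
    le_liminf_of_le hu.isCoboundedUnder_ge (Eventually.of_forall fun n => (abs_le.1 (h n)).1)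
  have h3 : liminf a atTop ≤ limsup a atTop := liminf_le_limsup hu hl
  rw [slim, abs_le]
  constructor <;> linarith
lemma measurable_slim {X : Type*} [MeasurableSpace X] {f : ℕ → X → ℝ} (hf : ∀ n, Measurable (f n)) :
    Measurable fun x => slim fun n => f n x :=
  ((Measurable.limsup hf).add (Measurable.liminf hf)).div_const 2

lemma ae_lam : ∀ᵐ x ∂lam, |x| ≤ 1 := by
  unfold lam
  refine Measure.ae_smul_measure ?_ _
  filter_upwards [ae_restrict_mem measurableSet_Icc] with x hx using abs_le.2 hx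
lemma integral_lam (g : ℝ → ℝ) : ∫ x, g x ∂lam = (∫ x in (-1 : ℝ)..1, g x) / 2 := by
  unfold lam
  rw [integral_smul_measure, intervalIntegral.integral_of_le (by norm_num),
    integral_Icc_eq_integral_Ioc]
  simp [div_eq_inv_mul]
lemma integral_lam_neg (g : ℝ → ℝ) : ∫ x, g (-x) ∂lam = ∫ x, g x ∂lam := by
  rw [integral_lam, integral_lam, intervalIntegral.integral_comp_neg]
  simp

variable {V : Type u}

lemma le_tm (T : Cf V) (c : ℤ × V) : (c.1 : ℝ) ≤ tm T c := by
  unfold tm; linarith [neg_one_le_cl (T c)]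
lemma tm_le (T : Cf V) (c : ℤ × V) : tm T c ≤ c.1 + 2 := by
  unfold tm; linarith [cl_le_one (T c)]
lemma tm_lt_iff (T : Cf V) (c : ℤ × V) : tm T c < c.1 + 1 ↔ cl (T c) < 0 := by
  unfold tm; constructor <;> intro h <;> linarith
lemma st_nonneg (T : Cf V) (c : ℤ × V) : 0 ≤ st T c := by
  unfold st; split_ifs
  exacts [(eta_pos _).le, le_rfl]
lemma st_le_eta (T : Cf V) (c : ℤ × V) : st T c ≤ eta c.1 := by
  unfold st; split_ifs
  exacts [le_rfl, (eta_pos _).le]
lemma st_le (T : Cf V) (c : ℤ × V) : st T c ≤ 1 / 8 := (st_le_eta T c).trans (eta_le _)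
lemma abs_st_mul_le (T : Cf V) (c : ℤ × V) {m : ℝ} (hm : |m| ≤ 1) : |st T c * m| ≤ 1 / 8 := by
  rw [abs_mul, abs_of_nonneg (st_nonneg T c)]
  exact (mul_le_of_le_one_right (st_nonneg T c) hm).trans (st_le T c)
lemma act_nonneg (s : ℝ) (T : Cf V) (c : ℤ × V) : 0 ≤ act s T c := by
  unfold act; split_ifs <;> norm_num
lemma act_le_one (s : ℝ) (T : Cf V) (c : ℤ × V) : act s T c ≤ 1 := by
  unfold act; split_ifs <;> norm_num
lemma act_mul_self (s : ℝ) (T : Cf V) (c : ℤ × V) : act s T c * act s T c = act s T c := by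
  unfold act; split_ifs <;> norm_num
lemma measurable_tm (c : ℤ × V) : Measurable fun T : Cf V => tm T c := by
  unfold tm; fun_prop
lemma measurable_st (c : ℤ × V) : Measurable fun T : Cf V => st T c := by
  unfold st
  exact Measurable.ite (measurableSet_lt (by fun_prop) measurable_const) measurable_const
    measurable_const
lemma measurable_act (c : ℤ × V) : Measurable fun p : ℝ × Cf V => act p.1 p.2 c := by
  unfold act
  refine Measurable.ite (MeasurableSet.inter (s₁ := {p : ℝ × Cf V | cl (p.2 c) < 0})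
    (s₂ := {p : ℝ × Cf V | tm p.2 c < p.1}) (measurableSet_lt (by fun_prop) measurable_const)
    (measurableSet_lt ((measurable_tm c).comp measurable_snd) measurable_fst))
    measurable_const measurable_const
lemma Agree.mono {r s : ℝ} {o o' : Ob V} (h : Agree s o o') (hrs : r ≤ s) : Agree r o o' :=
  fun c hc => h c (hc.imp (fun h => h.trans_le hrs) fun h => h.trans_le hrs)
lemma Adapted.mono {r s : ℝ} {F : Ob V → ℝ} (h : Adapted r F) (hrs : r ≤ s) : Adapted s F :=
  fun o o' ho => h o o' (ho.mono hrs)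
lemma Dep.mono {A B : Cf V → Set (ℤ × V)} {Φ : Ob V → ℝ} (h : Dep A Φ) (hAB : ∀ T, A T ⊆ B T) :
    Dep B Φ := fun o o' h1 h2 => h o o' h1 fun c hc => h2 c (hAB _ hc)
lemma DepOn.mono {S S' : Set V} {Φ : Om V → ℝ} (h : DepOn S Φ) (hS : S ⊆ S') : DepOn S' Φ :=
  fun ω ω' h1 => h ω ω' fun v hv => h1 v (hS hv)
lemma bef_univ (r : ℝ) (T : Cf V) : bef Set.univ (fun _ => r) T = bt r T := by
  ext c; simp [bef, bt]
lemma fS_univ (r : ℝ) (o : Ob V) : fS Set.univ (fun _ => r) o = fy r o := by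
  rw [fS, fy, bef_univ]

variable {G : SimpleGraph V} [G.LocallyFinite] {d : ℕ} {θ : ℝ} {ν : Measure (V → Bool)}

lemma Tr.two_le (hT : Tr G d) : (2 : ℝ) ≤ (d : ℝ) - 1 := by
  have : (3 : ℝ) ≤ d := by exact_mod_cast hT.three
  linarith
lemma Wd.sq_le (hW : Wd G d θ ν) : θ ^ 2 ≤ 1 / 2 := by
  have h1 := hW.tr.two_le
  have h2 := hW.θ1
  nlinarith [sq_nonneg θ]
lemma Wd.le_one (hW : Wd G d θ ν) : θ ≤ 1 := by
  have := hW.sq_le
  nlinarith [hW.θ0]
lemma Wd.lb (hW : Wd G d θ ν) {i : ℤ} (h : NC d θ i) : 1 / (2 * (d : ℝ)) ≤ θ := by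
  have h1 := h.seven
  have h2 := hW.tr.two_le
  have h3 := hW.le_one
  have h4 := hW.θ0
  rw [div_le_iff₀ (by linarith)]
  nlinarith

end

end Crest.Agent.R160
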