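import Crest.Agent.R160.TreeB

/-!
Row 160, ChanB: the edge factors `rr`, `kap`, the cavity map `Bf`, and the covariance function `Ch`.

`Bf`: put `h θ p B = (B (1-θ²) + θ p (1-B²)) / (1-θ²B²)
  = (1+p)/2 * (B+θ)/(1+θB) + (1-p)/2 * (B-θ)/(1-θB)`.
For `|p| ≤ 1`, `0 ≤ θ`, `θ² ≤ 1/2` the map `B ↦ h θ p B` fixes `±1` and
`(1/6) (B - B') ≤ h B - h B' ≤ 6 (B - B')` for `-1 ≤ B' ≤ B ≤ 1`
(each Möbius map has difference quotient `(1-θ²)/((1±θB)(1±θB'))`, in `[(1-θ)/(1+θ), (1+θ)/(1-θ)]`,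
and `θ ≤ 0.7072`).  `Bf_spec`: if `m = h θ p B`, with `a = θ(p - θ m)`, `b = 1-θ²`, `c = m - θ p`
one has `c = bB - aB²`, so the discriminant is `(b - 2aB)²`, and
`b - 2aB = (1-θ²)(1 + θ²B² - 2θBp)/(1-θ²B²) > 0`; hence `2c/(b+√Δ) = B`.
Existence of the root by the intermediate value theorem gives `abs_Bf_le` and `Bf_eq`.
Lipschitz: `|B - B'| ≤ 6 |h θ p B - h θ p B'| ≤ 6 (|m-m'| + |h θ' p' B' - h θ p B'|)`,
`|∂_p h| = kap ≤ 1`, `|∂_θ h| ≤ 1/(1-θ)² ≤ 12`.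
-/

set_option autoImplicit false

open MeasureTheory Filter Topology
open scoped Classical

namespace Crest.Agent.R160

noncomputable section

universe u


lemma rr_neg (θ A : ℝ) : rr θ (-A) = rr θ A := by
  unfold rr; rw [neg_sq]

lemma kap_neg (θ A : ℝ) : kap θ (-A) = kap θ A := by
  unfold kap; rw [rr_neg]

lemma sq_le_one_of_abs {A : ℝ} (hA : |A| ≤ 1) : A ^ 2 ≤ 1 := by
  rw [← sq_abs]; exact pow_le_one₀ (abs_nonneg _) hA

lemma rden_ge' {θ A : ℝ} (hA : |A| ≤ 1) : 1 - θ ^ 2 ≤ 1 - θ ^ 2 * A ^ 2 := by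
  have := mul_le_mul_of_nonneg_left (sq_le_one_of_abs hA) (sq_nonneg θ)
  linarith

lemma rden_ge {θ A : ℝ} (hθ : θ ^ 2 ≤ 1 / 2) (hA : |A| ≤ 1) : 1 / 2 ≤ 1 - θ ^ 2 * A ^ 2 := by
  linarith [rden_ge' (θ := θ) hA]

lemma rden_le (θ A : ℝ) : 1 - θ ^ 2 * A ^ 2 ≤ 1 := by
  have : 0 ≤ θ ^ 2 * A ^ 2 := by positivity
  linarith

lemma rr_nonneg {θ A : ℝ} (hθ : θ ^ 2 ≤ 1 / 2) (hA : |A| ≤ 1) : 0 ≤ rr θ A := by
  exact div_nonneg (by linarith [sq_le_one_of_abs hA]) (by linarith [rden_ge hθ hA])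

lemma rr_pos {θ A : ℝ} (hθ : θ ^ 2 ≤ 1 / 2) (hA : |A| < 1) : 0 < rr θ A := by
  have : A ^ 2 < 1 := by rw [← sq_abs]; exact pow_lt_one₀ (abs_nonneg _) hA (by norm_num)
  exact div_pos (by linarith) (by linarith [rden_ge hθ hA.le])

lemma rr_le {θ A : ℝ} (hθ : θ ^ 2 ≤ 1 / 2) (hA : |A| ≤ 1) : rr θ A ≤ 1 - A ^ 2 / 2 := by
  have h1 := rden_ge hθ hA
  have h2 := sq_le_one_of_abs hA
  have h3 := mul_le_mul_of_nonneg_right hθ (sq_nonneg A)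
  unfold rr
  rw [div_le_iff₀ (by linarith)]
  have h4 : (1 - A ^ 2 / 2) * (1 - A ^ 2 / 2) ≤ (1 - A ^ 2 / 2) * (1 - θ ^ 2 * A ^ 2) :=
    mul_le_mul_of_nonneg_left (by linarith) (by linarith)
  nlinarith [sq_nonneg (A ^ 2)]

lemma rr_le_one {θ A : ℝ} (hθ : θ ^ 2 ≤ 1 / 2) (hA : |A| ≤ 1) : rr θ A ≤ 1 := by
  linarith [rr_le hθ hA, sq_nonneg A]

lemma rr_lip' {θ A A' : ℝ} (hθ : θ ^ 2 ≤ 1 / 2) (hA : |A| ≤ 1) (hA' : |A'| ≤ 1) :
    |rr θ A - rr θ A'| ≤ 2 * ((|A| + |A'|) * |A - A'|) := by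
  have h1 := rden_ge hθ hA
  have h2 := rden_ge hθ hA'
  have h3 := rden_ge' (θ := θ) hA
  have e : rr θ A - rr θ A' =
      -((A + A') * (A - A')) * (1 - θ ^ 2) / ((1 - θ ^ 2 * A ^ 2) * (1 - θ ^ 2 * A' ^ 2)) := by
    unfold rr
    rw [div_sub_div _ _ (by linarith) (by linarith)]
    congr 1; ring
  have h4 : (1 - θ ^ 2) * (1 / 2) ≤ (1 - θ ^ 2 * A ^ 2) * (1 - θ ^ 2 * A' ^ 2) :=
    mul_le_mul h3 h2 (by norm_num) (by linarith)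
  have h5 : 0 < (1 - θ ^ 2 * A ^ 2) * (1 - θ ^ 2 * A' ^ 2) := by linarith
  rw [e, abs_div, abs_of_pos h5, div_le_iff₀ h5, abs_mul, abs_neg, abs_mul,
    abs_of_pos (by linarith : 0 < 1 - θ ^ 2)]
  have h6 := mul_le_mul_of_nonneg_right (abs_add_le A A') (abs_nonneg (A - A'))
  have h7 := mul_le_mul_of_nonneg_right h6 (by linarith : 0 ≤ 1 - θ ^ 2)
  have h8 := mul_le_mul_of_nonneg_left h4
    (show 0 ≤ (|A| + |A'|) * |A - A'| by positivity)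
  linarith

lemma rr_lip {θ A A' : ℝ} (hθ : θ ^ 2 ≤ 1 / 2) (hA : |A| ≤ 1) (hA' : |A'| ≤ 1) :
    |rr θ A - rr θ A'| ≤ 4 * |A - A'| := by
  have h1 := rr_lip' hθ hA hA'
  have h2 := mul_le_mul_of_nonneg_right (add_le_add hA hA') (abs_nonneg (A - A'))
  linarith

@[fun_prop] lemma continuous_rr_cl {θ : ℝ} (hθ : θ ^ 2 ≤ 1 / 2) :
    Continuous fun A => rr θ (cl A) := by
  unfold rr
  refine Continuous.div (by fun_prop) (by fun_prop) fun A => ?_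
  linarith [rden_ge hθ (abs_cl_le A)]

@[fun_prop] lemma measurable_rr (θ : ℝ) : Measurable (rr θ) := by
  unfold rr; fun_prop

@[fun_prop] lemma measurable_kap (θ : ℝ) : Measurable (kap θ) := by
  unfold kap; fun_prop

@[fun_prop] lemma measurable_Bf (θ : ℝ) : Measurable fun q : ℝ × ℝ => Bf θ q.1 q.2 := by
  unfold Bf; fun_prop

@[fun_prop] lemma measurable_LK (θ : ℝ) : Measurable fun q : ℝ × ℝ => LK θ q.1 q.2 := by
  unfold LK kap rr Bf; fun_prop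

lemma theta_le {θ : ℝ} (hθ : θ ^ 2 ≤ 1 / 2) : θ ≤ 5 / 7 := by
  by_contra h
  have := not_le.1 h
  nlinarith

lemma abs_theta_mul {θ B : ℝ} (h0 : 0 ≤ θ) (hB : |B| ≤ 1) : -θ ≤ θ * B ∧ θ * B ≤ θ := by
  have : |θ * B| ≤ θ := by rw [abs_mul, abs_of_nonneg h0]; exact mul_le_of_le_one_right h0 hB
  exact abs_le.1 this

lemma Bf_spec {θ p m B : ℝ} (h0 : 0 ≤ θ) (hθ : θ ^ 2 ≤ 1 / 2) (hp : |p| ≤ 1) (hB : |B| ≤ 1)
    (h : m * (1 - θ ^ 2 * B ^ 2) = B * (1 - θ ^ 2) + θ * p * (1 - B ^ 2)) : Bf θ p m = B := by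
  have hD := rden_ge hθ hB
  have h1 := theta_le hθ
  have h2 := abs_theta_mul h0 hB
  have h3 := sq_le_one_of_abs hp
  have e1 : (1 - θ ^ 2) ^ 2 - 4 * θ * (p - θ * m) * (m - θ * p) =
      ((1 - θ ^ 2) - 2 * (θ * (p - θ * m)) * B) ^ 2 := by
    linear_combination (-4 * θ * (p - θ * m)) * h
  have e2 : ((1 - θ ^ 2) - 2 * (θ * (p - θ * m)) * B) * (1 - θ ^ 2 * B ^ 2) =
      (1 - θ ^ 2) * (1 + (θ * B) ^ 2 - 2 * (θ * B) * p) := by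
    linear_combination (2 * θ ^ 2 * B) * h
  have h4 : 0 ≤ 1 + (θ * B) ^ 2 - 2 * (θ * B) * p := by nlinarith [sq_nonneg (θ * B - p)]
  have h5 : 0 ≤ (1 - θ ^ 2) - 2 * (θ * (p - θ * m)) * B := by
    have : 0 ≤ ((1 - θ ^ 2) - 2 * (θ * (p - θ * m)) * B) * (1 - θ ^ 2 * B ^ 2) := by
      rw [e2]; exact mul_nonneg (by linarith) h4
    exact nonneg_of_mul_nonneg_left this (by linarith)
  unfold Bf
  rw [e1, Real.sqrt_sq h5, div_eq_iff (by linarith)]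
  linear_combination 2 * h

lemma exists_root {θ p m : ℝ} (hθ : θ ^ 2 ≤ 1 / 2) (hm : |m| ≤ 1) :
    ∃ B, |B| ≤ 1 ∧ m * (1 - θ ^ 2 * B ^ 2) = B * (1 - θ ^ 2) + θ * p * (1 - B ^ 2) := by
  have hm' := abs_le.1 hm
  have hc : ContinuousOn
      (fun B : ℝ => B * (1 - θ ^ 2) + θ * p * (1 - B ^ 2) - m * (1 - θ ^ 2 * B ^ 2))
      (Set.Icc (-1) 1) := by fun_prop
  have h1 : 0 ≤ (1 - θ ^ 2) * (1 + m) := mul_nonneg (by linarith) (by linarith)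
  have h2 : 0 ≤ (1 - θ ^ 2) * (1 - m) := mul_nonneg (by linarith) (by linarith)
  obtain ⟨B, hB, h⟩ := intermediate_value_Icc (by norm_num : (-1 : ℝ) ≤ 1) hc
    (show (0 : ℝ) ∈ _ from ⟨by linarith, by linarith⟩)
  exact ⟨B, abs_le.2 hB, by dsimp only at h; linarith⟩

lemma abs_Bf_le {θ p m : ℝ} (h0 : 0 ≤ θ) (hθ : θ ^ 2 ≤ 1 / 2) (hp : |p| ≤ 1) (hm : |m| ≤ 1) :
    |Bf θ p m| ≤ 1 := by
  obtain ⟨B, hB, h⟩ := exists_root (p := p) hθ hm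
  rwa [Bf_spec h0 hθ hp hB h]

lemma Bf_eq {θ p m : ℝ} (h0 : 0 ≤ θ) (hθ : θ ^ 2 ≤ 1 / 2) (hp : |p| ≤ 1) (hm : |m| ≤ 1) :
    m * (1 - θ ^ 2 * Bf θ p m ^ 2) =
      Bf θ p m * (1 - θ ^ 2) + θ * p * (1 - Bf θ p m ^ 2) := by
  obtain ⟨B, hB, h⟩ := exists_root (p := p) hθ hm
  rwa [Bf_spec h0 hθ hp hB h]

lemma Bf_neg (θ p m : ℝ) : Bf θ (-p) (-m) = -Bf θ p m := by
  unfold Bf
  rw [← neg_div]
  congr 1
  · ring
  · congr 2; ring

lemma LK_neg (θ p m : ℝ) : LK θ (-p) (-m) = LK θ p m := by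
  unfold LK; rw [Bf_neg, kap_neg]

/-- the map inverted by `Bf` -/
def hB (θ p B : ℝ) : ℝ := (B * (1 - θ ^ 2) + θ * p * (1 - B ^ 2)) / (1 - θ ^ 2 * B ^ 2)

lemma hB_Bf {θ p m : ℝ} (h0 : 0 ≤ θ) (hθ : θ ^ 2 ≤ 1 / 2) (hp : |p| ≤ 1) (hm : |m| ≤ 1) :
    hB θ p (Bf θ p m) = m := by
  unfold hB
  rw [div_eq_iff (by linarith [rden_ge hθ (abs_Bf_le h0 hθ hp hm)]), Bf_eq h0 hθ hp hm]

lemma hB_slope {θ p B B' : ℝ} (h0 : 0 ≤ θ) (hθ : θ ^ 2 ≤ 1 / 2) (hp : |p| ≤ 1) (hb : |B| ≤ 1)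
    (hb' : |B'| ≤ 1) : ∃ Q, 1 / 6 ≤ Q ∧ Q ≤ 6 ∧ hB θ p B - hB θ p B' = (B - B') * Q := by
  have hD := rden_ge hθ hb
  have hD' := rden_ge hθ hb'
  have h1 := theta_le hθ
  have h2 := abs_theta_mul h0 hb
  have h3 := abs_theta_mul h0 hb'
  have h4 := abs_le.1 hp
  set P := (1 + θ * B) * (1 + θ * B') with hP
  set N := (1 - θ * B) * (1 - θ * B') with hN
  have P1 : P ≤ (1 + θ) * (1 + θ) := mul_le_mul (by linarith) (by linarith) (by linarith) (by linarith)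
  have N1 : N ≤ (1 + θ) * (1 + θ) := mul_le_mul (by linarith) (by linarith) (by linarith) (by linarith)
  have P2 : (1 - θ) * (1 - θ) ≤ P := mul_le_mul (by linarith) (by linarith) (by linarith) (by linarith)
  have N2 : (1 - θ) * (1 - θ) ≤ N := mul_le_mul (by linarith) (by linarith) (by linarith) (by linarith)
  have k1 : (1 + θ) * (1 + θ) ≤ 6 * (1 - θ ^ 2) := by nlinarith
  have k2 : 1 - θ ^ 2 ≤ 6 * ((1 - θ) * (1 - θ)) := by nlinarith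
  have k3 : 0 < (1 - θ) * (1 - θ) := mul_pos (by linarith) (by linarith)
  have P0 : 0 < P := by linarith
  have N0 : 0 < N := by linarith
  have e : (1 - θ ^ 2 * B ^ 2) * (1 - θ ^ 2 * B' ^ 2) = P * N := by rw [hP, hN]; ring
  have a1 : 0 ≤ (1 + p) / 2 * N := mul_nonneg (by linarith) N0.le
  have a2 : 0 ≤ (1 - p) / 2 * P := mul_nonneg (by linarith) P0.le
  refine ⟨(1 - θ ^ 2) * ((1 + p) / 2 * N + (1 - p) / 2 * P) / (P * N), ?_, ?_, ?_⟩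
  · rw [le_div_iff₀ (mul_pos P0 N0)]
    have b1 := mul_le_mul_of_nonneg_left (P1.trans k1) a1
    have b2 := mul_le_mul_of_nonneg_left (N1.trans k1) a2
    linarith
  · rw [div_le_iff₀ (mul_pos P0 N0)]
    have b1 := mul_le_mul_of_nonneg_left (show 1 - θ ^ 2 ≤ 6 * P by linarith) a1
    have b2 := mul_le_mul_of_nonneg_left (show 1 - θ ^ 2 ≤ 6 * N by linarith) a2
    linarith
  · unfold hB
    rw [div_sub_div _ _ (by linarith) (by linarith), e, ← mul_div_assoc]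
    congr 1
    rw [hP, hN]; ring

lemma hB_p {θ p p' B : ℝ} (h0 : 0 ≤ θ) (hθ : θ ^ 2 ≤ 1 / 2) (hb : |B| ≤ 1) :
    |hB θ p B - hB θ p' B| ≤ |p - p'| := by
  have e : hB θ p B - hB θ p' B = (p - p') * (θ * rr θ B) := by
    unfold hB rr; ring
  have h1 := theta_le hθ
  rw [e, abs_mul, abs_of_nonneg (mul_nonneg h0 (rr_nonneg hθ hb))]
  exact mul_le_of_le_one_right (abs_nonneg _)
    (mul_le_one₀ (by linarith) (rr_nonneg hθ hb) (rr_le_one hθ hb))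

lemma hB_θ {θ θ' p B : ℝ} (h0 : 0 ≤ θ) (hθ : θ ^ 2 ≤ 1 / 2) (h0' : 0 ≤ θ')
    (hθ' : θ' ^ 2 ≤ 1 / 2) (hp : |p| ≤ 1) (hb : |B| ≤ 1) :
    |hB θ p B - hB θ' p B| ≤ 16 * |θ - θ'| := by
  have hD := rden_ge hθ hb
  have hD' := rden_ge hθ' hb
  have h1 := theta_le hθ
  have h1' := theta_le hθ'
  have h2 := sq_le_one_of_abs hb
  have e : hB θ p B - hB θ' p B = (θ - θ') * ((1 - B ^ 2) * (p * (1 + θ * θ' * B ^ 2) -
      B * (θ + θ'))) / ((1 - θ ^ 2 * B ^ 2) * (1 - θ' ^ 2 * B ^ 2)) := by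
    unfold hB
    rw [div_sub_div _ _ (by linarith) (by linarith)]
    congr 1; ring
  have h3 : 1 / 2 * (1 / 2) ≤ (1 - θ ^ 2 * B ^ 2) * (1 - θ' ^ 2 * B ^ 2) :=
    mul_le_mul hD hD' (by norm_num) (by linarith)
  have h4 : 0 ≤ θ * θ' * B ^ 2 := by positivity
  have h5 : θ * θ' * B ^ 2 ≤ 1 :=
    mul_le_one₀ (mul_le_one₀ (by linarith) h0' (by linarith)) (sq_nonneg _) h2
  have h6 : |p * (1 + θ * θ' * B ^ 2) - B * (θ + θ')| ≤ 4 := by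
    refine (abs_sub _ _).trans ?_
    rw [abs_mul, abs_mul, abs_of_nonneg (by linarith : 0 ≤ 1 + θ * θ' * B ^ 2),
      abs_of_nonneg (add_nonneg h0 h0')]
    have a1 := mul_le_mul_of_nonneg_right hp (by linarith : 0 ≤ 1 + θ * θ' * B ^ 2)
    have a2 := mul_le_mul_of_nonneg_right hb (add_nonneg h0 h0')
    linarith
  have h7 : |(1 - B ^ 2) * (p * (1 + θ * θ' * B ^ 2) - B * (θ + θ'))| ≤ 4 := by
    rw [abs_mul, abs_of_nonneg (by linarith : 0 ≤ 1 - B ^ 2)]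
    exact (mul_le_of_le_one_left (abs_nonneg _) (by linarith [sq_nonneg B])).trans h6
  have h8 : 0 < (1 - θ ^ 2 * B ^ 2) * (1 - θ' ^ 2 * B ^ 2) := by linarith
  rw [e, abs_div, abs_of_pos h8, div_le_iff₀ h8, abs_mul]
  have a1 := mul_le_mul_of_nonneg_left h7 (abs_nonneg (θ - θ'))
  have a2 := mul_le_mul_of_nonneg_left h3 (abs_nonneg (θ - θ'))
  linarith

lemma Bf_lip {θ θ' p p' m m' : ℝ} (h0 : 0 ≤ θ) (hθ : θ ^ 2 ≤ 1 / 2) (h0' : 0 ≤ θ')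
    (hθ' : θ' ^ 2 ≤ 1 / 2) (hp : |p| ≤ 1) (hp' : |p'| ≤ 1) (hm : |m| ≤ 1) (hm' : |m'| ≤ 1) :
    |Bf θ p m - Bf θ' p' m'| ≤ 100 * (|p - p'| + |m - m'| + |θ - θ'|) := by
  have hb := abs_Bf_le h0 hθ hp hm
  have hb' := abs_Bf_le h0' hθ' hp' hm'
  obtain ⟨Q, Q1, -, hQ⟩ := hB_slope h0 hθ hp hb hb'
  have h1 := hB_p (p := p) (p' := p') h0 hθ hb'
  have h2 := hB_θ h0 hθ h0' hθ' hp' hb'
  rw [hB_Bf h0 hθ hp hm] at hQ
  rw [hB_Bf h0' hθ' hp' hm'] at h2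
  have h3 := congrArg abs hQ
  rw [abs_mul, abs_of_pos (by linarith : 0 < Q)] at h3
  have h4 := mul_le_mul_of_nonneg_left Q1 (abs_nonneg (Bf θ p m - Bf θ' p' m'))
  have h5 : |m - hB θ p (Bf θ' p' m')| ≤ |m - m'| + |p - p'| + 16 * |θ - θ'| := by
    have a1 := abs_le.1 h1
    have a2 := abs_le.1 h2
    have a3 := le_abs_self (m - m')
    have a4 := neg_abs_le (m - m')
    exact abs_le.2 ⟨by linarith, by linarith⟩
  linarith [abs_nonneg (m - m'), abs_nonneg (p - p'), abs_nonneg (θ - θ')]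

lemma abs_Bf_le_of {θ p m δ : ℝ} (h0 : 0 ≤ θ) (hθ : θ ^ 2 ≤ 1 / 2) (hp : |p| ≤ 1) (hδ : 0 ≤ δ)
    (hm : |m| ≤ 1 - δ) : |Bf θ p m| ≤ 1 - δ / 6 := by
  have hm1 : |m| ≤ 1 := by linarith
  have hb := abs_Bf_le h0 hθ hp hm1
  have hb' := abs_le.1 hb
  have hm' := abs_le.1 hm
  have h1 : hB θ p 1 = 1 := by
    unfold hB; rw [div_eq_iff (by linarith)]; ring
  have h2 : hB θ p (-1) = -1 := by
    unfold hB; rw [div_eq_iff (by linarith)]; ring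
  obtain ⟨Q, -, Q2, hQ⟩ := hB_slope h0 hθ hp (show |(1 : ℝ)| ≤ 1 by simp) hb
  obtain ⟨Q', -, Q2', hQ'⟩ := hB_slope h0 hθ hp hb (show |(-1 : ℝ)| ≤ 1 by simp)
  rw [hB_Bf h0 hθ hp hm1, h1] at hQ
  rw [hB_Bf h0 hθ hp hm1, h2] at hQ'
  have a1 := mul_le_mul_of_nonneg_left Q2 (show 0 ≤ 1 - Bf θ p m by linarith)
  have a2 := mul_le_mul_of_nonneg_left Q2' (show 0 ≤ Bf θ p m - -1 by linarith)
  exact abs_le.2 ⟨by linarith, by linarith⟩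

lemma abs_log_sub_le {c x y : ℝ} (hc : 0 < c) (hx : c ≤ x) (hy : c ≤ y) :
    |Real.log x - Real.log y| ≤ |x - y| / c := by
  have key : ∀ x y : ℝ, c ≤ x → c ≤ y → Real.log x - Real.log y ≤ |x - y| / c := by
    intro x y hx hy
    have hy0 : 0 < y := hc.trans_le hy
    have h1 := Real.log_le_sub_one_of_pos (div_pos (hc.trans_le hx) hy0)
    rw [Real.log_div (hc.trans_le hx).ne' hy0.ne', div_sub_one hy0.ne'] at h1
    exact h1.trans ((div_le_div_of_nonneg_right (le_abs_self _) hy0.le).trans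
      (div_le_div_of_nonneg_left (abs_nonneg _) hc hy))
  have h1 := key x y hx hy
  have h2 := key y x hy hx
  rw [abs_sub_comm] at h2
  exact abs_le.2 ⟨by linarith, h1⟩

lemma le_one_sub_sq {δ m : ℝ} (hδ : 0 ≤ δ) (hm : |m| ≤ 1 - δ) : δ ≤ 1 - m ^ 2 := by
  have h1 := abs_nonneg m
  have h2 := mul_le_mul_of_nonneg_left (show |m| ≤ 1 by linarith) h1
  rw [← sq_abs]; nlinarith

lemma log_one_sub_sq_lip {δ m m' : ℝ} (hδ : 0 < δ) (hm : |m| ≤ 1 - δ) (hm' : |m'| ≤ 1 - δ) :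
    |Real.log (1 - m ^ 2) - Real.log (1 - m' ^ 2)| ≤ 2 / δ * |m - m'| := by
  refine (abs_log_sub_le hδ (le_one_sub_sq hδ.le hm) (le_one_sub_sq hδ.le hm')).trans ?_
  rw [div_mul_eq_mul_div]
  refine div_le_div_of_nonneg_right ?_ hδ.le
  rw [show 1 - m ^ 2 - (1 - m' ^ 2) = -((m + m') * (m - m')) by ring, abs_neg, abs_mul]
  exact mul_le_mul_of_nonneg_right ((abs_add_le _ _).trans (by linarith)) (abs_nonneg _)

lemma kap_nonneg {θ A : ℝ} (h0 : 0 ≤ θ) (hθ : θ ^ 2 ≤ 1 / 2) (hA : |A| ≤ 1) : 0 ≤ kap θ A :=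
  mul_nonneg h0 (rr_nonneg hθ hA)

lemma kap_le {θ A : ℝ} (h0 : 0 ≤ θ) (hθ : θ ^ 2 ≤ 1 / 2) (hA : |A| ≤ 1) : kap θ A ≤ θ :=
  mul_le_of_le_one_right h0 (rr_le_one hθ hA)

lemma kap_θ {θ θ' B : ℝ} (h0 : 0 ≤ θ) (hθ : θ ^ 2 ≤ 1 / 2) (h0' : 0 ≤ θ')
    (hθ' : θ' ^ 2 ≤ 1 / 2) (hb : |B| ≤ 1) : |kap θ B - kap θ' B| ≤ 32 * |θ - θ'| := by
  have e : ∀ t, kap t B = hB t 1 B - hB t 0 B := fun t => by unfold kap rr hB; ring
  have h1 := abs_le.1 (hB_θ (p := 1) h0 hθ h0' hθ' (by simp) hb)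
  have h2 := abs_le.1 (hB_θ (p := 0) h0 hθ h0' hθ' (by simp) hb)
  rw [e, e]
  exact abs_le.2 ⟨by linarith, by linarith⟩

lemma kap_ge {θ θ0 δ B : ℝ} (hθ0 : 0 ≤ θ0) (h0 : θ0 ≤ θ) (hθ : θ ^ 2 ≤ 1 / 2) (hδ : 0 ≤ δ)
    (hb : |B| ≤ 1 - δ) : θ0 * δ ≤ kap θ B := by
  have h1 := le_one_sub_sq hδ hb
  have h2 := rden_ge hθ (show |B| ≤ 1 by linarith)
  exact mul_le_mul h0 (h1.trans (le_div_self (by linarith) (by linarith) (rden_le θ B))) hδ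
    (hθ0.trans h0)

lemma abs_Bf_le_sum {θ p m : ℝ} (h0 : 0 ≤ θ) (hθ : θ ^ 2 ≤ 1 / 2) (hp : |p| ≤ 1)
    (hm : |m| ≤ 1) : |Bf θ p m| ≤ 100 * (|p| + |m|) := by
  have h1 := Bf_lip (p' := 0) (m' := 0) h0 hθ h0 hθ hp (by simp) hm (by simp)
  have h2 : Bf θ 0 0 = 0 := by simp [Bf]
  simpa [h2] using h1

/-- `log kap θ B = log θ + log (1-B²) - log (1-θ²B²)`; use `|log x - log y| ≤ |x-y|/min x y`,
`|B² - B'²| = (|B|+|B'|) |B - B'|`-type bounds, `|Bf θ p m| ≤ 100 (|p|+|m|)` (as `Bf θ 0 0 = 0`)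
and `Bf_lip`, `abs_Bf_le_of`. -/
lemma LK_lip {δ θ0 : ℝ} (hδ : 0 < δ) (hθ0 : 0 < θ0) : ∃ L : ℝ, 0 ≤ L ∧
    ∀ θ θ' p p' m m' : ℝ, θ0 ≤ θ → θ ^ 2 ≤ 1 / 2 → θ0 ≤ θ' → θ' ^ 2 ≤ 1 / 2 →
      |p| ≤ 1 → |p'| ≤ 1 → |m| ≤ 1 - δ → |m'| ≤ 1 - δ →
      |LK θ p m| ≤ L ∧
      |LK θ p m - LK θ' p' m'| ≤
        L * ((|p| + |m| + |p'| + |m'|) * (|p - p'| + |m - m'|) + |θ - θ'|) := by
  have hc : 0 < θ0 * (δ / 6) := by positivity
  set c := θ0 * (δ / 6) with hcdef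
  have hc2 : 0 ≤ 20000 / c := by positivity
  refine ⟨|Real.log c| + 20000 / c, by positivity, ?_⟩
  intro θ θ' p p' m m' h0 hθ h0' hθ' hp hp' hm hm'
  have t0 : 0 ≤ θ := hθ0.le.trans h0
  have t0' : 0 ≤ θ' := hθ0.le.trans h0'
  have hm1 : |m| ≤ 1 := by linarith
  have hm1' : |m'| ≤ 1 := by linarith
  have hb := abs_Bf_le t0 hθ hp hm1
  have hb' := abs_Bf_le t0' hθ' hp' hm1'
  have k1 : c ≤ kap θ (Bf θ p m) :=
    kap_ge hθ0.le h0 hθ (by positivity) (abs_Bf_le_of t0 hθ hp hδ.le hm)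
  have k1' : c ≤ kap θ' (Bf θ' p' m') :=
    kap_ge hθ0.le h0' hθ' (by positivity) (abs_Bf_le_of t0' hθ' hp' hδ.le hm')
  unfold LK
  constructor
  · have a1 : Real.log (kap θ (Bf θ p m)) ≤ 0 := Real.log_nonpos (hc.le.trans k1)
      ((kap_le t0 hθ hb).trans ((theta_le hθ).trans (by norm_num)))
    have a2 := Real.log_le_log hc k1
    rw [abs_of_nonpos a1]
    linarith [neg_abs_le (Real.log c)]
  · refine (abs_log_sub_le hc k1 k1').trans ?_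
    have s1 := abs_Bf_le_sum t0 hθ hp hm1
    have s2 := abs_Bf_le_sum t0' hθ' hp' hm1'
    have s3 := Bf_lip t0 hθ t0' hθ' hp hp' hm1 hm1'
    have s4 := rr_lip' hθ hb hb'
    have s5 := kap_θ t0 hθ t0' hθ' hb'
    set B := Bf θ p m
    set B' := Bf θ' p' m'
    have s6 : |kap θ B - kap θ B'| ≤ |rr θ B - rr θ B'| := by
      unfold kap
      rw [← mul_sub, abs_mul, abs_of_nonneg t0]
      exact mul_le_of_le_one_left (abs_nonneg _) ((theta_le hθ).trans (by norm_num))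
    have s7 := abs_sub_le (kap θ B) (kap θ B') (kap θ' B')
    have n1 : 0 ≤ |p - p'| + |m - m'| := by positivity
    have s8 := mul_le_mul_of_nonneg_left s3 (show 0 ≤ |B| + |B'| by positivity)
    have s9 := mul_le_mul_of_nonneg_right (add_le_add s1 s2) n1
    have s10 := mul_le_mul_of_nonneg_right (add_le_add hb hb') (abs_nonneg (θ - θ'))
    have n2 := abs_nonneg (θ - θ')
    set X := (|p| + |m| + |p'| + |m'|) * (|p - p'| + |m - m'|) + |θ - θ'| with hX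
    have X0 : 0 ≤ X := by positivity
    have s11 : |kap θ B - kap θ' B'| ≤ 20000 * X := by rw [hX]; linarith
    have s12 := div_le_div_of_nonneg_right s11 hc.le
    have s13 := mul_nonneg (abs_nonneg (Real.log c)) X0
    have e : 20000 * X / c = 20000 / c * X := by ring
    linarith

variable {V : Type u} {G : SimpleGraph V} [G.LocallyFinite] {d : ℕ}

lemma measurable_Ch (θ : ℝ) (u v : V) : Measurable (Ch G θ u v) := by
  unfold Ch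
  refine Measurable.mul (by fun_prop) (Finset.measurable_prod _ fun w _ => ?_)
  unfold kap rr Bf; fun_prop

lemma Ch_neg (θ : ℝ) (u v : V) (m : V → ℝ) : Ch G θ u v (fun w => -m w) = Ch G θ u v m := by
  unfold Ch
  simp only [Bf_neg, kap_neg, neg_sq]

lemma Ch_iso (hT : Tr G d) (g : G ≃g G) (θ : ℝ) (u v : V) (m : V → ℝ) :
    Ch G θ u v (fun w => m (g w)) = Ch G θ (g u) (g v) m := by
  unfold Ch
  rw [prod_pth_iso hT g u v fun w p => kap θ (Bf θ (m p) (m w))]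

lemma Ch_nonneg {θ : ℝ} (h0 : 0 ≤ θ) (hθ : θ ^ 2 ≤ 1 / 2) (u v : V) {m : V → ℝ}
    (hm : ∀ w, |m w| ≤ 1) : 0 ≤ Ch G θ u v m := by
  exact mul_nonneg (by linarith [sq_le_one_of_abs (hm u)])
    (Finset.prod_nonneg fun w _ => kap_nonneg h0 hθ (abs_Bf_le h0 hθ (hm _) (hm _)))

lemma Ch_le (hT : Tr G d) {θ : ℝ} (h0 : 0 ≤ θ) (hθ : θ ^ 2 ≤ 1 / 2) (u v : V) {m : V → ℝ}
    (hm : ∀ w, |m w| ≤ 1) : Ch G θ u v m ≤ θ ^ G.dist u v := by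
  have h1 : ∏ w ∈ pth G u v, kap θ (Bf θ (m (tw G u w)) (m w)) ≤ ∏ _w ∈ pth G u v, θ :=
    Finset.prod_le_prod (fun w _ => kap_nonneg h0 hθ (abs_Bf_le h0 hθ (hm _) (hm _)))
      fun w _ => kap_le h0 hθ (abs_Bf_le h0 hθ (hm _) (hm _))
  rw [Finset.prod_const, card_pth hT] at h1
  exact (mul_le_of_le_one_left
    (Finset.prod_nonneg fun w _ => kap_nonneg h0 hθ (abs_Bf_le h0 hθ (hm _) (hm _)))
    (by linarith [sq_nonneg (m u)])).trans h1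

lemma abs_mul_sub_mul_le {a b a' b' : ℝ} (hb0 : 0 ≤ b) (hb : b ≤ 1) (ha0 : 0 ≤ a')
    (ha : a' ≤ 1) : |a * b - a' * b'| ≤ |a - a'| + |b - b'| := by
  rw [show a * b - a' * b' = (a - a') * b + a' * (b - b') by ring]
  refine (abs_add_le _ _).trans ?_
  rw [abs_mul, abs_mul, abs_of_nonneg hb0, abs_of_nonneg ha0]
  exact add_le_add (mul_le_of_le_one_right (abs_nonneg _) hb)
    (mul_le_of_le_one_left (abs_nonneg _) ha)

lemma abs_prod_sub_prod_le {X : Type*} (s : Finset X) {f g : X → ℝ} (hf0 : ∀ x, 0 ≤ f x)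
    (hf : ∀ x, f x ≤ 1) (hg0 : ∀ x, 0 ≤ g x) (hg : ∀ x, g x ≤ 1) :
    |∏ x ∈ s, f x - ∏ x ∈ s, g x| ≤ ∑ x ∈ s, |f x - g x| := by
  induction s using Finset.induction_on with
  | empty => simp
  | insert a s ha ih =>
    rw [Finset.prod_insert ha, Finset.prod_insert ha, Finset.sum_insert ha]
    exact (abs_mul_sub_mul_le (Finset.prod_nonneg fun x _ => hf0 x)
      (Finset.prod_le_one (fun x _ => hf0 x) fun x _ => hf x) (hg0 a) (hg a)).trans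
      (add_le_add le_rfl ih)

/-- `Ch = θ^k (1 - m_u²) ∏ rr`, a product of `k+1` factors in [0,1]; telescoping, `rr_lip`,
`Bf_lip` and Cauchy-Schwarz over the `2k+1` terms. -/
lemma Ch_lip_sq (hT : Tr G d) {θ : ℝ} (h0 : 0 ≤ θ) (hθ : θ ^ 2 ≤ 1 / 2) (u v : V)
    {m m' : V → ℝ} (hm : ∀ w, |m w| ≤ 1) (hm' : ∀ w, |m' w| ≤ 1) :
    (Ch G θ u v m - Ch G θ u v m') ^ 2 ≤
      10 ^ 6 * θ ^ (2 * G.dist u v) * (G.dist u v + 1) * ((m u - m' u) ^ 2 +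
        ∑ w ∈ pth G u v, ((m w - m' w) ^ 2 + (m (tw G u w) - m' (tw G u w)) ^ 2)) := by
  have e : ∀ m : V → ℝ, Ch G θ u v m = θ ^ G.dist u v *
      ((1 - m u ^ 2) * ∏ w ∈ pth G u v, rr θ (Bf θ (m (tw G u w)) (m w))) := by
    intro m
    unfold Ch kap
    rw [Finset.prod_mul_distrib, Finset.prod_const, card_pth hT]; ring
  have b : ∀ w, |Bf θ (m (tw G u w)) (m w)| ≤ 1 := fun w => abs_Bf_le h0 hθ (hm _) (hm _)
  have b' : ∀ w, |Bf θ (m' (tw G u w)) (m' w)| ≤ 1 := fun w => abs_Bf_le h0 hθ (hm' _) (hm' _)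
  have h1 := abs_prod_sub_prod_le (pth G u v) (fun w => rr_nonneg hθ (b w))
    (fun w => rr_le_one hθ (b w)) (fun w => rr_nonneg hθ (b' w)) fun w => rr_le_one hθ (b' w)
  have h2 := abs_mul_sub_mul_le (a := 1 - m u ^ 2) (a' := 1 - m' u ^ 2)
    (b' := ∏ w ∈ pth G u v, rr θ (Bf θ (m' (tw G u w)) (m' w)))
    (Finset.prod_nonneg (s := pth G u v) fun w _ => rr_nonneg hθ (b w))
    (Finset.prod_le_one (fun w _ => rr_nonneg hθ (b w)) fun w _ => rr_le_one hθ (b w))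
    (by linarith [sq_le_one_of_abs (hm' u)]) (by linarith [sq_nonneg (m' u)])
  have h3 : |1 - m u ^ 2 - (1 - m' u ^ 2)| ≤ 2 * |m u - m' u| := by
    rw [show 1 - m u ^ 2 - (1 - m' u ^ 2) = -((m u + m' u) * (m u - m' u)) by ring, abs_neg,
      abs_mul]
    exact mul_le_mul_of_nonneg_right ((abs_add_le _ _).trans (by linarith [hm u, hm' u]))
      (abs_nonneg _)
  have h4 := sq_sum_le_card_mul_sum_sq (s := pth G u v) (f := fun w =>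
    |rr θ (Bf θ (m (tw G u w)) (m w)) - rr θ (Bf θ (m' (tw G u w)) (m' w))|)
  rw [card_pth hT] at h4
  have h5 : ∑ w ∈ pth G u v,
      |rr θ (Bf θ (m (tw G u w)) (m w)) - rr θ (Bf θ (m' (tw G u w)) (m' w))| ^ 2 ≤
      320000 * ∑ w ∈ pth G u v,
        ((m w - m' w) ^ 2 + (m (tw G u w) - m' (tw G u w)) ^ 2) := by
    rw [Finset.mul_sum]
    refine Finset.sum_le_sum fun w _ => ?_
    have a1 := rr_lip hθ (b w) (b' w)
    have a2 := Bf_lip h0 hθ h0 hθ (hm (tw G u w)) (hm' (tw G u w)) (hm w) (hm' w)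
    rw [sub_self, abs_zero, add_zero] at a2
    have a3 := pow_le_pow_left₀ (abs_nonneg _) (a1.trans (mul_le_mul_of_nonneg_left a2
      (by norm_num))) 2
    rw [← sq_abs (m w - m' w), ← sq_abs (m (tw G u w) - m' (tw G u w))]
    nlinarith [sq_nonneg (|m w - m' w| - |m (tw G u w) - m' (tw G u w)|)]
  rw [e, e, ← mul_sub, mul_pow, ← pow_mul, mul_comm (G.dist u v) 2]
  set S := ∑ w ∈ pth G u v,
      |rr θ (Bf θ (m (tw G u w)) (m w)) - rr θ (Bf θ (m' (tw G u w)) (m' w))|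
  set T := ∑ w ∈ pth G u v, ((m w - m' w) ^ 2 + (m (tw G u w) - m' (tw G u w)) ^ 2) with hT'
  have T0 : 0 ≤ T := Finset.sum_nonneg fun w _ => by positivity
  have k0 : (0 : ℝ) ≤ G.dist u v := Nat.cast_nonneg _
  have h6 := pow_le_pow_left₀ (abs_nonneg _) (h2.trans (add_le_add h3 h1)) 2
  rw [sq_abs] at h6
  have h7 := h4.trans (mul_le_mul_of_nonneg_left h5 k0)
  have h8 : (2 * |m u - m' u| + S) ^ 2 ≤ 8 * (m u - m' u) ^ 2 + 2 * S ^ 2 := by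
    rw [← sq_abs (m u - m' u)]
    nlinarith [sq_nonneg (2 * |m u - m' u| - S)]
  have h9 := mul_nonneg k0 (sq_nonneg (m u - m' u))
  have h10 := mul_nonneg k0 T0
  have h11 := sq_nonneg (m u - m' u)
  rw [mul_comm (10 ^ 6 : ℝ), mul_assoc, mul_assoc]
  refine mul_le_mul_of_nonneg_left ?_ (by positivity)
  linarith

lemma exp_sub_sq_le (a b : ℝ) :
    (Real.exp a - Real.exp b) ^ 2 ≤ (Real.exp a ^ 2 + Real.exp b ^ 2) * (a - b) ^ 2 := by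
  have key : ∀ a b : ℝ, b ≤ a → (Real.exp a - Real.exp b) ^ 2 ≤ Real.exp a ^ 2 * (a - b) ^ 2 := by
    intro a b h
    rw [← mul_pow]
    refine pow_le_pow_left₀ (sub_nonneg.2 (Real.exp_le_exp.2 h)) ?_ 2
    have h1 := mul_le_mul_of_nonneg_left (Real.add_one_le_exp (b - a)) (Real.exp_pos a).le
    rw [← Real.exp_add, add_sub_cancel] at h1
    linarith
  rcases le_total b a with h | h
  · have := key a b h
    nlinarith [mul_nonneg (sq_nonneg (Real.exp b)) (sq_nonneg (a - b))]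
  · have := key b a h
    nlinarith [mul_nonneg (sq_nonneg (Real.exp a)) (sq_nonneg (a - b))]

lemma Ch_eq_exp {θ : ℝ} (h0 : 0 < θ) (hθ : θ ^ 2 ≤ 1 / 2) (u v : V) {m : V → ℝ}
    (hm : ∀ w, |m w| < 1) : Ch G θ u v m =
      Real.exp (Real.log (1 - m u ^ 2) + ∑ w ∈ pth G u v, LK θ (m (tw G u w)) (m w)) := by
  have h1 : m u ^ 2 < 1 := by
    rw [← sq_abs]; exact pow_lt_one₀ (abs_nonneg _) (hm u) (by norm_num)
  rw [Real.exp_add, Real.exp_log (by linarith), Real.exp_sum]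
  unfold Ch LK
  congr 1
  refine Finset.prod_congr rfl fun w _ => (Real.exp_log (mul_pos h0 (rr_pos hθ ?_))).symm
  have := abs_Bf_le_of (δ := 1 - |m w|) (m := m w) h0.le hθ (hm (tw G u w)).le
    (by linarith [hm w]) (by linarith)
  linarith [hm w]

/-- all factors are positive, `Ch = exp (log (1 - m_u²) + ∑ LK)`, and
`|e^a - e^b| ≤ max (e^a) (e^b) |a - b|`. -/
lemma Ch_diff_sq {θ θ' : ℝ} (h0 : 0 < θ) (hθ : θ ^ 2 ≤ 1 / 2) (h0' : 0 < θ')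
    (hθ' : θ' ^ 2 ≤ 1 / 2) (u v : V) {m m' : V → ℝ} (hm : ∀ w, |m w| < 1)
    (hm' : ∀ w, |m' w| < 1) :
    (Ch G θ u v m - Ch G θ' u v m') ^ 2 ≤ (Ch G θ u v m ^ 2 + Ch G θ' u v m' ^ 2) *
      ((Real.log (1 - m u ^ 2) - Real.log (1 - m' u ^ 2)) +
        ∑ w ∈ pth G u v, (LK θ (m (tw G u w)) (m w) - LK θ' (m' (tw G u w)) (m' w))) ^ 2 := by
  rw [Ch_eq_exp h0 hθ u v hm, Ch_eq_exp h0' hθ' u v hm']
  refine (exp_sub_sq_le _ _).trans (le_of_eq ?_)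
  rw [Finset.sum_sub_distrib]
  ring

end

end Crest.Agent.R160
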