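import Crest.Agent.R160.PostA

/-!
Row 160, PostB: the posterior mean in infinite volume.
For a centre `o` let `A n T = {c | c.2 ∈ ball o n} ∩ A T`.  By `bayes`, `ae_eq_condExp_inf`,
`tilt_congr` and `indicator_fld`, `tilt ν u (ball o n) (fld (A T) o)` is a version of
`E[σ_u | inf (A n)]`; Lévy's upward theorem (`tendsto_ae_condExp`, `iSup_inf`) gives a.s.
convergence to `E[σ_u | inf A]`.  With `o = u` and `slim_of_tendsto` the limit is `Mg`.
`ae_conv`: countably many such statements (`Tr.countable`, `ae_all_iff`), for the restricted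
fields use `indicator_fld` and `Rule.inter`.  `levy`: Lévy again, with `Mg_ae_eq`.
-/

set_option autoImplicit false

open MeasureTheory Filter Topology
open scoped Classical

namespace Crest.Agent.R160

noncomputable section

universe u

variable {V : Type u} {G : SimpleGraph V} [G.LocallyFinite] {d : ℕ} {θ : ℝ}
  {ν : Measure (V → Bool)}

lemma measurable_sp_fst (u : V) : Measurable fun ω : Om V => sp (ω.1 u) := by fun_prop

lemma tendsto_tilt (hW : Wd G d θ ν) {A : Cf V → Set (ℤ × V)} (hA : Rule A) (u o : V) :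
    ∀ᵐ ω ∂PP ν, Tendsto (fun n => tilt ν u (ball G o n) (fld (A ω.2.2) (obs ω))) atTop
      (𝓝 (((PP ν)[fun ω => sp (ω.1 u) | inf A]) ω)) := by
  have := hW.prob
  set An : ℕ → Cf V → Set (ℤ × V) := fun n T => {c | c.2 ∈ ball G o n} ∩ A T with hAn
  have hR : ∀ n, Rule (An n) := fun n =>
    hA.inter (B := fun _ => {c | c.2 ∈ ball G o n}) fun c => MeasurableSet.const _
  have hmono : ∀ T, Monotone fun n => An n T := fun T n m h c hc =>
    ⟨ball_mono o h hc.1, hc.2⟩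
  have hU : ∀ T, ⋃ n, An n T = A T := fun T => by
    ext c
    simp only [hAn, Set.mem_iUnion, Set.mem_inter_iff, Set.mem_ofPred_eq]
    exact ⟨fun ⟨_, h⟩ => h.2, fun h => ⟨G.dist o c.2, (mem_ball hW.tr).2 le_rfl, h⟩⟩
  let ℱ : Filtration ℕ (inferInstance : MeasurableSpace (Om V)) :=
    { seq := fun n => inf (An n)
      mono' := fun n m h => inf_mono (hR n).meas fun T => hmono T h
      le' := fun n => inf_le (hR n).meas }
  have hc : ∀ n, (fun ω => tilt ν u (ball G o n) (fld (An n (obs ω).2) (obs ω))) =ᵐ[PP ν]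
      (PP ν)[fun ω => sp (ω.1 u) | inf (An n)] := fun n =>
    ae_eq_condExp_inf ν (hR n).meas (measurable_sp_fst u)
      (M := fun o' => tilt ν u (ball G o n) (fld (An n o'.2) o'))
      ((measurable_tilt ν u _).comp (hR n).measurable_fld) (dep_fld (An n) _) (C := 1)
      (fun ω => (abs_sp _).le) (fun o' => abs_tilt_le ν u _ _)
      fun Φ h1 h2 h3 => bayes ν (hR n) (fun T c hc => hc.1) u h1 h2 h3
  have hl := tendsto_ae_condExp (μ := PP ν) (ℱ := ℱ) (fun ω => sp (ω.1 u))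
  have hs : (⨆ n, ℱ n) = inf A := iSup_inf (fun n => (hR n).meas) hmono hU
  rw [hs] at hl
  filter_upwards [hl, ae_all_iff.2 hc] with ω h1 h2
  refine h1.congr fun n => ?_
  refine (h2 n).symm.trans (tilt_congr ν u _ fun v hv => fld_congr (fun j => ?_) fun _ _ => ⟨rfl, rfl⟩)
  exact ⟨fun h => h.2, fun h => ⟨hv, h⟩⟩

theorem Mg_ae_eq (hW : Wd G d θ ν) {A : Cf V → Set (ℤ × V)} (hA : Rule A) (u : V) :
    (fun ω => Mg G ν u (fld (A ω.2.2) (obs ω))) =ᵐ[PP ν]
      (PP ν)[fun ω => sp (ω.1 u) | inf A] := by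
  filter_upwards [tendsto_tilt hW hA u u] with ω h using slim_of_tendsto h

theorem post (hW : Wd G d θ ν) {A : Cf V → Set (ℤ × V)} (hA : Rule A) (u : V)
    {Φ : Ob V → ℝ} (hΦ : Measurable Φ) {C : ℝ} (hC : ∀ o, |Φ o| ≤ C) (hd : Dep A Φ) :
    ∫ ω, sp (ω.1 u) * Φ (obs ω) ∂PP ν =
      ∫ ω, Mg G ν u (fld (A ω.2.2) (obs ω)) * Φ (obs ω) ∂PP ν := by
  have := hW.prob
  exact integral_mul_of_ae_eq_condExp ν hA.meas (measurable_sp_fst u) (C := 1)
    (fun ω => (abs_sp _).le) (Mg_ae_eq hW hA u) hΦ hC hd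

lemma tendsto_tilt_Mg (hW : Wd G d θ ν) {A : Cf V → Set (ℤ × V)} (hA : Rule A) :
    ∀ᵐ ω ∂PP ν, ∀ u o, Tendsto (fun n => tilt ν u (ball G o n) (fld (A ω.2.2) (obs ω))) atTop
      (𝓝 (Mg G ν u (fld (A ω.2.2) (obs ω)))) := by
  have := hW.tr.countable
  refine ae_all_iff.2 fun u => ae_all_iff.2 fun o => ?_
  filter_upwards [tendsto_tilt hW hA u o, Mg_ae_eq hW hA u] with ω h1 h2
  rwa [h2]

theorem ae_conv (hW : Wd G d θ ν) {A : Cf V → Set (ℤ × V)} (hA : Rule A) :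
    ∀ᵐ ω ∂PP ν, Conv G ν (fld (A ω.2.2) (obs ω)) := by
  have := hW.tr.countable
  have h2 : ∀ᵐ ω ∂PP ν, ∀ z x, ∀ u o, Tendsto (fun n => tilt ν u (ball G o n)
      (fld ({c | c.2 ∈ sub G z x} ∩ A ω.2.2) (obs ω))) atTop
      (𝓝 (Mg G ν u (fld ({c | c.2 ∈ sub G z x} ∩ A ω.2.2) (obs ω)))) :=
    ae_all_iff.2 fun z => ae_all_iff.2 fun x =>
      tendsto_tilt_Mg hW (A := fun T => {c | c.2 ∈ sub G z x} ∩ A T)
        (hA.inter (B := fun _ => {c | c.2 ∈ sub G z x}) fun c => MeasurableSet.const _)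
  filter_upwards [tendsto_tilt_Mg hW hA, h2] with ω h1 h2
  refine ⟨h1, fun z x _ u o => ?_⟩
  rw [indicator_fld, Set.inter_comm]
  exact h2 z x u o

theorem levy (hW : Wd G d θ ν) {An : ℕ → Cf V → Set (ℤ × V)} {A : Cf V → Set (ℤ × V)}
    (hAn : ∀ n, Rule (An n)) (hA : Rule A) (hmono : ∀ T, Monotone fun n => An n T)
    (hU : ∀ T, ⋃ n, An n T = A T) (u : V) :
    ∀ᵐ ω ∂PP ν, Tendsto (fun n => Mg G ν u (fld (An n ω.2.2) (obs ω))) atTop
      (𝓝 (Mg G ν u (fld (A ω.2.2) (obs ω)))) := by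
  have := hW.prob
  let ℱ : Filtration ℕ (inferInstance : MeasurableSpace (Om V)) :=
    { seq := fun n => inf (An n)
      mono' := fun n m h => inf_mono (hAn n).meas fun T => hmono T h
      le' := fun n => inf_le (hAn n).meas }
  have hl := tendsto_ae_condExp (μ := PP ν) (ℱ := ℱ) (fun ω => sp (ω.1 u))
  have hs : (⨆ n, ℱ n) = inf A := iSup_inf (fun n => (hAn n).meas) hmono hU
  rw [hs] at hl
  filter_upwards [hl, ae_all_iff.2 fun n => Mg_ae_eq hW (hAn n) u, Mg_ae_eq hW hA u]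
    with ω h1 h2 h3
  rw [h3]
  exact h1.congr fun n => (h2 n).symm

lemma ae_conv_fy (hW : Wd G d θ ν) (r : ℝ) : ∀ᵐ ω ∂PP ν, Conv G ν (fy r (obs ω)) :=
  ae_conv hW (rule_bt r)

lemma ae_conv_fS (hW : Wd G d θ ν) (S : Set V) {s : V → ℝ} {I : ℝ} (hs : ∀ v, s v ≤ I) :
    ∀ᵐ ω ∂PP ν, Conv G ν (fS S s (obs ω)) :=
  ae_conv hW (rule_bef S hs)

lemma Coup.ae_conv {ν' : Measure (V → Bool)} {θ' : ℝ} {Γ : Ob V → Ob V} (h : Coup G ν ν' Γ)
    (hW' : Wd G d θ' ν') (r : ℝ) : ∀ᵐ ω ∂PP ν, Conv G ν' (fy r (Γ (obs ω))) := by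
  have := hW'.prob
  have hm : Measurable fun o : Ob V => fy r o :=
    measurable_fy.comp (measurable_const.prodMk measurable_id)
  exact h.ae (P := fun o => Conv G ν' (fy r o)) (hm (measurableSet_conv hW'.tr ν'))
    (ae_conv_fy hW' r)

lemma measurable_Mg_obs (hW : Wd G d θ ν) {A : Cf V → Set (ℤ × V)} (hA : Rule A) (u : V) :
    Measurable fun ω : Om V => Mg G ν u (fld (A ω.2.2) (obs ω)) := by
  have := hW.prob
  have h := ((measurable_Mg (G := G) ν u).comp hA.measurable_fld).comp measurable_obs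
  exact h

/-- more information is orthogonal to less information -/
lemma post_tower (hW : Wd G d θ ν) {A B : Cf V → Set (ℤ × V)} (hA : Rule A) (hB : Rule B)
    (hAB : ∀ T, A T ⊆ B T) (u : V) {Φ : Ob V → ℝ} (hΦ : Measurable Φ) {C : ℝ}
    (hC : ∀ o, |Φ o| ≤ C) (hd : Dep A Φ) :
    ∫ ω, (Mg G ν u (fld (B ω.2.2) (obs ω)) - Mg G ν u (fld (A ω.2.2) (obs ω))) * Φ (obs ω)
      ∂PP ν = 0 := by
  have := hW.prob
  have hi : ∀ {D : Cf V → Set (ℤ × V)}, Rule D → Integrable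
      (fun ω => Mg G ν u (fld (D ω.2.2) (obs ω)) * Φ (obs ω)) (PP ν) := fun hD =>
    integrable_of_bdd ((measurable_Mg_obs hW hD u).mul (hΦ.comp measurable_obs)) (C := C)
      fun ω => by
        rw [abs_mul]
        exact (mul_le_of_le_one_left (abs_nonneg _) (abs_Mg_le ν _ _)).trans (hC _)
  simp only [sub_mul]
  rw [integral_sub (hi hB) (hi hA), ← post hW hA u hΦ hC hd, ← post hW hB u hΦ hC (hd.mono hAB),
    sub_self]

/-- the posterior mean is the best predictor: `E (σ - M)² ≤ E (σ - X)²` -/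
lemma post_best (hW : Wd G d θ ν) {A : Cf V → Set (ℤ × V)} (hA : Rule A) (u : V)
    {X : Ob V → ℝ} (hX : Measurable X) {C : ℝ} (hC : ∀ o, |X o| ≤ C) (hd : Dep A X) :
    ∫ ω, (sp (ω.1 u) - Mg G ν u (fld (A ω.2.2) (obs ω))) ^ 2 ∂PP ν ≤
      ∫ ω, (sp (ω.1 u) - X (obs ω)) ^ 2 ∂PP ν := by
  have := hW.prob
  set M : Ob V → ℝ := fun o => Mg G ν u (fld (A o.2) o) with hM
  have mM : Measurable M := (measurable_Mg (G := G) ν u).comp hA.measurable_fld
  have bM : ∀ o, |M o| ≤ 1 := fun o => abs_Mg_le ν _ _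
  have bD : ∀ o, |M o - X o| ≤ 1 + C := fun o =>
    (abs_sub _ _).trans (add_le_add (bM o) (hC o))
  have h := post hW hA u (Φ := fun o => M o - X o) (mM.sub hX) bD fun o o' h1 h2 => by
    have e1 := dep_fld A (Mg G ν u) o o' h1 h2
    simp only [hM] at e1 ⊢
    rw [e1, hd o o' h1 h2]
  have ms := measurable_sp_fst (V := V) u
  have mM' : Measurable fun ω : Om V => M (obs ω) := mM.comp measurable_obs
  have mX' : Measurable fun ω : Om V => X (obs ω) := hX.comp measurable_obs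
  have i1 : Integrable (fun ω : Om V => sp (ω.1 u) * (M (obs ω) - X (obs ω))) (PP ν) :=
    integrable_of_bdd (ms.mul (mM'.sub mX')) (C := 1 + C) fun ω => by
      rw [abs_mul, abs_sp, one_mul]; exact bD _
  have i2 : Integrable (fun ω : Om V => M (obs ω) * (M (obs ω) - X (obs ω))) (PP ν) :=
    integrable_of_bdd (mM'.mul (mM'.sub mX')) (C := 1 + C) fun ω => by
      rw [abs_mul]; exact (mul_le_of_le_one_left (abs_nonneg _) (bM _)).trans (bD _)
  have i3 : Integrable (fun ω : Om V => (sp (ω.1 u) - X (obs ω)) ^ 2) (PP ν) :=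
    integrable_of_bdd ((ms.sub mX').pow_const 2) (C := (1 + C) ^ 2) fun ω => by
      rw [abs_pow]
      refine pow_le_pow_left₀ (abs_nonneg _) ((abs_sub _ _).trans ?_) 2
      rw [abs_sp]; linarith [hC (obs ω)]
  have i4 : Integrable (fun ω : Om V => sp (ω.1 u) * (M (obs ω) - X (obs ω)) -
      M (obs ω) * (M (obs ω) - X (obs ω))) (PP ν) := i1.sub i2
  calc ∫ ω, (sp (ω.1 u) - M (obs ω)) ^ 2 ∂PP ν
      ≤ ∫ ω, ((sp (ω.1 u) - X (obs ω)) ^ 2 - 2 * (sp (ω.1 u) * (M (obs ω) - X (obs ω)) -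
          M (obs ω) * (M (obs ω) - X (obs ω)))) ∂PP ν := by
        refine integral_mono_of_nonneg (ae_of_all _ fun ω => sq_nonneg _)
          (i3.sub (i4.const_mul 2)) (ae_of_all _ fun ω => ?_)
        simp only
        nlinarith [sq_nonneg (M (obs ω) - X (obs ω))]
    _ = _ := by
        have h' : ∫ ω, sp (ω.1 u) * (M (obs ω) - X (obs ω)) ∂PP ν =
            ∫ ω, M (obs ω) * (M (obs ω) - X (obs ω)) ∂PP ν := h
        rw [integral_sub i3 (i4.const_mul 2), integral_const_mul, integral_sub i1 i2, h']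
        simp

end

end Crest.Agent.R160
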