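import Crest.Agent.R160.Hom
import Crest.Agent.R160.PostB
import Crest.Agent.R160.Markov

/-!
Row 160, CmpA: covariance-weighted sums, controlled by the moments of `Zs` (world `ν'` seen
through the coupling `Γ`; `Γ = id` is allowed).

`trunc1`: `X² Z ≤ 2B X² + 4 Z 1(Z > 2B)` and `Z 1(Z > 2B) ≤ Z^p/(2B)^(p-1)`.
`trunc2`: `Z Z' g² ≤ 4B² g² + Gb² (Z² 1(Z > 2B) + Z'² 1(Z' > 2B))`, `Z² 1(Z>2B) ≤ Z^p/(2B)^(p-2)`.
`cmpA`: pick a neighbour `x` of `u`; `sum_Cv_sq_le`, `trunc1`, `Coup.integral_eq`.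
`cmpA2`: `F u v = E[Cv u v² X v²]` is invariant (`integral_pull`, `obs_pull`, `Coup.equi`, `fy_pullO`,
`Cv_iso`), so `F u v = F v u = E[Cv u v² X u²]` (`symm_of_inv`, `Cv_symm`, `Coup.ae_conv`).
`cmpB`: for `w ∈ pth u v`, `p = tw u w`, `k = dist u v > ks`: a.s.
`k Cv u v² ≤ k θ'^(2k) Wp p u Wp w v ≤ lm^(dist p u) Wp p u * lm^(dist w v) Wp w v` (`Cv_split`,
`Wp ≤ 1`, `dist_split`, `hks`).  Exchange the sums (`w ∈ (ball u R).erase u`, `v ∈ sb w p R` by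
`mem_sub_of_mem_pth`): the total is at most `∑ w ∈ (ball u R).erase u, F u w` with
`F u w = E[lm^(dist p u) Wp p u * Zs w p R * g w p²]`, `p = tw u w`.  `F` is invariant (`tw_iso`,
`Wp_iso`, `Zs_iso`), so `F u w = F w u`, and `sum_ball_erase_le` bounds the sum by
`∑ p ∈ neighborFinset u, E[Zs p u R * Zs u p R * g u p²]`; apply `trunc2`.
-/

set_option autoImplicit false

open MeasureTheory Filter Topology
open scoped Classical

namespace Crest.Agent.R160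

noncomputable section

universe u

variable {V : Type u} {G : SimpleGraph V} [G.LocallyFinite] {d : ℕ} {θ : ℝ}
  {ν : Measure (V → Bool)}

lemma ca_tail {z c : ℝ} (hc : 0 < c) (h : c ≤ z) (k q : ℕ) : z ^ k ≤ z ^ (k + q) / c ^ q := by
  rw [le_div_iff₀ (by positivity), pow_add]
  have := hc.le.trans h
  gcongr

lemma ca_sq {x c : ℝ} (h : |x| ≤ c) : x ^ 2 ≤ c ^ 2 := sq_le_sq' (abs_le.1 h).1 (abs_le.1 h).2

lemma ca_mul {a b A B : ℝ} (ha : |a| ≤ A) (hb : |b| ≤ B) : |a * b| ≤ A * B := by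
  rw [abs_mul]
  exact mul_le_mul ha hb (abs_nonneg _) ((abs_nonneg _).trans ha)

lemma ca_pow {a A : ℝ} (ha : |a| ≤ A) (n : ℕ) : |a ^ n| ≤ A ^ n := by
  rw [abs_pow]; exact pow_le_pow_left₀ (abs_nonneg _) ha n

lemma trunc1 {Ω : Type*} [MeasurableSpace Ω] (P : Measure Ω) [IsProbabilityMeasure P]
    {X Z : Ω → ℝ} (hX : Measurable X) (hZ : Measurable Z) (bX : ∀ ω, |X ω| ≤ 2)
    (h0 : ∀ ω, 0 ≤ Z ω) {C : ℝ} (bZ : ∀ ω, Z ω ≤ C) {p : ℕ} (hp : 1 ≤ p) {B D : ℝ} (hB : 0 < B)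
    (hZp : ∫ ω, Z ω ^ p ∂P ≤ B ^ p) (hD : ∫ ω, X ω ^ 2 ∂P ≤ D) :
    ∫ ω, Z ω * X ω ^ 2 ∂P ≤ 2 * B * D + 8 * B / 2 ^ p := by
  obtain ⟨q, rfl⟩ := Nat.exists_eq_add_of_le hp
  have aZ : ∀ ω, |Z ω| ≤ C := fun ω => by rw [abs_of_nonneg (h0 ω)]; exact bZ ω
  have i1 := (integrable_of_bdd (P := P) (hX.pow_const 2) fun ω => ca_pow (bX ω) 2).const_mul (2 * B)
  have i2 := (integrable_of_bdd (P := P) (hZ.pow_const (1 + q)) fun ω =>
    ca_pow (aZ ω) _).const_mul (4 / (2 * B) ^ q)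
  calc _ ≤ ∫ ω, 2 * B * X ω ^ 2 + 4 / (2 * B) ^ q * Z ω ^ (1 + q) ∂P := by
        refine integral_mono (integrable_of_bdd (hZ.mul (hX.pow_const 2))
          fun ω => ca_mul (aZ ω) (ca_pow (bX ω) 2)) (i1.add i2) fun ω => ?_
        have h1 := h0 ω
        have h2 := ca_sq (bX ω)
        have h3 : 0 ≤ 4 / (2 * B) ^ q * Z ω ^ (1 + q) := by positivity
        rcases le_total (Z ω) (2 * B) with h | h
        · exact le_add_of_le_of_nonneg (by gcongr) h3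
        · refine le_add_of_nonneg_of_le (by positivity) ?_
          calc Z ω * X ω ^ 2 ≤ Z ω ^ (1 + q) / (2 * B) ^ q * 2 ^ 2 := by
                gcongr
                simpa using ca_tail (by positivity) h 1 q
            _ = _ := by ring
    _ ≤ 2 * B * D + 4 / (2 * B) ^ q * B ^ (1 + q) := by
        rw [integral_add i1 i2, integral_const_mul, integral_const_mul]
        gcongr
    _ = _ := by rw [mul_pow]; field_simp; ring

lemma trunc2 {Ω : Type*} [MeasurableSpace Ω] (P : Measure Ω) [IsProbabilityMeasure P]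
    {g Z Z' : Ω → ℝ} (hg : Measurable g) (hZ : Measurable Z) (hZ' : Measurable Z') {Gb : ℝ}
    (bg : ∀ ω, |g ω| ≤ Gb) (h0 : ∀ ω, 0 ≤ Z ω) (h0' : ∀ ω, 0 ≤ Z' ω) {C : ℝ}
    (bZ : ∀ ω, Z ω ≤ C) (bZ' : ∀ ω, Z' ω ≤ C) {p : ℕ} (hp : 2 ≤ p) {B W : ℝ} (hB : 0 < B)
    (hZp : ∫ ω, Z ω ^ p ∂P ≤ B ^ p) (hZp' : ∫ ω, Z' ω ^ p ∂P ≤ B ^ p)
    (hW : ∫ ω, g ω ^ 2 ∂P ≤ W) :
    ∫ ω, Z ω * Z' ω * g ω ^ 2 ∂P ≤ 4 * B ^ 2 * W + 8 * Gb ^ 2 * B ^ 2 / 2 ^ p := by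
  obtain ⟨q, rfl⟩ := Nat.exists_eq_add_of_le hp
  have aZ : ∀ ω, |Z ω| ≤ C := fun ω => by rw [abs_of_nonneg (h0 ω)]; exact bZ ω
  have aZ' : ∀ ω, |Z' ω| ≤ C := fun ω => by rw [abs_of_nonneg (h0' ω)]; exact bZ' ω
  have i1 := (integrable_of_bdd (P := P) (hg.pow_const 2) fun ω =>
    ca_pow (bg ω) 2).const_mul (4 * B ^ 2)
  have i2 := integrable_of_bdd (P := P) (hZ.pow_const (2 + q)) fun ω => ca_pow (aZ ω) _
  have i3 := integrable_of_bdd (P := P) (hZ'.pow_const (2 + q)) fun ω => ca_pow (aZ' ω) _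
  have i4 := (i2.fun_add i3).const_mul (Gb ^ 2 / (2 * B) ^ q)
  have key : ∀ z z' x : ℝ, 0 ≤ z' → z' ≤ z → |x| ≤ Gb → z * z' * x ^ 2 ≤
      4 * B ^ 2 * x ^ 2 + Gb ^ 2 / (2 * B) ^ q * (z ^ (2 + q) + z' ^ (2 + q)) := by
    intro z z' x h1 h2 h3
    have h4 := h1.trans h2
    rcases le_total z (2 * B) with h | h
    · refine le_add_of_le_of_nonneg ?_ (by positivity)
      calc z * z' * x ^ 2 ≤ 2 * B * (2 * B) * x ^ 2 := by gcongr; exact h2.trans h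
        _ = _ := by ring
    · refine le_add_of_nonneg_of_le (by positivity) ?_
      calc z * z' * x ^ 2 ≤ z * z * Gb ^ 2 :=
            mul_le_mul (by gcongr) (ca_sq h3) (sq_nonneg _) (by positivity)
        _ ≤ (z ^ (2 + q) + z' ^ (2 + q)) / (2 * B) ^ q * Gb ^ 2 := by
            gcongr
            rw [← sq]
            refine (ca_tail (by positivity : 0 < 2 * B) h 2 q).trans ?_
            gcongr
            exact le_add_of_nonneg_right (by positivity)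
        _ = _ := by ring
  calc _ ≤ ∫ ω, 4 * B ^ 2 * g ω ^ 2 +
        Gb ^ 2 / (2 * B) ^ q * (Z ω ^ (2 + q) + Z' ω ^ (2 + q)) ∂P := by
        refine integral_mono (integrable_of_bdd ((hZ.mul hZ').mul (hg.pow_const 2))
          fun ω => ca_mul (ca_mul (aZ ω) (aZ' ω)) (ca_pow (bg ω) 2)) (i1.add i4) fun ω => ?_
        rcases le_total (Z' ω) (Z ω) with h | h
        · exact key _ _ _ (h0' ω) h (bg ω)
        · simpa only [mul_comm (Z' ω), add_comm (Z' ω ^ _)] using key _ _ _ (h0 ω) h (bg ω)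
    _ ≤ 4 * B ^ 2 * W + Gb ^ 2 / (2 * B) ^ q * (B ^ (2 + q) + B ^ (2 + q)) := by
        rw [integral_add i1 i4, integral_const_mul, integral_const_mul, integral_add i2 i3]
        gcongr
    _ = _ := by rw [mul_pow]; field_simp; ring

variable {θ' : ℝ} {ν' : Measure (V → Bool)} {Γ : Ob V → Ob V}

lemma ca_fy (r : ℝ) : Measurable (fy r : Ob V → V → ℝ) :=
  measurable_fy.comp (f := fun o : Ob V => (r, o)) (measurable_const.prodMk measurable_id)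

lemma Coup.ca_meas (hC : Coup G ν ν' Γ) (r : ℝ) : Measurable fun ω => fy r (Γ (obs ω)) :=
  (ca_fy r).comp (hC.meas.comp measurable_obs)

lemma Coup.ca_pull (hC : Coup G ν ν' Γ) (r : ℝ) (g : G ≃g G) (ω : Om V) :
    fy r (Γ (obs (pull g ω))) = fy r (Γ (obs ω)) ∘ g := by
  rw [obs_pull, hC.equi, fy_pullO]

lemma Coup.ca_mom (hC : Coup G ν ν' Γ) (hW' : Wd G d θ' ν') (r lm : ℝ) (p : ℕ) (a b : V) (n : ℕ) :
    ∫ ω, Zs G ν' θ' lm a b n (fy r (Γ (obs ω))) ^ p ∂PP ν =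
      ∫ ω, Zs G ν' θ' lm a b n (fy r (obs ω)) ^ p ∂PP ν' := by
  have := hW'.prob
  exact hC.integral_eq (F := fun o => Zs G ν' θ' lm a b n (fy r o) ^ p)
    (((measurable_Zs ν' θ' lm a b n).comp (ca_fy r)).pow_const p)

theorem cmpA (hW : Wd G d θ ν) (hW' : Wd G d θ' ν') (hC : Coup G ν ν' Γ) (r : ℝ) {lm B : ℝ}
    (hl : θ' ^ 2 ≤ lm) {p : ℕ} (hp : 1 ≤ p) (hB : 0 < B)
    (hZ : ∀ a b n, G.Adj a b → ∫ ω, Zs G ν' θ' lm a b n (fy r (obs ω)) ^ p ∂PP ν' ≤ B ^ p)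
    {X : Om V → ℝ} (hX : Measurable X) (bX : ∀ ω, |X ω| ≤ 2) {D : ℝ}
    (hD : ∫ ω, X ω ^ 2 ∂PP ν ≤ D) (u : V) (R : ℕ) :
    ∑ v ∈ ball G u R, ∫ ω, Cv G ν' θ' u v (fy r (Γ (obs ω))) ^ 2 * X ω ^ 2 ∂PP ν ≤
      4 * B * D + 16 * B / 2 ^ p := by
  have := hW.prob
  have := hW'.prob
  obtain ⟨x, hx, -⟩ := exists_third hW.tr u u u
  obtain ⟨C, hb⟩ := Zs_bdd hW' lm R
  have hm : ∀ a b, Measurable fun ω => Zs G ν' θ' lm a b R (fy r (Γ (obs ω))) := fun a b =>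
    (measurable_Zs ν' θ' lm a b R).comp (hC.ca_meas r)
  have hi : ∀ a b, Integrable (fun ω => Zs G ν' θ' lm a b R (fy r (Γ (obs ω))) * X ω ^ 2) (PP ν) :=
    fun a b => integrable_of_bdd ((hm a b).mul (hX.pow_const 2))
      fun ω => ca_mul (hb _ _ _) (ca_pow (bX ω) 2)
  have h1 : ∀ a b, G.Adj a b → ∫ ω, Zs G ν' θ' lm a b R (fy r (Γ (obs ω))) * X ω ^ 2 ∂PP ν ≤
      2 * B * D + 8 * B / 2 ^ p := fun a b h =>
    trunc1 _ hX (hm a b) bX (fun _ => Zs_nonneg hW' ((sq_nonneg _).trans hl) _ _ _ _)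
      (fun _ => (le_abs_self _).trans (hb _ _ _)) hp hB
      ((hC.ca_mom hW' r lm p a b R).trans_le (hZ a b R h)) hD
  have h2 : ∀ v, Integrable (fun ω => Cv G ν' θ' u v (fy r (Γ (obs ω))) ^ 2 * X ω ^ 2) (PP ν) :=
    fun v => integrable_of_bdd ((((measurable_Cv ν' θ' u v).comp (hC.ca_meas r)).pow_const 2).mul
      (hX.pow_const 2)) fun ω => ca_mul (ca_pow (abs_Cv_le hW' _ _ _) 2) (ca_pow (bX ω) 2)
  rw [← integral_finsetSum _ fun v _ => h2 v]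
  refine (integral_mono (integrable_finsetSum _ fun v _ => h2 v) ((hi u x).add (hi x u))
    fun ω => ?_).trans ?_
  · simp only [Pi.add_apply, ← Finset.sum_mul, ← add_mul]
    exact mul_le_mul_of_nonneg_right (sum_Cv_sq_le hW' hl hx R _) (sq_nonneg _)
  · rw [integral_add' (hi u x) (hi x u)]
    have := add_le_add (h1 u x hx) (h1 x u hx.symm)
    refine this.trans_eq (by ring)

theorem cmpA2 (hW : Wd G d θ ν) (hW' : Wd G d θ' ν') (hC : Coup G ν ν' Γ) (r : ℝ) {lm B : ℝ}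
    (hl : θ' ^ 2 ≤ lm) {p : ℕ} (hp : 1 ≤ p) (hB : 0 < B)
    (hZ : ∀ a b n, G.Adj a b → ∫ ω, Zs G ν' θ' lm a b n (fy r (obs ω)) ^ p ∂PP ν' ≤ B ^ p)
    {X : V → Om V → ℝ} (hX : ∀ v, Measurable (X v)) (bX : ∀ v ω, |X v ω| ≤ 2)
    (hequi : ∀ (g : G ≃g G) (v : V) (ω : Om V), X v (pull g ω) = X (g v) ω) {D : ℝ}
    (hD : ∀ v, ∫ ω, X v ω ^ 2 ∂PP ν ≤ D) (u : V) (R : ℕ) :
    ∑ v ∈ ball G u R, ∫ ω, Cv G ν' θ' u v (fy r (Γ (obs ω))) ^ 2 * X v ω ^ 2 ∂PP ν ≤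
      4 * B * D + 16 * B / 2 ^ p := by
  have := hW'.prob
  refine le_trans (Finset.sum_congr rfl fun v _ => ?_).le
    (cmpA hW hW' hC r hl hp hB hZ (hX u) (bX u) (hD u) u R)
  refine (symm_of_inv hW.tr (F := fun u v => ∫ ω, Cv G ν' θ' u v (fy r (Γ (obs ω))) ^ 2 *
    X v ω ^ 2 ∂PP ν) (fun g u v => ?_) u v).trans (integral_congr_ae ?_)
  · refine Eq.trans ?_ (integral_pull hW g ((((measurable_Cv ν' θ' u v).comp
      (hC.ca_meas r)).pow_const 2).mul ((hX v).pow_const 2)))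
    simp only [hC.ca_pull, Cv_iso hW', hequi]
  · filter_upwards [hC.ae_conv hW' r] with ω hω
    rw [Cv_symm hW' hω]

lemma ca_path (hW' : Wd G d θ' ν') {y : V → ℝ} (hy : Conv G ν' y) {lm : ℝ} {u v : V}
    (hks : G.dist u v * θ' ^ (2 * G.dist u v) ≤ lm ^ (G.dist u v - 1)) (g : V → ℝ) :
    Cv G ν' θ' u v y ^ 2 * (∑ w ∈ pth G u v, g w) ^ 2 ≤ ∑ w ∈ pth G u v,
      lm ^ G.dist (tw G u w) u * Wp G ν' θ' (tw G u w) u y *
        (lm ^ G.dist w v * Wp G ν' θ' w v y) * g w ^ 2 := by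
  refine (mul_le_mul_of_nonneg_left sq_sum_le_card_mul_sum_sq (sq_nonneg _)).trans ?_
  rw [← mul_assoc, Finset.mul_sum, card_pth hW'.tr]
  refine Finset.sum_le_sum fun w hw => mul_le_mul_of_nonneg_right ?_ (sq_nonneg _)
  have h1 := pow_le_pow_left₀ (Cv_nonneg hW' u v y) (Cv_split hW' hy hw) 2
  have h2 := mul_nonneg (Wp_nonneg hW' (tw G u w) u y) (Wp_nonneg hW' w v y)
  have h3 := mul_le_one₀ (Wp_le_one hW' (tw G u w) u y) (Wp_nonneg hW' w v y) (Wp_le_one hW' w v y)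
  have h4 : G.dist u v - 1 = G.dist (tw G u w) u + G.dist w v := by
    have := dist_split hW'.tr hw
    omega
  rw [h4, pow_add] at hks
  rw [mul_mul_mul_comm]
  generalize Wp G ν' θ' (tw G u w) u y * Wp G ν' θ' w v y = t at *
  have h5 : t ^ 2 ≤ t := by nlinarith
  have h6 := hW'.θ0
  calc _ ≤ (θ' ^ G.dist u v * t) ^ 2 * G.dist u v := by gcongr
    _ = G.dist u v * θ' ^ (2 * G.dist u v) * t ^ 2 := by ring
    _ ≤ G.dist u v * θ' ^ (2 * G.dist u v) * t := by gcongr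
    _ ≤ _ := by gcongr

theorem cmpB (hW : Wd G d θ ν) (hW' : Wd G d θ' ν') (hC : Coup G ν ν' Γ) (r : ℝ) {lm B : ℝ}
    (hl : 0 ≤ lm) {ks : ℕ} (hks : ∀ k : ℕ, ks < k → k * θ' ^ (2 * k) ≤ lm ^ (k - 1))
    {p : ℕ} (hp : 2 ≤ p) (hB : 0 < B)
    (hZ : ∀ a b n, G.Adj a b → ∫ ω, Zs G ν' θ' lm a b n (fy r (obs ω)) ^ p ∂PP ν' ≤ B ^ p)
    {g : V → V → Om V → ℝ} (hg : ∀ a b, Measurable (g a b)) {Gb : ℝ}
    (bg : ∀ a b ω, |g a b ω| ≤ Gb)
    (hequi : ∀ (φ : G ≃g G) (a b : V) (ω : Om V), g a b (pull φ ω) = g (φ a) (φ b) ω) {W : ℝ}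
    (h2 : ∀ a b, G.Adj a b → ∫ ω, g a b ω ^ 2 ∂PP ν ≤ W) (u : V) (R : ℕ) :
    ∑ v ∈ (ball G u R).filter (fun v => ks < G.dist u v),
      ∫ ω, Cv G ν' θ' u v (fy r (Γ (obs ω))) ^ 2 *
        (∑ w ∈ pth G u v, g w (tw G u w) ω) ^ 2 ∂PP ν ≤
      d * (4 * B ^ 2 * W + 8 * Gb ^ 2 * B ^ 2 / 2 ^ p) := by
  have := hW.prob
  have := hW'.prob
  have hT := hW.tr
  obtain ⟨C, hb⟩ := Zs_bdd hW' lm R
  have hm : ∀ a b, Measurable fun ω => Zs G ν' θ' lm a b R (fy r (Γ (obs ω))) := fun a b =>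
    (measurable_Zs ν' θ' lm a b R).comp (hC.ca_meas r)
  let f : V → V → V → Om V → ℝ := fun u p w ω =>
    lm ^ G.dist p u * Wp G ν' θ' p u (fy r (Γ (obs ω))) *
      Zs G ν' θ' lm w p R (fy r (Γ (obs ω))) * g w p ω ^ 2
  have ha : ∀ p u y, 0 ≤ lm ^ G.dist p u * Wp G ν' θ' p u y := fun p u y =>
    mul_nonneg (pow_nonneg hl _) (Wp_nonneg hW' _ _ _)
  have mf : ∀ u p w, Measurable (f u p w) := fun u p w =>
    ((((measurable_Wp ν' θ' p u).comp (hC.ca_meas r)).const_mul _).mul (hm w p)).mul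
      ((hg w p).pow_const 2)
  have hf : ∀ u p w, Integrable (f u p w) (PP ν) := fun u p w =>
    integrable_of_bdd (mf u p w) fun ω => ca_mul (ca_mul (ca_mul le_rfl
      (abs_le.2 ⟨by linarith [Wp_nonneg hW' p u (fy r (Γ (obs ω)))], Wp_le_one hW' _ _ _⟩))
      (hb _ _ _)) (ca_pow (bg _ _ _) 2)
  have h1 : ∀ v, Integrable (fun ω => Cv G ν' θ' u v (fy r (Γ (obs ω))) ^ 2 *
      (∑ w ∈ pth G u v, g w (tw G u w) ω) ^ 2) (PP ν) := fun v =>
    integrable_of_bdd ((((measurable_Cv ν' θ' u v).comp (hC.ca_meas r)).pow_const 2).mul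
      ((Finset.measurable_fun_sum _ fun w _ => hg w _).pow_const 2)) fun ω =>
      ca_mul (ca_pow (abs_Cv_le hW' _ _ _) 2) (ca_pow ((Finset.abs_sum_le_sum_abs _ _).trans
        (Finset.sum_le_sum fun w _ => bg w _ ω)) 2)
  calc _ ≤ ∑ w ∈ (ball G u R).erase u, ∫ ω, f u (tw G u w) w ω ∂PP ν := by
        rw [← integral_finsetSum _ fun v _ => h1 v, ← integral_finsetSum _ fun w _ => hf _ _ _]
        refine integral_mono_ae (integrable_finsetSum _ fun v _ => h1 v)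
          (integrable_finsetSum _ fun w _ => hf _ _ _) ?_
        filter_upwards [hC.ae_conv hW' r] with ω hω
        refine (Finset.sum_le_sum fun v hv => ca_path hW' hω (hks _ (Finset.mem_filter.1 hv).2)
          fun w => g w (tw G u w) ω).trans ?_
        rw [Finset.sum_comm' (t' := (ball G u R).erase u) (s' := fun w =>
          ((ball G u R).filter fun v => ks < G.dist u v).filter fun v => w ∈ pth G u v)]
        · refine Finset.sum_le_sum fun w _ => ?_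
          simp only [f, Zs, Finset.mul_sum, Finset.sum_mul]
          refine Finset.sum_le_sum_of_subset_of_nonneg (fun v hv => ?_) fun v _ _ =>
            mul_nonneg (mul_nonneg (ha _ _ _) (ha _ _ _)) (sq_nonneg _)
          simp only [Finset.mem_filter, mem_ball hT] at hv
          have := ((mem_pth hT).1 hv.2).2
          exact (mem_sb hT).2 ⟨by omega, mem_sub_of_mem_pth hT hv.2⟩
        · intro v w
          simp only [Finset.mem_filter, mem_ball hT, Finset.mem_erase]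
          refine ⟨fun h => ⟨h, ?_⟩, fun h => h.1⟩
          have := (mem_pth hT).1 h.2
          exact ⟨this.1, by omega⟩
    _ = ∑ w ∈ (ball G u R).erase u, ∫ ω, f w (tw G w u) u ω ∂PP ν := by
        refine Finset.sum_congr rfl fun w _ => symm_of_inv hT
          (F := fun u w => ∫ ω, f u (tw G u w) w ω ∂PP ν) (fun φ u w => ?_) u w
        refine Eq.trans ?_ (integral_pull hW φ (mf _ _ _))
        simp only [f, hC.ca_pull, Wp_iso hW', Zs_iso hW', hequi, tw_iso hT, dist_iso]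
    _ ≤ ∑ p ∈ G.neighborFinset u, ∑ w ∈ sb G p u R, ∫ ω, f w p u ω ∂PP ν :=
        sum_ball_erase_le hT u R (f := fun p w => ∫ ω, f w p u ω ∂PP ν) fun p w =>
          integral_nonneg fun ω => mul_nonneg (mul_nonneg (ha _ _ _) (Zs_nonneg hW' hl _ _ _ _))
            (sq_nonneg _)
    _ ≤ ∑ _p ∈ G.neighborFinset u, (4 * B ^ 2 * W + 8 * Gb ^ 2 * B ^ 2 / 2 ^ p) := by
        refine Finset.sum_le_sum fun x hx => ?_
        rw [G.mem_neighborFinset] at hx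
        rw [← integral_finsetSum _ fun w _ => hf _ _ _]
        simp only [f, ← Finset.sum_mul]
        exact trunc2 _ (hg u x) (hm x u) (hm u x) (bg u x) (fun _ => Zs_nonneg hW' hl _ _ _ _)
          (fun _ => Zs_nonneg hW' hl _ _ _ _) (fun _ => (le_abs_self _).trans (hb _ _ _))
          (fun _ => (le_abs_self _).trans (hb _ _ _)) hp hB
          ((hC.ca_mom hW' r lm p _ _ R).trans_le (hZ _ _ R hx.symm))
          ((hC.ca_mom hW' r lm p _ _ R).trans_le (hZ _ _ R hx)) (h2 u x hx)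
    _ = _ := by
        rw [Finset.sum_const, G.card_neighborFinset_eq_degree, hT.reg u, nsmul_eq_mul]

end

end Crest.Agent.R160
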