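import Crest.Agent.R160.MomB

/-!
Row 160, CmpD: the edge field `gE` and its second moment.

`gE_sq`: `δ` from `mm_bound`, `L` from `LK_lip` (`θ0 = 1/(2d)`, `Wd.lb`), `CM` from `mom_nc`.
With `a = |m_p| + |m_w| + |m'_p| + |m'_w| ≤ 4`, `Δ_x = m_x - m'_x`:
`g² ≤ 2L² a² (|Δp| + |Δw|)² + 2 L² ε²`.  Let `p = 2^k`, `t² = min 1 (4 CM p³ η)`.  On the event that
all four `|m| ≤ t`: `a² (..)² ≤ 16 t² · 2 (Δp² + Δw²)`; otherwise `a² (..)² ≤ 256` and pointwise
`1(|m| > t) ≤ m^(2p) / (4 CM p³ η)^p` (as `|m| ≤ 1`), whose mean is `≤ 4^(-p)` by `mom_nc`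
(`Coup.integral_eq` for the primed ones).  `p³ = 8^k`, `t² ≤ 4 CM min 1 (8^k η)`.
-/

set_option autoImplicit false

open MeasureTheory Filter Topology
open scoped Classical

namespace Crest.Agent.R160

noncomputable section

universe u

variable {V : Type u} {G : SimpleGraph V} [G.LocallyFinite] {d : ℕ} {θ : ℝ}
  {ν : Measure (V → Bool)}

variable {θ' : ℝ} {ν' : Measure (V → Bool)} {Γ : Ob V → Ob V}

private lemma measurable_LK2 (θ : ℝ) {X : Type*} [MeasurableSpace X] {f g : X → ℝ}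
    (hf : Measurable f) (hg : Measurable g) : Measurable fun x => LK θ (f x) (g x) := by
  have h := (measurable_LK θ).comp (hf.prodMk hg)
  simpa only [Function.comp_def] using h

private lemma measurable_LK_mm (ν : Measure (V → Bool)) [IsProbabilityMeasure ν] (θ r : ℝ)
    (w p : V) {X : Type*} [MeasurableSpace X] {f : X → Ob V} (hf : Measurable f) :
    Measurable fun o => LK θ (mm G ν r p (f o)) (mm G ν r w (f o)) :=
  measurable_LK2 θ ((measurable_mm' ν r p).comp hf) ((measurable_mm' ν r w).comp hf)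

private lemma int_bound {Ω : Type*} [MeasurableSpace Ω] {P : Measure Ω} [IsProbabilityMeasure P]
    {g f1 f2 h1 h2 h3 h4 : Ω → ℝ} (ig : Integrable g P) (i1 : Integrable f1 P)
    (i2 : Integrable f2 P) (j1 : Integrable h1 P) (j2 : Integrable h2 P) (j3 : Integrable h3 P)
    (j4 : Integrable h4 P) {a b c : ℝ}
    (h : ∀ ω, g ω ≤ a * (f1 ω + f2 ω) + b * (h1 ω + h2 ω + h3 ω + h4 ω) + c) :
    ∫ ω, g ω ∂P ≤ a * (∫ ω, f1 ω ∂P + ∫ ω, f2 ω ∂P) +
      b * (∫ ω, h1 ω ∂P + ∫ ω, h2 ω ∂P + ∫ ω, h3 ω ∂P + ∫ ω, h4 ω ∂P) + c := by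
  have k1 : Integrable (fun ω => f1 ω + f2 ω) P := i1.add i2
  have k2 : Integrable (fun ω => h1 ω + h2 ω) P := j1.add j2
  have k3 : Integrable (fun ω => h1 ω + h2 ω + h3 ω) P := k2.add j3
  have k4 : Integrable (fun ω => h1 ω + h2 ω + h3 ω + h4 ω) P := k3.add j4
  have k5 : Integrable (fun ω => a * (f1 ω + f2 ω) + b * (h1 ω + h2 ω + h3 ω + h4 ω)) P :=
    (k1.const_mul a).add (k4.const_mul b)
  refine (integral_mono ig (k5.add (integrable_const c)) h).trans (le_of_eq ?_)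
  show ∫ ω, (a * (f1 ω + f2 ω) + b * (h1 ω + h2 ω + h3 ω + h4 ω) + c) ∂P = _
  rw [integral_add k5 (integrable_const c), integral_add (k1.const_mul a) (k4.const_mul b),
    integral_const_mul, integral_const_mul, integral_add i1 i2, integral_add k3 j4,
    integral_add k2 j3, integral_add j1 j2]
  simp

private lemma cut_sq {a b a' b' s : ℝ} (ha : |a| ≤ 1) (hb : |b| ≤ 1) (ha' : |a'| ≤ 1)
    (hb' : |b'| ≤ 1) (hs : 0 < s) (P : ℕ) :
    ((|a| + |b| + |a'| + |b'|) * (|a - a'| + |b - b'|)) ^ 2 ≤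
      32 * min 1 s * ((a - a') ^ 2 + (b - b') ^ 2) +
        256 / s ^ P * (a ^ (2 * P) + b ^ (2 * P) + a' ^ (2 * P) + b' ^ (2 * P)) := by
  have hm : 0 ≤ min 1 s := le_min zero_le_one hs.le
  have hp : ∀ x : ℝ, 0 ≤ x ^ (2 * P) := fun x => by rw [pow_mul]; positivity
  have h0 : 0 ≤ 256 / s ^ P := by positivity
  by_cases h : a ^ 2 ≤ s ∧ b ^ 2 ≤ s ∧ a' ^ 2 ≤ s ∧ b' ^ 2 ≤ s
  · have hh : ∀ x : ℝ, |x| ≤ 1 → x ^ 2 ≤ s → |x| ^ 2 ≤ min 1 s := fun x hx hx' => by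
      rw [sq_abs]; exact le_min ((sq_le_one_iff_abs_le_one x).2 hx) hx'
    have h1 := hh a ha h.1
    have h2 := hh b hb h.2.1
    have h3 := hh a' ha' h.2.2.1
    have h4 := hh b' hb' h.2.2.2
    have h5 : (|a| + |b| + |a'| + |b'|) ^ 2 ≤ 16 * min 1 s := by
      nlinarith [sq_nonneg (|a| - |b|), sq_nonneg (|a| - |a'|), sq_nonneg (|a| - |b'|),
        sq_nonneg (|b| - |a'|), sq_nonneg (|b| - |b'|), sq_nonneg (|a'| - |b'|)]
    have h6 : (|a - a'| + |b - b'|) ^ 2 ≤ 2 * ((a - a') ^ 2 + (b - b') ^ 2) := by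
      rw [← sq_abs (a - a'), ← sq_abs (b - b')]
      nlinarith [sq_nonneg (|a - a'| - |b - b'|)]
    have h7 := mul_le_mul h5 h6 (sq_nonneg _) (by positivity)
    have h8 := mul_nonneg h0 (add_nonneg (add_nonneg (add_nonneg (hp a) (hp b)) (hp a')) (hp b'))
    rw [mul_pow]; linarith
  · have hh : ∀ x : ℝ, s < x ^ 2 → s ^ P ≤ x ^ (2 * P) := fun x hx => by
      rw [pow_mul]; exact pow_le_pow_left₀ hs.le hx.le P
    have h1 : s ^ P ≤ a ^ (2 * P) + b ^ (2 * P) + a' ^ (2 * P) + b' ^ (2 * P) := by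
      have := hp a; have := hp b; have := hp a'; have := hp b'
      simp only [not_and_or, not_le] at h
      rcases h with h | h | h | h <;> linarith [hh _ h]
    have h2 := mul_le_mul_of_nonneg_left h1 h0
    rw [div_mul_cancel₀ _ (by positivity)] at h2
    have h3 : (|a| + |b| + |a'| + |b'|) * (|a - a'| + |b - b'|) ≤ 4 * 4 :=
      mul_le_mul (by linarith) (by linarith [abs_sub a a', abs_sub b b']) (by positivity)
        (by norm_num)
    have h4 := pow_le_pow_left₀ (by positivity) h3 2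
    have h5 : 0 ≤ 32 * min 1 s * ((a - a') ^ 2 + (b - b') ^ 2) := by positivity
    linarith

lemma measurable_gE (hW : Wd G d θ ν) (hW' : Wd G d θ' ν') (hC : Coup G ν ν' Γ) (r : ℝ)
    (w p : V) : Measurable (gE G ν θ ν' θ' Γ r w p) := by
  have := hW.prob
  have := hW'.prob
  exact (measurable_LK_mm ν θ r w p measurable_obs).sub
    (measurable_LK_mm ν' θ' r w p (f := fun ω => Γ (obs ω)) (hC.meas.comp measurable_obs))

lemma gE_pull (hW : Wd G d θ ν) (hW' : Wd G d θ' ν') (hC : Coup G ν ν' Γ) (r : ℝ)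
    (g : G ≃g G) (w p : V) (ω : Om V) :
    gE G ν θ ν' θ' Γ r w p (pull g ω) = gE G ν θ ν' θ' Γ r (g w) (g p) ω := by
  simp only [gE, obs_pull, hC.equi, mm_pullO hW, mm_pullO hW']

lemma gE_flip (hW : Wd G d θ ν) (hW' : Wd G d θ' ν') (hC : Coup G ν ν' Γ) (r : ℝ)
    (w p : V) (ω : Om V) :
    gE G ν θ ν' θ' Γ r w p (flip ω) = gE G ν θ ν' θ' Γ r w p ω := by
  simp only [gE, obs_flip, hC.odd, mm_negO hW, mm_negO hW', LK_neg]

theorem gE_sq (hT : Tr G d) (I : ℕ) : ∃ C : ℝ, 0 ≤ C ∧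
    ∀ (θ θ' : ℝ) (ν ν' : Measure (V → Bool)) (Γ : Ob V → Ob V), Wd G d θ ν → Wd G d θ' ν' →
      Coup G ν ν' Γ → ∀ i : ℤ, i ≤ I → NC d θ i → NC d θ' i → ∀ r ∈ Set.Icc (i : ℝ) (i + 1),
        (∀ w p ω, |gE G ν θ ν' θ' Γ r w p ω| ≤ C) ∧
        (∀ w p, ∫ ω, gE G ν θ ν' θ' Γ r w p ω ∂PP ν = eLK G ν θ r w p - eLK G ν' θ' r w p) ∧
        ∀ (k : ℕ) (ε D : ℝ), |θ - θ'| ≤ ε → (∀ u, Dl G ν ν' Γ r u ≤ D) → ∀ w p,
          ∫ ω, gE G ν θ ν' θ' Γ r w p ω ^ 2 ∂PP ν ≤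
            C * (min 1 (8 ^ k * eta i) * D + ε ^ 2 + 1 / 2 ^ (2 ^ k)) := by
  obtain ⟨δ, hδ, hmm⟩ := mm_bound hT I
  have hd : (0 : ℝ) < d := by linarith [hT.two_le]
  obtain ⟨L, hL, hLK⟩ := LK_lip hδ (show 0 < 1 / (2 * (d : ℝ)) by positivity)
  obtain ⟨CM, hCM, hmom⟩ := mom_nc hT I
  refine ⟨2 * L + 2 * L ^ 2 * (256 * CM + 1024), by positivity,
    fun θ θ' ν ν' Γ hW hW' hC i hi hN hN' r hr => ?_⟩
  have := hW.prob
  have := hW'.prob
  have hrI : r ≤ I + 1 := by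
    have : (i : ℝ) ≤ I := by exact_mod_cast hi
    linarith [hr.2]
  have key := fun (w p : V) (o o' : Ob V) => hLK θ θ' _ _ _ _ (hW.lb hN) hW.sq_le (hW'.lb hN')
    hW'.sq_le (abs_mm_le (G := G) ν r p o) (abs_mm_le (G := G) ν' r p o')
    (hmm θ ν hW r hrI w o) (hmm θ' ν' hW' r hrI w o')
  have key' := fun (w p : V) (o : Ob V) => (hLK θ' θ' _ _ _ _ (hW'.lb hN') hW'.sq_le (hW'.lb hN')
    hW'.sq_le (abs_mm_le (G := G) ν' r p o) (abs_mm_le (G := G) ν' r p o)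
    (hmm θ' ν' hW' r hrI w o) (hmm θ' ν' hW' r hrI w o)).1
  have hb : ∀ w p ω, |gE G ν θ ν' θ' Γ r w p ω| ≤ 2 * L := fun w p ω =>
    (abs_sub _ _).trans (by linarith [(key w p (obs ω) (obs ω)).1, key' w p (Γ (obs ω))])
  have hL2 : 0 ≤ 2 * L ^ 2 * (256 * CM + 1024) := by positivity
  refine ⟨fun w p ω => (hb w p ω).trans (by linarith), fun w p => ?_, fun k ε D hε hD w p => ?_⟩
  · unfold gE eLK
    rw [integral_sub (integrable_of_bdd (measurable_LK_mm ν θ r w p measurable_obs)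
      fun ω => (key w p (obs ω) (obs ω)).1) (integrable_of_bdd (measurable_LK_mm ν' θ' r w p
      (f := fun ω => Γ (obs ω)) (hC.meas.comp measurable_obs)) fun ω => key' w p (Γ (obs ω))),
      hC.integral_eq (measurable_LK_mm ν' θ' r w p (f := fun o => o) measurable_id)]
  · have hη := eta_pos i
    obtain ⟨P, hP⟩ : ∃ P : ℕ, P = 2 ^ k := ⟨_, rfl⟩
    have hP1 : 1 ≤ P := hP ▸ Nat.one_le_two_pow
    have hP3 : (P : ℝ) ^ 3 = 8 ^ k := by
      rw [hP]; push_cast; rw [← pow_mul, mul_comm, pow_mul]; norm_num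
    obtain ⟨s, hs⟩ : ∃ s : ℝ, s = 4 * (CM * P ^ 3 * eta i) := ⟨_, rfl⟩
    have hc0 : 0 < CM * P ^ 3 * eta i := by rw [hP3]; positivity
    have hs0 : 0 < s := by rw [hs]; positivity
    have hD0 : 0 ≤ D := le_trans (integral_nonneg fun ω => sq_nonneg _) (hD w)
    have hm0 : 0 ≤ min 1 (8 ^ k * eta i) := le_min zero_le_one (by positivity)
    have hmin : min 1 s ≤ 4 * CM * min 1 (8 ^ k * eta i) := by
      rcases le_total 1 (8 ^ k * eta i) with h | h
      · rw [min_eq_left h]; exact (min_le_left _ _).trans (by linarith)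
      · rw [min_eq_right h]; exact (min_le_right _ _).trans (by rw [hs, hP3]; linarith)
    have mA : ∀ u, Measurable fun ω => mm G ν r u (obs ω) := fun u =>
      (measurable_mm' ν r u).comp measurable_obs
    have mB : ∀ u, Measurable fun ω => mm G ν' r u (Γ (obs ω)) := fun u =>
      (measurable_mm' ν' r u).comp (hC.meas.comp measurable_obs)
    have hpow : ∀ x : ℝ, |x| ≤ 1 → |x ^ (2 * P)| ≤ 1 := fun x hx => by
      rw [abs_pow]; exact pow_le_one₀ (abs_nonneg _) hx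
    have iA : ∀ u, Integrable (fun ω => mm G ν r u (obs ω) ^ (2 * P)) (PP ν) := fun u =>
      integrable_of_bdd ((mA u).pow_const _) fun ω => hpow _ (abs_mm_le ν r u _)
    have iB : ∀ u, Integrable (fun ω => mm G ν' r u (Γ (obs ω)) ^ (2 * P)) (PP ν) := fun u =>
      integrable_of_bdd ((mB u).pow_const _) fun ω => hpow _ (abs_mm_le ν' r u _)
    have iD : ∀ u, Integrable (fun ω => (mm G ν r u (obs ω) - mm G ν' r u (Γ (obs ω))) ^ 2)
        (PP ν) := fun u =>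
      integrable_of_bdd (((mA u).sub (mB u)).pow_const _) (C := 4) fun ω => by
        have h1 := abs_le.1 (abs_mm_le (G := G) ν r u (obs ω))
        have h2 := abs_le.1 (abs_mm_le (G := G) ν' r u (Γ (obs ω)))
        rw [abs_of_nonneg (sq_nonneg _)]; nlinarith
    have eA : ∀ u, ∫ ω, mm G ν r u (obs ω) ^ (2 * P) ∂PP ν ≤ (CM * P ^ 3 * eta i) ^ P := fun u =>
      hmom θ ν hW i hi hN r hr P hP1 u
    have eB : ∀ u, ∫ ω, mm G ν' r u (Γ (obs ω)) ^ (2 * P) ∂PP ν ≤ (CM * P ^ 3 * eta i) ^ P :=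
      fun u => by
        rw [hC.integral_eq (F := fun o => mm G ν' r u o ^ (2 * P))
          ((measurable_mm' ν' r u).pow_const _)]
        exact hmom θ' ν' hW' i hi hN' r hr P hP1 u
    have hpt : ∀ ω, gE G ν θ ν' θ' Γ r w p ω ^ 2 ≤
        64 * L ^ 2 * min 1 s * ((mm G ν r p (obs ω) - mm G ν' r p (Γ (obs ω))) ^ 2 +
          (mm G ν r w (obs ω) - mm G ν' r w (Γ (obs ω))) ^ 2) +
        512 * L ^ 2 / s ^ P * (mm G ν r p (obs ω) ^ (2 * P) + mm G ν r w (obs ω) ^ (2 * P) +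
          mm G ν' r p (Γ (obs ω)) ^ (2 * P) + mm G ν' r w (Γ (obs ω)) ^ (2 * P)) +
        2 * L ^ 2 * ε ^ 2 := fun ω => by
      have h1 := (key w p (obs ω) (Γ (obs ω))).2
      have h2 := cut_sq (abs_mm_le (G := G) ν r p (obs ω)) (abs_mm_le (G := G) ν r w (obs ω))
        (abs_mm_le (G := G) ν' r p (Γ (obs ω))) (abs_mm_le (G := G) ν' r w (Γ (obs ω))) hs0 P
      unfold gE
      generalize LK θ (mm G ν r p (obs ω)) (mm G ν r w (obs ω)) -
        LK θ' (mm G ν' r p (Γ (obs ω))) (mm G ν' r w (Γ (obs ω))) = g at h1 ⊢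
      generalize (|mm G ν r p (obs ω)| + |mm G ν r w (obs ω)| + |mm G ν' r p (Γ (obs ω))| +
        |mm G ν' r w (Γ (obs ω))|) * (|mm G ν r p (obs ω) - mm G ν' r p (Γ (obs ω))| +
        |mm G ν r w (obs ω) - mm G ν' r w (Γ (obs ω))|) = X at h1 h2
      have h3 : g ^ 2 ≤ (L * (X + |θ - θ'|)) ^ 2 := by
        rw [← sq_abs g]; exact pow_le_pow_left₀ (abs_nonneg _) h1 2
      have h4 : |θ - θ'| ^ 2 ≤ ε ^ 2 := pow_le_pow_left₀ (abs_nonneg _) hε 2
      have h5 : (X + |θ - θ'|) ^ 2 ≤ 2 * X ^ 2 + 2 * ε ^ 2 := by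
        nlinarith [sq_nonneg (X - |θ - θ'|)]
      have h6 := mul_le_mul_of_nonneg_left (h5.trans (add_le_add_left
        (mul_le_mul_of_nonneg_left h2 zero_le_two) _)) (sq_nonneg L)
      rw [mul_pow] at h3
      refine (h3.trans h6).trans (le_of_eq ?_)
      ring
    refine (int_bound (integrable_of_bdd ((measurable_gE hW hW' hC r w p).pow_const 2)
      (C := (2 * L) ^ 2) fun ω => by
        rw [abs_pow]; exact pow_le_pow_left₀ (abs_nonneg _) (hb w p ω) 2)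
      (iD p) (iD w) (iA p) (iA w) (iB p) (iB w) hpt).trans ?_
    have h1 : 64 * L ^ 2 * min 1 s * (Dl G ν ν' Γ r p + Dl G ν ν' Γ r w) ≤
        64 * L ^ 2 * (4 * CM * min 1 (8 ^ k * eta i)) * (2 * D) :=
      mul_le_mul (mul_le_mul_of_nonneg_left hmin (by positivity)) (by linarith [hD p, hD w])
        (add_nonneg (integral_nonneg fun ω => sq_nonneg _) (integral_nonneg fun ω => sq_nonneg _))
        (by positivity)
    have h2 := mul_le_mul_of_nonneg_left (add_le_add (add_le_add (add_le_add (eA p) (eA w)) (eB p))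
      (eB w)) (show 0 ≤ 512 * L ^ 2 / s ^ P by positivity)
    have h3 : 512 * L ^ 2 / s ^ P * ((CM * P ^ 3 * eta i) ^ P + (CM * P ^ 3 * eta i) ^ P +
        (CM * P ^ 3 * eta i) ^ P + (CM * P ^ 3 * eta i) ^ P) = 2048 * L ^ 2 * (1 / 4 ^ P) := by
      rw [hs, mul_pow 4]; field_simp; ring
    have h4 : (1 : ℝ) / 4 ^ P ≤ 1 / 2 ^ P :=
      one_div_le_one_div_of_le (by positivity) (pow_le_pow_left₀ (by norm_num) (by norm_num) P)
    have h5 := mul_le_mul_of_nonneg_left h4 (show 0 ≤ 2048 * L ^ 2 by positivity)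
    rw [← hP]
    have h6 : 0 ≤ min 1 (8 ^ k * eta i) * D := mul_nonneg hm0 hD0
    have h7 : (0 : ℝ) ≤ 1 / 2 ^ P := by positivity
    unfold Dl at h1
    generalize min 1 (8 ^ k * eta i) = μ at *
    generalize (1 : ℝ) / 2 ^ P = t at *
    have h8 : 0 ≤ L * (μ * D + ε ^ 2 + t) := by positivity
    have h9 : 0 ≤ L ^ 2 * (μ * D) := by positivity
    have h10 : 0 ≤ L ^ 2 * CM * (ε ^ 2 + t) := by positivity
    have h11 : 0 ≤ L ^ 2 * ε ^ 2 := by positivity
    nlinarith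

/-- the cut-off depth: with `x = cA d * eta i / 16` take `ks = ⌈(2/x) log (2/x)⌉₊`; for `k > ks`,
`exp (x (k-1)) = exp (x (k-1)/2)² ≥ (2/x)(1 + x (k-1)/2) ≥ k`; and
`log (2/x) = log (32/cA d) + log (1/eta i)`, `1/eta i = 8 * 2^(-i).toNat` (`eta_eq`). -/
lemma exists_ks {d : ℕ} (hd : 3 ≤ d) : ∃ C : ℝ, 0 ≤ C ∧ ∀ i : ℤ, ∃ ks : ℕ,
    eta i * (ks + 1) ≤ C * (((-i).toNat : ℝ) + 3) ∧
    ∀ θ : ℝ, θ ^ 2 ≤ 1 → ∀ k : ℕ, ks < k →
      k * θ ^ (2 * k) ≤ (θ ^ 2 * Real.exp (cA d * eta i / 16)) ^ (k - 1) := by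
  have hc := cA_pos hd
  have hc1 := cA_le hd
  have hlog : 0 ≤ Real.log (256 / cA d) :=
    Real.log_nonneg (by rw [le_div_iff₀ hc]; linarith)
  refine ⟨32 / cA d * (Real.log (256 / cA d) + 1) + 1, by positivity, fun i => ?_⟩
  have hη := eta_pos i
  have hη1 := eta_le i
  obtain ⟨x, hx⟩ : ∃ x : ℝ, x = cA d * eta i / 16 := ⟨_, rfl⟩
  have hx0 : 0 < x := by rw [hx]; positivity
  have hx1 : 1 ≤ 2 / x := by rw [le_div_iff₀ hx0, hx]; nlinarith
  have hl0 : 0 ≤ Real.log (2 / x) := Real.log_nonneg hx1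
  refine ⟨⌈2 / x * Real.log (2 / x)⌉₊, ?_, fun θ hθ k hk => ?_⟩
  · have h1 := (Nat.ceil_lt_add_one (show 0 ≤ 2 / x * Real.log (2 / x) by positivity)).le
    have h2 : Real.log (2 / x) = Real.log (256 / cA d) + (-i).toNat * Real.log 2 := by
      rw [← Real.log_pow, ← Real.log_mul (by positivity) (by positivity), hx, eta_eq]
      congr 1; field_simp; norm_num
    have h3 : eta i * (2 / x) = 32 / cA d := by rw [hx]; field_simp; norm_num
    have h4 : Real.log 2 ≤ 1 := by linarith [Real.log_two_lt_d9]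
    have h5 : (0 : ℝ) ≤ (-i).toNat := Nat.cast_nonneg _
    have h6 : Real.log (2 / x) ≤ (Real.log (256 / cA d) + 1) * (((-i).toNat : ℝ) + 3) := by
      rw [h2]; nlinarith
    calc eta i * ((⌈2 / x * Real.log (2 / x)⌉₊ : ℝ) + 1)
        ≤ eta i * (2 / x * Real.log (2 / x) + 2) :=
          mul_le_mul_of_nonneg_left (by linarith) hη.le
      _ = 32 / cA d * Real.log (2 / x) + 2 * eta i := by rw [← h3]; ring
      _ ≤ 32 / cA d * ((Real.log (256 / cA d) + 1) * (((-i).toNat : ℝ) + 3)) +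
            (((-i).toNat : ℝ) + 3) :=
          add_le_add (mul_le_mul_of_nonneg_left h6 (by positivity)) (by linarith)
      _ = _ := by ring
  · obtain ⟨j, rfl⟩ : ∃ j, k = j + 1 := ⟨k - 1, by omega⟩
    rw [← hx, Nat.add_sub_cancel, mul_pow, ← Real.exp_nat_mul, pow_mul, pow_succ]
    have h1 : 2 / x * Real.log (2 / x) ≤ j := Nat.ceil_le.1 (by omega)
    have h2 : 2 / x ≤ Real.exp (j * x / 2) := by
      rw [← Real.log_le_iff_le_exp (by positivity)]
      rw [div_mul_eq_mul_div, div_le_iff₀ hx0] at h1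
      linarith
    have h3 := Real.add_one_le_exp (j * x / 2)
    have h4 : Real.exp (j * x) = Real.exp (j * x / 2) * Real.exp (j * x / 2) := by
      rw [← Real.exp_add]; congr 1; ring
    have h5 : ((j + 1 : ℕ) : ℝ) ≤ Real.exp (j * x) := by
      have h6 := mul_le_mul h2 h3 (by positivity) (Real.exp_pos _).le
      have h7 : 2 / x * (j * x / 2 + 1) = j + 2 / x := by field_simp
      rw [h4]; push_cast; linarith
    calc ((j + 1 : ℕ) : ℝ) * ((θ ^ 2) ^ j * θ ^ 2) ≤ Real.exp (j * x) * (θ ^ 2) ^ j :=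
          mul_le_mul h5 (mul_le_of_le_one_right (by positivity) hθ) (by positivity)
            (Real.exp_pos _).le
      _ = _ := by ring

end

end Crest.Agent.R160
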