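import Crest.Agent.R160.TempA
import Crest.Agent.R160.Markov

/-!
Row 160, TempB: sums of an equivariant even edge field along geodesics.

`temp0`: let `loc S` be the σ-algebra on `Om V` generated by the coordinates over `S`
(`comap` of the map that keeps the coordinates over `S` and resets the others), and
`fR a b = (PP ν)[f a b | loc (ball a R)]`, an element of `H = Lp ℝ 2 (PP ν)` (`MemLp.toLp`,
`L2.inner_def`).  * Invariance: `fR (g a) (g b) =ᵐ fR a b ∘ pull g` (uniqueness of conditional
expectations `ae_eq_condExp_of_forall_setIntegral_eq`, `Wd.map_pull`, `ball_iso`), then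
`integral_pull`.  * `‖fR‖² ≤ W` (conditional expectation contracts L²).  * Range `2R`: if
`2R < dist a a'` take the edge from `exists_sep`; `fR a b` is strongly measurable for `loc (ball a R)`,
so it is `DepOn (ball a R)` (`StronglyMeasurable.factorsThrough`/`Measurable.factorsThrough`),
a.e. bounded (clamp it to get a bounded version), a.e. even (same uniqueness argument with `flip`),
centred (`integral_condExp`); `mk_even` gives 0.  * `temp_abs`, then `R → ∞`: for each of the finitely
many `w ∈ pth u v`, `fR w _ → f w _` a.e. (`tendsto_ae_condExp`, `⨆ R, loc (ball w R)` is everything by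
`mem_ball`), dominated convergence.
`temp`: centre `f a b - ∫ f a b` (equivariant by `integral_pull`), `(x+y)² ≤ 2x² + 2y²`, `card_pth`.
-/

set_option autoImplicit false

open MeasureTheory Filter Topology
open scoped Classical

namespace Crest.Agent.R160

noncomputable section

universe u

variable {V : Type u} {G : SimpleGraph V} [G.LocallyFinite] {d : ℕ} {θ : ℝ}
  {ν : Measure (V → Bool)}

/-- keep the coordinates over `S` -/
def keep (S : Set V) (ω : Om V) : Om V :=
  (fun v => if v ∈ S then ω.1 v else false, fun c => if c.2 ∈ S then ω.2.1 c else 0,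
    fun c => if c.2 ∈ S then ω.2.2 c else 0)

lemma measurable_keep (S : Set V) : Measurable (keep S) := by
  unfold keep
  refine Measurable.prodMk (measurable_pi_lambda _ fun v => ?_)
    (Measurable.prodMk (measurable_pi_lambda _ fun c => ?_) (measurable_pi_lambda _ fun c => ?_))
  all_goals split_ifs <;> fun_prop

/-- the σ-algebra of the coordinates over `S` -/
@[reducible] def loc (S : Set V) : MeasurableSpace (Om V) :=
  MeasurableSpace.comap (keep S) inferInstance

lemma loc_le (S : Set V) : loc S ≤ (inferInstance : MeasurableSpace (Om V)) :=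
  (measurable_keep S).comap_le

lemma comap_le_of_eq {X Y Z : Type*} [mY : MeasurableSpace Y] [mZ : MeasurableSpace Z]
    {a : X → Y} {b : X → Z} {ψ : Z → Y} (hψ : Measurable ψ) (h : a = ψ ∘ b) :
    mY.comap a ≤ mZ.comap b := by
  rw [h, ← MeasurableSpace.comap_comp]
  exact MeasurableSpace.comap_mono hψ.comap_le

lemma loc_mono {S S' : Set V} (h : S ⊆ S') : loc S ≤ loc S' := by
  refine comap_le_of_eq (measurable_keep S) (funext fun ω => ?_)
  simp only [keep, Function.comp]
  refine Prod.ext (funext fun v => ?_) (Prod.ext (funext fun c => ?_) (funext fun c => ?_))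
  · by_cases hv : v ∈ S
    · simp [hv, h hv]
    · simp [hv]
  · by_cases hv : c.2 ∈ S
    · simp [hv, h hv]
    · simp [hv]
  · by_cases hv : c.2 ∈ S
    · simp [hv, h hv]
    · simp [hv]

lemma depOn_of_loc {S : Set V} {Φ : Om V → ℝ} (h : Measurable[loc S] Φ) : DepOn S Φ := by
  intro ω ω' hω
  refine h.factorsThrough ?_
  simp only [keep]
  refine Prod.ext (funext fun v => ?_) (Prod.ext (funext fun c => ?_) (funext fun c => ?_))
  · by_cases hv : v ∈ S
    · simp [hv, (hω v hv).1]
    · simp [hv]
  · by_cases hv : c.2 ∈ S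
    · simpa [hv] using ((hω c.2 hv).2 c.1).1
    · simp [hv]
  · by_cases hv : c.2 ∈ S
    · simpa [hv] using ((hω c.2 hv).2 c.1).2
    · simp [hv]

lemma comap_loc_flip (S : Set V) : (loc S).comap flip = loc S := by
  unfold loc
  rw [MeasurableSpace.comap_comp]
  refine le_antisymm (comap_le_of_eq ((measurable_keep S).comp measurable_flip)
    (funext fun ω => ?_)) (comap_le_of_eq ((measurable_keep S).comp measurable_flip)
    (funext fun ω => ?_))
  all_goals
    simp only [keep, flip, Function.comp]
    refine Prod.ext (funext fun v => ?_) (Prod.ext (funext fun c => ?_) (funext fun c => ?_))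
    · by_cases hv : v ∈ S <;> simp [hv]
    · by_cases hv : c.2 ∈ S <;> simp [hv]
    · by_cases hv : c.2 ∈ S <;> simp [hv]

lemma comap_loc_pull (g : V ≃ V) {S S' : Set V} (h : ∀ v, g v ∈ S' ↔ v ∈ S) :
    (loc S).comap (pull g) = loc S' := by
  unfold loc
  rw [MeasurableSpace.comap_comp]
  have h' : ∀ v, v ∈ S' ↔ g.symm v ∈ S := fun v => by rw [← h, g.apply_symm_apply]
  refine le_antisymm (comap_le_of_eq (measurable_pull g) (funext fun ω => ?_))
    (comap_le_of_eq (measurable_pull g.symm) (funext fun ω => ?_))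
  · simp only [keep, pull, pullC, Function.comp]
    refine Prod.ext (funext fun v => ?_) (Prod.ext (funext fun c => ?_) (funext fun c => ?_))
    · simp [h]
    · simp [pullC, h]
    · simp [pullC, h]
  · simp only [keep, pull, pullC, Function.comp]
    refine Prod.ext (funext fun v => ?_) (Prod.ext (funext fun c => ?_) (funext fun c => ?_))
    · simp [h']
    · simp [pullC, h']
    · simp [pullC, h']

lemma condExp_comp_of_map {Ω : Type*} {m m0 : MeasurableSpace Ω} {P : Measure Ω}
    [IsFiniteMeasure P] (hm : m ≤ m0) {φ : Ω → Ω} (hφ : Measurable φ) (hP : P.map φ = P)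
    {f : Ω → ℝ} (hf : Integrable f P) :
    (fun ω => (P[f | m]) (φ ω)) =ᵐ[P] P[fun ω => f (φ ω) | m.comap φ] := by
  have hmp : MeasurePreserving φ P P := ⟨hφ, hP⟩
  have hle : m.comap φ ≤ m0 := (MeasurableSpace.comap_mono hm).trans hφ.comap_le
  refine ae_eq_condExp_of_forall_setIntegral_eq hle (hmp.integrable_comp_of_integrable hf)
    (fun s _ _ => (hmp.integrable_comp_of_integrable integrable_condExp).integrableOn)
    (fun s hs _ => ?_) ?_
  · obtain ⟨t, ht, rfl⟩ := hs
    have h1 := setIntegral_map (μ := P) (g := φ) (f := P[f | m]) (hm t ht)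
      (by rw [hP]; exact integrable_condExp.aestronglyMeasurable) hφ.aemeasurable
    have h2 := setIntegral_map (μ := P) (g := φ) (f := f) (hm t ht)
      (by rw [hP]; exact hf.aestronglyMeasurable) hφ.aemeasurable
    rw [← h1, ← h2, hP, setIntegral_condExp hm hf ht]
  · exact (stronglyMeasurable_condExp.measurable.comp
      (comap_measurable (m := m) φ)).stronglyMeasurable.aestronglyMeasurable

lemma iSup_loc_ball (hT : Tr G d) (w : V) :
    (inferInstance : MeasurableSpace (Om V)) ≤ ⨆ n, loc (ball G w n : Set V) := by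
  have hk : ∀ n, Measurable[⨆ n, loc (ball G w n : Set V)] (keep (ball G w n : Set V)) :=
    fun n => (comap_measurable (keep (ball G w n : Set V))).mono
      (le_iSup (fun n => loc (ball G w n : Set V)) n) le_rfl
  have hv : ∀ v, v ∈ ball G w (G.dist w v) := fun v => (mem_ball hT).2 le_rfl
  have : Measurable[⨆ n, loc (ball G w n : Set V)] (fun ω : Om V => (ω.1, ω.2.1, ω.2.2)) := by
    refine Measurable.prodMk (@measurable_pi_lambda _ _ _ (⨆ n, loc (ball G w n : Set V)) _ _
      fun v => ?_) (Measurable.prodMk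
      (@measurable_pi_lambda _ _ _ (⨆ n, loc (ball G w n : Set V)) _ _ fun c => ?_)
      (@measurable_pi_lambda _ _ _ (⨆ n, loc (ball G w n : Set V)) _ _ fun c => ?_))
    · have := (measurable_pi_apply v).comp (measurable_fst.comp (hk (G.dist w v)))
      simpa [Function.comp_def, keep, hv] using this
    · have := (measurable_pi_apply c).comp
        (measurable_fst.comp (measurable_snd.comp (hk (G.dist w c.2))))
      simpa [Function.comp_def, keep, hv] using this
    · have := (measurable_pi_apply c).comp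
        (measurable_snd.comp (measurable_snd.comp (hk (G.dist w c.2))))
      simpa [Function.comp_def, keep, hv] using this
  exact fun s hs => this hs

/-- bounded version of the local conditional expectation -/
def cE (P : Measure (Om V)) (B : ℝ) (S : Set V) (f : Om V → ℝ) (ω : Om V) : ℝ :=
  max (-B) (min ((P[f | loc S]) ω) B)

lemma cE_loc (P : Measure (Om V)) (B : ℝ) (S : Set V) (f : Om V → ℝ) :
    Measurable[loc S] (cE P B S f) :=
  measurable_const.max (stronglyMeasurable_condExp.measurable.min measurable_const)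

lemma measurable_cE (P : Measure (Om V)) (B : ℝ) (S : Set V) (f : Om V → ℝ) :
    Measurable (cE P B S f) := (cE_loc P B S f).mono (loc_le S) le_rfl

lemma abs_cE_le (P : Measure (Om V)) {B : ℝ} (hB : 0 ≤ B) (S : Set V) (f : Om V → ℝ)
    (ω : Om V) : |cE P B S f ω| ≤ B :=
  abs_le.2 ⟨le_max_left _ _, max_le (by linarith) (min_le_right _ _)⟩

lemma cE_ae (P : Measure (Om V)) {B : ℝ} (S : Set V) {f : Om V → ℝ}
    (hf : ∀ ω, |f ω| ≤ B) : cE P B S f =ᵐ[P] P[f | loc S] := by
  filter_upwards [ae_bdd_abs_condExp_of_ae_bdd_abs (m := loc S) (μ := P) (R := B) (f := f)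
    (ae_of_all _ hf)] with ω h
  rw [cE, min_eq_left (abs_le.1 h).2, max_eq_right (abs_le.1 h).1]

lemma integral_cE_sq_le (P : Measure (Om V)) [IsProbabilityMeasure P] {B : ℝ} (hB : 0 ≤ B)
    (S : Set V) {f : Om V → ℝ} (hm : Measurable f) (hf : ∀ ω, |f ω| ≤ B) :
    ∫ ω, cE P B S f ω ^ 2 ∂P ≤ ∫ ω, f ω ^ 2 ∂P := by
  have hi : Integrable f P := integrable_of_bdd hm hf
  have hc := measurable_cE P B S f
  have hb := abs_cE_le P hB S f
  have h1 := condExp_stronglyMeasurable_mul_of_bound (loc_le S)
    (cE_loc P B S f).stronglyMeasurable hi B (ae_of_all _ hb)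
  have h2 : ∫ ω, cE P B S f ω ^ 2 ∂P = ∫ ω, cE P B S f ω * f ω ∂P := by
    have h3 := integral_condExp (μ := P) (f := cE P B S f * f) (loc_le S)
    rw [integral_congr_ae h1] at h3
    refine Eq.trans (integral_congr_ae ?_) h3
    filter_upwards [cE_ae P S hf] with ω hω
    simp only [Pi.mul_apply, ← hω, sq]
  have i1 : Integrable (fun ω => cE P B S f ω ^ 2) P :=
    integrable_of_bdd (hc.pow_const 2) (C := B ^ 2) fun ω => by
      rw [abs_pow]; exact pow_le_pow_left₀ (abs_nonneg _) (hb ω) 2
  have i2 : Integrable (fun ω => f ω ^ 2) P :=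
    integrable_of_bdd (hm.pow_const 2) (C := B ^ 2) fun ω => by
      rw [abs_pow]; exact pow_le_pow_left₀ (abs_nonneg _) (hf ω) 2
  have i3 : Integrable (fun ω => cE P B S f ω * f ω) P :=
    integrable_of_bdd (hc.mul hm) (C := B * B) fun ω => by
      rw [abs_mul]; exact mul_le_mul (hb ω) (hf ω) (abs_nonneg _) hB
  have h4 : ∫ ω, cE P B S f ω * f ω ∂P ≤ ∫ ω, (cE P B S f ω ^ 2 + f ω ^ 2) / 2 ∂P :=
    integral_mono i3 ((i1.add i2).div_const 2) fun ω => by
      simp only
      nlinarith [sq_nonneg (cE P B S f ω - f ω)]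
  rw [integral_div, integral_add i1 i2] at h4
  linarith

lemma inner_toLp {Ω : Type*} [MeasurableSpace Ω] {P : Measure Ω} {f g : Ω → ℝ}
    (hf : MemLp f 2 P) (hg : MemLp g 2 P) :
    inner ℝ (hf.toLp f) (hg.toLp g) = ∫ ω, f ω * g ω ∂P := by
  rw [L2.inner_def]
  refine integral_congr_ae ?_
  filter_upwards [hf.coeFn_toLp, hg.coeFn_toLp] with ω h1 h2
  rw [h1, h2]
  simp [mul_comm]

theorem temp0 (hW : Wd G d θ ν) {f : V → V → Om V → ℝ} (hm : ∀ a b, Measurable (f a b)) {B : ℝ}
    (hB : ∀ a b ω, |f a b ω| ≤ B)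
    (hequi : ∀ (g : G ≃g G) (a b : V) (ω : Om V), f a b (pull g ω) = f (g a) (g b) ω)
    (heven : ∀ a b ω, f a b (flip ω) = f a b ω) {W : ℝ}
    (h2 : ∀ a b, G.Adj a b → ∫ ω, f a b ω ^ 2 ∂PP ν ≤ W)
    (h1 : ∀ a b, G.Adj a b → ∫ ω, f a b ω ∂PP ν = 0) (u v : V) :
    ∫ ω, (∑ w ∈ pth G u v, f w (tw G u w) ω) ^ 2 ∂PP ν ≤ 30 * d * G.dist u v * W := by
  have := hW.prob
  have hT := hW.tr
  have hB0 : 0 ≤ B := (abs_nonneg _).trans (hB u u (fun _ => true, 0, 0))
  have hi : ∀ a b, Integrable (f a b) (PP ν) := fun a b => integrable_of_bdd (hm a b) (hB a b)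
  set c : ℕ → V → V → Om V → ℝ := fun R a b => cE (PP ν) B (ball G a R : Set V) (f a b) with hc
  have cm : ∀ R a b, Measurable (c R a b) := fun R a b => measurable_cE _ _ _ _
  have cb : ∀ R a b ω, |c R a b ω| ≤ B := fun R a b => abs_cE_le _ hB0 _ _
  have cae : ∀ R a b, c R a b =ᵐ[PP ν] (PP ν)[f a b | loc (ball G a R : Set V)] :=
    fun R a b => cE_ae _ _ (hB a b)
  have cL : ∀ R a b, MemLp (c R a b) 2 (PP ν) := fun R a b =>
    MemLp.of_bound (cm R a b).aestronglyMeasurable B (ae_of_all _ (cb R a b))
  have cpull : ∀ R (g : G ≃g G) a b,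
      (fun ω => c R a b (pull g ω)) =ᵐ[PP ν] c R (g a) (g b) := by
    intro R g a b
    have e1 := condExp_comp_of_map (loc_le (ball G a R : Set V)) (measurable_pull g)
      (hW.map_pull g) (hi a b)
    have e2 : (loc (ball G a R : Set V)).comap (pull g) = loc (ball G (g a) R : Set V) :=
      comap_loc_pull g.toEquiv fun x => by
        simp only [Finset.mem_coe, mem_ball hT]
        exact Iff.of_eq (congrArg (· ≤ R) (dist_iso g a x))
    rw [e2] at e1
    simp only [hequi] at e1
    have e3 := (MeasurePreserving.quasiMeasurePreserving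
      ⟨measurable_pull g, hW.map_pull g⟩).ae_eq (cae R a b)
    exact (e3.trans e1).trans (cae R _ _).symm
  have cflip : ∀ R a b, (fun ω => c R a b (flip ω)) =ᵐ[PP ν] c R a b := by
    intro R a b
    have e1 := condExp_comp_of_map (loc_le (ball G a R : Set V)) measurable_flip
      hW.map_flip (hi a b)
    rw [comap_loc_flip] at e1
    simp only [heven] at e1
    have e3 := (MeasurePreserving.quasiMeasurePreserving
      ⟨measurable_flip, hW.map_flip⟩).ae_eq (cae R a b)
    exact (e3.trans e1).trans (cae R _ _).symm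
  have key : ∀ R, ∫ ω, (∑ w ∈ pth G u v, c R w (tw G u w) ω) ^ 2 ∂PP ν ≤
      30 * d * G.dist u v * W := by
    intro R
    have h := temp_abs hT (F := fun a b => (cL R a b).toLp (c R a b)) (W := W) (R := 2 * R)
      (fun g a b a' b' => by
        simp only [inner_toLp]
        rw [← integral_pull hW g (F := fun ω => c R a b ω * c R a' b' ω)
          ((cm R a b).mul (cm R a' b'))]
        refine integral_congr_ae ?_
        filter_upwards [cpull R g a b, cpull R g a' b'] with ω e1 e2
        rw [e1, e2])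
      (fun a b hab => by
        rw [← real_inner_self_eq_norm_sq, inner_toLp]
        simp only [← sq]
        exact (integral_cE_sq_le _ hB0 _ (hm a b) (hB a b)).trans (h2 a b hab))
      (fun a b a' b' hab hab' hR => by
        obtain ⟨z, x, hzx, hz, hx⟩ := exists_sep hT hR
        rw [inner_toLp, mk_even hW hzx (cm R a b) (cm R a' b') (cb R a b) (cb R a' b')
          ((depOn_of_loc (cE_loc _ _ _ _)).mono hz) ((depOn_of_loc (cE_loc _ _ _ _)).mono hx)
          (cflip R a b), integral_congr_ae (cae R a b), integral_condExp (loc_le _), h1 a b hab,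
          zero_mul]) u v
    refine le_of_eq_of_le ?_ h
    rw [← real_inner_self_eq_norm_sq, sum_inner]
    simp only [inner_sum, inner_toLp, sq, Finset.sum_mul_sum]
    have ii : ∀ w w', Integrable (fun ω => c R w (tw G u w) ω * c R w' (tw G u w') ω) (PP ν) :=
      fun w w' => integrable_of_bdd ((cm R _ _).mul (cm R _ _)) (C := B * B) fun ω => by
        rw [abs_mul]; exact mul_le_mul (cb _ _ _ _) (cb _ _ _ _) (abs_nonneg _) hB0
    rw [integral_finsetSum _ fun w _ => integrable_finsetSum _ fun w' _ => ii w w']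
    exact Finset.sum_congr rfl fun w _ => integral_finsetSum _ fun w' _ => ii w w'
  refine le_of_tendsto' (f := fun R => ∫ ω, (∑ w ∈ pth G u v, c R w (tw G u w) ω) ^ 2 ∂PP ν)
    (x := atTop) ?_ key
  refine tendsto_integral_of_dominated_convergence (fun _ => ((pth G u v).card * B) ^ 2)
    (fun R => ((Finset.measurable_sum _ fun w _ => cm R _ _).pow_const 2).aestronglyMeasurable)
    (integrable_const _) (fun R => ae_of_all _ fun ω => ?_) ?_
  · rw [Real.norm_eq_abs, abs_pow]
    refine pow_le_pow_left₀ (abs_nonneg _) ((Finset.abs_sum_le_sum_abs _ _).trans ?_) 2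
    simpa using Finset.sum_le_sum (s := pth G u v) fun w _ => cb R w (tw G u w) ω
  · have conv : ∀ a b, ∀ᵐ ω ∂PP ν, Tendsto (fun R => c R a b ω) atTop (𝓝 (f a b ω)) := by
      intro a b
      let ℱ : Filtration ℕ (inferInstance : MeasurableSpace (Om V)) :=
        { seq := fun n => loc (ball G a n : Set V)
          mono' := fun n m h => loc_mono (Finset.coe_subset.2 (ball_mono a h))
          le' := fun n => loc_le _ }
      have e1 := (hi a b).tendsto_ae_condExp (ℱ := ℱ)
        (((hm a b).mono (iSup_loc_ball hT a) le_rfl).stronglyMeasurable)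
      filter_upwards [e1, ae_all_iff.2 fun R => cae R a b] with ω e2 e3
      simpa only [e3] using e2
    filter_upwards [(ae_ball_iff (pth G u v).countable_toSet).2
      fun w _ => conv w (tw G u w)] with ω hω
    exact (tendsto_finsetSum _ fun w hw => hω w hw).pow 2

theorem temp (hW : Wd G d θ ν) {f : V → V → Om V → ℝ} (hm : ∀ a b, Measurable (f a b)) {B : ℝ}
    (hB : ∀ a b ω, |f a b ω| ≤ B)
    (hequi : ∀ (g : G ≃g G) (a b : V) (ω : Om V), f a b (pull g ω) = f (g a) (g b) ω)
    (heven : ∀ a b ω, f a b (flip ω) = f a b ω) {W ε : ℝ}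
    (h2 : ∀ a b, G.Adj a b → ∫ ω, f a b ω ^ 2 ∂PP ν ≤ W)
    (h1 : ∀ a b, G.Adj a b → |∫ ω, f a b ω ∂PP ν| ≤ ε) (u v : V) :
    ∫ ω, (∑ w ∈ pth G u v, f w (tw G u w) ω) ^ 2 ∂PP ν ≤
      60 * d * G.dist u v * W + 2 * (G.dist u v : ℝ) ^ 2 * ε ^ 2 := by
  have := hW.prob
  have hT := hW.tr
  have hB0 : 0 ≤ B := (abs_nonneg _).trans (hB u u (fun _ => true, 0, 0))
  have hi : ∀ a b, Integrable (f a b) (PP ν) := fun a b => integrable_of_bdd (hm a b) (hB a b)
  have hi2 : ∀ a b, Integrable (fun ω => f a b ω ^ 2) (PP ν) := fun a b =>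
    integrable_of_bdd ((hm a b).pow_const 2) (C := B ^ 2) fun ω => by
      rw [abs_pow]; exact pow_le_pow_left₀ (abs_nonneg _) (hB a b ω) 2
  set e : V → V → ℝ := fun a b => ∫ ω, f a b ω ∂PP ν with he
  have eb : ∀ a b, |e a b| ≤ B := fun a b => by
    have := norm_integral_le_of_norm_le_const (μ := PP ν) (f := f a b) (C := B)
      (ae_of_all _ (hB a b))
    simpa using this
  have h0 := temp0 hW (f := fun a b ω => f a b ω - e a b)
    (fun a b => (hm a b).sub_const _) (B := 2 * B)
    (fun a b ω => (abs_sub _ _).trans (by linarith [hB a b ω, eb a b]))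
    (fun g a b ω => by
      simp only [hequi, he]
      rw [← integral_pull hW g (hm a b)]
      simp only [hequi])
    (fun a b ω => by simp only [heven]) (W := W)
    (fun a b hab => by
      refine le_trans ?_ (h2 a b hab)
      have : ∀ ω, (f a b ω - e a b) ^ 2 = f a b ω ^ 2 - 2 * e a b * f a b ω + e a b ^ 2 :=
        fun ω => by ring
      simp only [this]
      have i3 : Integrable (fun ω => f a b ω ^ 2 - 2 * e a b * f a b ω) (PP ν) :=
        (hi2 a b).sub ((hi a b).const_mul _)
      rw [integral_add i3 (integrable_const _),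
        integral_sub (hi2 a b) ((hi a b).const_mul _), integral_const_mul]
      simp only [integral_const, probReal_univ, smul_eq_mul, one_mul]
      change _ - 2 * e a b * e a b + _ ≤ _
      nlinarith [sq_nonneg (e a b)])
    (fun a b _ => by
      rw [integral_sub (hi a b) (integrable_const _)]
      simp [he]) u v
  have hs : |∑ w ∈ pth G u v, e w (tw G u w)| ≤ G.dist u v * ε := by
    refine (Finset.abs_sum_le_sum_abs _ _).trans ?_
    have := Finset.sum_le_sum (s := pth G u v) fun w hw =>
      h1 w (tw G u w) (tw_adj hT ((mem_pth hT).1 hw).1.symm)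
    simpa [card_pth hT] using this
  have hs2 := sq_le_sq' (abs_le.1 hs).1 (abs_le.1 hs).2
  have m0 : Measurable fun ω => ∑ w ∈ pth G u v, (f w (tw G u w) ω - e w (tw G u w)) :=
    Finset.measurable_sum _ fun w _ => (hm _ _).sub_const _
  have i0 : Integrable
      (fun ω => (∑ w ∈ pth G u v, (f w (tw G u w) ω - e w (tw G u w))) ^ 2) (PP ν) :=
    integrable_of_bdd (m0.pow_const 2) (C := ((pth G u v).card * (2 * B)) ^ 2) fun ω => by
      rw [abs_pow]
      refine pow_le_pow_left₀ (abs_nonneg _) ((Finset.abs_sum_le_sum_abs _ _).trans ?_) 2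
      simpa using Finset.sum_le_sum (s := pth G u v) fun w _ =>
        (abs_sub (f w (tw G u w) ω) (e w (tw G u w))).trans
          (show _ ≤ 2 * B by linarith [hB w (tw G u w) ω, eb w (tw G u w)])
  calc ∫ ω, (∑ w ∈ pth G u v, f w (tw G u w) ω) ^ 2 ∂PP ν
      ≤ ∫ ω, (2 * (∑ w ∈ pth G u v, (f w (tw G u w) ω - e w (tw G u w))) ^ 2 +
          2 * (G.dist u v * ε) ^ 2) ∂PP ν := by
        refine integral_mono_of_nonneg (ae_of_all _ fun ω => sq_nonneg _)
          ((i0.const_mul 2).add (integrable_const _)) (ae_of_all _ fun ω => ?_)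
        simp only [Finset.sum_sub_distrib]
        nlinarith [sq_nonneg ((∑ w ∈ pth G u v, f w (tw G u w) ω) -
          2 * ∑ w ∈ pth G u v, e w (tw G u w))]
    _ ≤ _ := by
        rw [integral_add (i0.const_mul 2) (integrable_const _), integral_const_mul]
        simp only [integral_const, probReal_univ, smul_eq_mul, one_mul]
        nlinarith

end

end Crest.Agent.R160
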