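import Crest.Agent.R160.AC2

/-!
Row 160, Zmom: moments of the weighted subtree sums.

Notation: `η = eta i`, `x = cA d * η`, `lm = θ² exp (x/16)`, `μ = (d-1) lm ≤ exp (x/16) ≤ 1.01`,
`y = fy r (obs ω) = fS univ (fun _ => r) (obs ω)` (`fS_univ`), `Z n a b = Zs lm a b n y`,
`X n c a = rr θ (cav c a y) * Z n c a ≤ Z n c a`; `Z (n+1) a b = 1 + lm ∑ c ∈ kids a b, X n c a`.
`conv_step` (convexity of `t ↦ t^p`): writing `1 + μ·avg x = (1/B)·B + (1-1/B)·avg (μ x/(1-1/B))`.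
Base `p = 8` (`zmom_base`): with `B = 32/x` show `E X^8 ≤ B^8` for all edges by induction on `n`:
`X (n+1) c a ≤ 1 + lm ∑ c' ∈ kids c a, rr (cav c a) * X n c' c`, and
`E (rr * X n c' c)^8 ≤ E rr * X^8 ≤ (1-x) B^8` by `ac` applied with another child `c''` of `c`
(`exists_third c a c'`; `X n c' c` is `DepOn (sub c' c) ⊆ sub c c''` by `sub_subset`); take
`ρ = exp (-x/8)`, `μ ρ ≤ exp (-x/16) ≤ 1 - x/32`.  One more `conv_step` gives `E Z^8 ≤ (40/x)^8`.
Doubling (`zmom_double`): if `E Z^p ≤ B^p` for all edges and depths, `p ≥ 8`, `B ≥ 40`, then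
`E Z^(2p) ≤ (1.2 B)^(2p)`, by induction on `n`: the average over the `d-1 ≥ 2` children is the average
over ordered pairs `c ≠ c'` of `(X_c + X_c')/2`; `((s+t)/2)² ≤ max ((7/8)² max(s,t)²) ((21/20) s t)`
for `s,t ≥ 0`, so `((s+t)/2)^(2p) ≤ (7/8)^(2p) (s^(2p) + t^(2p)) + (21/20)^p s^p t^p`; `X_c^p` is even and
`DepOn (sub c a)`, `X_c'^p` is `DepOn (sub a c)`, so `mk_even` gives
`E ≤ (2 (7/8)^(2p) + ((21/20)/1.44)^p) (1.2B)^(2p) ≤ 3 (7/8)^(2p) (1.2B)^(2p) ≤ (0.95 · 1.2 B)^(2p)`,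
and `μ · 0.95 ≤ 0.96 ≤ 1 - 1/(1.2 B)`.
-/

set_option autoImplicit false

open MeasureTheory Filter Topology
open scoped Classical

namespace Crest.Agent.R160

noncomputable section

universe u

variable {V : Type u} {G : SimpleGraph V} [G.LocallyFinite] {d : ℕ} {θ : ℝ}
  {ν : Measure (V → Bool)}

/-- convexity step -/
lemma conv_step {Ω ι : Type*} [MeasurableSpace Ω] (P : Measure Ω) [IsProbabilityMeasure P]
    (s : Finset ι) (hs : s.Nonempty) {X : ι → Ω → ℝ} (hX : ∀ c, Measurable (X c))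
    (h0 : ∀ c ω, 0 ≤ X c ω) {C : ℝ} (hC : ∀ c ω, X c ω ≤ C) {p : ℕ} {l ρ B : ℝ}
    (hl : 0 ≤ l) (hρ : 0 ≤ ρ) (hB : 1 < B) (h : ∀ c ∈ s, ∫ ω, X c ω ^ p ∂P ≤ (ρ * B) ^ p)
    (hμ : s.card * l * ρ ≤ 1 - 1 / B) :
    ∫ ω, (1 + l * ∑ c ∈ s, X c ω) ^ p ∂P ≤ B ^ p := by
  set m : ℝ := (s.card : ℝ) with hm
  have hm0 : 0 < m := by rw [hm]; exact_mod_cast hs.card_pos
  have hB0 : 0 < B := by linarith
  set τ : ℝ := 1 - 1 / B with hτ
  have hτ0 : 0 < τ := by
    have : 1 / B < 1 := by rw [div_lt_one hB0]; exact hB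
    linarith
  have pt : ∀ ω, (1 + l * ∑ c ∈ s, X c ω) ^ p ≤
      ∑ c ∈ s, 1 / m * (1 / B * B ^ p + τ * (m * l / τ) ^ p * X c ω ^ p) := by
    intro ω
    have e1 : 1 + l * ∑ c ∈ s, X c ω = ∑ c ∈ s, 1 / m * (1 + m * l * X c ω) := by
      rw [← Finset.mul_sum, Finset.sum_add_distrib, ← Finset.mul_sum]
      simp only [Finset.sum_const, nsmul_eq_mul, mul_one, ← hm]
      field_simp
    rw [e1]
    refine (Real.pow_arith_mean_le_arith_mean_pow s (fun _ => 1 / m) _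
      (fun _ _ => by positivity) (by simp [← hm, hm0.ne']) (fun c _ => by
        have := h0 c ω; positivity) p).trans (Finset.sum_le_sum fun c _ => ?_)
    refine mul_le_mul_of_nonneg_left ?_ (by positivity)
    have hx := h0 c ω
    have := (convexOn_pow (𝕜 := ℝ) p).2 hB0.le
      (show 0 ≤ m * l / τ * X c ω by positivity) (show 0 ≤ 1 / B by positivity) hτ0.le
      (by rw [hτ]; ring)
    simp only [smul_eq_mul] at this
    have e2 : 1 / B * B + τ * (m * l / τ * X c ω) = 1 + m * l * X c ω := by field_simp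
    rw [e2, mul_pow, ← mul_assoc] at this
    exact this
  have ip : ∀ c, Integrable (fun ω => X c ω ^ p) P := fun c =>
    integrable_of_bdd ((hX c).pow_const p) (C := C ^ p) fun ω => by
      rw [abs_pow, abs_of_nonneg (h0 c ω)]
      exact pow_le_pow_left₀ (h0 c ω) (hC c ω) p
  have i1 : ∀ c, Integrable
      (fun ω => 1 / m * (1 / B * B ^ p + τ * (m * l / τ) ^ p * X c ω ^ p)) P := fun c =>
    ((integrable_const _).add ((ip c).const_mul _)).const_mul _
  refine (integral_mono_of_nonneg (ae_of_all _ fun ω => by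
    have := Finset.sum_nonneg (s := s) fun c _ => h0 c ω
    positivity) (integrable_finsetSum _ fun c _ => i1 c) (ae_of_all _ pt)).trans ?_
  rw [integral_finsetSum _ fun c _ => i1 c]
  have e3 : ∀ c ∈ s, ∫ ω, 1 / m * (1 / B * B ^ p + τ * (m * l / τ) ^ p * X c ω ^ p) ∂P ≤
      1 / m * B ^ p := by
    intro c hc
    rw [integral_const_mul, integral_add (integrable_const _) ((ip c).const_mul _),
      integral_const_mul (τ * (m * l / τ) ^ p)]
    simp only [integral_const, probReal_univ, smul_eq_mul, one_mul]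
    refine mul_le_mul_of_nonneg_left ?_ (by positivity)
    have h1 : (m * l / τ) ^ p * ∫ ω, X c ω ^ p ∂P ≤ B ^ p := by
      refine (mul_le_mul_of_nonneg_left (h c hc) (by positivity)).trans ?_
      rw [← mul_pow]
      refine pow_le_pow_left₀ (by positivity) ?_ p
      have : m * l * ρ / τ ≤ 1 := (div_le_one hτ0).2 hμ
      calc m * l / τ * (ρ * B) = m * l * ρ / τ * B := by ring
        _ ≤ 1 * B := by gcongr
        _ = B := one_mul B
    calc 1 / B * B ^ p + τ * (m * l / τ) ^ p * ∫ ω, X c ω ^ p ∂P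
        = 1 / B * B ^ p + τ * ((m * l / τ) ^ p * ∫ ω, X c ω ^ p ∂P) := by ring
      _ ≤ 1 / B * B ^ p + τ * B ^ p := by gcongr
      _ = B ^ p := by rw [hτ]; ring
  refine (Finset.sum_le_sum e3).trans (le_of_eq ?_)
  simp only [Finset.sum_const, nsmul_eq_mul, ← hm]
  field_simp

/-- the weighted subtree sum below `c`, including the edge factor -/
def Xs (G : SimpleGraph V) [G.LocallyFinite] (ν : Measure (V → Bool)) (θ lm : ℝ) (c a : V)
    (n : ℕ) (y : V → ℝ) : ℝ := rr θ (cav G ν c a y) * Zs G ν θ lm c a n y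

lemma rr_cav_nonneg (hW : Wd G d θ ν) (c a : V) (y : V → ℝ) : 0 ≤ rr θ (cav G ν c a y) := by
  have := hW.prob
  exact rr_nonneg hW.sq_le (abs_cav_le ν c a y)

lemma rr_cav_le (hW : Wd G d θ ν) (c a : V) (y : V → ℝ) : rr θ (cav G ν c a y) ≤ 1 := by
  have := hW.prob
  exact rr_le_one hW.sq_le (abs_cav_le ν c a y)

lemma Xs_nonneg (hW : Wd G d θ ν) {lm : ℝ} (hl : 0 ≤ lm) (c a : V) (n : ℕ) (y : V → ℝ) :
    0 ≤ Xs G ν θ lm c a n y := mul_nonneg (rr_cav_nonneg hW c a y) (Zs_nonneg hW hl c a n y)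

lemma Xs_le (hW : Wd G d θ ν) {lm : ℝ} (hl : 0 ≤ lm) (c a : V) (n : ℕ) (y : V → ℝ) :
    Xs G ν θ lm c a n y ≤ Zs G ν θ lm c a n y :=
  mul_le_of_le_one_left (Zs_nonneg hW hl c a n y) (rr_cav_le hW c a y)

lemma measurable_fy_obs (r : ℝ) : Measurable fun ω : Om V => fy r (obs ω) :=
  measurable_fy.comp (measurable_const.prodMk measurable_obs)

lemma measurable_Xs (hW : Wd G d θ ν) (lm : ℝ) (c a : V) (n : ℕ) :
    Measurable (Xs G ν θ lm c a n) := by
  have := hW.prob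
  exact ((measurable_rr θ).comp (measurable_cav ν c a)).mul (measurable_Zs ν θ lm c a n)

lemma dependsOn_Xs (hT : Tr G d) (ν : Measure (V → Bool)) (θ lm : ℝ) {c a : V} (h : G.Adj c a)
    (n : ℕ) : DependsOn (Xs G ν θ lm c a n) (sub G c a) := fun y y' hy => by
  unfold Xs
  rw [dependsOn_cav ν c a hy, dependsOn_Zs hT ν θ lm h n hy]

lemma Xs_neg (hW : Wd G d θ ν) (lm : ℝ) (c a : V) (n : ℕ) (y : V → ℝ) :
    Xs G ν θ lm c a n (-y) = Xs G ν θ lm c a n y := by
  unfold Xs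
  rw [cav_neg hW, rr_neg, Zs_neg hW]

lemma card_kids_real (hT : Tr G d) {z x : V} (h : G.Adj z x) :
    ((kids G z x).card : ℝ) = (d : ℝ) - 1 := by
  rw [card_kids hT h, Nat.cast_sub (by have := hT.three; omega), Nat.cast_one]

lemma kids_nonempty (hT : Tr G d) {z x : V} (h : G.Adj z x) : (kids G z x).Nonempty := by
  rw [← Finset.card_pos, card_kids hT h]
  have := hT.three
  omega

lemma integral_pow_mono (hW : Wd G d θ ν) {X Y : Om V → ℝ} (hY : Measurable Y)
    (h0 : ∀ ω, 0 ≤ X ω) (h : ∀ ω, X ω ≤ Y ω) {C : ℝ} (hC : ∀ ω, |Y ω| ≤ C) (p : ℕ) :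
    ∫ ω, X ω ^ p ∂PP ν ≤ ∫ ω, Y ω ^ p ∂PP ν := by
  have := hW.prob
  refine integral_mono_of_nonneg (ae_of_all _ fun ω => pow_nonneg (h0 ω) p)
    (integrable_of_bdd (hY.pow_const p) (C := C ^ p) fun ω => ?_)
    (ae_of_all _ fun ω => pow_le_pow_left₀ (h0 ω) (h ω) p)
  rw [abs_pow]
  exact pow_le_pow_left₀ (abs_nonneg _) (hC ω) p

lemma cx_bounds (hT : Tr G d) (i : ℤ) : 0 < cA d * eta i ∧ cA d * eta i ≤ 1 / 1000 := by
  have h1 := cA_pos hT.three
  have h2 := cA_le hT.three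
  have h3 := eta_pos i
  have h4 := eta_le i
  exact ⟨by positivity, by nlinarith⟩

lemma exp_small {x : ℝ} (h0 : 0 ≤ x) (h1 : x ≤ 1 / 1000) : Real.exp (x / 16) ≤ 101 / 100 := by
  have h2 : Real.exp (x / 16) * Real.exp (-(x / 16)) = 1 := by rw [← Real.exp_add]; simp
  have h3 := Real.add_one_le_exp (-(x / 16))
  have h4 := Real.exp_pos (x / 16)
  nlinarith

lemma xs_base (hW : Wd G d θ ν) {i : ℤ} (hN : NC d θ i) {r : ℝ}
    (hr : r ∈ Set.Icc (i : ℝ) (i + 1)) (n : ℕ) : ∀ c a, G.Adj c a →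
    ∫ ω, Xs G ν θ (θ ^ 2 * Real.exp (cA d * eta i / 16)) c a n (fy r (obs ω)) ^ 8 ∂PP ν ≤
      (32 / (cA d * eta i)) ^ 8 := by
  have := hW.prob
  have hT := hW.tr
  obtain ⟨hx0, hx1⟩ := cx_bounds hT i
  set x := cA d * eta i with hx
  set lm := θ ^ 2 * Real.exp (x / 16) with hlm
  have hl0 : 0 ≤ lm := by positivity
  have hB : 1 < 32 / x := by rw [lt_div_iff₀ hx0]; linarith
  induction n with
  | zero =>
    intro c a h
    refine (integral_pow_mono hW (Y := fun _ => 1) measurable_const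
      (fun ω => Xs_nonneg hW hl0 _ _ _ _) (fun ω => ?_) (C := 1) (by simp) 8).trans ?_
    · simpa [Zs_zero hT ν θ lm h] using Xs_le hW hl0 c a 0 (fy r (obs ω))
    · simpa using one_le_pow₀ hB.le
  | succ n ih =>
    intro c a h
    obtain ⟨C, hC⟩ := Zs_bdd hW lm n
    have bX : ∀ c' a' y, Xs G ν θ lm c' a' n y ≤ C := fun c' a' y =>
      (Xs_le hW hl0 _ _ _ _).trans ((le_abs_self _).trans (hC _ _ _))
    have mX : ∀ c', Measurable fun ω : Om V =>
        rr θ (cav G ν c a (fy r (obs ω))) * Xs G ν θ lm c' c n (fy r (obs ω)) := fun c' =>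
      (((measurable_rr θ).comp (measurable_cav ν c a)).comp (measurable_fy_obs r)).mul
        ((measurable_Xs hW lm c' c n).comp (measurable_fy_obs r))
    have pX : ∀ c' ω, 0 ≤ rr θ (cav G ν c a (fy r (obs ω))) *
        Xs G ν θ lm c' c n (fy r (obs ω)) := fun c' ω =>
      mul_nonneg (rr_cav_nonneg hW _ _ _) (Xs_nonneg hW hl0 _ _ _ _)
    have bX' : ∀ c' ω, rr θ (cav G ν c a (fy r (obs ω))) *
        Xs G ν θ lm c' c n (fy r (obs ω)) ≤ C := fun c' ω =>
      (mul_le_of_le_one_left (Xs_nonneg hW hl0 _ _ _ _) (rr_cav_le hW _ _ _)).trans (bX _ _ _)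
    have key := conv_step (PP ν) (kids G c a) (kids_nonempty hT h) mX pX bX' (p := 8)
      (ρ := Real.exp (-(x / 8))) hl0 (Real.exp_pos _).le hB (fun c' hc' => ?_) ?_
    · refine le_trans (integral_pow_mono hW
        ((Finset.measurable_sum _ fun c' _ => mX c').const_mul lm |>.const_add 1)
        (fun ω => Xs_nonneg hW hl0 _ _ _ _) (fun ω => ?_)
        (C := 1 + lm * ((kids G c a).card * C)) (fun ω => ?_) 8) key
      · have e : Xs G ν θ lm c a (n + 1) (fy r (obs ω)) = rr θ (cav G ν c a (fy r (obs ω))) +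
            lm * ∑ c' ∈ kids G c a, rr θ (cav G ν c a (fy r (obs ω))) *
              Xs G ν θ lm c' c n (fy r (obs ω)) := by
          rw [Xs, Zs_succ hT ν θ lm h, ← Finset.mul_sum]
          simp only [Xs]
          ring
        rw [e]
        linarith [rr_cav_le hW c a (fy r (obs ω))]
      · have h1 := Finset.sum_nonneg (s := kids G c a) fun c' _ => pX c' ω
        rw [abs_of_nonneg (by positivity)]
        have h2 := Finset.sum_le_sum (s := kids G c a) fun c' _ => bX' c' ω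
        simp only [Finset.sum_const, nsmul_eq_mul] at h2
        gcongr
    · obtain ⟨c'', h1, h2, h3⟩ := exists_third hT c a c'
      have hc := mem_kids.1 hc'
      have hd : DepOn (sub G c c'') fun ω : Om V => Xs G ν θ lm c' c n (fy r (obs ω)) ^ 8 :=
        (depOn_fy (Ψ := fun y => Xs G ν θ lm c' c n y ^ 8) (fun y y' hy => by
          simp only [dependsOn_Xs hT ν θ lm hc.1.symm n hy]) r).mono
          (sub_subset hT h1 (mem_kids.2 ⟨hc.1, h3.symm⟩))
      have hac := ac hW hN Set.univ (s := fun _ => r) (I := r) (fun _ => le_rfl) h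
        (mem_kids.2 ⟨h1, h2⟩) (fun _ _ _ => ⟨trivial, hr.1⟩)
        (Φ := fun ω : Om V => Xs G ν θ lm c' c n (fy r (obs ω)) ^ 8)
        (((measurable_Xs hW lm c' c n).comp (measurable_fy_obs r)).pow_const 8)
        (fun ω => pow_nonneg (Xs_nonneg hW hl0 _ _ _ _) 8) (C := C ^ 8)
        (fun ω => pow_le_pow_left₀ (Xs_nonneg hW hl0 _ _ _ _) (bX _ _ _) 8) hd
      simp only [fS_univ] at hac
      have h4 : ∫ ω, (rr θ (cav G ν c a (fy r (obs ω))) *
          Xs G ν θ lm c' c n (fy r (obs ω))) ^ 8 ∂PP ν ≤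
          ∫ ω, rr θ (cav G ν c a (fy r (obs ω))) *
            Xs G ν θ lm c' c n (fy r (obs ω)) ^ 8 ∂PP ν := by
        refine integral_mono_of_nonneg (ae_of_all _ fun ω => pow_nonneg (pX c' ω) 8)
          (integrable_of_bdd
            ((((measurable_rr θ).comp (measurable_cav ν c a)).comp (measurable_fy_obs r)).mul
            (((measurable_Xs hW lm c' c n).comp (measurable_fy_obs r)).pow_const 8))
            (C := C ^ 8) fun ω => ?_) (ae_of_all _ fun ω => ?_)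
        · have h5 := pow_nonneg (Xs_nonneg hW hl0 c' c n (fy r (obs ω))) 8
          rw [abs_of_nonneg (mul_nonneg (rr_cav_nonneg hW _ _ _) h5)]
          exact (mul_le_of_le_one_left h5 (rr_cav_le hW _ _ _)).trans
            (pow_le_pow_left₀ (Xs_nonneg hW hl0 _ _ _ _) (bX _ _ _) 8)
        · simp only [mul_pow]
          exact mul_le_mul_of_nonneg_right
            (pow_le_of_le_one (rr_cav_nonneg hW _ _ _) (rr_cav_le hW _ _ _) (by norm_num))
            (pow_nonneg (Xs_nonneg hW hl0 _ _ _ _) 8)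
      refine h4.trans (hac.trans ?_)
      have h6 : 1 - x ≤ Real.exp (-(x / 8)) ^ 8 := by
        rw [← Real.exp_nat_mul]
        have := Real.add_one_le_exp (((8 : ℕ) : ℝ) * -(x / 8))
        push_cast at this ⊢
        linarith
      rw [mul_pow]
      exact mul_le_mul h6 (ih c' c hc.1.symm)
        (integral_nonneg fun ω => pow_nonneg (Xs_nonneg hW hl0 _ _ _ _) 8) (by positivity)
    · rw [card_kids_real hT h, hlm]
      have h1 : Real.exp (x / 16) * Real.exp (-(x / 8)) = Real.exp (-(x / 16)) := by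
        rw [← Real.exp_add]; ring_nf
      have h2 : Real.exp (-(x / 16)) ≤ 1 - x / 32 := by
        have h3 := Real.add_one_le_exp (x / 16)
        have h4 : Real.exp (x / 16) * Real.exp (-(x / 16)) = 1 := by rw [← Real.exp_add]; simp
        have h5 := Real.exp_pos (-(x / 16))
        nlinarith
      have h3 : 1 / (32 / x) = x / 32 := by field_simp
      have h4 := hW.θ1
      have h5 := Real.exp_pos (-(x / 16))
      calc ((d : ℝ) - 1) * (θ ^ 2 * Real.exp (x / 16)) * Real.exp (-(x / 8))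
          = ((d : ℝ) - 1) * θ ^ 2 * Real.exp (-(x / 16)) := by rw [← h1]; ring
        _ ≤ 1 * Real.exp (-(x / 16)) := by gcongr
        _ ≤ 1 - 1 / (32 / x) := by rw [h3]; linarith

lemma lm_le (hW : Wd G d θ ν) (i : ℤ) :
    ((d : ℝ) - 1) * (θ ^ 2 * Real.exp (cA d * eta i / 16)) ≤ 101 / 100 := by
  obtain ⟨hx0, hx1⟩ := cx_bounds hW.tr i
  have h1 := exp_small hx0.le hx1
  have h2 := hW.θ1
  have h3 := Real.exp_pos (cA d * eta i / 16)
  calc _ = ((d : ℝ) - 1) * θ ^ 2 * Real.exp (cA d * eta i / 16) := by ring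
    _ ≤ 1 * (101 / 100) := by gcongr
    _ = _ := by ring

lemma zmom_base (hW : Wd G d θ ν) {i : ℤ} (hN : NC d θ i) {r : ℝ}
    (hr : r ∈ Set.Icc (i : ℝ) (i + 1)) {a b : V} (h : G.Adj a b) (n : ℕ) :
    ∫ ω, Zs G ν θ (θ ^ 2 * Real.exp (cA d * eta i / 16)) a b n (fy r (obs ω)) ^ 8 ∂PP ν ≤
      (40 / (cA d * eta i)) ^ 8 := by
  have := hW.prob
  have hT := hW.tr
  obtain ⟨hx0, hx1⟩ := cx_bounds hT i
  have hl := lm_le hW i
  have hb := xs_base hW hN hr
  set x := cA d * eta i with hx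
  set lm := θ ^ 2 * Real.exp (x / 16) with hlm
  have hl0 : 0 ≤ lm := by positivity
  have hB : 1 < 40 / x := by rw [lt_div_iff₀ hx0]; linarith
  cases n with
  | zero => simpa [Zs_zero hT ν θ lm h] using one_le_pow₀ hB.le
  | succ n =>
    obtain ⟨C, hC⟩ := Zs_bdd hW lm n
    simp only [Zs_succ hT ν θ lm h]
    refine conv_step (PP ν) (kids G a b) (kids_nonempty hT h)
      (X := fun c ω => Xs G ν θ lm c a n (fy r (obs ω)))
      (fun c => (measurable_Xs hW lm c a n).comp (measurable_fy_obs r))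
      (fun c ω => Xs_nonneg hW hl0 _ _ _ _) (C := C)
      (fun c ω => (Xs_le hW hl0 _ _ _ _).trans ((le_abs_self _).trans (hC _ _ _)))
      (ρ := 4 / 5) hl0 (by norm_num) hB (fun c hc => ?_) ?_
    · have : 4 / 5 * (40 / x) = 32 / x := by ring
      rw [this]
      exact hb n c a (mem_kids.1 hc).1.symm
    · rw [card_kids_real hT h]
      have h3 : 1 / (40 / x) = x / 40 := by field_simp
      rw [h3]
      linarith

lemma half_pow_le {s t : ℝ} (hs : 0 ≤ s) (ht : 0 ≤ t) (p : ℕ) :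
    ((s + t) / 2) ^ (2 * p) ≤
      (7 / 8) ^ (2 * p) * (s ^ (2 * p) + t ^ (2 * p)) + (21 / 20) ^ p * (s ^ p * t ^ p) := by
  have a1 : 0 ≤ (7 / 8 : ℝ) ^ (2 * p) * s ^ (2 * p) := by positivity
  have a2 : 0 ≤ (7 / 8 : ℝ) ^ (2 * p) * t ^ (2 * p) := by positivity
  have a3 : 0 ≤ (21 / 20 : ℝ) ^ p * (s ^ p * t ^ p) := by positivity
  by_cases h1 : t ≤ 3 / 4 * s
  · have : ((s + t) / 2) ^ (2 * p) ≤ (7 / 8 * s) ^ (2 * p) :=
      pow_le_pow_left₀ (by positivity) (by linarith) _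
    rw [mul_pow] at this
    linarith [mul_add ((7 / 8 : ℝ) ^ (2 * p)) (s ^ (2 * p)) (t ^ (2 * p))]
  by_cases h2 : s ≤ 3 / 4 * t
  · have : ((s + t) / 2) ^ (2 * p) ≤ (7 / 8 * t) ^ (2 * p) :=
      pow_le_pow_left₀ (by positivity) (by linarith) _
    rw [mul_pow] at this
    linarith [mul_add ((7 / 8 : ℝ) ^ (2 * p)) (s ^ (2 * p)) (t ^ (2 * p))]
  push Not at h1 h2
  have h3 : ((s + t) / 2) ^ 2 ≤ 21 / 20 * (s * t) := by
    nlinarith [mul_pos (sub_pos.2 h1) (sub_pos.2 h2)]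
  have : (((s + t) / 2) ^ 2) ^ p ≤ (21 / 20 * (s * t)) ^ p := pow_le_pow_left₀ (by positivity) h3 _
  rw [← pow_mul, mul_pow, mul_pow] at this
  linarith [mul_add ((7 / 8 : ℝ) ^ (2 * p)) (s ^ (2 * p)) (t ^ (2 * p))]

lemma sum_pairs {ι : Type*} (s : Finset ι) (f : ι → ℝ) :
    ∑ q ∈ (s ×ˢ s).filter (fun q => q.1 ≠ q.2), (f q.1 + f q.2) / 2 =
      ((s.card : ℝ) - 1) * ∑ c ∈ s, f c := by
  have h1 := Finset.sum_filter_add_sum_filter_not (s ×ˢ s) (fun q => q.1 ≠ q.2)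
    (fun q => (f q.1 + f q.2) / 2)
  have h2 : ∑ q ∈ (s ×ˢ s).filter (fun q => ¬ q.1 ≠ q.2), (f q.1 + f q.2) / 2 = ∑ c ∈ s, f c := by
    rw [Finset.sum_filter, Finset.sum_product]
    refine Finset.sum_congr rfl fun c hc => ?_
    simp [hc]
  have h3 : ∑ q ∈ s ×ˢ s, (f q.1 + f q.2) / 2 = s.card * ∑ c ∈ s, f c := by
    rw [← Finset.sum_div, Finset.sum_add_distrib, Finset.sum_product, Finset.sum_product]
    simp only [Finset.sum_const, nsmul_eq_mul, ← Finset.mul_sum]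
    ring
  linarith

lemma zmom_double (hW : Wd G d θ ν) {r lm : ℝ} (hl0 : 0 ≤ lm)
    (hl : ((d : ℝ) - 1) * lm ≤ 101 / 100) {p : ℕ} (hp : 8 ≤ p) {B : ℝ} (hB : 40 ≤ B)
    (hZ : ∀ a b n, G.Adj a b → ∫ ω, Zs G ν θ lm a b n (fy r (obs ω)) ^ p ∂PP ν ≤ B ^ p)
    {a b : V} (h : G.Adj a b) (n : ℕ) :
    ∫ ω, Zs G ν θ lm a b n (fy r (obs ω)) ^ (2 * p) ∂PP ν ≤ (6 / 5 * B) ^ (2 * p) := by
  have := hW.prob
  have hT := hW.tr
  have hB1 : 1 < 6 / 5 * B := by linarith
  induction n generalizing a b with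
  | zero => simpa [Zs_zero hT ν θ lm h] using one_le_pow₀ hB1.le
  | succ n ih =>
    obtain ⟨C, hC⟩ := Zs_bdd hW lm n
    set X : V → Om V → ℝ := fun c ω => Xs G ν θ lm c a n (fy r (obs ω)) with hX
    have mX : ∀ c, Measurable (X c) := fun c =>
      (measurable_Xs hW lm c a n).comp (measurable_fy_obs r)
    have pX : ∀ c ω, 0 ≤ X c ω := fun c ω => Xs_nonneg hW hl0 _ _ _ _
    have bX : ∀ c ω, X c ω ≤ C := fun c ω =>
      (Xs_le hW hl0 _ _ _ _).trans ((le_abs_self _).trans (hC _ _ _))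
    have bp : ∀ c q ω, |X c ω ^ q| ≤ C ^ q := fun c q ω => by
      rw [abs_pow, abs_of_nonneg (pX c ω)]
      exact pow_le_pow_left₀ (pX c ω) (bX c ω) q
    have ip : ∀ c q, Integrable (fun ω => X c ω ^ q) (PP ν) := fun c q =>
      integrable_of_bdd ((mX c).pow_const q) (bp c q)
    have cmp1 : ∀ c q, ∫ ω, X c ω ^ q ∂PP ν ≤
        ∫ ω, Zs G ν θ lm c a n (fy r (obs ω)) ^ q ∂PP ν := fun c q =>
      integral_pow_mono hW ((measurable_Zs ν θ lm c a n).comp (measurable_fy_obs r)) (pX c)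
        (fun ω => Xs_le hW hl0 _ _ _ _) (fun ω => hC _ _ _) q
    have hm := card_kids_real hT h
    have hd2 := hT.two_le
    set P := (kids G a b ×ˢ kids G a b).filter (fun q => q.1 ≠ q.2) with hP
    have hcard : (P.card : ℝ) = ((d : ℝ) - 1 - 1) * ((d : ℝ) - 1) := by
      have := sum_pairs (kids G a b) (fun _ => 1)
      simpa [hm] using this
    have hne : P.Nonempty := by
      rw [← Finset.card_pos]
      have : (0 : ℝ) < P.card := by rw [hcard]; nlinarith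
      exact_mod_cast this
    have e : ∀ ω, Zs G ν θ lm a b (n + 1) (fy r (obs ω)) =
        1 + lm / ((d : ℝ) - 1 - 1) * ∑ q ∈ P, (X q.1 ω + X q.2 ω) / 2 := by
      intro ω
      rw [Zs_succ hT ν θ lm h, hP, sum_pairs (kids G a b) (fun c => X c ω), hm]
      have : (d : ℝ) - 1 - 1 ≠ 0 := by linarith
      simp only [hX, Xs]
      field_simp
    simp only [e]
    refine conv_step (PP ν) P hne (X := fun q ω => (X q.1 ω + X q.2 ω) / 2)
      (fun q => ((mX _).add (mX _)).div_const 2)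
      (fun q ω => by have := pX q.1 ω; have := pX q.2 ω; positivity) (C := C)
      (fun q ω => by have := bX q.1 ω; have := bX q.2 ω; linarith)
      (ρ := 19 / 20) (div_nonneg hl0 (by linarith)) (by norm_num) hB1 (fun q hq => ?_) ?_
    · obtain ⟨hq1, hq2⟩ := Finset.mem_filter.1 hq
      obtain ⟨k1, k2⟩ := Finset.mem_product.1 hq1
      have a1 := (mem_kids.1 k1).1
      have a2 := (mem_kids.1 k2).1
      have ind := mk_even hW a1.symm ((mX q.1).pow_const p) ((mX q.2).pow_const p) (bp q.1 p)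
        (bp q.2 p)
        (depOn_fy (Ψ := fun y => Xs G ν θ lm q.1 a n y ^ p) (fun y y' hy => by
          simp only [dependsOn_Xs hT ν θ lm a1.symm n hy]) r)
        ((depOn_fy (Ψ := fun y => Xs G ν θ lm q.2 a n y ^ p) (fun y y' hy => by
          simp only [dependsOn_Xs hT ν θ lm a2.symm n hy]) r).mono
          (sub_subset hT a1 (mem_kids.2 ⟨a2, Ne.symm hq2⟩)))
        (ae_of_all _ fun ω => by simp only [hX, obs_flip, fy_negO, Xs_neg hW])
      have i3 : Integrable (fun ω => X q.1 ω ^ p * X q.2 ω ^ p) (PP ν) :=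
        integrable_of_bdd (((mX q.1).pow_const p).mul ((mX q.2).pow_const p))
          (C := C ^ p * C ^ p) fun ω => by
            rw [abs_mul]
            exact mul_le_mul (bp _ _ _) (bp _ _ _) (abs_nonneg _)
              ((abs_nonneg _).trans (bp q.1 p ω))
      have i4 : Integrable (fun ω => X q.1 ω ^ (2 * p) + X q.2 ω ^ (2 * p)) (PP ν) :=
        (ip _ _).add (ip _ _)
      have h1 : ∫ ω, ((X q.1 ω + X q.2 ω) / 2) ^ (2 * p) ∂PP ν ≤
          ∫ ω, ((7 / 8) ^ (2 * p) * (X q.1 ω ^ (2 * p) + X q.2 ω ^ (2 * p)) +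
            (21 / 20) ^ p * (X q.1 ω ^ p * X q.2 ω ^ p)) ∂PP ν :=
        integral_mono_of_nonneg (ae_of_all _ fun ω => by
          have := pX q.1 ω; have := pX q.2 ω; positivity)
          ((i4.const_mul _).add (i3.const_mul _))
          (ae_of_all _ fun ω => half_pow_le (pX _ _) (pX _ _) p)
      rw [integral_add (i4.const_mul _) (i3.const_mul _), integral_const_mul, integral_const_mul,
        integral_add (ip _ _) (ip _ _), ind] at h1
      have b1 := (cmp1 q.1 (2 * p)).trans (ih a1.symm)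
      have b2 := (cmp1 q.2 (2 * p)).trans (ih a2.symm)
      have b3 := (cmp1 q.1 p).trans (hZ _ _ n a1.symm)
      have b4 := (cmp1 q.2 p).trans (hZ _ _ n a2.symm)
      have hBp : 0 ≤ B ^ p := by positivity
      have b5 : (∫ ω, X q.1 ω ^ p ∂PP ν) * ∫ ω, X q.2 ω ^ p ∂PP ν ≤ B ^ p * B ^ p :=
        mul_le_mul b3 b4 (integral_nonneg fun ω => pow_nonneg (pX _ _) p) hBp
      have b6 : (21 / 20 : ℝ) ^ p * (B ^ p * B ^ p) ≤ (7 / 8) ^ (2 * p) * (6 / 5 * B) ^ (2 * p) := by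
        rw [← mul_pow, ← mul_pow, ← mul_pow, pow_mul]
        refine pow_le_pow_left₀ (by positivity) ?_ p
        nlinarith [sq_nonneg B]
      have b7 : 3 * (7 / 8 : ℝ) ^ (2 * p) ≤ (19 / 20) ^ (2 * p) := by
        have c1 : (3 : ℝ) ≤ (38 / 35) ^ (2 * p) :=
          le_trans (by norm_num) (pow_le_pow_right₀ (by norm_num) (show 16 ≤ 2 * p by omega))
        calc 3 * (7 / 8 : ℝ) ^ (2 * p) ≤ (38 / 35) ^ (2 * p) * (7 / 8) ^ (2 * p) := by gcongr
          _ = (19 / 20) ^ (2 * p) := by rw [← mul_pow]; norm_num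
      have b8 : 0 ≤ (6 / 5 * B) ^ (2 * p) := by positivity
      have b9 : 0 ≤ (7 / 8 : ℝ) ^ (2 * p) := by positivity
      have b10 : 0 ≤ (21 / 20 : ℝ) ^ p := by positivity
      rw [mul_pow]
      calc _ ≤ _ := h1
        _ ≤ (7 / 8) ^ (2 * p) * ((6 / 5 * B) ^ (2 * p) + (6 / 5 * B) ^ (2 * p)) +
            (21 / 20) ^ p * (B ^ p * B ^ p) := by gcongr
        _ ≤ 3 * (7 / 8 : ℝ) ^ (2 * p) * (6 / 5 * B) ^ (2 * p) := by linarith
        _ ≤ _ := by gcongr
    · rw [hcard]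
      have h1 : (d : ℝ) - 1 - 1 ≠ 0 := by linarith
      have h2 : ((d : ℝ) - 1 - 1) * ((d : ℝ) - 1) * (lm / ((d : ℝ) - 1 - 1)) =
          ((d : ℝ) - 1) * lm := by field_simp
      have h3 : 1 / (6 / 5 * B) ≤ 1 / 48 := one_div_le_one_div_of_le (by norm_num) (by linarith)
      rw [h2]
      linarith

theorem zmom (hW : Wd G d θ ν) {i : ℤ} (hN : NC d θ i) {r : ℝ}
    (hr : r ∈ Set.Icc (i : ℝ) (i + 1)) {k : ℕ} (hk : 3 ≤ k) {a b : V} (h : G.Adj a b) (n : ℕ) :
    ∫ ω, Zs G ν θ (θ ^ 2 * Real.exp (cA d * eta i / 16)) a b n (fy r (obs ω)) ^ (2 ^ k) ∂PP ν ≤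
      (40 * (6 / 5) ^ k / (cA d * eta i)) ^ (2 ^ k) := by
  obtain ⟨hx0, hx1⟩ := cx_bounds hW.tr i
  induction k, hk using Nat.le_induction generalizing a b n with
  | base =>
    refine (zmom_base hW hN hr h n).trans (pow_le_pow_left₀ (by positivity) ?_ _)
    gcongr
    norm_num
  | succ k hk ih =>
    have h1 : 8 ≤ 2 ^ k := (by norm_num : 8 ≤ 2 ^ 3).trans (Nat.pow_le_pow_right (by norm_num) hk)
    have h2 : 40 ≤ 40 * (6 / 5) ^ k / (cA d * eta i) := by
      rw [le_div_iff₀ hx0]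
      have : (1 : ℝ) ≤ (6 / 5) ^ k := one_le_pow₀ (by norm_num)
      nlinarith
    have := zmom_double hW (by positivity) (lm_le hW i) h1 h2 (fun a b n h => ih h n) h n
    rw [pow_succ' 2 k]
    convert this using 2
    rw [pow_succ]
    ring

end

end Crest.Agent.R160
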