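import Crest.Agent.R160.CmpA
import Crest.Agent.R160.CmpD
import Crest.Agent.R160.TempB
import Crest.Agent.R160.Zmom

/-!
Row 160, CmpC: the one-time comparison bound.

Notation: `η = eta i`, `p = 2^k`, `B = 40 (6/5)^k/(cA d η)`, `lm θ = θ² exp (cA d η/16)` (`zmom` in
both worlds), `Cv, Cv'` the two covariances, `Δ u = mm u - mm' u`, `g = gE`,
`Wg = Cg (min 1 (8^k η) D + ε² + 2^(-p))` from `gE_sq`, `ks` from `exists_ks`, `δ` from `mm_bound`.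
`cv_diff`: a.s. (`ae_conv_fy`, `Coup.ae_conv`, `Cv_eq_Ch`, `Ch_diff_sq`, `log_one_sub_sq_lip`)
`(Cv - Cv')² ≤ 2 (2/δ)² (Cv² + Cv'²) Δ_u² + 2 (Cv² + Cv'²) (∑ g)²`.
* `Δ_u` terms: `cmpA` twice (with `coup_refl` for the unprimed world): `η² B ≤ C η (36/25)^k`.
* `dist ≤ ks` (`cmp_small`): `Cv² ≤ θ^(2 dist)` (`Cv_le_pow`), `temp`, `sum_ball_le`:
  at most `C ((ks+1)² Wg + (ks+1)³ ε²)`; `η (ks+1) ≤ C (m+3)`, `(m+3)² ≤ 2/η`, `(m+3)³ ≤ 4/η` for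
  `m = (-i).toNat` (`eta_eq`).
* `dist > ks`: `cmpB` twice; `η² B² ≤ C (36/25)^k ≤ C 2^k`.
* last term of `Sm`: `cmpA2` with `X = Δ` (`mm_pullO`, `Coup.equi`).
(`D ≥ 0` since `Dl ≥ 0`.)
-/

set_option autoImplicit false

open MeasureTheory Filter Topology
open scoped Classical

namespace Crest.Agent.R160

noncomputable section

universe u

variable {V : Type u} {G : SimpleGraph V} [G.LocallyFinite] {d : ℕ} {θ : ℝ}
  {ν : Measure (V → Bool)}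

variable {θ' : ℝ} {ν' : Measure (V → Bool)} {Γ : Ob V → Ob V}

lemma cv_diff (hW : Wd G d θ ν) (hW' : Wd G d θ' ν') (hC : Coup G ν ν' Γ) (h0 : 0 < θ)
    (h0' : 0 < θ') {r δ : ℝ} (hδ : 0 < δ) (hb : ∀ u o, |mm G ν r u o| ≤ 1 - δ)
    (hb' : ∀ u o, |mm G ν' r u o| ≤ 1 - δ) (u v : V) :
    ∀ᵐ ω ∂PP ν, (Cv G ν θ u v (fy r (obs ω)) - Cv G ν' θ' u v (fy r (Γ (obs ω)))) ^ 2 ≤
      (Cv G ν θ u v (fy r (obs ω)) ^ 2 + Cv G ν' θ' u v (fy r (Γ (obs ω))) ^ 2) *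
        (2 * (2 / δ) ^ 2 * (mm G ν r u (obs ω) - mm G ν' r u (Γ (obs ω))) ^ 2 +
          2 * (∑ w ∈ pth G u v, gE G ν θ ν' θ' Γ r w (tw G u w) ω) ^ 2) := by
  filter_upwards [ae_conv_fy hW r, hC.ae_conv hW' r] with ω h1 h2
  rw [Cv_eq_Ch hW h1, Cv_eq_Ch hW' h2]
  have key := Ch_diff_sq (G := G) h0 hW.sq_le h0' hW'.sq_le u v
    (m := fun w => mm G ν r w (obs ω)) (m' := fun w => mm G ν' r w (Γ (obs ω)))
    (fun w => by linarith [hb w (obs ω)]) (fun w => by linarith [hb' w (Γ (obs ω))])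
  refine key.trans (mul_le_mul_of_nonneg_left ?_ (by positivity))
  have h3 := log_one_sub_sq_lip hδ (hb u (obs ω)) (hb' u (Γ (obs ω)))
  have h4 := pow_le_pow_left₀ (abs_nonneg _) h3 2
  rw [sq_abs, mul_pow, sq_abs] at h4
  have e : ∑ w ∈ pth G u v, gE G ν θ ν' θ' Γ r w (tw G u w) ω =
      ∑ w ∈ pth G u v, (LK θ (mm G ν r (tw G u w) (obs ω)) (mm G ν r w (obs ω)) -
        LK θ' (mm G ν' r (tw G u w) (Γ (obs ω))) (mm G ν' r w (Γ (obs ω)))) := rfl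
  rw [← e]
  set a := Real.log (1 - mm G ν r u (obs ω) ^ 2) - Real.log (1 - mm G ν' r u (Γ (obs ω)) ^ 2)
  set b := ∑ w ∈ pth G u v, gE G ν θ ν' θ' Γ r w (tw G u w) ω
  nlinarith [sq_nonneg (a - b)]

lemma integrable_sq_mul {Ω : Type*} [MeasurableSpace Ω] {P : Measure Ω} [IsFiniteMeasure P]
    {f g : Ω → ℝ} (hf : Measurable f) (hg : Measurable g) {C1 C2 : ℝ} (b1 : ∀ x, |f x| ≤ C1)
    (b2 : ∀ x, |g x| ≤ C2) : Integrable (fun x => f x ^ 2 * g x ^ 2) P :=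
  integrable_of_bdd ((hf.pow_const 2).mul (hg.pow_const 2)) (C := C1 ^ 2 * C2 ^ 2) fun x => by
    rw [abs_mul, abs_pow, abs_pow]
    exact mul_le_mul (pow_le_pow_left₀ (abs_nonneg _) (b1 x) 2)
      (pow_le_pow_left₀ (abs_nonneg _) (b2 x) 2) (by positivity) (by positivity)

lemma abs_sum_pth_le {g : V → V → Om V → ℝ} {Gb : ℝ} (bg : ∀ a b ω, |g a b ω| ≤ Gb) (u v : V)
    (ω : Om V) : |∑ w ∈ pth G u v, g w (tw G u w) ω| ≤ (pth G u v).card * Gb := by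
  refine (Finset.abs_sum_le_sum_abs _ _).trans ?_
  refine (Finset.sum_le_sum fun w _ => bg w _ ω).trans ?_
  rw [Finset.sum_const, nsmul_eq_mul]

lemma measurable_Cv_coup (hW' : Wd G d θ' ν') (hC : Coup G ν ν' Γ) (r : ℝ) (u v : V) :
    Measurable fun ω : Om V => Cv G ν' θ' u v (fy r (Γ (obs ω))) := by
  have := hW'.prob
  exact (measurable_Cv ν' θ' u v).comp
    (measurable_fy.comp (measurable_const.prodMk (hC.meas.comp measurable_obs)))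

lemma cmp_small (hW : Wd G d θ ν) (hW' : Wd G d θ' ν') (hC : Coup G ν ν' Γ) (r : ℝ) (ks : ℕ)
    {g : V → V → Om V → ℝ} (hg : ∀ a b, Measurable (g a b)) {Gb : ℝ}
    (bg : ∀ a b ω, |g a b ω| ≤ Gb)
    (hequi : ∀ (φ : G ≃g G) (a b : V) (ω : Om V), g a b (pull φ ω) = g (φ a) (φ b) ω)
    (heven : ∀ a b ω, g a b (flip ω) = g a b ω) {W ε : ℝ}
    (h2 : ∀ a b, G.Adj a b → ∫ ω, g a b ω ^ 2 ∂PP ν ≤ W)
    (h1 : ∀ a b, G.Adj a b → |∫ ω, g a b ω ∂PP ν| ≤ ε) (u : V) (R : ℕ) :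
    ∑ v ∈ (ball G u R).filter (fun v => ¬ ks < G.dist u v),
      ∫ ω, Cv G ν' θ' u v (fy r (Γ (obs ω))) ^ 2 *
        (∑ w ∈ pth G u v, g w (tw G u w) ω) ^ 2 ∂PP ν ≤
      120 * d * ((ks : ℝ) + 1) ^ 2 * W + 4 * ((ks : ℝ) + 1) ^ 3 * ε ^ 2 := by
  have := hW.prob
  have hT := hW.tr
  have hW0 : 0 ≤ W := by
    obtain ⟨c, hc, -⟩ := exists_third hT u u u
    exact (integral_nonneg fun ω => sq_nonneg _).trans (h2 u c hc)
  set M : ℝ := 60 * d * ks * W + 2 * (ks : ℝ) ^ 2 * ε ^ 2 with hM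
  have hM0 : 0 ≤ M := by positivity
  have hterm : ∀ v ∈ (ball G u R).filter (fun v => ¬ ks < G.dist u v),
      ∫ ω, Cv G ν' θ' u v (fy r (Γ (obs ω))) ^ 2 *
        (∑ w ∈ pth G u v, g w (tw G u w) ω) ^ 2 ∂PP ν ≤ (θ' ^ 2) ^ G.dist u v * M := by
    intro v hv
    have hk : (G.dist u v : ℝ) ≤ ks := by
      exact_mod_cast not_lt.1 (Finset.mem_filter.1 hv).2
    have hS : Measurable fun ω => ∑ w ∈ pth G u v, g w (tw G u w) ω :=
      Finset.measurable_sum _ fun w _ => hg _ _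
    have hi : Integrable (fun ω => (∑ w ∈ pth G u v, g w (tw G u w) ω) ^ 2) (PP ν) := by
      simpa using integrable_sq_mul (P := PP ν) hS (measurable_const (a := (1 : ℝ)))
        (abs_sum_pth_le bg u v) (C2 := 1) (fun _ => by simp)
    calc _ ≤ ∫ ω, (θ' ^ 2) ^ G.dist u v * (∑ w ∈ pth G u v, g w (tw G u w) ω) ^ 2 ∂PP ν := by
          refine integral_mono_of_nonneg (ae_of_all _ fun ω => by positivity) (hi.const_mul _)
            (ae_of_all _ fun ω => ?_)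
          refine mul_le_mul_of_nonneg_right ?_ (sq_nonneg _)
          rw [← pow_mul, mul_comm 2, pow_mul]
          exact pow_le_pow_left₀ (Cv_nonneg hW' _ _ _) (Cv_le_pow hW' _ _ _) 2
      _ ≤ (θ' ^ 2) ^ G.dist u v * M := by
          rw [integral_const_mul]
          refine mul_le_mul_of_nonneg_left ?_ (by positivity)
          refine (temp hW hg bg hequi heven h2 h1 u v).trans ?_
          rw [hM]
          gcongr
  refine (Finset.sum_le_sum hterm).trans ?_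
  have hsub : (ball G u R).filter (fun v => ¬ ks < G.dist u v) ⊆ ball G u ks := fun v hv =>
    (mem_ball hT).2 (not_lt.1 (Finset.mem_filter.1 hv).2)
  refine (Finset.sum_le_sum_of_subset_of_nonneg hsub fun v _ _ => by positivity).trans ?_
  refine (sum_ball_le hT u ks (h := fun k => (θ' ^ 2) ^ k * M) fun k => by positivity).trans ?_
  have h3 : ∑ k ∈ Finset.range (ks + 1), ((d : ℝ) - 1) ^ k * ((θ' ^ 2) ^ k * M) ≤
      ∑ k ∈ Finset.range (ks + 1), M := by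
    refine Finset.sum_le_sum fun k _ => ?_
    rw [← mul_assoc, ← mul_pow]
    refine mul_le_of_le_one_left hM0 (pow_le_one₀ ?_ hW'.θ1)
    have := hT.two_le
    positivity
  rw [Finset.sum_const, Finset.card_range, nsmul_eq_mul] at h3
  push_cast at h3
  have h4 : M ≤ 60 * d * (ks + 1) * W + 2 * ((ks : ℝ) + 1) ^ 2 * ε ^ 2 := by
    rw [hM]
    gcongr <;> linarith
  have h5 : ((ks : ℝ) + 1) * M ≤
      ((ks : ℝ) + 1) * (60 * d * (ks + 1) * W + 2 * ((ks : ℝ) + 1) ^ 2 * ε ^ 2) := by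
    gcongr
  nlinarith

lemma int_split {Ω : Type*} [MeasurableSpace Ω] (P : Measure Ω) [IsFiniteMeasure P]
    {a a' X Y S : Ω → ℝ} (ma : Measurable a) (ma' : Measurable a') (mX : Measurable X)
    (mY : Measurable Y) (mS : Measurable S) {C : ℝ} (ba : ∀ x, |a x| ≤ 1) (ba' : ∀ x, |a' x| ≤ 1)
    (bX : ∀ x, |X x| ≤ 2) (bY : ∀ x, |Y x| ≤ 2) (bS : ∀ x, |S x| ≤ C) {A η : ℝ}
    (h : ∀ᵐ ω ∂P, (a ω - a' ω) ^ 2 ≤ (a ω ^ 2 + a' ω ^ 2) * (A * X ω ^ 2 + 2 * S ω ^ 2)) :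
    ∫ ω, (8 * η ^ 2 * (a ω - a' ω) ^ 2 + 18 * η ^ 4 * a' ω ^ 2 * Y ω ^ 2) ∂P ≤
      8 * η ^ 2 * A * ∫ ω, a ω ^ 2 * X ω ^ 2 ∂P + 8 * η ^ 2 * A * ∫ ω, a' ω ^ 2 * X ω ^ 2 ∂P +
        16 * η ^ 2 * ∫ ω, a ω ^ 2 * S ω ^ 2 ∂P + 16 * η ^ 2 * ∫ ω, a' ω ^ 2 * S ω ^ 2 ∂P +
        18 * η ^ 4 * ∫ ω, a' ω ^ 2 * Y ω ^ 2 ∂P := by
  have i1 := (integrable_sq_mul (P := P) ma mX ba bX).const_mul (8 * η ^ 2 * A)
  have i2 := (integrable_sq_mul (P := P) ma' mX ba' bX).const_mul (8 * η ^ 2 * A)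
  have i3 := (integrable_sq_mul (P := P) ma mS ba bS).const_mul (16 * η ^ 2)
  have i4 := (integrable_sq_mul (P := P) ma' mS ba' bS).const_mul (16 * η ^ 2)
  have i5 := (integrable_sq_mul (P := P) ma' mY ba' bY).const_mul (18 * η ^ 4)
  have i12 : Integrable (fun ω => 8 * η ^ 2 * A * (a ω ^ 2 * X ω ^ 2) +
    8 * η ^ 2 * A * (a' ω ^ 2 * X ω ^ 2)) P := i1.add i2
  have i123 : Integrable (fun ω => 8 * η ^ 2 * A * (a ω ^ 2 * X ω ^ 2) +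
    8 * η ^ 2 * A * (a' ω ^ 2 * X ω ^ 2) + 16 * η ^ 2 * (a ω ^ 2 * S ω ^ 2)) P := i12.add i3
  have i1234 : Integrable (fun ω => 8 * η ^ 2 * A * (a ω ^ 2 * X ω ^ 2) +
    8 * η ^ 2 * A * (a' ω ^ 2 * X ω ^ 2) + 16 * η ^ 2 * (a ω ^ 2 * S ω ^ 2) +
    16 * η ^ 2 * (a' ω ^ 2 * S ω ^ 2)) P := i123.add i4
  rw [← integral_const_mul, ← integral_const_mul, ← integral_const_mul, ← integral_const_mul,
    ← integral_const_mul, ← integral_add i1 i2, ← integral_add i12 i3, ← integral_add i123 i4,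
    ← integral_add i1234 i5]
  refine integral_mono_of_nonneg (ae_of_all _ fun ω => by positivity) (i1234.add i5) ?_
  filter_upwards [h] with ω hω
  have := mul_le_mul_of_nonneg_left hω (show 0 ≤ 8 * η ^ 2 by positivity)
  nlinarith

lemma cube_le_two_pow (m : ℕ) : ((m : ℝ) + 3) ^ 3 ≤ 32 * 2 ^ m := by
  induction m with
  | zero => norm_num
  | succ m ih =>
    rcases Nat.eq_zero_or_pos m with rfl | hm
    · norm_num
    · have h1 : (1 : ℝ) ≤ m := by exact_mod_cast hm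
      push_cast
      rw [pow_succ (2 : ℝ) m]
      have : ((m : ℝ) + 1 + 3) ^ 3 ≤ 2 * ((m : ℝ) + 3) ^ 3 := by
        obtain ⟨t, ht⟩ : ∃ t : ℝ, (m : ℝ) = t + 1 := ⟨m - 1, by ring⟩
        have ht0 : 0 ≤ t := by linarith
        rw [ht]
        nlinarith [pow_nonneg ht0 3, pow_nonneg ht0 2]
      linarith

lemma eta_mul_cube (i : ℤ) : eta i * (((-i).toNat : ℝ) + 3) ^ 3 ≤ 4 := by
  rw [eta_eq]
  have := cube_le_two_pow (-i).toNat
  rw [one_div, inv_mul_le_iff₀ (by positivity)]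
  linarith

set_option maxHeartbeats 800000 in
lemma cmp_num {η β K B b0 L Ck M x D e2 q A Cg dd : ℝ} (hη : 0 < η) (hη1 : η ≤ 1) (hβ : 1 ≤ β)
    (hK : β ^ 2 ≤ K) (hb0 : 0 ≤ b0) (hB : η * B = b0 * β) (hL : 0 ≤ L) (hCk : 0 ≤ Ck)
    (hLM : η * L ≤ Ck * M) (hM : 1 ≤ M) (hM3 : η * M ^ 3 ≤ 4) (hx : 0 ≤ x) (hD : 0 ≤ D)
    (he : 0 ≤ e2) (hq : 0 ≤ q) (hA : 0 ≤ A) (hCg : 0 ≤ Cg) (hd : 0 ≤ dd) :
    (16 * η ^ 2 * A + 18 * η ^ 4) * (4 * B * D + 16 * B * q) +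
      32 * η ^ 2 * ((120 * dd * L ^ 2 * (Cg * (x * D + e2 + q)) + 4 * L ^ 3 * e2) +
        dd * (4 * B ^ 2 * (Cg * (x * D + e2 + q)) + 8 * Cg ^ 2 * B ^ 2 * q)) ≤
      ((16 * A + 18) * 16 * b0 + 32 * (480 * dd * Ck ^ 2 * Cg + 16 * Ck ^ 3 +
        4 * dd * b0 ^ 2 * Cg + 8 * dd * Cg ^ 2 * b0 ^ 2)) *
        (((M ^ 2 + β ^ 2) * x + η * β ^ 2) * D + K * (e2 + q) / η ^ 2) := by
  set U := ((M ^ 2 + β ^ 2) * x + η * β ^ 2) * D with hU
  set Y := K * (e2 + q) / η ^ 2 with hY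
  have hβ2 : β ≤ β ^ 2 := by nlinarith
  have hK1 : 1 ≤ K := by nlinarith
  have hE : 0 ≤ e2 + q := by positivity
  have hη2 : η ^ 2 ≤ 1 := pow_le_one₀ hη.le hη1
  have hY0 : 0 ≤ Y := by positivity
  have hU0 : 0 ≤ U := by positivity
  have u1 : η * β ^ 2 * D ≤ U := by
    have : 0 ≤ (M ^ 2 + β ^ 2) * x * D := by positivity
    rw [hU]; nlinarith
  have u2 : M ^ 2 * (x * D) ≤ U := by
    have : 0 ≤ (β ^ 2 * x + η * β ^ 2) * D := by positivity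
    rw [hU]; nlinarith
  have u3 : β ^ 2 * (x * D) ≤ U := by
    have : 0 ≤ (M ^ 2 * x + η * β ^ 2) * D := by positivity
    rw [hU]; nlinarith
  have y1 : K * (e2 + q) ≤ Y := by
    rw [hY, le_div_iff₀ (by positivity)]
    exact mul_le_of_le_one_right (by positivity) hη2
  have y2 : (e2 + q) / η ^ 2 ≤ Y := by
    rw [hY]
    gcongr
    exact le_mul_of_one_le_left hE hK1
  have y3 : β ^ 2 * (e2 + q) ≤ Y := le_trans (by gcongr) y1
  have y4 : M ^ 3 * (e2 + q) / η ≤ 4 * Y := by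
    have : M ^ 3 * (e2 + q) / η = η * M ^ 3 * ((e2 + q) / η ^ 2) := by field_simp
    rw [this]
    gcongr
  have y5 : M ^ 2 * (e2 + q) ≤ 4 * Y := by
    refine le_trans ?_ y4
    rw [le_div_iff₀ hη]
    have h1 : M ^ 2 ≤ M ^ 3 := pow_le_pow_right₀ hM (by norm_num)
    calc M ^ 2 * (e2 + q) * η ≤ M ^ 2 * (e2 + q) := mul_le_of_le_one_right (by positivity) hη1
      _ ≤ M ^ 3 * (e2 + q) := by gcongr
  have t2 : η ^ 2 * B * q ≤ b0 * Y := by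
    have e : η ^ 2 * B * q = b0 * (η * (β * q)) := by
      rw [show η ^ 2 * B * q = η * (η * B) * q by ring, hB]; ring
    rw [e]
    have h1 : η * (β * q) ≤ β * q := mul_le_of_le_one_left (by positivity) hη1
    have h2 : β * q ≤ β ^ 2 * (e2 + q) := by gcongr; linarith
    gcongr
    linarith
  have t1' : η ^ 2 * B * D ≤ b0 * U := by
    have e : η ^ 2 * B * D = b0 * (η * β * D) := by
      rw [show η ^ 2 * B * D = η * (η * B) * D by ring, hB]; ring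
    rw [e]
    have : η * β * D ≤ η * β ^ 2 * D := by gcongr
    gcongr
    linarith
  have hηL : 0 ≤ η * L := by positivity
  have t3 : η ^ 2 * L ^ 2 * (x * D + e2 + q) ≤ Ck ^ 2 * (4 * (U + Y)) := by
    have h1 : (η * L) ^ 2 ≤ (Ck * M) ^ 2 := by gcongr
    calc η ^ 2 * L ^ 2 * (x * D + e2 + q) = (η * L) ^ 2 * (x * D + e2 + q) := by ring
      _ ≤ (Ck * M) ^ 2 * (x * D + e2 + q) := by gcongr
      _ = Ck ^ 2 * (M ^ 2 * (x * D) + M ^ 2 * (e2 + q)) := by ring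
      _ ≤ Ck ^ 2 * (4 * (U + Y)) := by gcongr; linarith
  have t4 : η ^ 2 * L ^ 3 * e2 ≤ Ck ^ 3 * (4 * (U + Y)) := by
    have h1 : (η * L) ^ 3 ≤ (Ck * M) ^ 3 := by gcongr
    calc η ^ 2 * L ^ 3 * e2 = (η * L) ^ 3 * e2 / η := by field_simp
      _ ≤ (Ck * M) ^ 3 * (e2 + q) / η := by gcongr; linarith
      _ = Ck ^ 3 * (M ^ 3 * (e2 + q) / η) := by ring
      _ ≤ Ck ^ 3 * (4 * (U + Y)) := by gcongr; linarith
  have hB2 : η ^ 2 * B ^ 2 = b0 ^ 2 * β ^ 2 := by rw [← mul_pow, hB, mul_pow]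
  have t5 : η ^ 2 * B ^ 2 * (x * D + e2 + q) ≤ b0 ^ 2 * (U + Y) := by
    calc η ^ 2 * B ^ 2 * (x * D + e2 + q) = b0 ^ 2 * (β ^ 2 * (x * D) + β ^ 2 * (e2 + q)) := by
          rw [hB2]; ring
      _ ≤ b0 ^ 2 * (U + Y) := by gcongr
  have t6 : η ^ 2 * B ^ 2 * q ≤ b0 ^ 2 * (U + Y) := by
    have : β ^ 2 * q ≤ β ^ 2 * (e2 + q) := by gcongr; linarith
    calc η ^ 2 * B ^ 2 * q = b0 ^ 2 * (β ^ 2 * q) := by rw [hB2]; ring
      _ ≤ b0 ^ 2 * (U + Y) := by gcongr; linarith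
  have s1 : 4 * (η ^ 2 * B * D) + 16 * (η ^ 2 * B * q) ≤ 16 * b0 * (U + Y) := by
    have : 0 ≤ b0 * U := by positivity
    rw [show 16 * b0 * (U + Y) = 16 * (b0 * U) + 16 * (b0 * Y) by ring]
    linarith only [t1', t2, this]
  have s1' : (16 * η ^ 2 * A + 18 * η ^ 4) * (4 * B * D + 16 * B * q) ≤
      (16 * A + 18) * 16 * b0 * (U + Y) := by
    calc (16 * η ^ 2 * A + 18 * η ^ 4) * (4 * B * D + 16 * B * q)
        = (16 * A + 18 * η ^ 2) * (4 * (η ^ 2 * B * D) + 16 * (η ^ 2 * B * q)) := by ring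
      _ ≤ (16 * A + 18 * η ^ 2) * (16 * b0 * (U + Y)) := by gcongr
      _ ≤ (16 * A + 18 * 1) * (16 * b0 * (U + Y)) := by gcongr
      _ = _ := by ring
  have s2 : 32 * η ^ 2 * ((120 * dd * L ^ 2 * (Cg * (x * D + e2 + q)) + 4 * L ^ 3 * e2) +
        dd * (4 * B ^ 2 * (Cg * (x * D + e2 + q)) + 8 * Cg ^ 2 * B ^ 2 * q)) ≤
      32 * (480 * dd * Ck ^ 2 * Cg + 16 * Ck ^ 3 +
        4 * dd * b0 ^ 2 * Cg + 8 * dd * Cg ^ 2 * b0 ^ 2) * (U + Y) := by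
    calc _ = 32 * (120 * dd * Cg * (η ^ 2 * L ^ 2 * (x * D + e2 + q)) + 4 * (η ^ 2 * L ^ 3 * e2) +
          4 * dd * Cg * (η ^ 2 * B ^ 2 * (x * D + e2 + q)) +
          8 * dd * Cg ^ 2 * (η ^ 2 * B ^ 2 * q)) := by ring
      _ ≤ 32 * (120 * dd * Cg * (Ck ^ 2 * (4 * (U + Y))) + 4 * (Ck ^ 3 * (4 * (U + Y))) +
          4 * dd * Cg * (b0 ^ 2 * (U + Y)) + 8 * dd * Cg ^ 2 * (b0 ^ 2 * (U + Y))) := by gcongr
      _ = _ := by ring
  calc _ ≤ _ := add_le_add s1' s2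
    _ = _ := by ring

theorem cmp (hT : Tr G d) (I : ℕ) : ∃ C : ℝ, 0 ≤ C ∧
    ∀ (θ θ' : ℝ) (ν ν' : Measure (V → Bool)) (Γ : Ob V → Ob V), Wd G d θ ν → Wd G d θ' ν' →
      Coup G ν ν' Γ → ∀ i : ℤ, i ≤ I → NC d θ i → NC d θ' i → ∀ r ∈ Set.Icc (i : ℝ) (i + 1),
        ∀ k : ℕ, 3 ≤ k → ∀ ε : ℝ, |θ - θ'| ≤ ε →
          (∀ w p, G.Adj w p → |eLK G ν θ r w p - eLK G ν' θ' r w p| ≤ ε) →
          ∀ D : ℝ, (∀ u, Dl G ν ν' Γ r u ≤ D) → ∀ (u : V) (R : ℕ),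
            Sm G ν θ ν' θ' Γ i r u R ≤
              C * kp i k * D + C * 2 ^ k * (ε ^ 2 + 1 / 2 ^ (2 ^ k)) / eta i ^ 2 := by
  obtain ⟨δ, hδ, hmb⟩ := mm_bound hT I
  obtain ⟨Cg, hCg, hgE⟩ := gE_sq hT I
  obtain ⟨Ck, hCk, hks⟩ := exists_ks hT.three
  have hcA := cA_pos hT.three
  set A : ℝ := 2 * (2 / δ) ^ 2 with hA
  set b0 : ℝ := 40 / cA d with hb0
  refine ⟨(16 * A + 18) * 16 * b0 + 32 * (480 * d * Ck ^ 2 * Cg + 16 * Ck ^ 3 +
    4 * d * b0 ^ 2 * Cg + 8 * d * Cg ^ 2 * b0 ^ 2), by positivity, ?_⟩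
  intro θ θ' ν ν' Γ hW hW' hC i hi hN hN' r hr k hk ε hε he D hD u R
  have := hW.prob
  have := hW'.prob
  obtain ⟨ks, hks1, hks2⟩ := hks i
  obtain ⟨bg, hg1, hg2⟩ := hgE θ θ' ν ν' Γ hW hW' hC i hi hN hN' r hr
  have hη := eta_pos i
  have hrI : r ≤ I + 1 := by
    have : (i : ℝ) ≤ I := by exact_mod_cast hi
    linarith [hr.2]
  have hd0 : (0 : ℝ) < 1 / (2 * (d : ℝ)) := by
    have := hT.two_le
    have : (0 : ℝ) < d := by linarith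
    positivity
  have h0 : 0 < θ := hd0.trans_le (hW.lb hN)
  have h0' : 0 < θ' := hd0.trans_le (hW'.lb hN')
  set B : ℝ := 40 * (6 / 5) ^ k / (cA d * eta i) with hB
  have hB0 : 0 < B := by positivity
  have hp2 : 2 ≤ 2 ^ k := by
    calc 2 = 2 ^ 1 := rfl
      _ ≤ 2 ^ k := Nat.pow_le_pow_right (by norm_num) (by omega)
  have hp1 : 1 ≤ 2 ^ k := by omega
  have hexp : 1 ≤ Real.exp (cA d * eta i / 16) := Real.one_le_exp (by positivity)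
  have hl : θ ^ 2 ≤ θ ^ 2 * Real.exp (cA d * eta i / 16) :=
    le_mul_of_one_le_right (sq_nonneg _) hexp
  have hl' : θ' ^ 2 ≤ θ' ^ 2 * Real.exp (cA d * eta i / 16) :=
    le_mul_of_one_le_right (sq_nonneg _) hexp
  have hZ := fun (a b : V) (n : ℕ) (h : G.Adj a b) => zmom hW hN hr hk h n
  have hZ' := fun (a b : V) (n : ℕ) (h : G.Adj a b) => zmom hW' hN' hr hk h n
  set X : V → Om V → ℝ := fun v ω => mm G ν r v (obs ω) - mm G ν' r v (Γ (obs ω)) with hX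
  have mX : ∀ v, Measurable (X v) := fun v =>
    ((measurable_mm' ν r v).comp measurable_obs).sub
      ((measurable_mm' ν' r v).comp (hC.meas.comp measurable_obs))
  have bX : ∀ v ω, |X v ω| ≤ 2 := fun v ω => by
    refine (abs_sub _ _).trans ?_
    linarith [abs_mm_le (G := G) ν r v (obs ω), abs_mm_le (G := G) ν' r v (Γ (obs ω))]
  have eX : ∀ (g : G ≃g G) (v : V) (ω : Om V), X v (pull g ω) = X (g v) ω := by
    intro g v ω
    simp only [hX]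
    rw [obs_pull, hC.equi, mm_pullO hW, mm_pullO hW']
  have hXD : ∀ v, ∫ ω, X v ω ^ 2 ∂PP ν ≤ D := hD
  have hD0 : 0 ≤ D := (integral_nonneg fun ω => sq_nonneg _).trans (hXD u)
  set g := gE G ν θ ν' θ' Γ r with hg
  have mg : ∀ a b, Measurable (g a b) := measurable_gE hW hW' hC r
  have eg : ∀ (φ : G ≃g G) (a b : V) (ω : Om V), g a b (pull φ ω) = g (φ a) (φ b) ω :=
    gE_pull hW hW' hC r
  have fg : ∀ a b ω, g a b (flip ω) = g a b ω := gE_flip hW hW' hC r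
  set Wg := Cg * (min 1 (8 ^ k * eta i) * D + ε ^ 2 + 1 / 2 ^ (2 ^ k)) with hWg
  have h2 : ∀ a b, G.Adj a b → ∫ ω, g a b ω ^ 2 ∂PP ν ≤ Wg := fun a b _ => hg2 k ε D hε hD a b
  have h1 : ∀ a b, G.Adj a b → |∫ ω, g a b ω ∂PP ν| ≤ ε := fun a b h => by
    rw [hg1]; exact he a b h
  have hθ1 : θ ^ 2 ≤ 1 := by linarith [hW.sq_le]
  have hθ1' : θ' ^ 2 ≤ 1 := by linarith [hW'.sq_le]
  have T1 := cmpA hW hW (coup_refl ν) r hl hp1 hB0 hZ (mX u) (bX u) (hXD u) u R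
  have T1' := cmpA hW hW' hC r hl' hp1 hB0 hZ' (mX u) (bX u) (hXD u) u R
  have T3 := cmpA2 hW hW' hC r hl' hp1 hB0 hZ' mX bX eX hXD u R
  have T2a := cmp_small hW hW (coup_refl ν) r ks mg bg eg fg h2 h1 u R
  have T2a' := cmp_small hW hW' hC r ks mg bg eg fg h2 h1 u R
  have T2b := cmpB hW hW (coup_refl ν) r (by positivity) (hks2 θ hθ1) hp2 hB0 hZ mg bg eg h2 u R
  have T2b' := cmpB hW hW' hC r (by positivity) (hks2 θ' hθ1') hp2 hB0 hZ' mg bg eg h2 u R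
  simp only [id] at T1 T2a T2b
  have T2 := add_le_add T2b T2a
  have T2' := add_le_add T2b' T2a'
  rw [Finset.sum_filter_add_sum_filter_not] at T2 T2'
  have hsplit : Sm G ν θ ν' θ' Γ i r u R ≤ ∑ v ∈ ball G u R,
      (8 * eta i ^ 2 * A * ∫ ω, Cv G ν θ u v (fy r (obs ω)) ^ 2 * X u ω ^ 2 ∂PP ν +
        8 * eta i ^ 2 * A * ∫ ω, Cv G ν' θ' u v (fy r (Γ (obs ω))) ^ 2 * X u ω ^ 2 ∂PP ν +
        16 * eta i ^ 2 * ∫ ω, Cv G ν θ u v (fy r (obs ω)) ^ 2 *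
          (∑ w ∈ pth G u v, g w (tw G u w) ω) ^ 2 ∂PP ν +
        16 * eta i ^ 2 * ∫ ω, Cv G ν' θ' u v (fy r (Γ (obs ω))) ^ 2 *
          (∑ w ∈ pth G u v, g w (tw G u w) ω) ^ 2 ∂PP ν +
        18 * eta i ^ 4 * ∫ ω, Cv G ν' θ' u v (fy r (Γ (obs ω))) ^ 2 * X v ω ^ 2 ∂PP ν) := by
    refine Finset.sum_le_sum fun v _ => ?_
    exact int_split (PP ν) (measurable_Cv_coup hW (coup_refl ν) r u v)
      (measurable_Cv_coup hW' hC r u v) (mX u) (mX v)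
      (Finset.measurable_sum _ fun w _ => mg _ _) (fun ω => abs_Cv_le hW _ _ _)
      (fun ω => abs_Cv_le hW' _ _ _) (bX u) (bX v) (abs_sum_pth_le bg u v)
      (cv_diff hW hW' hC h0 h0' hδ (hmb θ ν hW r hrI) (hmb θ' ν' hW' r hrI) u v)
  simp only [Finset.sum_add_distrib, ← Finset.mul_sum] at hsplit
  have hA0 : 0 ≤ A := by positivity
  have hnum := cmp_num (η := eta i) (β := (6 / 5) ^ k) (K := 2 ^ k) (B := B) (b0 := b0)
    (L := (ks : ℝ) + 1) (Ck := Ck) (M := ((-i).toNat : ℝ) + 3) (x := min 1 (8 ^ k * eta i))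
    (D := D) (e2 := ε ^ 2) (q := 1 / 2 ^ (2 ^ k)) (A := A) (Cg := Cg) (dd := d) hη
    (by linarith [eta_le i]) (one_le_pow₀ (by norm_num))
    (by rw [← pow_mul, mul_comm, pow_mul]; gcongr; norm_num) (by positivity)
    (by rw [hB, hb0]; field_simp) (by positivity) hCk hks1
    (by linarith [(Nat.cast_nonneg (-i).toNat : (0 : ℝ) ≤ _)]) (eta_mul_cube i)
    (le_min zero_le_one (by positivity)) hD0 (sq_nonneg _) (by positivity) hA0 hCg (by positivity)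
  have hγ : ((6 / 5 : ℝ) ^ k) ^ 2 = (36 / 25) ^ k := by
    rw [← pow_mul, mul_comm, pow_mul]; norm_num
  rw [hγ, ← hWg] at hnum
  have a1 := mul_le_mul_of_nonneg_left T1 (show 0 ≤ 8 * eta i ^ 2 * A by positivity)
  have a2 := mul_le_mul_of_nonneg_left T1' (show 0 ≤ 8 * eta i ^ 2 * A by positivity)
  have a3 := mul_le_mul_of_nonneg_left T2 (show 0 ≤ 16 * eta i ^ 2 by positivity)
  have a4 := mul_le_mul_of_nonneg_left T2' (show 0 ≤ 16 * eta i ^ 2 by positivity)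
  have a5 := mul_le_mul_of_nonneg_left T3 (show 0 ≤ 18 * eta i ^ 4 by positivity)
  calc _ ≤ _ := hsplit
    _ ≤ _ := add_le_add (add_le_add (add_le_add (add_le_add a1 a2) a3) a4) a5
    _ = _ := by ring
    _ ≤ _ := hnum
    _ = _ := by unfold kp; ring

end

end Crest.Agent.R160
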