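import Crest.Agent.R160.MomB

/-!
Row 160, Cont: the mean of the log edge factor is continuous in θ, uniformly in time.

Take `δ0` from `tilt_bound`/`Mg_bound` with `Y = 1 + I` (`abs_fy_le`, `Yb_le'`), `L` from `LK_lip`
with `θ0 = 1/(2d)` (`Wd.lb`), `N` from `mom_rate` with `ε1` (`8 L √ε1 ≤ ε/4`).  Put
`Hθ o = LK θ (tilt ν p (ball p N) (fy r o)) (tilt ν w (ball w N) (fy r o))`.
`|eLK ν θ - E_ν Hθ| ≤ 4L (E|Δp| + E|Δw|) ≤ 8 L √ε1` (Cauchy-Schwarz/Jensen), same for `θ'`.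
`|Hθ o - Hθ' o| ≤ L (4·(two tilt differences) + |θ-θ'|)` by `tilt_tv` with `S = ball w (N+1)`
(`connected_ball`, `card_ball_le`).  `|E_ν Hθ' - E_ν' Hθ'| ≤ 2^|S| |S|² |θ-θ'| L` by Fubini
(`integral_prod_symm`) and `tv_le`: for fixed `(ζ,T)`, `σ ↦ Hθ' (obs (σ,ζ,T))` depends only on `S`
(`tilt_congr`, `fld_congr`).
-/

set_option autoImplicit false

open MeasureTheory Filter Topology
open scoped Classical

namespace Crest.Agent.R160

noncomputable section

universe u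

variable {V : Type u} {G : SimpleGraph V} [G.LocallyFinite] {d : ℕ} {θ : ℝ}
  {ν : Measure (V → Bool)}

omit [G.LocallyFinite] in
lemma ct_abs_integral {Ω : Type*} [MeasurableSpace Ω] (P : Measure Ω) [IsProbabilityMeasure P]
    {f : Ω → ℝ} {C : ℝ} (hC : ∀ ω, |f ω| ≤ C) : |∫ ω, f ω ∂P| ≤ C := by
  simpa using norm_integral_le_of_norm_le_const (μ := P) (f := f) (ae_of_all _ hC)

/-- total variation bound on the observation space -/
lemma ct_tv {θ' : ℝ} {ν' : Measure (V → Bool)} (hW : Wd G d θ ν) (hW' : Wd G d θ' ν')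
    {S : Finset V} (hS : (G.induce (S : Set V)).Connected) {Φ : Om V → ℝ} (hΦ : Measurable Φ)
    (hd : DepOn (S : Set V) Φ) {B : ℝ} (hB : ∀ ω, |Φ ω| ≤ B) :
    |∫ ω, Φ ω ∂PP ν - ∫ ω, Φ ω ∂PP ν'| ≤ 2 ^ S.card * (S.card : ℝ) ^ 2 * |θ - θ'| * B := by
  have := hW.prob
  have := hW'.prob
  have i1 : Integrable Φ (ν.prod ((Lam V).prod (Lam V))) := integrable_of_bdd hΦ hB
  have i2 : Integrable Φ (ν'.prod ((Lam V).prod (Lam V))) := integrable_of_bdd hΦ hB
  rw [PP, PP, integral_prod_symm _ i1, integral_prod_symm _ i2,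
    ← integral_sub i1.integral_prod_right i2.integral_prod_right]
  refine ct_abs_integral _ fun z => tv_le hW hW' hS (fun σ σ' h => ?_) fun σ => hB _
  exact hd (σ, z) (σ', z) fun v hv => ⟨h v hv, fun j => ⟨rfl, rfl⟩⟩

lemma ct_abs_le {x η : ℝ} (hη : 0 < η) : |x| ≤ η + x ^ 2 / η := by
  have h : 0 ≤ (|x| - η) ^ 2 / η := by positivity
  have e : (|x| - η) ^ 2 / η = η + x ^ 2 / η - 2 * |x| := by
    rw [← sq_abs x]; field_simp; ring
  linarith [abs_nonneg x]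

omit [G.LocallyFinite] in
/-- replacing the two arguments of a bounded Lipschitz function by L²-approximations -/
lemma ct_approx {Ω : Type*} [MeasurableSpace Ω] (P : Measure Ω) [IsProbabilityMeasure P]
    {f g a a' b b' : Ω → ℝ} (hf : Measurable f) (hg : Measurable g) (ha : Measurable a)
    (ha' : Measurable a') (hb : Measurable b) (hb' : Measurable b') {L η : ℝ} (hL : 0 ≤ L)
    (hη : 0 < η) (bf : ∀ ω, |f ω| ≤ L) (bg : ∀ ω, |g ω| ≤ L) (ba : ∀ ω, |a ω - a' ω| ≤ 2)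
    (bb : ∀ ω, |b ω - b' ω| ≤ 2)
    (h : ∀ ω, |f ω - g ω| ≤ L * (4 * (|a ω - a' ω| + |b ω - b' ω|)))
    (h1 : ∫ ω, (a ω - a' ω) ^ 2 ∂P ≤ η ^ 2) (h2 : ∫ ω, (b ω - b' ω) ^ 2 ∂P ≤ η ^ 2) :
    |∫ ω, f ω ∂P - ∫ ω, g ω ∂P| ≤ 16 * L * η := by
  have i1 := integrable_of_bdd (P := P) hf bf
  have i2 := integrable_of_bdd (P := P) hg bg
  have i3 : Integrable (fun ω => (a ω - a' ω) ^ 2) P :=
    integrable_of_bdd ((ha.sub ha').pow_const 2) (C := 2 ^ 2) fun ω => by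
      rw [abs_pow]; exact pow_le_pow_left₀ (abs_nonneg _) (ba ω) _
  have i4 : Integrable (fun ω => (b ω - b' ω) ^ 2) P :=
    integrable_of_bdd ((hb.sub hb').pow_const 2) (C := 2 ^ 2) fun ω => by
      rw [abs_pow]; exact pow_le_pow_left₀ (abs_nonneg _) (bb ω) _
  have i5 : Integrable (fun ω => 8 * L * η + 4 * L / η * (a ω - a' ω) ^ 2) P :=
    (integrable_const _).add (i3.const_mul _)
  have i6 : Integrable (fun ω => (8 * L * η + 4 * L / η * (a ω - a' ω) ^ 2) +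
      4 * L / η * (b ω - b' ω) ^ 2) P := i5.add (i4.const_mul _)
  rw [← integral_sub i1 i2]
  refine (abs_integral_le_integral_abs).trans ((integral_mono (i1.sub i2).abs i6 fun ω => ?_).trans ?_)
  · refine (h ω).trans ?_
    have h3 := ct_abs_le (x := a ω - a' ω) hη
    have h4 := ct_abs_le (x := b ω - b' ω) hη
    calc L * (4 * (|a ω - a' ω| + |b ω - b' ω|))
        ≤ L * (4 * ((η + (a ω - a' ω) ^ 2 / η) + (η + (b ω - b' ω) ^ 2 / η))) := by gcongr
      _ = _ := by ring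
  · rw [integral_add i5 (i4.const_mul _), integral_add (integrable_const _) (i3.const_mul _),
      integral_const, integral_const_mul, integral_const_mul, probReal_univ, one_smul]
    have h5 : 0 ≤ 4 * L / η := by positivity
    have h6 := mul_le_mul_of_nonneg_left h1 h5
    have h7 := mul_le_mul_of_nonneg_left h2 h5
    have e : 4 * L / η * η ^ 2 = 4 * L * η := by field_simp
    linarith

omit [G.LocallyFinite] in
lemma ct_meas_LK {Ω : Type*} [MeasurableSpace Ω] (θ : ℝ) {a b : Ω → ℝ} (ha : Measurable a)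
    (hb : Measurable b) : Measurable fun ω => LK θ (a ω) (b ω) :=
  (measurable_LK θ).comp (f := fun ω => (a ω, b ω)) (ha.prodMk hb)

omit [G.LocallyFinite] in
lemma ct_meas_tilt (ν : Measure (V → Bool)) [IsProbabilityMeasure ν] (u : V) (F : Finset V)
    (r : ℝ) : Measurable fun ω : Om V => tilt ν u F (fy r (obs ω)) :=
  (measurable_tilt_fy ν u F r).comp measurable_obs

lemma ct_meas_mm (ν : Measure (V → Bool)) [IsProbabilityMeasure ν] (r : ℝ) (u : V) :
    Measurable fun ω : Om V => mm G ν r u (obs ω) :=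
  (measurable_mm' ν r u).comp measurable_obs

theorem cont (hT : Tr G d) (I : ℕ) (i0 : ℤ) {ε : ℝ} (hε : 0 < ε) : ∃ δ : ℝ, 0 < δ ∧
    ∀ (θ θ' : ℝ) (ν ν' : Measure (V → Bool)), Wd G d θ ν → Wd G d θ' ν' → |θ - θ'| ≤ δ →
      ∀ i : ℤ, i0 ≤ i → i ≤ I → NC d θ i → NC d θ' i → ∀ r ∈ Set.Icc (i : ℝ) (i + 1),
        ∀ w p, G.Adj w p → |eLK G ν θ r w p - eLK G ν' θ' r w p| ≤ ε := by
  obtain ⟨δ0, hδ0, hb0⟩ := tilt_bound hT (1 + I)
  obtain ⟨δ1, hδ1, hb1⟩ := Mg_bound hT (1 + I)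
  have hd0 : (0 : ℝ) < d := by linarith [hT.two_le]
  obtain ⟨L, hL, hLK⟩ := LK_lip (δ := min δ0 δ1) (θ0 := 1 / (2 * (d : ℝ))) (lt_min hδ0 hδ1)
    (by positivity)
  set η : ℝ := ε / (64 * (L + 1)) with hη
  have hη0 : 0 < η := by positivity
  have hη1 : 16 * L * η ≤ ε / 4 := by
    have : 16 * (L + 1) * η = ε / 4 := by rw [hη]; field_simp; norm_num
    nlinarith
  obtain ⟨N, hN⟩ := mom_rate hT I i0 (ε := η ^ 2) (by positivity)
  set K : ℕ := (d + 1) ^ (N + 1) with hK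
  set M : ℝ := 2 ^ K * (K : ℝ) ^ 2 with hM
  set c : ℝ := L * (16 * M * Real.exp (2 * K * (1 + I)) + 1) + M * L with hc
  have hM0 : 0 ≤ M := by positivity
  have hc0 : 0 ≤ c := by positivity
  refine ⟨ε / (2 * (c + 1)), by positivity,
    fun θ θ' ν ν' hW hW' hθ i hi0 hi hNC hNC' r hr w p hwp => ?_⟩
  have := hW.prob
  have := hW'.prob
  have hy : ∀ (o : Ob V) v, |fy r o v| ≤ 1 + I := fun o v => (abs_fy_le hr.2 o v).trans (Yb_le' hi)
  have bt' : ∀ {θ : ℝ} {ν : Measure (V → Bool)}, Wd G d θ ν → ∀ (F : Finset V) (o : Ob V),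
      |tilt ν w F (fy r o)| ≤ 1 - min δ0 δ1 := fun hW F o =>
    (hb0 _ _ hW w F _ (hy o w)).trans (by linarith [min_le_left δ0 δ1])
  have bm' : ∀ {θ : ℝ} {ν : Measure (V → Bool)}, Wd G d θ ν → ∀ (o : Ob V),
      |mm G ν r w o| ≤ 1 - min δ0 δ1 := fun hW o =>
    (hb1 _ _ hW w _ (hy o w)).trans (by linarith [min_le_right δ0 δ1])
  -- the finite-volume approximation
  let H : ℝ → Measure (V → Bool) → Om V → ℝ := fun θ ν ω =>
    LK θ (tilt ν p (ball G p N) (fy r (obs ω))) (tilt ν w (ball G w N) (fy r (obs ω)))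
  have mH : ∀ (θ : ℝ) (ν : Measure (V → Bool)) [IsProbabilityMeasure ν], Measurable (H θ ν) :=
    fun θ ν _ => ct_meas_LK θ (ct_meas_tilt ν p _ r) (ct_meas_tilt ν w _ r)
  have bH : ∀ {θ : ℝ} {ν : Measure (V → Bool)}, Wd G d θ ν → NC d θ i → ∀ ω, |H θ ν ω| ≤ L :=
    fun {θ ν} hW hNC ω => by
      have := hW.prob
      have h1 := abs_tilt_le ν p (ball G p N) (fy r (obs ω))
      have h2 := bt' hW (ball G w N) (obs ω)
      exact (hLK _ _ _ _ _ _ (hW.lb hNC) hW.sq_le (hW.lb hNC) hW.sq_le h1 h1 h2 h2).1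
  have four : ∀ {a b c e x : ℝ}, |a| ≤ 1 → |b| ≤ 1 → |c| ≤ 1 → |e| ≤ 1 → 0 ≤ x →
      (|a| + |b| + |c| + |e|) * x ≤ 4 * x := fun h1 h2 h3 h4 hx =>
    mul_le_mul_of_nonneg_right (by linarith) hx
  have two : ∀ {a b : ℝ}, |a| ≤ 1 → |b| ≤ 1 → |a - b| ≤ 2 := fun h1 h2 =>
    (abs_sub _ _).trans (by linarith)
  have stepA : ∀ {θ : ℝ} {ν : Measure (V → Bool)}, Wd G d θ ν → NC d θ i →
      |eLK G ν θ r w p - ∫ ω, H θ ν ω ∂PP ν| ≤ 16 * L * η := by
    intro θ ν hW hNC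
    have := hW.prob
    have mp := ct_meas_mm (G := G) ν r p
    have mw := ct_meas_mm (G := G) ν r w
    have key := fun ω : Om V => hLK θ θ (mm G ν r p (obs ω)) (tilt ν p (ball G p N) (fy r (obs ω)))
      (mm G ν r w (obs ω)) (tilt ν w (ball G w N) (fy r (obs ω))) (hW.lb hNC) hW.sq_le
      (hW.lb hNC) hW.sq_le (abs_mm_le _ _ _ _) (abs_tilt_le _ _ _ _) (bm' hW _) (bt' hW _ _)
    unfold eLK
    refine ct_approx (PP ν) (ct_meas_LK θ mp mw) (mH θ ν) mp
      (ct_meas_tilt ν p (ball G p N) r) mw (ct_meas_tilt ν w (ball G w N) r) hL hη0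
      (fun ω => (key ω).1) (bH hW hNC)
      (fun ω => two (abs_mm_le _ _ _ _) (abs_tilt_le _ _ _ _))
      (fun ω => two (abs_mm_le _ _ _ _) (abs_tilt_le _ _ _ _)) (fun ω => (key ω).2.trans ?_)
      (hN θ ν hW i hi0 hi hNC r hr p) (hN θ ν hW i hi0 hi hNC r hr w)
    rw [sub_self, abs_zero, add_zero]
    exact mul_le_mul_of_nonneg_left (four (abs_mm_le _ _ _ _) (abs_mm_le _ _ _ _)
      (abs_tilt_le _ _ _ _) (abs_tilt_le _ _ _ _) (by positivity)) hL
  have hS := connected_ball hT w (N + 1)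
  have hcard : (ball G w (N + 1)).card ≤ K := card_ball_le hT w (N + 1)
  have hcard' : ((ball G w (N + 1)).card : ℝ) ≤ K := by exact_mod_cast hcard
  have hMle : 2 ^ (ball G w (N + 1)).card * ((ball G w (N + 1)).card : ℝ) ^ 2 ≤ M := by
    rw [hM]
    gcongr
    norm_num
  have hd1 : G.dist w p = 1 := SimpleGraph.dist_eq_one_iff_adj.2 hwp
  have hsp : ball G p N ⊆ ball G w (N + 1) := fun v hv => by
    rw [mem_ball hT] at hv ⊢
    have := hT.triangle w p v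
    omega
  have hsw : ball G w N ⊆ ball G w (N + 1) := ball_mono w (Nat.le_succ N)
  have htv : ∀ {F : Finset V} {u : V}, F ⊆ ball G w (N + 1) → u ∈ ball G w (N + 1) →
      ∀ o : Ob V, |tilt ν u F (fy r o) - tilt ν' u F (fy r o)| ≤
        2 * M * Real.exp (2 * K * (1 + I)) * |θ - θ'| := fun hF hu o => by
    refine (tilt_tv hW hW' hS hF hu (hy o)).trans ?_
    calc _ ≤ 2 * (M * |θ - θ'|) * Real.exp (2 * K * (1 + I)) := by gcongr
      _ = _ := by ring
  have stepB : |∫ ω, H θ ν ω ∂PP ν - ∫ ω, H θ' ν' ω ∂PP ν| ≤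
      L * (16 * M * Real.exp (2 * K * (1 + I)) + 1) * |θ - θ'| := by
    rw [← integral_sub (integrable_of_bdd (mH θ ν) (bH hW hNC))
      (integrable_of_bdd (mH θ' ν') (bH hW' hNC'))]
    refine ct_abs_integral _ fun ω => ?_
    refine (hLK _ _ _ _ _ _ (hW.lb hNC) hW.sq_le (hW'.lb hNC') hW'.sq_le (abs_tilt_le _ _ _ _)
      (abs_tilt_le _ _ _ _) (bt' hW _ _) (bt' hW' _ _)).2.trans ?_
    rw [mul_assoc]
    refine mul_le_mul_of_nonneg_left ?_ hL
    have h1 := htv hsp ((mem_ball hT).2 (by omega)) (obs ω) (u := p)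
    have h2 := htv hsw ((mem_ball hT).2 (by simp)) (obs ω) (u := w)
    have h3 := four (abs_tilt_le ν p (ball G p N) (fy r (obs ω)))
      (abs_tilt_le ν w (ball G w N) (fy r (obs ω))) (abs_tilt_le ν' p (ball G p N) (fy r (obs ω)))
      (abs_tilt_le ν' w (ball G w N) (fy r (obs ω)))
      (add_nonneg (abs_nonneg (tilt ν p (ball G p N) (fy r (obs ω)) -
        tilt ν' p (ball G p N) (fy r (obs ω)))) (abs_nonneg (tilt ν w (ball G w N) (fy r (obs ω)) -
        tilt ν' w (ball G w N) (fy r (obs ω)))))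
    linarith
  have stepC : |∫ ω, H θ' ν' ω ∂PP ν - ∫ ω, H θ' ν' ω ∂PP ν'| ≤ M * L * |θ - θ'| := by
    have hdep : DepOn (ball G w (N + 1) : Set V) (H θ' ν') :=
      depOn_fy (Ψ := fun y => LK θ' (tilt ν' p (ball G p N) y) (tilt ν' w (ball G w N) y))
        (fun y y' h => by
          beta_reduce
          rw [tilt_congr ν' p _ fun v hv => h v (hsp hv),
            tilt_congr ν' w _ fun v hv => h v (hsw hv)]) r
    refine (ct_tv hW hW' hS (mH θ' ν') hdep (bH hW' hNC')).trans ?_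
    calc _ ≤ M * |θ - θ'| * L := by gcongr
      _ = _ := by ring
  have h1 := stepA hW hNC
  have h2 := stepA hW' hNC'
  have h3 : c * |θ - θ'| ≤ ε / 2 := by
    have : (c + 1) * (ε / (2 * (c + 1))) = ε / 2 := by field_simp
    have h4 := mul_le_mul_of_nonneg_left hθ hc0
    have h5 : 0 < ε / (2 * (c + 1)) := by positivity
    nlinarith
  have h4 : c * |θ - θ'| = L * (16 * M * Real.exp (2 * K * (1 + I)) + 1) * |θ - θ'| +
      M * L * |θ - θ'| := by rw [hc]; ring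
  rw [abs_le] at h1 h2 stepB stepC ⊢
  constructor <;> linarith [h1.1, h1.2, h2.1, h2.2, stepB.1, stepB.2, stepC.1, stepC.2]

end

end Crest.Agent.R160
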