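import Crest.Agent.R160.PicB

/-!
Row 160, Coup: in a subcritical world the observations are recovered from the innovations; this
couples any world with a subcritical one.

`exists_psi`: choose `R n, N n` from `pic` with `I = n`, `ε = 2^(-n)`.  For `c = (j,v)` and
`n ≥ j + 1`, `time_change` with `s = j+1` gives
`E[act (j+1) c * (mm (tm c) v - Pic_n v (tm c))²] ≤ 2^(-n)` (bound the inner integral on `[j,j+1]`; or use
`time_change_sum` with `B = {v}`), so the series converges a.s. (`lintegral_tsum`, or Borel-Cantelli),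
hence on `{c active}` `Pic_n → mm`, `slim = mm` and `Qf_Ff`, `abs_obs_le` give the claim; on
`{c inactive}` `st = 0` and no convergence is needed.  Countably many `c` (`Tr.countable`).
`exists_coup`: `Γ = Psi ∘ innov ν`; both innovations have law `Lam ⊗ Lam` (`map_innov`), so
`law` follows from `exists_psi` (`Measure.map_map`, `Measure.map_congr`), and
`innov ν' (Psi U) = U` for `Lam ⊗ Lam`-a.e. `U` (`ae_map_iff`, `measurableSet_eq_fun`).
-/

set_option autoImplicit false

open MeasureTheory Filter Topology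
open scoped Classical

namespace Crest.Agent.R160

noncomputable section

universe u

variable {V : Type u} {G : SimpleGraph V} [G.LocallyFinite] {d : ℕ} {θ : ℝ}
  {ν : Measure (V → Bool)}

lemma coup_ae_tendsto {Ω : Type*} [MeasurableSpace Ω] {P : Measure Ω} {f : ℕ → Ω → ℝ}
    (hf : ∀ n, Integrable (f n) P) (h0 : ∀ n ω, 0 ≤ f n ω) {b : ℕ → ℝ} (hb : Summable b)
    (hle : ∀ n, ∫ ω, f n ω ∂P ≤ b n) : ∀ᵐ ω ∂P, Tendsto (fun n => f n ω) atTop (𝓝 0) := by
  have hb0 : ∀ n, 0 ≤ b n := fun n => (integral_nonneg (h0 n)).trans (hle n)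
  have hm : ∀ n, AEMeasurable (fun ω => ENNReal.ofReal (f n ω)) P := fun n =>
    (hf n).aemeasurable.ennreal_ofReal
  have h1 : ∫⁻ ω, ∑' n, ENNReal.ofReal (f n ω) ∂P ≠ ⊤ := by
    rw [lintegral_tsum hm]
    refine ne_top_of_le_ne_top (b := ∑' n, ENNReal.ofReal (b n)) ?_ (ENNReal.tsum_le_tsum fun n => ?_)
    · rw [← ENNReal.ofReal_tsum_of_nonneg hb0 hb]
      exact ENNReal.ofReal_ne_top
    · rw [← ofReal_integral_eq_lintegral_ofReal (hf n) (ae_of_all _ (h0 n))]
      exact ENNReal.ofReal_le_ofReal (hle n)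
  filter_upwards [ae_lt_top' (AEMeasurable.tsum hm) h1] with ω hω
  have h2 := ENNReal.tendsto_atTop_zero_of_tsum_ne_top hω.ne
  have h3 := (ENNReal.tendsto_toReal ENNReal.zero_ne_top).comp h2
  simpa [Function.comp_def, ENNReal.toReal_ofReal (h0 _ ω)] using h3

theorem exists_psi (hW : Wd G d θ ν) (hs : ((d : ℝ) - 1) * θ ^ 2 < 1) :
    ∃ R N : ℕ → ℕ, ∀ᵐ ω ∂PP ν, Psi G θ R N (innov G ν (obs ω)) = obs ω := by
  have := hW.prob
  have := hW.tr.countable
  have hp := fun n : ℕ => pic hW hs n (ε := (1 / 2 : ℝ) ^ n) (by positivity)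
  choose R N hRN using hp
  refine ⟨R, N, ?_⟩
  obtain ⟨H, hH⟩ : ∃ H : ℕ → V → ℝ → Ob V → ℝ, H = fun n v r o =>
    (mm G ν r v o - Pic G θ (R n) (N n) (innov G ν o) v r) ^ 2 := ⟨_, rfl⟩
  have mH : ∀ n v, Measurable fun p : ℝ × Ob V => H n v p.1 p.2 := fun n v => by
    simp only [hH]
    refine ((measurable_mm ν v).sub ?_).pow_const 2
    exact (measurable_Pic θ (R n) (N n) v).comp
      (f := fun p : ℝ × Ob V => (p.1, innov G ν p.2))
      (measurable_fst.prodMk ((measurable_innov ν).comp measurable_snd))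
  have H0 : ∀ n v r o, 0 ≤ H n v r o := fun n v r o => by simp only [hH]; positivity
  have H4 : ∀ n v r o, H n v r o ≤ 4 := fun n v r o => by
    have h1 := abs_le.1 (abs_mm_le (G := G) ν r v o)
    have h2 := abs_le.1 (abs_Pic_le (G := G) θ (R n) (N n) (innov G ν o) v r)
    simp only [hH]
    nlinarith [h1.1, h1.2, h2.1, h2.2]
  have aH : ∀ n v r, Adapted r (H n v r) := fun n v r o o' h => by
    simp only [hH]
    rw [adapted_mm ν r v o o' h]
    have := adapted_Pic (G := G) θ (R n) (N n) v r _ _ (innov_agree (G := G) ν h)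
    simp only at this
    rw [this]
  have key : ∀ c : ℤ × V, ∀ᵐ ω ∂PP ν, Tendsto (fun n =>
      act (c.1 + 1) ω.2.2 c * H n c.2 (tm ω.2.2 c) (obs ω)) atTop (𝓝 0) := by
    rintro ⟨j, v⟩
    set k : ℕ := (j + 1).toNat with hk
    have h1 := coup_ae_tendsto (P := PP ν) (f := fun n ω =>
      act ((j : ℝ) + 1) ω.2.2 (j, v) * H (n + k) v (tm ω.2.2 (j, v)) (obs ω))
      (fun n => ?_) (fun n ω => mul_nonneg (act_nonneg _ _ _) (H0 _ _ _ _))
      (b := fun n => (1 / 2 : ℝ) ^ (n + k))
      ((summable_nat_add_iff k).2 summable_geometric_two) (fun n => ?_)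
    · filter_upwards [h1] with ω hω
      exact (tendsto_add_atTop_iff_nat k).1 hω
    · have m1 : Measurable fun ω : Om V => act ((j : ℝ) + 1) ω.2.2 (j, v) :=
        (measurable_act (j, v)).comp (measurable_const.prodMk (measurable_snd.comp measurable_snd))
      have m0 : Measurable fun ω : Om V => (tm ω.2.2 (j, v), obs ω) :=
        ((measurable_tm (j, v)).comp (measurable_snd.comp measurable_snd)).prodMk measurable_obs
      have m2 : Measurable fun ω : Om V => H (n + k) v (tm ω.2.2 (j, v)) (obs ω) := by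
        have := (mH (n + k) v).comp m0
        exact this
      refine integrable_of_bdd (m1.mul m2) (C := 4) fun ω => ?_
      rw [abs_mul, abs_of_nonneg (act_nonneg _ _ _), abs_of_nonneg (H0 _ _ _ _)]
      exact (mul_le_of_le_one_left (H0 _ _ _ _) (act_le_one _ _ _)).trans (H4 _ _ _ _)
    · have h2 := time_change_sum ν j {v} (s := (j : ℝ) + 1) ⟨by linarith, le_rfl⟩
        (H := H (n + k)) (mH (n + k)) (H0 (n + k)) (H4 (n + k)) (fun w r _ => aH (n + k) w r)
        (φ := fun _ => (1 / 2 : ℝ) ^ (n + k)) continuous_const (fun r hr => by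
          rw [Finset.sum_singleton, hH]
          refine hRN (n + k) r (hr.2.trans ?_) v
          have : j + 1 ≤ ((n + k : ℕ) : ℤ) := by omega
          exact_mod_cast this)
      simpa using h2
  filter_upwards [ae_all_iff.2 key] with ω hω
  refine Prod.ext (funext fun c => ?_) rfl
  change Qf (st ω.2.2 c * slim fun n => Pic G θ (R n) (N n) (innov G ν (obs ω)) c.2 (tm ω.2.2 c))
    (Ff (st ω.2.2 c * mm G ν (tm ω.2.2 c) c.2 (obs ω)) ((obs ω).1 c)) = (obs ω).1 c
  have e : st ω.2.2 c * (slim fun n => Pic G θ (R n) (N n) (innov G ν (obs ω)) c.2 (tm ω.2.2 c)) =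
      st ω.2.2 c * mm G ν (tm ω.2.2 c) c.2 (obs ω) := by
    by_cases hc : cl (ω.2.2 c) < 0
    · congr 1
      apply slim_of_tendsto
      have h1 := hω c
      have h2 : act (c.1 + 1) ω.2.2 c = 1 := by
        rw [act, if_pos ⟨hc, (tm_lt_iff _ _).2 hc⟩]
      simp only [h2, one_mul, hH] at h1
      have h3 := (Real.continuous_sqrt.tendsto 0).comp h1
      simp only [Function.comp_def, Real.sqrt_sq_eq_abs, Real.sqrt_zero] at h3
      rw [tendsto_iff_dist_tendsto_zero]
      simpa only [Real.dist_eq, abs_sub_comm] using h3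
    · simp [st, hc]
  rw [e, Qf_Ff (abs_st_mul_le _ _ (abs_mm_le ν _ _ _)), cl_of_abs_le (abs_obs_le ω c)]

theorem exists_coup {θ' : ℝ} {ν' : Measure (V → Bool)} (hW : Wd G d θ ν) (hW' : Wd G d θ' ν')
    (hs : ((d : ℝ) - 1) * θ' ^ 2 < 1) : ∃ Γ, Coup G ν ν' Γ := by
  have := hW.prob
  have := hW'.prob
  have := hW.tr.countable
  obtain ⟨R, N, h⟩ := exists_psi hW' hs
  have mP := measurable_Psi (G := G) θ' R N
  have m1 : Measurable fun ω => innov G ν (obs ω) := (measurable_innov ν).comp measurable_obs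
  have m2 : Measurable fun ω => innov G ν' (obs ω) := (measurable_innov ν').comp measurable_obs
  refine ⟨fun o => Psi G θ' R N (innov G ν o), mP.comp (measurable_innov ν), fun o => rfl,
    fun g o => ?_, fun o => ?_, fun r o o' ho => Psi_agree θ' R N (innov_agree ν ho), ?_, ?_⟩
  · rw [innov_pullO hW, Psi_pullO hW.tr]
  · rw [innov_negO hW, Psi_negO]
  · calc (PP ν).map (fun ω => Psi G θ' R N (innov G ν (obs ω)))
        = ((PP ν).map fun ω => innov G ν (obs ω)).map (Psi G θ' R N) :=
          (Measure.map_map mP m1).symm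
      _ = ((PP ν').map fun ω => innov G ν' (obs ω)).map (Psi G θ' R N) := by
          rw [map_innov hW, map_innov hW']
      _ = (PP ν').map (fun ω => Psi G θ' R N (innov G ν' (obs ω))) := Measure.map_map mP m2
      _ = (PP ν').map obs := Measure.map_congr h
  · have hS : MeasurableSet {U : Ob V | innov G ν' (Psi G θ' R N U) = U} :=
      measurableSet_eq_fun ((measurable_innov ν').comp mP) measurable_id
    have h1 : ∀ᵐ U ∂(PP ν').map fun ω => innov G ν' (obs ω), innov G ν' (Psi G θ' R N U) = U := by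
      rw [ae_map_iff m2.aemeasurable hS]
      filter_upwards [h] with ω hω
      rw [hω]
    rw [map_innov hW', ← map_innov hW, ae_map_iff m1.aemeasurable hS] at h1
    exact h1

end

end Crest.Agent.R160
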