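import Crest.Agent.R160.EvoB
import Crest.Agent.R160.AC2

/-!
Row 160, CritA: one round of the comparison of two near-critical worlds.

Apply `gron` to `D u s = Dl s u ≤ 4` with `a = D0 + e`.  Given continuous `φ ≥ Dl` on `[i,i+1]`,
`s`, `u`, and any `R`: let `S_R = ∑ v ∈ ball u R, act s (i,v) * (Cv' (tm) * psi η (mm' (tm)) (U (i,v)))`
with primed objects evaluated at `Γ (obs ω)` and `U = innov ν (obs ω)`.
* `evo` in world `ν` with `Z0 = mm' i u ∘ Γ`, `Gc r v = Cv ν' θ' u v (fy r (Γ ·))`,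
  `mc r v = mm ν' r v (Γ ·)` (`apx_coup`), `φ1 r = K φ r + e` (`hcmp`), `dec_nc`, `tail_small`:
  `E (mm s u - mm' i u - S_R)² ≤ D0 + ∫ (K φ + e) + 4η² t_R`.
* `evoA` in world `ν'`, transferred by `Coup.integral_eq`, `Coup.inn`, `Coup.snd`:
  `E (mm' s u - mm' i u - S_R)² ≤ 4η² t_R`.
* `(x - y)² ≤ (1+τ) x² + (1 + 1/τ) y²`, `t_R → 0` as `R → ∞`, then `τ → 0`.
-/

set_option autoImplicit false

open MeasureTheory Filter Topology
open scoped Classical

namespace Crest.Agent.R160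

noncomputable section

universe u

variable {V : Type u} {G : SimpleGraph V} [G.LocallyFinite] {d : ℕ} {θ : ℝ}
  {ν : Measure (V → Bool)}

variable {θ' : ℝ} {ν' : Measure (V → Bool)} {Γ : Ob V → Ob V}

lemma apx_coup (hW' : Wd G d θ' ν') (hC : Coup G ν ν' Γ) (u : V) :
    Apx (fun r v o => Cv G ν' θ' u v (fy r (Γ o))) (fun r v o => mm G ν' r v (Γ o)) := by
  have := hW'.prob
  have hm : Measurable fun p : ℝ × Ob V => (p.1, Γ p.2) :=
    measurable_fst.prodMk (hC.meas.comp measurable_snd)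
  exact ⟨fun v => by
      simpa only [Function.comp_def] using (measurable_Cv (G := G) ν' θ' u v).comp
        (measurable_fy.comp hm),
    fun v => by simpa only [Function.comp_def] using (measurable_mm (G := G) ν' v).comp hm,
    fun r v o o' h => by simp only [fy_agree (hC.agree r o o' h)],
    fun r v o o' h => adapted_mm ν' r v _ _ (hC.agree r o o' h),
    fun r v o => abs_Cv_le hW' _ _ _, fun r v o => abs_mm_le ν' r v _⟩

lemma le_of_tau {a M : ℝ} {ε : ℕ → ℝ} (hε : Tendsto ε atTop (𝓝 0))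
    (h : ∀ τ : ℝ, 0 < τ → ∀ R, a ≤ (1 + τ) * (M + ε R) + (1 + 1 / τ) * ε R) : a ≤ M := by
  have h1 : ∀ τ : ℝ, 0 < τ → a ≤ (1 + τ) * M := by
    intro τ hτ
    have : Tendsto (fun R => (1 + τ) * (M + ε R) + (1 + 1 / τ) * ε R) atTop
        (𝓝 ((1 + τ) * (M + 0) + (1 + 1 / τ) * 0)) :=
      ((hε.const_add M).const_mul _).add (hε.const_mul _)
    simpa using ge_of_tendsto' this (h τ hτ)
  have h2 : Tendsto (fun τ : ℝ => (1 + τ) * M) (𝓝[>] 0) (𝓝 ((1 + 0) * M)) :=
    (((continuous_const.add continuous_id).mul continuous_const).tendsto 0).mono_left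
      nhdsWithin_le_nhds
  simpa using ge_of_tendsto h2 (eventually_nhdsWithin_of_forall fun τ hτ => h1 τ hτ)

lemma integral_sub_sq_le {Ω : Type*} [MeasurableSpace Ω] (P : Measure Ω) [IsFiniteMeasure P]
    {x y : Ω → ℝ} (mx : Measurable x) (my : Measurable y) {C : ℝ} (bx : ∀ ω, |x ω| ≤ C)
    (b_y : ∀ ω, |y ω| ≤ C) {τ : ℝ} (hτ : 0 < τ) :
    ∫ ω, (x ω - y ω) ^ 2 ∂P ≤ (1 + τ) * ∫ ω, x ω ^ 2 ∂P + (1 + 1 / τ) * ∫ ω, y ω ^ 2 ∂P := by
  have i1 : Integrable (fun ω => x ω ^ 2) P :=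
    integrable_of_bdd (mx.pow_const 2) (C := C ^ 2) fun ω => by
      rw [abs_pow]; exact pow_le_pow_left₀ (abs_nonneg _) (bx ω) 2
  have i2 : Integrable (fun ω => y ω ^ 2) P :=
    integrable_of_bdd (my.pow_const 2) (C := C ^ 2) fun ω => by
      rw [abs_pow]; exact pow_le_pow_left₀ (abs_nonneg _) (b_y ω) 2
  rw [← integral_const_mul, ← integral_const_mul,
    ← integral_add (i1.const_mul _) (i2.const_mul _)]
  refine integral_mono_of_nonneg (ae_of_all _ fun ω => sq_nonneg _)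
    ((i1.const_mul _).add (i2.const_mul _)) (ae_of_all _ fun ω => ?_)
  have h1 : 0 ≤ (τ * x ω + y ω) ^ 2 / τ := by positivity
  have e : (1 + τ) * x ω ^ 2 + (1 + 1 / τ) * y ω ^ 2 =
      (x ω - y ω) ^ 2 + (τ * x ω + y ω) ^ 2 / τ := by
    field_simp
    ring
  simp only
  linarith

lemma tail_nc (hW : Wd G d θ ν) (i : ℤ) (u : V) (R R' : ℕ) :
    ∑ v ∈ ball G u R' \ ball G u R,
      θ ^ (2 * G.dist u v) * (1 - cA d * eta i) ^ G.dist u v ≤
      2 * 1 * (1 - cA d * eta i) ^ (R + 1) / (1 - (1 - cA d * eta i)) := by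
  have h1 := cA_pos hW.tr.three
  have h2 := cA_le hW.tr.three
  have h3 := eta_pos i
  have h4 := eta_le i
  have hq0 : 0 ≤ 1 - cA d * eta i := by nlinarith
  have hq1 : 1 - cA d * eta i < 1 := by nlinarith
  have h5 := hW.θ0
  refine tail_small hW.tr (b := fun k => θ ^ (2 * k) * (1 - cA d * eta i) ^ k)
    (fun k => by positivity) hq0 hq1 (fun k => ?_) u R R'
  rw [← mul_assoc, pow_mul, ← mul_pow]
  refine mul_le_mul_of_nonneg_right (pow_le_one₀ ?_ hW.θ1) (by positivity)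
  have := hW.tr.two_le
  positivity

theorem round_step (hW : Wd G d θ ν) (hW' : Wd G d θ' ν') (hC : Coup G ν ν' Γ) {i : ℤ}
    (hN : NC d θ i) (hN' : NC d θ' i) {D0 K e : ℝ} (hK : 0 ≤ K) (he : 0 ≤ e)
    (h0 : ∀ u, Dl G ν ν' Γ i u ≤ D0)
    (hcmp : ∀ r ∈ Set.Icc (i : ℝ) (i + 1), ∀ D : ℝ, (∀ u, Dl G ν ν' Γ r u ≤ D) →
      ∀ (u : V) (R : ℕ), Sm G ν θ ν' θ' Γ i r u R ≤ K * D + e) :
    ∀ u, Dl G ν ν' Γ (i + 1) u ≤ (D0 + e) * Real.exp K := by
  intro u0
  have := hW.prob
  have := hW'.prob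
  have hD0 : 0 ≤ D0 := (integral_nonneg fun ω => sq_nonneg _).trans (h0 u0)
  have mm1 : ∀ r u, Measurable fun ω : Om V => mm G ν r u (obs ω) := fun r u =>
    (measurable_mm' ν r u).comp measurable_obs
  have mm2 : ∀ r u, Measurable fun ω : Om V => mm G ν' r u (Γ (obs ω)) := fun r u =>
    (measurable_mm' ν' r u).comp (hC.meas.comp measurable_obs)
  refine gron (D := fun u s => Dl G ν ν' Γ s u) (i := i) (B := 4) (by positivity) hK
    (by norm_num) (fun u r _ => ?_) (fun φ hφ hb u s hs => ?_) u0 _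
    ⟨by linarith, le_rfl⟩
  · have : ∫ ω, (mm G ν r u (obs ω) - mm G ν' r u (Γ (obs ω))) ^ 2 ∂PP ν ≤
        ∫ _ : Om V, (4 : ℝ) ∂PP ν := by
      refine integral_mono_of_nonneg (ae_of_all _ fun ω => sq_nonneg _) (integrable_const _)
        (ae_of_all _ fun ω => ?_)
      have h1 := abs_le.1 (abs_mm_le (G := G) ν r u (obs ω))
      have h2 := abs_le.1 (abs_mm_le (G := G) ν' r u (Γ (obs ω)))
      simp only
      nlinarith
    simpa [Dl] using this
  · set q := 1 - cA d * eta i with hq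
    have hq0 : 0 ≤ q := by
      have h1 := cA_pos hW.tr.three
      have h2 := cA_le hW.tr.three
      have h3 := eta_pos i
      have h4 := eta_le i
      rw [hq]; nlinarith
    have hq1 : q < 1 := by
      have h1 := cA_pos hW.tr.three
      have h3 := eta_pos i
      rw [hq]; nlinarith
    refine le_of_tau (ε := fun R => 4 * eta i ^ 2 * (2 * 1 * q ^ (R + 1) / (1 - q))) ?_
      fun τ hτ R => ?_
    · have h1 : Tendsto (fun R : ℕ => q ^ (R + 1)) atTop (𝓝 0) :=
        (tendsto_pow_atTop_nhds_zero_of_lt_one hq0 hq1).comp (tendsto_add_atTop_nat 1)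
      have h2 : Tendsto (fun R : ℕ => 4 * eta i ^ 2 * (2 * 1 * q ^ (R + 1) / (1 - q))) atTop
          (𝓝 (4 * eta i ^ 2 * (2 * 1 * 0 / (1 - q)))) :=
        ((h1.const_mul (2 * 1)).div_const (1 - q)).const_mul (4 * eta i ^ 2)
      rwa [mul_zero, zero_div, mul_zero] at h2
    have hA := apx_coup hW' hC u
    set S : Om V → ℝ := fun ω => ∑ v ∈ ball G u R, EvoB.jj G ν s i
      (fun r v o => Cv G ν' θ' u v (fy r (Γ o))) (fun r v o => mm G ν' r v (Γ o)) v (obs ω)
      with hS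
    have mS : Measurable S := Finset.measurable_sum _ fun v _ =>
      (EvoB.measurable_jj ν hA s i v).comp measurable_obs
    have bS : ∀ ω, |S ω| ≤ (ball G u R).card := fun ω => by
      refine (Finset.abs_sum_le_sum_abs _ _).trans ?_
      refine (Finset.sum_le_sum fun v _ => EvoB.abs_jj_le hA s i v _).trans ?_
      simp
    have h1 := evo hW i (dec_nc hW hN) u R (tail_nc hW i u R) hs
      (Z0 := fun o => mm G ν' i u (Γ o)) ((measurable_mm' ν' i u).comp hC.meas) (C := 1)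
      (fun o => abs_mm_le ν' _ u _) (hA.adm i u) hA (φ := fun r => K * φ r + e) (by fun_prop)
      (fun r hr => hcmp r hr (φ r) (fun u => hb u r hr) u R)
    have h1' : ∫ ω, (mm G ν s u (obs ω) - mm G ν' i u (Γ (obs ω)) - S ω) ^ 2 ∂PP ν ≤
        D0 + e + K * (∫ r in (i : ℝ)..s, φ r) +
          4 * eta i ^ 2 * (2 * 1 * q ^ (R + 1) / (1 - q)) := by
      refine h1.trans ?_
      rw [intervalIntegral.integral_add ((hφ.const_mul K).intervalIntegrable _ _)
        (continuous_const.intervalIntegrable _ _), intervalIntegral.integral_const_mul,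
        intervalIntegral.integral_const, smul_eq_mul]
      have h2 : (s - i) * e ≤ e := mul_le_of_le_one_left he (by linarith [hs.2])
      have h3 : ∫ ω, (mm G ν i u (obs ω) - mm G ν' i u (Γ (obs ω))) ^ 2 ∂PP ν ≤ D0 := h0 u
      linarith
    have h2 := evoA hW' i (dec_nc hW' hN') u R (tail_nc hW' i u R) hs
    have hA' := EvoB.apx_true hW' u
    have mF : Measurable fun o : Ob V => (mm G ν' s u o - mm G ν' i u o - ∑ v ∈ ball G u R,
        EvoB.jj G ν' s i (fun r v o => Cv G ν' θ' u v (fy r o)) (mm G ν') v o) ^ 2 :=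
      (((measurable_mm' ν' s u).sub (measurable_mm' ν' i u)).sub
        (Finset.measurable_sum _ fun v _ => EvoB.measurable_jj ν' hA' s i v)).pow_const 2
    have h2' : ∫ ω, (mm G ν' s u (Γ (obs ω)) - mm G ν' i u (Γ (obs ω)) - S ω) ^ 2 ∂PP ν ≤
        4 * eta i ^ 2 * (2 * 1 * q ^ (R + 1) / (1 - q)) := by
      refine le_trans (le_of_eq ?_) h2
      refine Eq.trans (integral_congr_ae ?_) (hC.integral_eq mF)
      filter_upwards [hC.inn] with ω hω
      simp only [hS, EvoB.jj, EvoB.kk, hω, hC.snd]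
    have h3 := integral_sub_sq_le (PP ν) (((mm1 s u).sub (mm2 i u)).sub mS)
      (((mm2 s u).sub (mm2 i u)).sub mS) (C := 2 + (ball G u R).card) (fun ω => by
        refine (abs_sub _ _).trans (add_le_add ((abs_sub _ _).trans ?_) (bS ω))
        linarith [abs_mm_le (G := G) ν s u (obs ω), abs_mm_le (G := G) ν' i u (Γ (obs ω))])
      (fun ω => by
        refine (abs_sub _ _).trans (add_le_add ((abs_sub _ _).trans ?_) (bS ω))
        linarith [abs_mm_le (G := G) ν' s u (Γ (obs ω)), abs_mm_le (G := G) ν' i u (Γ (obs ω))])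
      hτ
    simp only [Pi.sub_apply, sub_sub_sub_cancel_right] at h3
    refine h3.trans ?_
    gcongr

end

end Crest.Agent.R160
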