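import Crest.Agent.R160.Basic

/-!
Row 160, CritB: numerics of the critical Gronwall argument.

`sum_kp_le`: for `i ≤ 0` write `m = (-i).toNat`, `8^k eta i = 2^(3k) / (8 · 2^m)`; so
`min 1 (8^k eta i) ≤ 1` for `m ≤ 3k` and `≤ 2^(3k-m)` for `m > 3k`.  Hence
`∑ (m+3)² min ≤ (3k+1)(3k+3)² + ∑_{l ≥ 1} (3k+3+l)² 2^(-l) ≤ 100 (k+1)³`, `∑ min ≤ 3k+2`,
`∑ eta ≤ 1`; the rounds `0 < i < I` contribute at most `I (9 + 2 (36/25)^k)`.
`crit_num`: iterating, `D I ≤ (CM eta i0 + ∑ err) exp (C ∑ kp)` (keep an upper bound `Bd i ≥ D i`).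
With `p = 2^k`, `q = p/10`: `eta i0 ≤ 2^(-q)`, `∑_{i0 ≤ i < I} 1/eta i² ≤ 64 (I + 2) 4^q`, and for `k`
large `C ∑ kp ≤ p/100 * log 2` (as `(k+1)³ (36/25)^k / 2^k → 0`), so
`D I ≤ CM 2^(1 - p/10 + p/100) + 64 C (I+2) p (ε'² + 2^(-p)) 2^(p/5 + p/100)`; choose `k`, then `ε'`.
-/

set_option autoImplicit false

open MeasureTheory Filter Topology
open scoped Classical

namespace Crest.Agent.R160

noncomputable section

universe u


lemma critB_sum_split (f : ℤ → ℝ) (q I : ℕ) :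
    ∑ i ∈ Finset.Ico (-(q : ℤ)) I, f i =
      ∑ m ∈ Finset.range q, f (-((m : ℤ) + 1)) + ∑ j ∈ Finset.range I, f j := by
  induction q with
  | zero =>
    induction I with
    | zero => simp
    | succ I ih =>
      have h : Finset.Ico (-((0 : ℕ) : ℤ)) ((I + 1 : ℕ) : ℤ) =
          insert (I : ℤ) (Finset.Ico (-((0 : ℕ) : ℤ)) I) := by
        ext x; simp only [Finset.mem_Ico, Finset.mem_insert]; omega
      rw [h, Finset.sum_insert (by simp), ih, Finset.sum_range_succ]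
      ring
  | succ q ih =>
    have h : Finset.Ico (-((q + 1 : ℕ) : ℤ)) (I : ℤ) =
        insert (-((q : ℤ) + 1)) (Finset.Ico (-(q : ℤ)) I) := by
      ext x; simp only [Finset.mem_Ico, Finset.mem_insert]; omega
    rw [h, Finset.sum_insert (by simp only [Finset.mem_Ico]; omega), ih, Finset.sum_range_succ]
    ring

/-- the reduced rate -/
def critB_g (k m : ℕ) : ℝ :=
  (((m : ℝ) + 3) ^ 2 + 1) * min 1 (8 ^ k / (8 * 2 ^ m)) + 1 / (8 * 2 ^ m)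

lemma critB_kp_le (i : ℤ) (k : ℕ) : kp i k ≤ critB_g k (-i).toNat * (36 / 25) ^ k := by
  have hA : (1 : ℝ) ≤ (36 / 25) ^ k := one_le_pow₀ (by norm_num)
  have he := eta_eq i
  unfold kp critB_g
  rw [he]
  have e1 : (8 : ℝ) ^ k * (1 / (8 * 2 ^ (-i).toNat)) = 8 ^ k / (8 * 2 ^ (-i).toNat) := by ring
  rw [e1]
  have hm : (0 : ℝ) ≤ min 1 (8 ^ k / (8 * 2 ^ (-i).toNat)) := le_min zero_le_one (by positivity)
  set μ : ℝ := min 1 (8 ^ k / (8 * 2 ^ (-i).toNat))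
  set A : ℝ := (36 / 25) ^ k
  have h2 : (0 : ℝ) ≤ (((-i).toNat : ℝ) + 3) ^ 2 * μ := by positivity
  nlinarith [mul_le_mul_of_nonneg_left hA h2]

lemma critB_g_le_one (k m : ℕ) : critB_g k m ≤ ((m : ℝ) + 3) ^ 2 + 2 := by
  unfold critB_g
  have h1 : min 1 ((8 : ℝ) ^ k / (8 * 2 ^ m)) ≤ 1 := min_le_left _ _
  have h2 : (1 : ℝ) / (8 * 2 ^ m) ≤ 1 := by
    rw [div_le_one (by positivity)]
    have : (1 : ℝ) ≤ 2 ^ m := one_le_pow₀ (by norm_num)
    linarith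
  have h3 : (0 : ℝ) ≤ ((m : ℝ) + 3) ^ 2 + 1 := by positivity
  nlinarith [mul_le_mul_of_nonneg_left h1 h3]

lemma critB_g_le_two (k m : ℕ) :
    critB_g k m ≤ (((m : ℝ) + 3) ^ 2 + 2) * (8 ^ k / (8 * 2 ^ m)) := by
  unfold critB_g
  have h1 : min 1 ((8 : ℝ) ^ k / (8 * 2 ^ m)) ≤ 8 ^ k / (8 * 2 ^ m) := min_le_right _ _
  have h2 : (1 : ℝ) / (8 * 2 ^ m) ≤ 8 ^ k / (8 * 2 ^ m) := by
    gcongr
    exact one_le_pow₀ (by norm_num)
  have h3 : (0 : ℝ) ≤ ((m : ℝ) + 3) ^ 2 + 1 := by positivity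
  nlinarith [mul_le_mul_of_nonneg_left h1 h3]

lemma critB_S_le_one (k q : ℕ) :
    ∑ m ∈ Finset.range q, critB_g k (m + 1) ≤ q * (((q : ℝ) + 3) ^ 2 + 2) := by
  calc ∑ m ∈ Finset.range q, critB_g k (m + 1)
      ≤ ∑ _m ∈ Finset.range q, (((q : ℝ) + 3) ^ 2 + 2) := by
        refine Finset.sum_le_sum fun m hm => (critB_g_le_one k (m + 1)).trans ?_
        have : ((m + 1 : ℕ) : ℝ) ≤ q := by exact_mod_cast Finset.mem_range.mp hm
        gcongr
    _ = q * (((q : ℝ) + 3) ^ 2 + 2) := by rw [Finset.sum_const, Finset.card_range, nsmul_eq_mul]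

lemma critB_S_le_two (k q : ℕ) (h : 3 * k ≤ q) :
    ∑ m ∈ Finset.range q, critB_g k (m + 1) + ((q : ℝ) + 5) ^ 2 * (8 ^ k / 2 ^ q) ≤
      ∑ m ∈ Finset.range (3 * k), critB_g k (m + 1) + (3 * (k : ℝ) + 5) ^ 2 := by
  induction q, h using Nat.le_induction with
  | base =>
    have : (8 : ℝ) ^ k / 2 ^ (3 * k) = 1 := by
      rw [pow_mul]; norm_num
    rw [this]; push_cast; linarith
  | succ q _ ih =>
    refine le_trans ?_ ih
    rw [Finset.sum_range_succ]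
    have h1 := critB_g_le_two k (q + 1)
    have hx : (0 : ℝ) < 8 ^ k / 2 ^ q := by positivity
    have e1 : (8 : ℝ) ^ k / (8 * 2 ^ (q + 1)) = (8 ^ k / 2 ^ q) / 16 := by
      rw [pow_succ]; field_simp; norm_num
    have e2 : (8 : ℝ) ^ k / 2 ^ (q + 1) = (8 ^ k / 2 ^ q) / 2 := by
      rw [pow_succ]; field_simp
    rw [e1] at h1
    rw [e2]
    set x : ℝ := 8 ^ k / 2 ^ q
    push_cast at h1 ⊢
    have hq : (0 : ℝ) ≤ q := Nat.cast_nonneg q
    have h5 : (0 : ℝ) ≤ (7 * (q : ℝ) ^ 2 + 56 * q + 94) * x := by positivity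
    nlinarith

lemma critB_S_le (k q : ℕ) :
    ∑ m ∈ Finset.range q, critB_g k (m + 1) ≤ 100 * ((k : ℝ) + 1) ^ 3 := by
  have hk : (0 : ℝ) ≤ k := Nat.cast_nonneg k
  have h3 : ∀ q : ℕ, q ≤ 3 * k →
      ∑ m ∈ Finset.range q, critB_g k (m + 1) ≤ 50 * ((k : ℝ) + 1) ^ 3 := by
    intro q hq
    refine (critB_S_le_one k q).trans ?_
    have : (q : ℝ) ≤ 3 * k := by exact_mod_cast hq
    calc (q : ℝ) * (((q : ℝ) + 3) ^ 2 + 2) ≤ (3 * k) * ((3 * (k : ℝ) + 3) ^ 2 + 2) := by gcongr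
      _ ≤ 50 * ((k : ℝ) + 1) ^ 3 := by nlinarith [pow_nonneg hk 2, pow_nonneg hk 3]
  rcases le_total q (3 * k) with h | h
  · have := h3 q h
    have : (0 : ℝ) ≤ ((k : ℝ) + 1) ^ 3 := by positivity
    linarith
  · have h1 := critB_S_le_two k q h
    have h2 := h3 (3 * k) le_rfl
    have h4 : (0 : ℝ) ≤ ((q : ℝ) + 5) ^ 2 * (8 ^ k / 2 ^ q) := by positivity
    nlinarith [pow_nonneg hk 2, pow_nonneg hk 3]

lemma sum_kp_le (I : ℕ) (k q : ℕ) :
    ∑ i ∈ Finset.Ico (-(q : ℤ)) I, kp i k ≤ 200 * (I + 1) * (k + 1) ^ 3 * (36 / 25) ^ k := by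
  rw [critB_sum_split]
  have hA : (0 : ℝ) ≤ (36 / 25) ^ k := by positivity
  have h1 : ∑ m ∈ Finset.range q, kp (-((m : ℤ) + 1)) k ≤
      100 * ((k : ℝ) + 1) ^ 3 * (36 / 25) ^ k := by
    refine le_trans ?_ (mul_le_mul_of_nonneg_right (critB_S_le k q) hA)
    rw [Finset.sum_mul]
    refine Finset.sum_le_sum fun m _ => (critB_kp_le _ k).trans_eq ?_
    have : (-(-((m : ℤ) + 1))).toNat = m + 1 := by omega
    rw [this]
  have h2 : ∑ j ∈ Finset.range I, kp (j : ℤ) k ≤ I * (11 * (36 / 25) ^ k) := by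
    calc ∑ j ∈ Finset.range I, kp (j : ℤ) k ≤ ∑ _j ∈ Finset.range I, (11 * (36 / 25 : ℝ) ^ k) := by
          refine Finset.sum_le_sum fun j _ => (critB_kp_le _ k).trans ?_
          have : (-(j : ℤ)).toNat = 0 := by omega
          rw [this]
          have h := critB_g_le_one k 0
          gcongr
          norm_num at h ⊢
          linarith
      _ = I * (11 * (36 / 25) ^ k) := by simp
  have hk : (1 : ℝ) ≤ ((k : ℝ) + 1) ^ 3 := one_le_pow₀ (by linarith [(Nat.cast_nonneg k : (0 : ℝ) ≤ k)])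
  have hI : (0 : ℝ) ≤ I := Nat.cast_nonneg I
  set A : ℝ := (36 / 25) ^ k
  set K : ℝ := ((k : ℝ) + 1) ^ 3
  have h3 : (I : ℝ) * A * 1 ≤ I * A * K := mul_le_mul_of_nonneg_left hk (by positivity)
  have h4 : (0 : ℝ) ≤ I * A := by positivity
  have h5 : (0 : ℝ) ≤ K * A := by positivity
  nlinarith

lemma critB_iter {C X : ℝ} (hC : 0 ≤ C) (k : ℕ) (i0 : ℤ) (I : ℤ) (err D : ℤ → ℝ)
    (herr : ∀ i, 0 ≤ err i) (h0 : D i0 ≤ X)
    (hs : ∀ i, i0 ≤ i → i < I → D (i + 1) ≤ (D i + err i) * Real.exp (C * kp i k)) :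
    ∀ n : ℕ, i0 + n ≤ I → D (i0 + n) ≤ (X + ∑ i ∈ Finset.Ico i0 (i0 + n), err i) *
      Real.exp (C * ∑ i ∈ Finset.Ico i0 (i0 + n), kp i k) := by
  intro n
  induction n with
  | zero => intro _; simpa using h0
  | succ n ih =>
    intro hn
    have hn' : i0 + n < I := by push_cast at hn; omega
    have ih' := ih hn'.le
    have h : Finset.Ico i0 (i0 + ((n + 1 : ℕ) : ℤ)) = insert (i0 + n) (Finset.Ico i0 (i0 + n)) := by
      ext x; simp only [Finset.mem_Ico, Finset.mem_insert]; omega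
    rw [h, Finset.sum_insert (by simp), Finset.sum_insert (by simp),
      show i0 + ((n + 1 : ℕ) : ℤ) = i0 + n + 1 by push_cast; ring]
    refine (hs _ (by omega) hn').trans ?_
    rw [mul_add C, Real.exp_add, mul_comm (Real.exp _) (Real.exp _), ← mul_assoc]
    refine mul_le_mul_of_nonneg_right ?_ (Real.exp_pos _).le
    have hE : 1 ≤ Real.exp (C * ∑ i ∈ Finset.Ico i0 (i0 + n), kp i k) :=
      Real.one_le_exp (mul_nonneg hC (Finset.sum_nonneg fun i _ => kp_nonneg i k))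
    have := mul_le_mul_of_nonneg_left hE (herr (i0 + n))
    nlinarith

lemma critB_rate (c : ℝ) :
    ∀ᶠ k : ℕ in atTop, c * ((k : ℝ) + 1) ^ 3 * (36 / 25) ^ k ≤ (2 : ℝ) ^ k / 100 := by
  have h1 := tendsto_pow_const_mul_const_pow_of_abs_lt_one 3 (r := (18 / 25 : ℝ))
    (by rw [abs_of_pos] <;> norm_num)
  have h2 := (h1.comp (tendsto_add_atTop_nat 1)).const_mul (c * (25 / 18))
  rw [mul_zero] at h2
  filter_upwards [h2.eventually (gt_mem_nhds (show (0 : ℝ) < 1 / 100 by norm_num))] with k hk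
  simp only [Function.comp] at hk
  push_cast at hk
  have e : (36 / 25 : ℝ) ^ k = (18 / 25) ^ k * 2 ^ k := by rw [← mul_pow]; norm_num
  have hp : (0 : ℝ) < 2 ^ k := by positivity
  have e2 : c * ((k : ℝ) + 1) ^ 3 * (36 / 25) ^ k =
      (c * (25 / 18) * (((k : ℝ) + 1) ^ 3 * (18 / 25) ^ (k + 1))) * 2 ^ k := by
    rw [e, pow_succ (18 / 25 : ℝ)]; ring
  rw [e2]
  nlinarith [mul_le_mul_of_nonneg_right hk.le hp.le]

lemma critB_small (a b : ℝ) {ε : ℝ} (hε : 0 < ε) :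
    ∀ᶠ k : ℕ in atTop, a * Real.exp (-((2 : ℝ) ^ k / 20)) +
      b * (((2 : ℝ) ^ k) ^ 2 * Real.exp (-((2 : ℝ) ^ k / 2))) ≤ ε := by
  have hp : Tendsto (fun k : ℕ => (2 : ℝ) ^ k) atTop atTop :=
    tendsto_pow_atTop_atTop_of_one_lt (by norm_num)
  have h1 : Tendsto (fun k : ℕ => Real.exp (-((2 : ℝ) ^ k / 20))) atTop (𝓝 0) :=
    Real.tendsto_exp_neg_atTop_nhds_zero.comp (hp.atTop_div_const (by norm_num))
  have h2 : Tendsto (fun k : ℕ => ((2 : ℝ) ^ k / 2) ^ 2 * Real.exp (-((2 : ℝ) ^ k / 2))) atTop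
      (𝓝 0) :=
    (Real.tendsto_pow_mul_exp_neg_atTop_nhds_zero 2).comp (hp.atTop_div_const (by norm_num))
  have h3 := (h1.const_mul a).add (h2.const_mul (4 * b))
  simp only [mul_zero, add_zero] at h3
  filter_upwards [h3.eventually (gt_mem_nhds hε)] with k hk
  refine le_of_eq_of_le ?_ hk.le
  ring

lemma critB_two_pow (n : ℕ) : (2 : ℝ) ^ n = Real.exp (n * Real.log 2) := by
  rw [Real.exp_nat_mul, Real.exp_log two_pos]

lemma critB_A {p : ℝ} {q : ℕ} (hp : 0 < p) (hq2 : p / 10 - 1 ≤ q) :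
    eta (-(q : ℤ)) * Real.exp (p / 100) ≤ 2 * Real.exp (-(p / 20)) := by
  have hl1 := Real.log_two_gt_d9
  have heta : eta (-(q : ℤ)) = 1 / (8 * 2 ^ q) := by
    rw [eta_eq, neg_neg, Int.toNat_natCast]
  rw [heta, critB_two_pow q, div_mul_eq_mul_div, one_mul, div_le_iff₀ (by positivity)]
  have e : 2 * Real.exp (-(p / 20)) * (8 * Real.exp (q * Real.log 2)) =
      8 * Real.exp (Real.log 2 + -(p / 20) + q * Real.log 2) := by
    rw [Real.exp_add, Real.exp_add, Real.exp_log two_pos]; ring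
  rw [e]
  have h1 : Real.exp (p / 100) ≤ Real.exp (Real.log 2 + -(p / 20) + q * Real.log 2) := by
    refine Real.exp_le_exp.mpr ?_
    have h2 : (p / 10) * Real.log 2 ≤ (q + 1) * Real.log 2 :=
      mul_le_mul_of_nonneg_right (by linarith) (by linarith)
    have h3 : (p / 10) * 0.6931471803 ≤ (p / 10) * Real.log 2 :=
      mul_le_mul_of_nonneg_left hl1.le (by positivity)
    linarith
  linarith [Real.exp_pos (p / 100)]

lemma critB_B {n q : ℕ} (hq1 : (q : ℝ) ≤ n / 10) :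
    (4 : ℝ) ^ q * (1 / 2 ^ n) * Real.exp (n / 100) ≤ Real.exp (-(n / 2)) := by
  have hl1 := Real.log_two_gt_d9
  have e4 : (4 : ℝ) ^ q = 2 ^ (2 * q) := by rw [pow_mul]; norm_num
  rw [e4, critB_two_pow (2 * q), critB_two_pow n, one_div, ← Real.exp_neg, ← Real.exp_add,
    ← Real.exp_add]
  refine Real.exp_le_exp.mpr ?_
  push_cast
  have h2 : (q : ℝ) * Real.log 2 ≤ (n / 10) * Real.log 2 :=
    mul_le_mul_of_nonneg_right hq1 (by linarith)
  have h3 : (n : ℝ) * 0.6931471803 ≤ n * Real.log 2 :=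
    mul_le_mul_of_nonneg_left hl1.le (by positivity)
  have h4 : (0 : ℝ) ≤ n := Nat.cast_nonneg n
  linarith

lemma critB_S {a p : ℝ} (ha : 0 ≤ a) (I q : ℕ) (hp1 : 1 ≤ p) (hq1 : (q : ℝ) ≤ p / 10) :
    ∑ i ∈ Finset.Ico (-(q : ℤ)) I, a / eta i ^ 2 ≤ 64 * (I + 1) * p * 4 ^ q * a := by
  have heta : eta (-(q : ℤ)) = 1 / (8 * 2 ^ q) := by
    rw [eta_eq, neg_neg, Int.toNat_natCast]
  calc ∑ i ∈ Finset.Ico (-(q : ℤ)) I, a / eta i ^ 2
      ≤ ∑ _i ∈ Finset.Ico (-(q : ℤ)) I, a / eta (-(q : ℤ)) ^ 2 := by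
        refine Finset.sum_le_sum fun i hi => ?_
        have h1 := eta_mono (Finset.mem_Ico.mp hi).1
        have h2 := eta_pos (-(q : ℤ))
        gcongr
    _ = ((I : ℝ) + q) * (a * (64 * 4 ^ q)) := by
        rw [Finset.sum_const, Int.card_Ico, nsmul_eq_mul, heta,
          show ((I : ℤ) - -(q : ℤ)).toNat = I + q by omega]
        have : (4 : ℝ) ^ q = 2 ^ q * 2 ^ q := by rw [← mul_pow]; norm_num
        rw [this]
        push_cast
        field_simp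
        norm_num
    _ ≤ (((I : ℝ) + 1) * p) * (a * (64 * 4 ^ q)) := by
        refine mul_le_mul_of_nonneg_right ?_ (by positivity)
        have hI : (0 : ℝ) ≤ I := Nat.cast_nonneg I
        nlinarith [mul_le_mul_of_nonneg_left hp1 hI]
    _ = _ := by ring

lemma critB_eps {K ε : ℝ} (hK0 : 0 ≤ K) (hε : 0 < ε) : ∃ ε' : ℝ, 0 < ε' ∧ ε' ^ 2 * K ≤ ε := by
  refine ⟨min 1 (ε / (K + 1)), lt_min one_pos (by positivity), ?_⟩
  have h0 : 0 < min 1 (ε / (K + 1)) := lt_min one_pos (by positivity)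
  have h1 : min 1 (ε / (K + 1)) ≤ 1 := min_le_left _ _
  have h2 : min 1 (ε / (K + 1)) ≤ ε / (K + 1) := min_le_right _ _
  generalize min 1 (ε / (K + 1)) = x at h0 h1 h2
  rw [le_div_iff₀ (by positivity)] at h2
  have h3 : x ^ 2 ≤ x := by nlinarith
  nlinarith [mul_le_mul_of_nonneg_right h3 hK0]

theorem crit_num {C CM : ℝ} (hC : 0 ≤ C) (hCM : 0 ≤ CM) (I : ℕ) {ε : ℝ} (hε : 0 < ε) :
    ∃ k : ℕ, 3 ≤ k ∧ ∃ ε' : ℝ, 0 < ε' ∧ ∀ D : ℤ → ℝ,
      D (-((2 ^ k / 10 : ℕ) : ℤ)) ≤ CM * eta (-((2 ^ k / 10 : ℕ) : ℤ)) →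
      (∀ i : ℤ, -((2 ^ k / 10 : ℕ) : ℤ) ≤ i → i < I →
        D (i + 1) ≤ (D i + C * 2 ^ k * (ε' ^ 2 + 1 / 2 ^ (2 ^ k)) / eta i ^ 2) *
          Real.exp (C * kp i k)) → D I ≤ ε := by
  obtain ⟨k, hk3, hk1, hk2⟩ := ((eventually_ge_atTop 3).and ((critB_rate (C * (200 * (I + 1)))).and
    (critB_small (2 * CM) (64 * C * (I + 1)) (half_pos hε)))).exists
  refine ⟨k, hk3, ?_⟩
  have hq1 : ((2 ^ k / 10 : ℕ) : ℝ) ≤ ((2 ^ k : ℕ) : ℝ) / 10 := by
    have : ((2 ^ k / 10 : ℕ) : ℝ) ≤ ((2 ^ k : ℕ) : ℝ) / (10 : ℕ) := Nat.cast_div_le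
    simpa using this
  have hq2 : ((2 ^ k : ℕ) : ℝ) / 10 - 1 ≤ ((2 ^ k / 10 : ℕ) : ℝ) := by
    have h1 : 2 ^ k < 10 * (2 ^ k / 10 + 1) := by omega
    have h2 : ((2 ^ k : ℕ) : ℝ) < ((10 * (2 ^ k / 10 + 1) : ℕ) : ℝ) := by exact_mod_cast h1
    rw [Nat.cast_mul, Nat.cast_add] at h2
    norm_num only at h2
    linarith
  have hB := critB_B hq1
  have hsum := sum_kp_le I k (2 ^ k / 10)
  generalize 2 ^ k / 10 = q at hq1 hq2 hB hsum ⊢
  rw [Nat.cast_pow, Nat.cast_ofNat] at hq1 hq2 hB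
  have hp1 : (1 : ℝ) ≤ 2 ^ k := one_le_pow₀ (by norm_num)
  have hw0 : (0 : ℝ) ≤ 1 / 2 ^ (2 ^ k) := by positivity
  generalize (1 : ℝ) / 2 ^ (2 ^ k) = w at hB hw0 ⊢
  generalize (2 : ℝ) ^ k = p at hq1 hq2 hB hk1 hk2 hp1 ⊢
  have hp0 : 0 < p := by linarith
  obtain ⟨ε', hε'0, hε'K⟩ := critB_eps (K := 64 * C * (I + 1) * p ^ 2 * 4 ^ q * Real.exp (p / 100))
    (by positivity) (half_pos hε)
  refine ⟨ε', hε'0, fun D h0 hs => ?_⟩
  have hit := critB_iter hC k (-(q : ℤ)) I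
    (fun i => C * p * (ε' ^ 2 + w) / eta i ^ 2) D
    (fun i => by have := eta_pos i; positivity) h0 hs (q + I) (by omega)
  rw [show -(q : ℤ) + ((q + I : ℕ) : ℤ) = I by omega] at hit
  refine hit.trans ?_
  have hE : Real.exp (C * ∑ i ∈ Finset.Ico (-(q : ℤ)) I, kp i k) ≤ Real.exp (p / 100) := by
    refine Real.exp_le_exp.mpr (le_trans ?_ hk1)
    refine (mul_le_mul_of_nonneg_left hsum hC).trans_eq ?_
    ring
  have hS := critB_S (a := C * p * (ε' ^ 2 + w)) (by positivity) I q hp1 hq1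
  have hA := critB_A hp0 hq2
  have he := eta_pos (-(q : ℤ))
  calc _ ≤ (CM * eta (-(q : ℤ)) +
        64 * (I + 1) * p * 4 ^ q * (C * p * (ε' ^ 2 + w))) * Real.exp (p / 100) :=
        mul_le_mul (by linarith) hE (Real.exp_pos _).le (by positivity)
    _ = CM * (eta (-(q : ℤ)) * Real.exp (p / 100)) +
        ε' ^ 2 * (64 * C * (I + 1) * p ^ 2 * 4 ^ q * Real.exp (p / 100)) +
        64 * C * (I + 1) * p ^ 2 * (4 ^ q * w * Real.exp (p / 100)) := by ring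
    _ ≤ CM * (2 * Real.exp (-(p / 20))) + ε / 2 +
        64 * C * (I + 1) * p ^ 2 * Real.exp (-(p / 2)) := by gcongr
    _ = 2 * CM * Real.exp (-(p / 20)) + 64 * C * (I + 1) * (p ^ 2 * Real.exp (-(p / 2))) +
        ε / 2 := by ring
    _ ≤ ε := by linarith

end

end Crest.Agent.R160
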