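import Crest.Agent.R160.CritA
import Crest.Agent.R160.CritB
import Crest.Agent.R160.CmpC
import Crest.Agent.R160.Cont
import Crest.Agent.R160.Coup

/-!
Row 160, CritC: the critical case.

Given `I, ε`: `C` from `cmp`, `CM` from `mom_nc`, `k, ε'` from `crit_num C (4 CM) I (ε/4)`,
`i0 = -(2^k/10)`, `δ` from `cont I i0 ε'`.  Choose `0 ≤ θ' < θ` with `θ - θ' ≤ min δ ε'` and
`NC d θ' i0` (continuity; `(d-1) θ² = 1`, `θ > 0`), `ν'` from `exists_wd`, `Γ` from `exists_coup`.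
Let `D i = ⨆ u, Dl i u` (bounded by 4; or use invariance).  `D i0 ≤ 4 CM eta i0` by `mom_nc` with
`p = 1` in both worlds; `round_step` with `cmp`, `cont` (`NC.mono`) gives the recursion, so
`Dl I u ≤ ε/4`.  Finally `pic` in world `θ'` with `ε/4`, `Coup.inn`, `Coup.integral_eq` and
`(x+y)² ≤ 2x² + 2y²`.
-/

set_option autoImplicit false

open MeasureTheory Filter Topology
open scoped Classical

namespace Crest.Agent.R160

noncomputable section

universe u

variable {V : Type u} {G : SimpleGraph V} [G.LocallyFinite] {d : ℕ} {θ : ℝ}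
  {ν : Measure (V → Bool)}

lemma integral_sq_sub_le {Ω : Type*} [MeasurableSpace Ω] (P : Measure Ω) [IsFiniteMeasure P]
    {f g h : Ω → ℝ} (mf : Measurable f) (mg : Measurable g) (mh : Measurable h)
    (bf : ∀ x, |f x| ≤ 1) (bg : ∀ x, |g x| ≤ 1) (bh : ∀ x, |h x| ≤ 1) :
    ∫ x, (f x - h x) ^ 2 ∂P ≤ 2 * ∫ x, (f x - g x) ^ 2 ∂P + 2 * ∫ x, (g x - h x) ^ 2 ∂P := by
  have hsq : ∀ {x y : ℝ}, |x| ≤ 1 → |y| ≤ 1 → |(x - y) ^ 2| ≤ 4 := fun hx hy => by
    rw [abs_of_nonneg (sq_nonneg _)]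
    rw [abs_le] at hx hy
    nlinarith [hx.1, hx.2, hy.1, hy.2]
  have i1 : Integrable (fun x => (f x - h x) ^ 2) P :=
    integrable_of_bdd ((mf.sub mh).pow_const 2) fun x => hsq (bf x) (bh x)
  have i2 : Integrable (fun x => (f x - g x) ^ 2) P :=
    integrable_of_bdd ((mf.sub mg).pow_const 2) fun x => hsq (bf x) (bg x)
  have i3 : Integrable (fun x => (g x - h x) ^ 2) P :=
    integrable_of_bdd ((mg.sub mh).pow_const 2) fun x => hsq (bg x) (bh x)
  rw [← integral_const_mul, ← integral_const_mul,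
    ← integral_add (i2.const_mul 2) (i3.const_mul 2)]
  refine integral_mono i1 ((i2.const_mul 2).add (i3.const_mul 2)) fun x => ?_
  dsimp only
  nlinarith [sq_nonneg (f x - 2 * g x + h x)]

lemma Dl_le_four {θ' : ℝ} {ν' : Measure (V → Bool)} (hW : Wd G d θ ν) (hW' : Wd G d θ' ν')
    (Γ : Ob V → Ob V) (r : ℝ) (u : V) : Dl G ν ν' Γ r u ≤ 4 := by
  have := hW.prob
  have := hW'.prob
  have h := norm_integral_le_of_norm_le_const (μ := PP ν) (C := 4)
    (f := fun ω => (mm G ν r u (obs ω) - mm G ν' r u (Γ (obs ω))) ^ 2) (ae_of_all _ fun ω => by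
      have h1 := abs_le.1 (abs_mm_le (G := G) ν r u (obs ω))
      have h2 := abs_le.1 (abs_mm_le (G := G) ν' r u (Γ (obs ω)))
      rw [Real.norm_eq_abs, abs_of_nonneg (sq_nonneg _)]
      nlinarith [h1.1, h1.2, h2.1, h2.2])
  simp only [probReal_univ, mul_one, Real.norm_eq_abs] at h
  exact (le_abs_self _).trans h

theorem approx_crit (hW : Wd G d θ ν) (hc : ((d : ℝ) - 1) * θ ^ 2 = 1) : Approx G ν := by
  intro I ε hε
  have := hW.prob
  have hT := hW.tr
  obtain ⟨x0⟩ := hT.tree.connected.nonempty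
  have : Nonempty V := ⟨x0⟩
  obtain ⟨C, hC0, hC⟩ := cmp hT I
  obtain ⟨CM, hCM1, hCM⟩ := mom_nc hT I
  obtain ⟨k, hk, ε', hε', hnum⟩ := crit_num hC0 (CM := 4 * CM) (by linarith) I
    (ε := ε / 4) (by linarith)
  set i0 : ℤ := -((2 ^ k / 10 : ℕ) : ℤ) with hi0
  have hi0I : i0 ≤ I := (neg_nonpos.2 (Int.natCast_nonneg _)).trans (Int.natCast_nonneg _)
  obtain ⟨δ, hδ, hcont⟩ := cont hT I i0 hε'
  have hη := eta_pos (i0 - 1)
  have hη' := eta_le (i0 - 1)
  set τ : ℝ := min (min δ ε') (eta (i0 - 1) / 2) with hτ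
  have hτ0 : 0 < τ := lt_min (lt_min hδ hε') (by linarith)
  have hτ1 : τ ≤ δ := (min_le_left _ _).trans (min_le_left _ _)
  have hτ2 : τ ≤ ε' := (min_le_left _ _).trans (min_le_right _ _)
  have hτ3 : τ ≤ eta (i0 - 1) / 2 := min_le_right _ _
  set θ' : ℝ := θ * (1 - τ) with hθ'
  have e1 : ((d : ℝ) - 1) * θ' ^ 2 = (1 - τ) ^ 2 := by rw [hθ', mul_pow, ← mul_assoc, hc, one_mul]
  have hs' : ((d : ℝ) - 1) * θ' ^ 2 < 1 := by rw [e1]; nlinarith
  have hd : |θ - θ'| ≤ τ := by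
    have e2 : θ - θ' = θ * τ := by rw [hθ']; ring
    rw [e2, abs_of_nonneg (mul_nonneg hW.θ0 hτ0.le)]
    exact mul_le_of_le_one_left hτ0.le hW.le_one
  have hN : NC d θ i0 := by unfold NC; rw [hc]; linarith
  have hN' : NC d θ' i0 := by unfold NC; rw [e1]; nlinarith
  obtain ⟨ν', hW'⟩ := exists_wd hT (θ := θ') (mul_nonneg hW.θ0 (by linarith)) hs'.le
  have := hW'.prob
  obtain ⟨Γ, hΓ⟩ := exists_coup hW hW' hs'
  have mΓ : Measurable fun ω : Om V => Γ (obs ω) := hΓ.meas.comp measurable_obs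
  have hbdd : ∀ r : ℝ, BddAbove (Set.range fun u => Dl G ν ν' Γ r u) := fun r =>
    ⟨4, by rintro _ ⟨u, rfl⟩; exact Dl_le_four hW hW' Γ r u⟩
  have hfin := hnum (fun i => ⨆ u, Dl G ν ν' Γ i u) (ciSup_le fun u => ?_) fun i h1 h2 => ?_
  · obtain ⟨R, n, hP⟩ := pic hW' hs' I (ε := ε / 4) (by linarith)
    refine ⟨θ', R, n, fun u => ?_⟩
    have h1 : Dl G ν ν' Γ I u ≤ ε / 4 := by
      have := (le_ciSup (hbdd ((I : ℤ) : ℝ)) u).trans hfin
      rwa [Int.cast_natCast] at this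
    have mP : ∀ μ : Measure (V → Bool), IsProbabilityMeasure μ →
        Measurable fun o : Ob V => Pic G θ' R n (innov G μ o) u I := fun μ _ => by
      have := (measurable_Pic (G := G) θ' R n u).comp
        ((measurable_const (a := (I : ℝ))).prodMk (measurable_innov (G := G) μ))
      exact this
    have h2 := hΓ.integral_eq (F := fun o => (mm G ν' I u o - Pic G θ' R n (innov G ν' o) u I) ^ 2)
      (((measurable_mm' ν' I u).sub (mP ν' inferInstance)).pow_const 2)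
    have h3 : ∫ ω, (mm G ν' I u (Γ (obs ω)) - Pic G θ' R n (innov G ν (obs ω)) u I) ^ 2 ∂PP ν ≤
        ε / 4 := by
      refine le_trans (le_of_eq (Eq.trans (integral_congr_ae ?_) h2)) (hP I le_rfl u)
      filter_upwards [hΓ.inn] with ω hω
      rw [hω]
    have h4 := integral_sq_sub_le (PP ν) ((measurable_mm' (G := G) ν I u).comp measurable_obs)
      ((measurable_mm' (G := G) ν' I u).comp mΓ) ((mP ν inferInstance).comp measurable_obs)
      (fun ω => abs_mm_le ν _ _ _) (fun ω => abs_mm_le ν' _ _ _) (fun ω => abs_Pic_le _ _ _ _ _ _)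
    simp only [Function.comp_def] at h4
    unfold Dl at h1
    linarith
  · have hr : ((i0 : ℤ) : ℝ) ∈ Set.Icc (i0 : ℝ) (i0 + 1) := ⟨le_rfl, by linarith⟩
    have h1 := hCM θ ν hW i0 hi0I hN i0 hr 1 le_rfl u
    have h2 := hCM θ' ν' hW' i0 hi0I hN' i0 hr 1 le_rfl u
    have h3 := hΓ.integral_eq (F := fun o => mm G ν' i0 u o ^ 2)
      ((measurable_mm' ν' i0 u).pow_const 2)
    have h4 := integral_sq_sub_le (PP ν) ((measurable_mm' (G := G) ν i0 u).comp measurable_obs)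
      (measurable_const (a := (0 : ℝ))) ((measurable_mm' (G := G) ν' i0 u).comp mΓ)
      (fun ω => abs_mm_le ν _ _ _) (fun ω => by simp) (fun ω => abs_mm_le ν' _ _ _)
    simp only [Function.comp_def, sub_zero, zero_sub, even_two, Even.neg_pow] at h4
    simp only [mul_one, Nat.cast_one, one_pow, pow_one] at h1 h2
    unfold Dl
    linarith
  · have hηi := eta_pos i
    refine ciSup_le fun u => ?_
    have := round_step hW hW' hΓ (hN.mono h1) (hN'.mono h1) (D0 := ⨆ u, Dl G ν ν' Γ i u)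
      (K := C * kp i k) (e := C * 2 ^ k * (ε' ^ 2 + 1 / 2 ^ (2 ^ k)) / eta i ^ 2)
      (mul_nonneg hC0 (kp_nonneg i k)) (by positivity) (fun u => le_ciSup (hbdd i) u)
      (fun r hr D hD u R => hC θ θ' ν ν' Γ hW hW' hΓ i h2.le (hN.mono h1) (hN'.mono h1) r hr k hk
        ε' (hd.trans hτ2) (hcont θ θ' ν ν' hW hW' (hd.trans hτ1) i h1 h2.le (hN.mono h1)
          (hN'.mono h1) r hr) D hD u R) u
    rwa [Int.cast_add, Int.cast_one]

theorem approx (hW : Wd G d θ ν) : Approx G ν := by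
  rcases hW.θ1.lt_or_eq with h | h
  exacts [approx_sub hW h, approx_crit hW h]

end

end Crest.Agent.R160
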