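import Mathlib
import Crest.Prelude.Def_TreeIsing

/-!
# Row 160 (S0241): free Ising on the d-regular tree is a factor of IID for (d-1) θ² ≤ 1.

Overview of the proof (all objects are defined in this file).

* A spin configuration σ ∼ ν is observed through weak noisy observations `Y (j,v)`, one for each
  round `j : ℤ` and vertex `v`, made at the random time `tm T (j,v) ∈ [j, j+2]`; the observation is
  *active* (strength `eta j`, time in `[j,j+1)`) with probability 1/2, otherwise pure noise.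
  Given σ, `Y (j,v)` has density `(1 + st * σ_v * y)` w.r.t. the uniform law `lam` on [-1,1].
* `mm r u` is the posterior mean of σ_u given the observations made before time `r`
  (the law of σ tilted by the field `fy r`).  The innovations `innov` are IID uniform.
* `mm` evolves by jumps `Cv u v * psi`, and the covariance `Cv` is an explicit function `Ch` of the
  posterior means.  `Pic` is the finite Picard iteration of this closed system, driven by the
  innovations only: it is an everywhere equivariant function of IID labels.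
* Subcritical case: Picard converges in L².  Critical case: compare with a subcritical θ' driven by
  the same innovations (Gronwall with summable constants).
-/

set_option autoImplicit false

open MeasureTheory Filter Topology
open scoped Classical

namespace Crest.Agent.R160

noncomputable section

universe u

/-! ### One-dimensional objects -/

/-- value ±1 of a spin -/
def sp (b : Bool) : ℝ := if b then 1 else -1

/-- clamp to [-1,1] -/
def cl (x : ℝ) : ℝ := max (-1) (min x 1)

/-- uniform law on [-1,1] -/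
def lam : Measure ℝ := (2⁻¹ : ENNReal) • volume.restrict (Set.Icc (-1 : ℝ) 1)

instance : IsProbabilityMeasure lam := ⟨by
  simp only [lam, Measure.smul_apply, Measure.restrict_apply MeasurableSet.univ, Set.univ_inter,
    Real.volume_Icc, smul_eq_mul]
  norm_num
  exact ENNReal.inv_mul_cancel (by norm_num) (by norm_num)⟩

/-- strength of the observations of round `j` -/
def eta (j : ℤ) : ℝ := 2 ^ (min j 0) / 8

/-- depth needed for anti-concentration in round `i`: `n0 i * eta (i-1) = 1` -/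
def n0 (i : ℤ) : ℕ := 2 ^ (3 + (1 - i).toNat)

/-- bound for the field collected up to time `i+1` -/
def Yb (i : ℤ) : ℝ := (4 + 2 * (i.toNat : ℝ)) * eta i

/-- quantile map: pushes `lam` to the law with density `1 + a y` -/
def Qf (a u : ℝ) : ℝ := (a + 2 * cl u) / (1 + √(1 + a ^ 2 + 2 * a * cl u))

/-- inverse of `Qf a` -/
def Ff (a y : ℝ) : ℝ := cl y - a / 2 * (1 - cl y ^ 2)

/-- half log-likelihood ratio `artanh (e y)` -/
def dl (e y : ℝ) : ℝ := (Real.log (1 + e * cl y) - Real.log (1 - e * cl y)) / 2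

/-- jump factor as a function of the innovation -/
def psi (e m u : ℝ) : ℝ := e * Qf (e * m) u / (1 + e * m * Qf (e * m) u)

/-- an odd version of the limit of a bounded sequence -/
def slim (a : ℕ → ℝ) : ℝ := (limsup a atTop + liminf a atTop) / 2

def rr (θ A : ℝ) : ℝ := (1 - A ^ 2) / (1 - θ ^ 2 * A ^ 2)

def kap (θ A : ℝ) : ℝ := θ * rr θ A

/-- the cavity magnetisation `B` of `w` away from `p` in terms of the magnetisations of `p` and `w`:
the root in [-1,1] of `m (1 - θ² B²) = B (1 - θ²) + θ p (1 - B²)` -/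
def Bf (θ p m : ℝ) : ℝ :=
  2 * (m - θ * p) / ((1 - θ ^ 2) + √((1 - θ ^ 2) ^ 2 - 4 * θ * (p - θ * m) * (m - θ * p)))

def LK (θ p m : ℝ) : ℝ := Real.log (kap θ (Bf θ p m))

/-- anti-concentration constant -/
def cA (d : ℕ) : ℝ := 1 / (50000 * d)

/-- near-critical at scale `i` (together with `(d-1) θ² ≤ 1` from `Wd`) -/
def NC (d : ℕ) (θ : ℝ) (i : ℤ) : Prop := 1 - eta (i - 1) ≤ ((d : ℝ) - 1) * θ ^ 2

/-- Gronwall rate of round `i` with truncation exponent `p = 2^k` -/
def kp (i : ℤ) (k : ℕ) : ℝ :=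
  ((((-i).toNat : ℝ) + 3) ^ 2 + (36 / 25) ^ k) * min 1 (8 ^ k * eta i) + eta i * (36 / 25) ^ k

/-- a coin that shows `true` (= disagree) with probability `(1-θ)/2` -/
def coin (θ : ℝ) : Measure Bool :=
  ENNReal.ofReal ((1 - cl θ) / 2) • Measure.dirac true +
    ENNReal.ofReal ((1 + cl θ) / 2) • Measure.dirac false

instance (θ : ℝ) : IsProbabilityMeasure (coin θ) := ⟨by
  have h1 : -1 ≤ cl θ := le_max_left _ _
  have h2 : cl θ ≤ 1 := max_le (by norm_num) (min_le_right _ _)
  simp only [coin, Measure.add_apply, Measure.smul_apply, measure_univ, smul_eq_mul, mul_one]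
  rw [← ENNReal.ofReal_add (by linarith) (by linarith)]
  have : (1 - cl θ) / 2 + (1 + cl θ) / 2 = 1 := by ring
  rw [this, ENNReal.ofReal_one]⟩

/-! ### Observation spaces -/

abbrev Cf (V : Type u) := ℤ × V → ℝ
/-- observations (values, times) -/
abbrev Ob (V : Type u) := Cf V × Cf V
/-- (spins, noise, times) -/
abbrev Om (V : Type u) := (V → Bool) × Cf V × Cf V

def Lam (V : Type u) : Measure (Cf V) := Measure.infinitePi fun _ => lam

instance (V : Type u) : IsProbabilityMeasure (Lam V) := by unfold Lam; infer_instance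

variable {V : Type u}

def PP (ν : Measure (V → Bool)) : Measure (Om V) := ν.prod ((Lam V).prod (Lam V))

instance (ν : Measure (V → Bool)) [IsProbabilityMeasure ν] : IsProbabilityMeasure (PP ν) := by
  unfold PP; infer_instance

/-- time of observation `c` -/
def tm (T : Cf V) (c : ℤ × V) : ℝ := c.1 + 1 + cl (T c)

/-- strength of observation `c` -/
def st (T : Cf V) (c : ℤ × V) : ℝ := if cl (T c) < 0 then eta c.1 else 0

/-- indicator that `c` is active and made before time `s` -/
def act (s : ℝ) (T : Cf V) (c : ℤ × V) : ℝ := if cl (T c) < 0 ∧ tm T c < s then 1 else 0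

def obs (ω : Om V) : Ob V := (fun c => sp (ω.1 c.2) * Qf (st ω.2.2 c) (ω.2.1 c), ω.2.2)

/-- the field produced by the observations with index in `A` -/
def fld (A : Set (ℤ × V)) (o : Ob V) (v : V) : ℝ :=
  ∑' j : ℤ, if (j, v) ∈ A then dl (st o.2 (j, v)) (o.1 (j, v)) else 0

/-- observations before time `r` -/
def bt (r : ℝ) (T : Cf V) : Set (ℤ × V) := {c | tm T c < r}

/-- observations at vertices `v ∈ S` before time `s v` -/
def bef (S : Set V) (s : V → ℝ) (T : Cf V) : Set (ℤ × V) := {c | c.2 ∈ S ∧ tm T c < s c.2}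

def fy (r : ℝ) (o : Ob V) : V → ℝ := fld (bt r o.2) o

def fS (S : Set V) (s : V → ℝ) (o : Ob V) : V → ℝ := fld (bef S s o.2) o

/-- an information rule: which observations are revealed, as a function of the times -/
structure Rule (A : Cf V → Set (ℤ × V)) : Prop where
  meas : ∀ c, MeasurableSet {T | c ∈ A T}
  bdd : ∃ I : ℤ, ∀ T, ∀ c ∈ A T, c.1 ≤ I

/-- `Φ` depends only on the times and on the revealed observations -/
def Dep (A : Cf V → Set (ℤ × V)) (Φ : Ob V → ℝ) : Prop :=
  ∀ o o' : Ob V, o.2 = o'.2 → (∀ c ∈ A o.2, o.1 c = o'.1 c) → Φ o = Φ o'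

/-- `o` and `o'` have the same history before time `r` -/
def Agree (r : ℝ) (o o' : Ob V) : Prop :=
  ∀ c, (tm o.2 c < r ∨ tm o'.2 c < r) → o.1 c = o'.1 c ∧ o.2 c = o'.2 c

def Adapted (r : ℝ) (F : Ob V → ℝ) : Prop := ∀ o o', Agree r o o' → F o = F o'

/-- `Φ` depends only on the coordinates attached to vertices of `S` -/
def DepOn (S : Set V) (Φ : Om V → ℝ) : Prop :=
  ∀ ω ω' : Om V, (∀ v ∈ S, ω.1 v = ω'.1 v ∧
    ∀ j : ℤ, ω.2.1 (j, v) = ω'.2.1 (j, v) ∧ ω.2.2 (j, v) = ω'.2.2 (j, v)) → Φ ω = Φ ω'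

def pullC (g : V → V) (T : Cf V) : Cf V := fun c => T (c.1, g c.2)
def pullO (g : V → V) (o : Ob V) : Ob V := (pullC g o.1, pullC g o.2)
def pull (g : V → V) (ω : Om V) : Om V := (ω.1 ∘ g, pullC g ω.2.1, pullC g ω.2.2)
def negO (o : Ob V) : Ob V := (-o.1, o.2)
def flip (ω : Om V) : Om V := (fun v => !ω.1 v, ω.2)

/-- tilting weight -/
def wt (F : Finset V) (y : V → ℝ) (σ : V → Bool) : ℝ := Real.exp (∑ v ∈ F, y v * sp (σ v))

/-- magnetisation at `u` under `ν` tilted by the field `y` on `F` -/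
def tilt (ν : Measure (V → Bool)) (u : V) (F : Finset V) (y : V → ℝ) : ℝ :=
  (∫ σ, sp (σ u) * wt F y σ ∂ν) / ∫ σ, wt F y σ ∂ν

/-- covariance under the tilted law -/
def tcov (ν : Measure (V → Bool)) (u v : V) (F : Finset V) (y : V → ℝ) : ℝ :=
  (∫ σ, sp (σ u) * sp (σ v) * wt F y σ ∂ν) / (∫ σ, wt F y σ ∂ν) - tilt ν u F y * tilt ν v F y

/-- approximating coefficient processes for the evolution lemma -/
structure Apx (Gc mc : ℝ → V → Ob V → ℝ) : Prop where
  measG : ∀ v, Measurable fun p : ℝ × Ob V => Gc p.1 v p.2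
  measm : ∀ v, Measurable fun p : ℝ × Ob V => mc p.1 v p.2
  adG : ∀ r v, Adapted r (Gc r v)
  adm : ∀ r v, Adapted r (mc r v)
  bG : ∀ r v o, |Gc r v o| ≤ 1
  bm : ∀ r v o, |mc r v o| ≤ 1

/-! ### Tree objects -/

variable (G : SimpleGraph V)

/-- the neighbour of `v` towards `u` (and `v` if `v = u`) -/
def tw (u v : V) : V :=
  if h : ∃ w, G.Adj v w ∧ G.dist u w + 1 = G.dist u v then h.choose else v

/-- for an edge `z ∼ x`: the side of `z` -/
def sub (z x : V) : Set V := {v | G.dist z v < G.dist x v}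

def IsIsing (θ : ℝ) (ν : Measure (V → Bool)) : Prop :=
  ∀ (S : Finset V) (η : V → Bool), (G.induce (S : Set V)).Connected →
    ν {σ | ∀ v ∈ S, σ v = η v} =
      ENNReal.ofReal (Crest.ProbabilityR.TreeIsing.isingWeight G θ S η)

variable [G.LocallyFinite]

def ball (o : V) : ℕ → Finset V
  | 0 => {o}
  | n + 1 => ball o n ∪ (ball o n).biUnion fun v => G.neighborFinset v

/-- the vertices of the geodesic from `u` to `v` other than `u` -/
def pth (u v : V) : Finset V :=
  (ball G u (G.dist u v)).filter fun w => w ≠ u ∧ G.dist u w + G.dist w v = G.dist u v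

/-- neighbours of `z` other than `x` -/
def kids (z x : V) : Finset V := (G.neighborFinset z).erase x

/-- the part of the side of `a` within distance `n` of `a` -/
def sb (a b : V) (n : ℕ) : Finset V := (ball G a n).filter fun v => v ∈ sub G a b

/-- level `j` of the side of `z` -/
def lev (z x : V) (j : ℕ) : Finset V := (ball G z j).filter fun v => v ∈ sub G z x ∧ G.dist z v = j

structure Tr (d : ℕ) : Prop where
  tree : G.IsTree
  reg : G.IsRegularOfDegree d
  three : 3 ≤ d

/-- a world: the tree, a parameter `θ` with `(d-1) θ² ≤ 1` and its free Ising measure -/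
structure Wd (d : ℕ) (θ : ℝ) (ν : Measure (V → Bool)) : Prop where
  tr : Tr G d
  θ0 : 0 ≤ θ
  θ1 : ((d : ℝ) - 1) * θ ^ 2 ≤ 1
  prob : IsProbabilityMeasure ν
  ising : IsIsing G θ ν

/-- spins from a root spin and edge disagreements (edge `w ∼ tw x w` is indexed by `w`) -/
def cfg (x : V) (s : Bool) (τ : V → Bool) (v : V) : Bool :=
  xor s (decide (Odd ((pth G x v).filter fun w => τ w = true).card))

/-- the free Ising measure, represented from the root `x` -/
def rep (θ : ℝ) (x : V) : Measure (V → Bool) :=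
  ((coin 0).prod (Measure.infinitePi fun _ : V => coin θ)).map fun p => cfg G x p.1 p.2

/-- magnetisation at `u` in the field `y` -/
def Mg (ν : Measure (V → Bool)) (u : V) (y : V → ℝ) : ℝ := slim fun n => tilt ν u (ball G u n) y

/-- cavity magnetisation of `z` away from `x` -/
def cav (ν : Measure (V → Bool)) (z x : V) (y : V → ℝ) : ℝ :=
  Mg G ν z ((sub G z x).indicator y)

def Wp (ν : Measure (V → Bool)) (θ : ℝ) (u v : V) (y : V → ℝ) : ℝ :=
  ∏ w ∈ pth G u v, rr θ (cav G ν w (tw G u w) y)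

/-- covariance of σ_u and σ_v in the field `y` -/
def Cv (ν : Measure (V → Bool)) (θ : ℝ) (u v : V) (y : V → ℝ) : ℝ :=
  (1 - Mg G ν u y ^ 2) * ∏ w ∈ pth G u v, kap θ (cav G ν w (tw G u w) y)

def Zs (ν : Measure (V → Bool)) (θ lm : ℝ) (a b : V) (n : ℕ) (y : V → ℝ) : ℝ :=
  ∑ v ∈ sb G a b n, lm ^ G.dist a v * Wp G ν θ a v y

/-- fields for which the finite-volume magnetisations converge -/
def Conv (ν : Measure (V → Bool)) (y : V → ℝ) : Prop :=
  (∀ u o, Tendsto (fun n => tilt ν u (ball G o n) y) atTop (𝓝 (Mg G ν u y))) ∧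
  ∀ z x, G.Adj z x → ∀ u o, Tendsto (fun n => tilt ν u (ball G o n) ((sub G z x).indicator y))
    atTop (𝓝 (Mg G ν u ((sub G z x).indicator y)))

/-- the covariance as a function of the magnetisations -/
def Ch (θ : ℝ) (u v : V) (m : V → ℝ) : ℝ :=
  (1 - m u ^ 2) * ∏ w ∈ pth G u v, kap θ (Bf θ (m (tw G u w)) (m w))

/-- posterior mean of σ_u given the observations before time `r` -/
def mm (ν : Measure (V → Bool)) (r : ℝ) (u : V) (o : Ob V) : ℝ := Mg G ν u (fy r o)

/-- the innovations -/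
def innov (ν : Measure (V → Bool)) (o : Ob V) : Ob V :=
  (fun c => Ff (st o.2 c * mm G ν (tm o.2 c) c.2 o) (o.1 c), o.2)

/-- the jump of `mm · u` at the observation `c` (when active) -/
def Jt (ν : Measure (V → Bool)) (θ : ℝ) (u : V) (c : ℤ × V) (o : Ob V) : ℝ :=
  Cv G ν θ u c.2 (fy (tm o.2 c) o) *
    psi (eta c.1) (mm G ν (tm o.2 c) c.2 o) ((innov G ν o).1 c)

/-- decay of covariances during round `i` -/
def Dec (ν : Measure (V → Bool)) (θ : ℝ) (i : ℤ) (b : ℕ → ℝ) : Prop :=
  ∀ s : V → ℝ, (∀ v, (i : ℝ) ≤ s v ∧ s v ≤ i + 1) → ∀ u v,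
    ∫ ω, Cv G ν θ u v (fS Set.univ s (obs ω)) ^ 2 ∂PP ν ≤ b (G.dist u v)

/-- one Picard step (unclamped) -/
def pre (θ : ℝ) (R : ℕ) (m : V → ℝ → ℝ) (o : Ob V) (u : V) (s : ℝ) : ℝ :=
  ∑ j ∈ Finset.Icc (-(R : ℤ)) R, ∑ v ∈ ball G u R, act s o.2 (j, v) *
    (Ch G θ u v (fun w => m w (tm o.2 (j, v))) *
      psi (eta j) (m v (tm o.2 (j, v))) (o.1 (j, v)))

/-- finite Picard iteration driven by the innovations `o` -/
def Pic (θ : ℝ) (R : ℕ) : ℕ → Ob V → V → ℝ → ℝ
  | 0 => fun _ _ _ => 0
  | n + 1 => fun o u s => cl (pre G θ R (Pic θ R n o) o u s)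

/-- reconstruction of the observations from the innovations -/
def Psi (θ : ℝ) (R N : ℕ → ℕ) (o : Ob V) : Ob V :=
  (fun c => Qf (st o.2 c * slim fun n => Pic G θ (R n) (N n) o c.2 (tm o.2 c)) (o.1 c), o.2)

/-- `Γ` turns observations of world `ν` into observations of world `ν'` with the same
innovations -/
structure Coup (ν ν' : Measure (V → Bool)) (Γ : Ob V → Ob V) : Prop where
  meas : Measurable Γ
  snd : ∀ o, (Γ o).2 = o.2
  equi : ∀ (g : G ≃g G) (o : Ob V), Γ (pullO g o) = pullO g (Γ o)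
  odd : ∀ o, Γ (negO o) = negO (Γ o)
  agree : ∀ r o o', Agree r o o' → Agree r (Γ o) (Γ o')
  law : (PP ν).map (fun ω => Γ (obs ω)) = (PP ν').map obs
  inn : ∀ᵐ ω ∂PP ν, innov G ν' (Γ (obs ω)) = innov G ν (obs ω)

/-- mean square distance of the two posterior means -/
def Dl (ν ν' : Measure (V → Bool)) (Γ : Ob V → Ob V) (r : ℝ) (u : V) : ℝ :=
  ∫ ω, (mm G ν r u (obs ω) - mm G ν' r u (Γ (obs ω))) ^ 2 ∂PP ν

/-- infinitesimal variance of the difference of the two posterior means -/
def Sm (ν : Measure (V → Bool)) (θ : ℝ) (ν' : Measure (V → Bool)) (θ' : ℝ) (Γ : Ob V → Ob V)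
    (i : ℤ) (r : ℝ) (u : V) (R : ℕ) : ℝ :=
  ∑ v ∈ ball G u R, ∫ ω, (8 * eta i ^ 2 *
      (Cv G ν θ u v (fy r (obs ω)) - Cv G ν' θ' u v (fy r (Γ (obs ω)))) ^ 2 +
    18 * eta i ^ 4 * Cv G ν' θ' u v (fy r (Γ (obs ω))) ^ 2 *
      (mm G ν r v (obs ω) - mm G ν' r v (Γ (obs ω))) ^ 2) ∂PP ν

/-- mean of the log edge factor -/
def eLK (ν : Measure (V → Bool)) (θ r : ℝ) (w p : V) : ℝ :=
  ∫ ω, LK θ (mm G ν r p (obs ω)) (mm G ν r w (obs ω)) ∂PP ν

/-- difference of the log edge factors in the two worlds -/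
def gE (ν : Measure (V → Bool)) (θ : ℝ) (ν' : Measure (V → Bool)) (θ' : ℝ) (Γ : Ob V → Ob V)
    (r : ℝ) (w p : V) (ω : Om V) : ℝ :=
  LK θ (mm G ν r p (obs ω)) (mm G ν r w (obs ω)) -
    LK θ' (mm G ν' r p (Γ (obs ω))) (mm G ν' r w (Γ (obs ω)))

/-- the posterior means are L²-limits of Picard iterates driven by the innovations -/
def Approx (ν : Measure (V → Bool)) : Prop :=
  ∀ (I : ℕ) (ε : ℝ), 0 < ε → ∃ (θ' : ℝ) (R n : ℕ), ∀ u,
    ∫ ω, (mm G ν I u (obs ω) - Pic G θ' R n (innov G ν (obs ω)) u I) ^ 2 ∂PP ν ≤ ε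

end

end Crest.Agent.R160
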