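import Crest.Agent.R160.Fld
import Crest.Agent.R168.Prod

/-!
Row 160, Time: from random times to deterministic times, and Gronwall's lemma.

`time_change`: let `b = (j,v)` and resample the time coordinate `T b` (`integral_update_infinitePi`
of R168/Prod.lean inside Fubini); write `ω[t]` for `ω` with `T b := t`.  The left side is
`E ∫ 1(t < 0, j+1+t < s) H (j+1+t) (obs ω[t]) dlam(t) = (1/2) ∫_j^s E H r (obs ω[r-j-1]) dr`.
For `r ∈ [j,j+1]`, `t = r-j-1` and any `t' ∈ [0,1]` we have `Agree r (obs ω[t]) (obs ω[t'])` (both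
times of `b` are `≥ r`, all other coordinates agree), so
`E H r (obs ω) = E ∫ H r (obs ω[t']) dlam(t') ≥ lam [0,1] * E H r (obs ω[t]) = (1/2) E H r (obs ω[t])`.
`gron`: by induction on `n`, `D u r ≤ a e^{K(r-i)} + (B/2^n) e^{2K(r-i)}` on `[i,i+1]`
(`a + K ∫_i^s φ_n = a e^{K(s-i)} + (B/2^(n+1)) (e^{2K(s-i)} - 1)`); let `n → ∞`.
-/

set_option autoImplicit false

open MeasureTheory Filter Topology
open scoped Classical

namespace Crest.Agent.R160

noncomputable section

universe u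

variable {V : Type u} {G : SimpleGraph V} [G.LocallyFinite] {d : ℕ} {θ : ℝ}
  {ν : Measure (V → Bool)}

lemma tc_abs_integral {Ω : Type*} [MeasurableSpace Ω] (P : Measure Ω) [IsProbabilityMeasure P]
    {f : Ω → ℝ} {C : ℝ} (hC : ∀ ω, |f ω| ≤ C) : |∫ ω, f ω ∂P| ≤ C := by
  simpa using norm_integral_le_of_norm_le_const (μ := P) (f := f) (ae_of_all _ hC)

lemma tc_meas {X Ω : Type*} [MeasurableSpace X] [MeasurableSpace Ω] (P : Measure Ω) [SFinite P]
    {f : X → Ω → ℝ} (hf : Measurable fun p : X × Ω => f p.1 p.2) :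
    Measurable fun x => ∫ y, f x y ∂P :=
  (hf.stronglyMeasurable.integral_prod_right' (ν := P)).measurable

lemma tc_PP (ν : Measure (V → Bool)) [IsProbabilityMeasure ν] {f : Om V → ℝ}
    (hf : Measurable f) {C : ℝ} (hC : ∀ ω, |f ω| ≤ C) :
    ∫ ω, f ω ∂PP ν = ∫ σ, ∫ ζ, ∫ T, f (σ, ζ, T) ∂Lam V ∂Lam V ∂ν := by
  rw [PP, integral_prod _ (integrable_of_bdd hf hC)]
  refine integral_congr_ae (ae_of_all _ fun σ => ?_)
  exact integral_prod _ (integrable_of_bdd (hf.comp measurable_prodMk_left) fun _ => hC _)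

lemma tc_up (b : ℤ × V) : Measurable fun p : Om V × ℝ =>
    ((p.1.1, p.1.2.1, Function.update p.1.2.2 b p.2) : Om V) :=
  measurable_fst.fst.prodMk (measurable_fst.snd.fst.prodMk
    (measurable_update'.comp (measurable_fst.snd.snd.prodMk measurable_snd)))

lemma tc_resample (ν : Measure (V → Bool)) [IsProbabilityMeasure ν] (b : ℤ × V) {f : Om V → ℝ}
    (hf : Measurable f) {C : ℝ} (hC : ∀ ω, |f ω| ≤ C) :
    ∫ ω, f ω ∂PP ν = ∫ t, ∫ ω, f (ω.1, ω.2.1, Function.update ω.2.2 b t) ∂PP ν ∂lam := by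
  rw [← integral_integral_swap (f := fun (ω : Om V) t => f (ω.1, ω.2.1, Function.update ω.2.2 b t))
    (integrable_of_bdd (hf.comp (tc_up b)) fun _ => hC _), tc_PP ν hf hC, tc_PP ν (C := C) (tc_meas lam
    (f := fun (ω : Om V) t => f (ω.1, ω.2.1, Function.update ω.2.2 b t)) (hf.comp (tc_up b)))
    fun ω => tc_abs_integral _ fun _ => hC _]
  refine integral_congr_ae (ae_of_all _ fun σ => integral_congr_ae (ae_of_all _ fun ζ => ?_))
  exact R168.integral_update_infinitePi _ b (f := fun T => f (σ, ζ, T)) (hf.comp (by fun_prop))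
    fun _ => hC _

lemma tc_agree (ω : Om V) (b : ℤ × V) {r t t' : ℝ} (h : r ≤ b.1 + 1 + cl t)
    (h' : r ≤ b.1 + 1 + cl t') : Agree r (obs (ω.1, ω.2.1, Function.update ω.2.2 b t))
      (obs (ω.1, ω.2.1, Function.update ω.2.2 b t')) := by
  intro c hc
  have : c ≠ b := by
    rintro rfl
    simp only [obs, tm, Function.update_self] at hc
    rcases hc with hc | hc <;> linarith
  simp [obs, st, this]

lemma tc_lam_Ici : lam.real (Set.Ici 0) = 1 / 2 := by
  have : Set.Ici (0 : ℝ) ∩ Set.Icc (-1) 1 = Set.Icc 0 1 := by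
    ext x; simp only [Set.mem_inter_iff, Set.mem_Ici, Set.mem_Icc]
    exact ⟨fun h => ⟨h.1, h.2.2⟩, fun h => ⟨h.1, by linarith [h.1], h.2⟩⟩
  simp [lam, Measure.real, this]

lemma tc_lam_Iio {c : ℝ} (h1 : -1 ≤ c) (h2 : c ≤ 1) (F : ℝ → ℝ) :
    ∫ t, (Set.Iio c).indicator (fun t => 2 * F t) t ∂lam = ∫ t in (-1 : ℝ)..c, F t := by
  have : Set.Iio c ∩ Set.Icc (-1) 1 = Set.Ico (-1) c := by
    ext x; simp only [Set.mem_inter_iff, Set.mem_Iio, Set.mem_Icc, Set.mem_Ico]
    exact ⟨fun h => ⟨h.2.1, h.1⟩, fun h => ⟨h.2, h.1, by linarith [h.2]⟩⟩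
  rw [integral_indicator measurableSet_Iio, lam, Measure.restrict_smul, integral_smul_measure,
    Measure.restrict_restrict measurableSet_Iio, this, integral_const_mul,
    intervalIntegral.integral_of_le h1, integral_Ico_eq_integral_Ioc]
  simp

theorem time_change (ν : Measure (V → Bool)) [IsProbabilityMeasure ν] (j : ℤ) (v : V) {s : ℝ}
    (hs : s ∈ Set.Icc (j : ℝ) (j + 1)) {H : ℝ → Ob V → ℝ}
    (hH : Measurable fun p : ℝ × Ob V => H p.1 p.2) {C : ℝ} (h0 : ∀ r o, 0 ≤ H r o)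
    (hC : ∀ r o, H r o ≤ C) (had : ∀ r ∈ Set.Icc (j : ℝ) (j + 1), Adapted r (H r)) :
    ∫ ω, act s ω.2.2 (j, v) * H (tm ω.2.2 (j, v)) (obs ω) ∂PP ν ≤
      ∫ r in (j : ℝ)..s, ∫ ω, H r (obs ω) ∂PP ν := by
  have bH : ∀ r o, |H r o| ≤ C := fun r o => by rw [abs_of_nonneg (h0 r o)]; exact hC r o
  have mH : ∀ r, Measurable fun ω : Om V => H r (obs ω) := fun r =>
    hH.comp (f := fun ω : Om V => (r, obs ω)) (measurable_const.prodMk measurable_obs)
  have mF : Measurable fun r => ∫ ω, H r (obs ω) ∂PP ν := tc_meas (PP ν)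
    (hH.comp (f := fun p : ℝ × Om V => (p.1, obs p.2))
      (measurable_fst.prodMk (measurable_obs.comp measurable_snd)))
  have key : ∀ t ∈ Set.Icc (-1 : ℝ) 0,
      ∫ ω, H (j + 1 + t) (obs (ω.1, ω.2.1, Function.update ω.2.2 (j, v) t)) ∂PP ν ≤
        2 * ∫ ω, H (j + 1 + t) (obs ω) ∂PP ν := fun t ht => by
    have hg : 0 ≤ ∫ ω, H (j + 1 + t) (obs (ω.1, ω.2.1, Function.update ω.2.2 (j, v) t)) ∂PP ν :=
      integral_nonneg fun _ => h0 _ _
    have h1 := integral_indicator_const (μ := lam) (∫ ω, H (j + 1 + t)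
      (obs (ω.1, ω.2.1, Function.update ω.2.2 (j, v) t)) ∂PP ν) (measurableSet_Ici (a := (0 : ℝ)))
    rw [tc_lam_Ici, smul_eq_mul] at h1
    rw [tc_resample ν (j, v) (mH _) fun _ => bH _ _, ← div_le_iff₀' two_pos, div_eq_inv_mul,
      ← one_div, ← h1]
    refine integral_mono_of_nonneg (ae_of_all _ fun _ => Set.indicator_nonneg (fun _ _ => hg) _)
      (integrable_of_bdd (tc_meas (PP ν) (((mH _).comp (tc_up (j, v))).comp measurable_swap))
        fun _ => tc_abs_integral _ fun _ => bH _ _) (ae_of_all _ fun t' => ?_)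
    refine Set.indicator_apply_le' (fun ht' => le_of_eq ?_)
      fun _ => integral_nonneg fun _ => h0 _ _
    refine integral_congr_ae (ae_of_all _ fun ω => had _ ⟨by linarith [ht.1], by linarith [ht.2]⟩
      _ _ (tc_agree ω (j, v) ?_ ?_))
    · rw [cl_of_abs_le (abs_le.2 ⟨ht.1, by linarith [ht.2]⟩)]
    · have : 0 ≤ cl t' := le_max_of_le_right (le_min ht' zero_le_one)
      linarith [ht.2]
  rw [tc_resample ν (j, v) (C := C) (f := fun ω => act s ω.2.2 (j, v) * H (tm ω.2.2 (j, v)) (obs ω))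
    (((measurable_act (j, v)).comp (f := fun ω : Om V => (s, ω.2.2))
      (measurable_const.prodMk measurable_snd.snd)).mul
      (hH.comp (f := fun ω : Om V => (tm ω.2.2 (j, v), obs ω))
        (((measurable_tm _).comp measurable_snd.snd).prodMk measurable_obs))) fun ω => by
      rw [abs_mul, abs_of_nonneg (act_nonneg _ _ _)]
      exact (mul_le_of_le_one_left (abs_nonneg _) (act_le_one _ _ _)).trans (bH _ _)]
  refine (integral_mono_of_nonneg (g := (Set.Iio (s - (j + 1))).indicator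
    fun t => 2 * ∫ ω, H (j + 1 + t) (obs ω) ∂PP ν) (ae_of_all _ fun t => integral_nonneg fun ω =>
      mul_nonneg (act_nonneg _ _ _) (h0 _ _)) (((integrable_of_bdd (mF.comp (measurable_const_add _))
        fun _ => tc_abs_integral _ fun _ => bH _ _).const_mul 2).indicator measurableSet_Iio)
    ?_).trans_eq ?_
  · filter_upwards [ae_lam] with t ht
    simp only [act, tm, Function.update_self, cl_of_abs_le ht]
    split_ifs with h
    · rw [Set.indicator_of_mem (by rw [Set.mem_Iio]; linarith [h.2])]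
      simpa only [one_mul] using key t ⟨(abs_le.1 ht).1, h.1.le⟩
    · simp only [zero_mul, integral_zero]
      exact Set.indicator_nonneg (fun _ _ => mul_nonneg zero_le_two
        (integral_nonneg fun _ => h0 _ _)) _
  · rw [tc_lam_Iio (by linarith [hs.1]) (by linarith [hs.2]),
      intervalIntegral.integral_comp_add_left (fun r => ∫ ω, H r (obs ω) ∂PP ν)]
    simp

/-- summed form -/
theorem time_change_sum (ν : Measure (V → Bool)) [IsProbabilityMeasure ν] (j : ℤ) (B : Finset V)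
    {s : ℝ} (hs : s ∈ Set.Icc (j : ℝ) (j + 1)) {H : V → ℝ → Ob V → ℝ}
    (hH : ∀ v, Measurable fun p : ℝ × Ob V => H v p.1 p.2) {C : ℝ} (h0 : ∀ v r o, 0 ≤ H v r o)
    (hC : ∀ v r o, H v r o ≤ C) (had : ∀ v, ∀ r ∈ Set.Icc (j : ℝ) (j + 1), Adapted r (H v r))
    {φ : ℝ → ℝ} (hφ : Continuous φ)
    (hb : ∀ r ∈ Set.Icc (j : ℝ) (j + 1), ∑ v ∈ B, ∫ ω, H v r (obs ω) ∂PP ν ≤ φ r) :
    ∑ v ∈ B, ∫ ω, act s ω.2.2 (j, v) * H v (tm ω.2.2 (j, v)) (obs ω) ∂PP ν ≤
      ∫ r in (j : ℝ)..s, φ r := by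
  have hi : ∀ v, IntervalIntegrable (fun r => ∫ ω, H v r (obs ω) ∂PP ν) volume j s := fun v =>
    (intervalIntegrable_iff_integrableOn_Ioc_of_le hs.1).2 (integrable_of_bdd (tc_meas (PP ν)
      ((hH v).comp (f := fun p : ℝ × Om V => (p.1, obs p.2))
        (measurable_fst.prodMk (measurable_obs.comp measurable_snd)))) (C := C)
      fun r => tc_abs_integral _ fun _ => by rw [abs_of_nonneg (h0 _ _ _)]; exact hC _ _ _)
  refine (Finset.sum_le_sum fun v _ => time_change ν j v hs (hH v) (h0 v) (hC v) (had v)).trans ?_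
  rw [← intervalIntegral.integral_finsetSum fun v _ => hi v]
  refine intervalIntegral.integral_mono_on hs.1 ?_ (hφ.intervalIntegrable _ _)
    fun r hr => hb r ⟨hr.1, hr.2.trans hs.2⟩
  simpa only [Finset.sum_fn] using IntervalIntegrable.sum B fun v _ => hi v

theorem gron {ι : Type*} {D : ι → ℝ → ℝ} {i a K B : ℝ} (ha : 0 ≤ a) (hK : 0 ≤ K) (hB0 : 0 ≤ B)
    (hB : ∀ u, ∀ r ∈ Set.Icc i (i + 1), D u r ≤ B)
    (h : ∀ φ : ℝ → ℝ, Continuous φ → (∀ u, ∀ r ∈ Set.Icc i (i + 1), D u r ≤ φ r) →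
      ∀ u, ∀ s ∈ Set.Icc i (i + 1), D u s ≤ a + K * ∫ r in i..s, φ r) :
    ∀ u, ∀ s ∈ Set.Icc i (i + 1), D u s ≤ a * Real.exp K := by
  have key : ∀ n : ℕ, ∀ u, ∀ r ∈ Set.Icc i (i + 1),
      D u r ≤ a * Real.exp (K * (r - i)) + B * (1 / 2) ^ n * Real.exp (2 * K * (r - i)) := by
    intro n
    induction n with
    | zero =>
      intro u r hr
      have h1 : 1 ≤ Real.exp (2 * K * (r - i)) :=
        Real.one_le_exp (mul_nonneg (by linarith) (by linarith [hr.1]))
      have h2 := mul_le_mul_of_nonneg_left h1 hB0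
      have h3 : 0 ≤ a * Real.exp (K * (r - i)) := by positivity
      simp only [pow_zero, mul_one] at h2 ⊢
      linarith [hB u r hr]
    | succ n ih =>
      intro u s hs
      refine (h _ (by fun_prop) ih u s hs).trans ?_
      rw [← intervalIntegral.integral_const_mul, intervalIntegral.integral_eq_sub_of_hasDerivAt
        (f := fun r => a * Real.exp (K * (r - i)) + B * (1 / 2) ^ (n + 1) *
          Real.exp (2 * K * (r - i))) (fun r _ => ?_) (Continuous.intervalIntegrable (by fun_prop) _ _)]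
      · have : 0 ≤ B * (1 / 2) ^ (n + 1) := by positivity
        simp only [sub_self, mul_zero, Real.exp_zero, mul_one]
        linarith
      · refine (((((hasDerivAt_id' r).sub_const i).const_mul K).exp.const_mul a).fun_add
          ((((hasDerivAt_id' r).sub_const i).const_mul (2 * K)).exp.const_mul
            (B * (1 / 2) ^ (n + 1)))).congr_deriv ?_
        ring
  intro u s hs
  have h1 := ((((tendsto_pow_atTop_nhds_zero_of_lt_one (r := (1 / 2 : ℝ)) (by norm_num)
    (by norm_num)).const_mul B).mul_const (Real.exp (2 * K * (s - i)))).const_add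
      (a * Real.exp (K * (s - i))))
  refine (ge_of_tendsto' h1 fun n => key n u s hs).trans ?_
  rw [mul_zero, zero_mul, add_zero]
  gcongr
  exact mul_le_of_le_one_right hK (by linarith [hs.2])

end

end Crest.Agent.R160
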