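import Crest.Agent.R160.PostC
import Crest.Agent.R160.Time

/-!
Row 160, EvoA: expansion of the posterior mean over one round.

Fix `N ≥ R`.  `D T = {c | tm T c < i ∨ c.2 ∈ ball u N}`, `sN r v = if v ∈ ball u N then r else i`,
`yN r o = fS univ (sN r) o`; for `r ≥ i`: `D T ∩ bt r T = bef univ (sN r) T`, and `yN i = fy i`.
For `b = (i,v)`, `v ∈ ball u N`, `e = eta i`, put
`x v o y = act s T b * Cv u v (yN (tm b) o) * (e cl y / (1 + e Mg v (yN (tm b) o) cl y))`.
1. Telescoping (`telescope`): a.s. (`ae_tm_inj`, `ae_conv` for the rules `D ∩ bt (tm b)`)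
   `Mg u (yN s) - Mg u (fy i) = ∑ v ∈ ball u N, x v o (o.1 b)`: let `Bs` be the set of `v ∈ ball u N`
   with `act s T (i,v) = 1`, `h A = Mg u (fld (bt i T ∪ {(i,v) | v ∈ A}) o)`; by `fld_congr_active`
   (an active index with time in `[i, i+1)` has round `i`) `h Bs = Mg u (yN s)`,
   `h {v' ∈ Bs | earlier than v} = Mg u (yN (tm b))`, and `fld_insert`, `Mg_jump`, `tanh_dl`
   (`st = e` when active) give the increments.
2. `orth` with `X0 = 0` on `ball u N \\ ball u R` (`h0`: if `act = 1` then `st = e` and the integrand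
   is `Cv * e * y` a.e., `integral_lam_id`), `|e y/(1+e m y)| ≤ 2e`, `time_change_sum` with
   `H v r o = 4 e² Cv u v (yN r o)²` (adapted for `r ∈ [i,i+1]` by `fS_agree`), constant `φ = 4 e² t`
   from `hD`, `ht`:  `E (Mg u (yN s) - mm i u - ∑ v ∈ ball u R, x v)² ≤ 4 e² t (s - i) ≤ 4 e² t`.
3. `N → ∞` by dominated convergence: `levy` for `An N T = bef univ (sN s) T ↑ bt s T` and for
   `An N T = D_N T ∩ bt (tm T b) T ↑ bt (tm T b) T`; `Cv_eq_Ch` (a.s. by `ae_conv`) and `Ch_lip_sq`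
   for the convergence of `Cv`; `psi_Ff` identifies the limit with `act * Jt`.
-/

set_option autoImplicit false

open MeasureTheory Filter Topology
open scoped Classical

namespace Crest.Agent.R160

noncomputable section

universe u

variable {V : Type u} {G : SimpleGraph V} [G.LocallyFinite] {d : ℕ} {θ : ℝ}
  {ν : Measure (V → Bool)}

lemma telescope {ι M : Type*} [AddCommGroup M] (B : Finset ι) (t : ι → ℝ)
    (ht : Set.InjOn t B) (h : Finset ι → M) :
    h B - h ∅ = ∑ b ∈ B, (h (insert b (B.filter fun b' => t b' < t b)) -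
      h (B.filter fun b' => t b' < t b)) := by
  induction B using Finset.induction_on_max_value t with
  | empty => simp
  | insert a B ha hmax ih =>
    have hinj : Set.InjOn t B := ht.mono (by simp)
    have hlt : ∀ b ∈ B, t b < t a := fun b hb => by
      refine lt_of_le_of_ne (hmax b hb) fun he => ha ?_
      have := ht (by simp [hb]) (by simp) he
      exact this ▸ hb
    rw [Finset.sum_insert ha]
    have h1 : (insert a B).filter (fun b' => t b' < t a) = B := by
      ext b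
      simp only [Finset.mem_filter, Finset.mem_insert]
      constructor
      · rintro ⟨rfl | hb, h2⟩
        · exact absurd h2 (lt_irrefl _)
        · exact hb
      · exact fun hb => ⟨Or.inr hb, hlt b hb⟩
    have h2 : ∀ b ∈ B, (insert a B).filter (fun b' => t b' < t b) =
        B.filter (fun b' => t b' < t b) := fun b hb => by
      rw [Finset.filter_insert, if_neg (not_lt.2 (hlt b hb).le)]
    rw [h1, Finset.sum_congr rfl fun b hb => by rw [h2 b hb], ← ih hinj]
    abel

lemma measurable_fy_tm (c : ℤ × V) : Measurable fun o : Ob V => fy (tm o.2 c) o :=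
  measurable_fy.comp (((measurable_tm c).comp measurable_snd).prodMk measurable_id)

lemma measurable_Jt (ν : Measure (V → Bool)) [IsProbabilityMeasure ν] (θ : ℝ) (u : V)
    (c : ℤ × V) : Measurable (Jt G ν θ u c) := by
  unfold Jt
  refine ((measurable_Cv ν θ u c.2).comp (measurable_fy_tm c)).mul ?_
  exact measurable_psi.comp (measurable_const.prodMk
    (((measurable_mm ν c.2).comp (((measurable_tm c).comp measurable_snd).prodMk
      measurable_id)).prodMk
    ((measurable_pi_apply c).comp (measurable_fst.comp (measurable_innov ν)))))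

lemma abs_Jt_le (hW : Wd G d θ ν) (u : V) (c : ℤ × V) (o : Ob V) :
    |Jt G ν θ u c o| ≤ 2 * eta c.1 := by
  have := hW.prob
  unfold Jt
  rw [abs_mul]
  exact (mul_le_of_le_one_left (abs_nonneg _) (abs_Cv_le hW _ _ _)).trans
    (abs_psi_le (eta_pos _).le (eta_le _) (abs_mm_le ν _ _ _) _)

/-- finite-volume information -/
def DN (i : ℤ) (F : Finset V) (T : Cf V) : Set (ℤ × V) := {c | tm T c < i ∨ c.2 ∈ F}

def jf (e m y : ℝ) : ℝ := e * cl y / (1 + e * m * cl y)

lemma measurable_jf (e : ℝ) : Measurable fun p : ℝ × ℝ => jf e p.1 p.2 := by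
  unfold jf; fun_prop

lemma jf_den {e m : ℝ} (he0 : 0 ≤ e) (he : e ≤ 1 / 8) (hm : |m| ≤ 1) (y : ℝ) :
    7 / 8 ≤ 1 + e * m * cl y := by
  have h1 : |e * m * cl y| ≤ 1 / 8 := by
    rw [abs_mul, abs_mul, abs_of_nonneg he0]
    calc e * |m| * |cl y| ≤ 1 / 8 * 1 * 1 := by
          gcongr
          exact abs_cl_le y
      _ = 1 / 8 := by ring
  linarith [(abs_le.1 h1).1]

lemma abs_jf_le {e m : ℝ} (he0 : 0 ≤ e) (he : e ≤ 1 / 8) (hm : |m| ≤ 1) (y : ℝ) :
    |jf e m y| ≤ 2 * e := by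
  have h := jf_den he0 he hm y
  unfold jf
  rw [abs_div, abs_of_pos (by linarith : 0 < 1 + e * m * cl y), div_le_iff₀ (by linarith),
    abs_mul, abs_of_nonneg he0]
  have := abs_cl_le y
  nlinarith [abs_nonneg (cl y)]

lemma measurableSet_DN (i : ℤ) (F : Finset V) (c : ℤ × V) : MeasurableSet {T | c ∈ DN i F T} := by
  by_cases hc : c.2 ∈ F
  · have : {T | c ∈ DN i F T} = Set.univ := by ext T; simp [DN, hc]
    rw [this]; exact MeasurableSet.univ
  · have : {T | c ∈ DN i F T} = {T | tm T c < i} := by ext T; simp [DN, hc]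
    rw [this]; exact measurableSet_lt (measurable_tm c) measurable_const

lemma DN_inter_eq {i : ℤ} (F : Finset V) {r : ℝ} (hr : (i : ℝ) ≤ r) (T : Cf V) :
    DN i F T ∩ bt r T = bef Set.univ (fun v => if v ∈ F then r else i) T := by
  ext c
  simp only [DN, bt, bef, Set.mem_inter_iff, Set.mem_ofPred_eq, Set.mem_univ, true_and]
  split_ifs with hc
  · simp [hc]
  · simp only [hc, or_false]
    exact ⟨fun h => h.1, fun h => ⟨h, h.trans_le hr⟩⟩

lemma measurable_yN (i : ℤ) (F : Finset V) :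
    Measurable fun p : ℝ × Ob V => fld (DN i F p.2.2 ∩ bt p.1 p.2.2) p.2 := by
  refine measurable_fld (fun c => ?_) measurable_snd fun p => ⟨⌈p.1⌉, fun c hc => ?_⟩
  · exact MeasurableSet.inter ((measurable_snd.comp measurable_snd) (measurableSet_DN i F c))
      (measurableSet_lt ((measurable_tm c).comp (measurable_snd.comp measurable_snd))
        measurable_fst)
  · have h1 : tm p.2.2 c < p.1 := hc.2
    have h2 := le_tm p.2.2 c
    have h3 := Int.le_ceil p.1
    exact_mod_cast (h2.trans h1.le).trans h3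

lemma measurable_yN' {X : Type*} [MeasurableSpace X] (i : ℤ) (F : Finset V) {r : X → ℝ}
    {o : X → Ob V} (hr : Measurable r) (ho : Measurable o) :
    Measurable fun x => fld (DN i F (o x).2 ∩ bt (r x) (o x).2) (o x) :=
  (measurable_yN i F).comp (hr.prodMk ho)

/-- the finite-volume jump at `(i,v)` as a function of the new observation `y` -/
def xN (G : SimpleGraph V) [G.LocallyFinite] (ν : Measure (V → Bool)) (θ : ℝ) (i : ℤ)
    (F : Finset V) (s : ℝ) (u v : V) (o : Ob V) (y : ℝ) : ℝ :=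
  act s o.2 (i, v) * (Cv G ν θ u v (fld (DN i F o.2 ∩ bt (tm o.2 (i, v)) o.2) o) *
    jf (eta i) (Mg G ν v (fld (DN i F o.2 ∩ bt (tm o.2 (i, v)) o.2) o)) y)

lemma measurable_xN (ν : Measure (V → Bool)) [IsProbabilityMeasure ν] (θ : ℝ) (i : ℤ)
    (F : Finset V) (s : ℝ) (u v : V) :
    Measurable fun p : Ob V × ℝ => xN G ν θ i F s u v p.1 p.2 := by
  have h1 : Measurable fun p : Ob V × ℝ =>
      fld (DN i F p.1.2 ∩ bt (tm p.1.2 (i, v)) p.1.2) p.1 :=
    (measurable_yN i F).comp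
      (((measurable_tm (i, v)).comp (measurable_snd.comp measurable_fst)).prodMk measurable_fst)
  unfold xN
  refine ((measurable_act (i, v)).comp
    (measurable_const.prodMk (measurable_snd.comp measurable_fst))).mul
    (((measurable_Cv ν θ u v).comp h1).mul ?_)
  exact (measurable_jf _).comp (((measurable_Mg ν v).comp h1).prodMk measurable_snd)

lemma measurable_xN_obs (ν : Measure (V → Bool)) [IsProbabilityMeasure ν] (θ : ℝ) (i : ℤ)
    (F : Finset V) (s : ℝ) (u v : V) :
    Measurable fun ω : Om V => xN G ν θ i F s u v (obs ω) ((obs ω).1 (i, v)) := by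
  have h1 : Measurable fun ω : Om V => (obs ω, (obs ω).1 (i, v)) :=
    measurable_obs.prodMk ((measurable_pi_apply _).comp (measurable_fst.comp measurable_obs))
  exact (measurable_xN (G := G) ν θ i F s u v).comp h1

lemma xN_sq_le (hW : Wd G d θ ν) (i : ℤ) (F : Finset V) (s : ℝ) (u v : V) (o : Ob V) (y : ℝ) :
    xN G ν θ i F s u v o y ^ 2 ≤ act s o.2 (i, v) *
      (4 * eta i ^ 2 * Cv G ν θ u v (fld (DN i F o.2 ∩ bt (tm o.2 (i, v)) o.2) o) ^ 2) := by
  have := hW.prob
  unfold xN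
  have h1 := abs_jf_le (eta_pos i).le (eta_le i)
    (abs_Mg_le (G := G) ν v (fld (DN i F o.2 ∩ bt (tm o.2 (i, v)) o.2) o)) y
  have h2 := sq_le_sq' (abs_le.1 h1).1 (abs_le.1 h1).2
  rw [mul_pow, mul_pow, sq (act _ _ _), act_mul_self]
  refine mul_le_mul_of_nonneg_left ?_ (act_nonneg _ _ _)
  nlinarith [sq_nonneg (Cv G ν θ u v (fld (DN i F o.2 ∩ bt (tm o.2 (i, v)) o.2) o))]

lemma abs_xN_le (hW : Wd G d θ ν) (i : ℤ) (F : Finset V) (s : ℝ) (u v : V) (o : Ob V) (y : ℝ) :
    |xN G ν θ i F s u v o y| ≤ 1 := by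
  have := hW.prob
  unfold xN
  have h1 := abs_jf_le (eta_pos i).le (eta_le i)
    (abs_Mg_le (G := G) ν v (fld (DN i F o.2 ∩ bt (tm o.2 (i, v)) o.2) o)) y
  rw [abs_mul, abs_mul, abs_of_nonneg (act_nonneg _ _ _)]
  exact mul_le_one₀ (act_le_one _ _ _) (by positivity)
    (mul_le_one₀ (abs_Cv_le hW _ _ _) (abs_nonneg _) (by linarith [eta_le i]))

lemma round_eq {T : Cf V} {c : ℤ × V} {i : ℤ} (hc : cl (T c) < 0) (h1 : (i : ℝ) ≤ tm T c)
    (h2 : tm T c < i + 1) : c.1 = i := by
  have h3 := le_tm T c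
  have h4 := (tm_lt_iff T c).2 hc
  have h5 : (c.1 : ℝ) < i + 1 := by linarith
  have h6 : (i : ℝ) < c.1 + 1 := by linarith
  have h7 : c.1 < i + 1 := by exact_mod_cast h5
  have h8 : i < c.1 + 1 := by exact_mod_cast h6
  omega

lemma tele_xN (hW : Wd G d θ ν) (i : ℤ) (F : Finset V) {s : ℝ}
    (hs : s ∈ Set.Icc (i : ℝ) (i + 1)) (u : V) {o : Ob V} (hinj : Function.Injective (tm o.2))
    (hconv : ∀ v ∈ F, Conv G ν (fld (DN i F o.2 ∩ bt (tm o.2 (i, v)) o.2) o)) :
    Mg G ν u (fld (DN i F o.2 ∩ bt s o.2) o) - mm G ν i u o =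
      ∑ v ∈ F, xN G ν θ i F s u v o (o.1 (i, v)) := by
  set Bs := F.filter fun v => cl (o.2 (i, v)) < 0 ∧ tm o.2 (i, v) < s with hBs
  set S : Finset V → Set (ℤ × V) := fun A => {c | tm o.2 c < i ∨ (c.1 = i ∧ c.2 ∈ A)} with hS
  have key := telescope Bs (fun v => tm o.2 (i, v))
    (fun v _ v' _ h => (Prod.ext_iff.1 (hinj h)).2) (fun A => Mg G ν u (fld (S A) o))
  have e1 : fld (S Bs) o = fld (DN i F o.2 ∩ bt s o.2) o := by
    refine fld_congr_active fun c hc => ?_
    simp only [hS, hBs, DN, bt, Set.mem_ofPred_eq, Set.mem_inter_iff, Finset.mem_filter]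
    constructor
    · rintro (h | ⟨h1, h2, -, h4⟩)
      · exact ⟨Or.inl h, h.trans_le hs.1⟩
      · refine ⟨Or.inr h2, ?_⟩
        rwa [← h1] at h4
    · rintro ⟨h1, h2⟩
      by_cases h : tm o.2 c < i
      · exact Or.inl h
      · have h3 := round_eq hc (not_lt.1 h) (h2.trans_le hs.2)
        refine Or.inr ⟨h3, h1.resolve_left h, ?_, ?_⟩
        · rw [← h3]; exact hc
        · rw [← h3]; exact h2
  have e2 : fld (S ∅) o = fy i o := by
    unfold fy
    congr 1
    ext c
    simp [hS, bt]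
  simp only [e1, e2] at key
  refine Eq.trans key ?_
  rw [hBs, Finset.sum_filter]
  refine Finset.sum_congr rfl fun v hv => ?_
  unfold xN act
  split_ifs with hact
  swap
  · simp
  have e3 : fld (S (Bs.filter fun v' => tm o.2 (i, v') < tm o.2 (i, v))) o =
      fld (DN i F o.2 ∩ bt (tm o.2 (i, v)) o.2) o := by
    refine fld_congr_active fun c hc => ?_
    simp only [hS, hBs, DN, bt, Set.mem_ofPred_eq, Set.mem_inter_iff, Finset.mem_filter]
    have hi := le_tm o.2 (i, v)
    constructor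
    · rintro (h | ⟨h1, ⟨h2, -⟩, h4⟩)
      · exact ⟨Or.inl h, h.trans_le hi⟩
      · refine ⟨Or.inr h2, ?_⟩
        rwa [← h1] at h4 ⊢
    · rintro ⟨h1, h2⟩
      by_cases h : tm o.2 c < i
      · exact Or.inl h
      · have h3 := round_eq hc (not_lt.1 h) ((h2.trans hact.2).trans_le hs.2)
        obtain ⟨j, w⟩ := c
        simp only at h3
        subst h3
        exact Or.inr ⟨rfl, ⟨h1.resolve_left h, hc, h2.trans hact.2⟩, h2⟩
  have e4 : S (insert v (Bs.filter fun v' => tm o.2 (i, v') < tm o.2 (i, v))) =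
      insert (i, v) (S (Bs.filter fun v' => tm o.2 (i, v') < tm o.2 (i, v))) := by
    ext ⟨j, w⟩
    simp only [hS, Set.mem_ofPred_eq, Finset.mem_insert, Set.mem_insert_iff, Prod.mk.injEq]
    tauto
  have hb : (i, v) ∉ S (Bs.filter fun v' => tm o.2 (i, v') < tm o.2 (i, v)) := by
    simp only [hS, Set.mem_ofPred_eq, Finset.mem_filter, lt_self_iff_false, and_false, or_false,
      not_lt]
    exact le_tm o.2 (i, v)
  have hA : ∀ c ∈ S (Bs.filter fun v' => tm o.2 (i, v') < tm o.2 (i, v)),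
      cl (o.2 c) < 0 → c.1 ≤ i := by
    rintro c (h | h) _
    · have := (le_tm o.2 c).trans h.le
      exact_mod_cast this
    · exact h.1.le
  have hst : st o.2 (i, v) = eta i := by simp [st, hact.1]
  rw [← hBs, e4, fld_insert hA hb, e3, Mg_jump hW (hconv v hv), hst,
    tanh_dl (eta_pos i).le (eta_le i)]
  unfold jf
  ring

lemma ae_conv_DN (hW : Wd G d θ ν) (i : ℤ) (F : Finset V) (v : V) :
    ∀ᵐ ω ∂PP ν, Conv G ν (fld (DN i F ω.2.2 ∩ bt (tm ω.2.2 (i, v)) ω.2.2) (obs ω)) :=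
  ae_conv hW (A := fun T => DN i F T ∩ bt (tm T (i, v)) T)
    ((rule_btm (i, v)).inter (measurableSet_DN i F))

lemma ae_conv_btm (hW : Wd G d θ ν) (b : ℤ × V) :
    ∀ᵐ ω ∂PP ν, Conv G ν (fld (bt (tm ω.2.2 b) ω.2.2) (obs ω)) :=
  ae_conv hW (A := fun T => bt (tm T b) T) (rule_btm b)

lemma evoA_fin (hW : Wd G d θ ν) (i : ℤ) {b : ℕ → ℝ} (hD : Dec G ν θ i b) (u : V) (R : ℕ)
    {t : ℝ} (ht : ∀ R', ∑ v ∈ ball G u R' \ ball G u R, b (G.dist u v) ≤ t) {s : ℝ}
    (hs : s ∈ Set.Icc (i : ℝ) (i + 1)) {N : ℕ} (hN : R ≤ N) :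
    ∫ ω, (Mg G ν u (fld (DN i (ball G u N) ω.2.2 ∩ bt s ω.2.2) (obs ω)) - mm G ν i u (obs ω) -
      ∑ v ∈ ball G u R, xN G ν θ i (ball G u N) s u v (obs ω) ((obs ω).1 (i, v))) ^ 2 ∂PP ν ≤
      4 * eta i ^ 2 * t := by
  have := hW.prob
  have := hW.tr.countable
  set F := ball G u N with hF
  have ht0 : 0 ≤ t := by simpa using ht R
  have hae : ∀ᵐ ω ∂PP ν, ∀ v, Conv G ν
      (fld (DN i F ω.2.2 ∩ bt (tm ω.2.2 (i, v)) ω.2.2) (obs ω)) :=
    ae_all_iff.2 fun v => ae_conv_DN hW i F v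
  have e1 : ∫ ω, (Mg G ν u (fld (DN i F ω.2.2 ∩ bt s ω.2.2) (obs ω)) - mm G ν i u (obs ω) -
      ∑ v ∈ ball G u R, xN G ν θ i F s u v (obs ω) ((obs ω).1 (i, v))) ^ 2 ∂PP ν =
      ∫ ω, ((fun _ : Ob V => (0 : ℝ)) (obs ω) +
        ∑ v ∈ F \ ball G u R, xN G ν θ i F s u v (obs ω) ((obs ω).1 (i, v))) ^ 2 ∂PP ν := by
    refine integral_congr_ae ?_
    filter_upwards [hae, ae_tm_inj ν] with ω h1 h2
    have := tele_xN hW i F hs u (o := obs ω) h2 fun v _ => h1 v
    rw [← Finset.sum_sdiff (ball_mono u hN)] at this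
    congr 1
    change Mg G ν u (fld (DN i F (obs ω).2 ∩ bt s (obs ω).2) (obs ω)) - _ - _ = _
    rw [this]
    ring
  rw [e1, orth hW i (F \ ball G u R) (measurableSet_DN i F)
    (fun v hv T => Or.inr (Finset.mem_sdiff.1 hv).1) measurable_const
    (measurable_xN ν θ i F s u) (C := 1) (fun _ => by simp) (abs_xN_le hW i F s u)
    (fun _ _ _ _ => rfl) ?_ ?_]
  · simp only [ne_eq, OfNat.ofNat_ne_zero, not_false_eq_true, zero_pow, integral_zero, zero_add]
    have h3 := time_change_sum ν i (F \ ball G u R) hs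
      (H := fun v r o => 4 * eta i ^ 2 * Cv G ν θ u v (fld (DN i F o.2 ∩ bt r o.2) o) ^ 2)
      (fun v => (((measurable_Cv ν θ u v).comp (measurable_yN i F)).pow_const 2).const_mul _)
      (C := 4 * eta i ^ 2) (fun v r o => by positivity)
      (fun v r o => mul_le_of_le_one_right (by positivity) (by
        have := abs_Cv_le hW u v (fld (DN i F o.2 ∩ bt r o.2) o)
        exact (sq_le_one_iff_abs_le_one _).2 this))
      (fun v r hr o o' hoo => by
        simp only [DN_inter_eq F hr.1]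
        have := fS_agree (S := Set.univ) (s := fun v => if v ∈ F then r else (i : ℝ))
          (fun v => by split_ifs; exacts [le_rfl, hr.1]) hoo
        unfold fS at this
        rw [this])
      (φ := fun _ => 4 * eta i ^ 2 * t) continuous_const (fun r hr => by
        simp only [integral_const_mul]
        rw [← Finset.mul_sum]
        refine mul_le_mul_of_nonneg_left (le_trans (Finset.sum_le_sum fun v _ => ?_) (ht N))
          (by positivity)
        have := hD (fun v => if v ∈ F then r else (i : ℝ))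
          (fun v => by split_ifs; exacts [hr, ⟨le_rfl, by linarith⟩]) u v
        simp only [DN_inter_eq F hr.1]
        exact this)
    refine le_trans (Finset.sum_le_sum fun v _ => ?_) (h3.trans ?_)
    · refine integral_mono (integrable_of_bdd (C := 1) ?_ fun ω => ?_)
        (integrable_of_bdd (C := 4 * eta i ^ 2) ?_ fun ω => ?_) fun ω => xN_sq_le hW i F s u v _ _
      · exact (measurable_xN_obs ν θ i F s u v).pow_const 2
      · rw [abs_pow]
        exact pow_le_one₀ (abs_nonneg _) (abs_xN_le hW i F s u v _ _)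
      · have m1 : Measurable fun ω : Om V => act s ω.2.2 (i, v) :=
          (measurable_act (i, v)).comp (measurable_const.prodMk
            (measurable_snd.comp measurable_snd))
        have m2 : Measurable fun ω : Om V => tm ω.2.2 (i, v) :=
          (measurable_tm (i, v)).comp (measurable_snd.comp measurable_snd)
        have m3 := (measurable_Cv (G := G) ν θ u v).comp (measurable_yN' i F m2 measurable_obs)
        exact m1.mul ((m3.pow_const 2).const_mul _)
      · rw [abs_mul, abs_of_nonneg (act_nonneg _ _ _), abs_of_nonneg (by positivity)]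
        refine (mul_le_of_le_one_left (by positivity) (act_le_one _ _ _)).trans ?_
        exact mul_le_of_le_one_right (by positivity)
          ((sq_le_one_iff_abs_le_one _).2 (abs_Cv_le hW _ _ _))
    · rw [intervalIntegral.integral_const, smul_eq_mul]
      exact mul_le_of_le_one_left (by positivity) (by linarith [hs.2])
  · intro v y o o' h1 h2
    have := dep_fld (fun T => DN i F T ∩ bt (tm T (i, v)) T)
      (fun z => Cv G ν θ u v z * jf (eta i) (Mg G ν v z) y) o o' h1 h2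
    simp only at this
    simp only [xN]
    rw [this, h1]
  · intro v o
    unfold xN act
    split_ifs with hact
    swap
    · simp
    have hst : st o.2 (i, v) = eta i := by simp [st, hact.1]
    rw [hst]
    set y0 := fld (DN i F o.2 ∩ bt (tm o.2 (i, v)) o.2) o
    have : ∫ y, 1 * (Cv G ν θ u v y0 * jf (eta i) (Mg G ν v y0) y) *
        (1 + eta i * Mg G ν v y0 * y) ∂lam = ∫ y, (Cv G ν θ u v y0 * eta i) * y ∂lam := by
      refine integral_congr_ae ?_
      filter_upwards [ae_lam] with y hy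
      have h1 := jf_den (eta_pos i).le (eta_le i) (abs_Mg_le (G := G) ν v y0) y
      unfold jf
      rw [cl_of_abs_le hy] at h1 ⊢
      have h2 : 1 + eta i * Mg G ν v y0 * y ≠ 0 := by linarith
      rw [one_mul, mul_assoc, div_mul_cancel₀ _ h2, mul_assoc]
    rw [this, integral_const_mul, integral_lam_id, mul_zero]

lemma tendsto_Ch (hW : Wd G d θ ν) (u v : V) {m : ℕ → V → ℝ} {m' : V → ℝ}
    (hm : ∀ n w, |m n w| ≤ 1) (hm' : ∀ w, |m' w| ≤ 1)
    (h : ∀ w, Tendsto (fun n => m n w) atTop (𝓝 (m' w))) :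
    Tendsto (fun n => Ch G θ u v (m n)) atTop (𝓝 (Ch G θ u v m')) := by
  have h0 : ∀ w, Tendsto (fun n => (m n w - m' w) ^ 2) atTop (𝓝 0) := fun w => by
    simpa using ((h w).sub_const (m' w)).pow 2
  have h1 : Tendsto (fun n => 10 ^ 6 * θ ^ (2 * G.dist u v) * (G.dist u v + 1) *
      ((m n u - m' u) ^ 2 + ∑ w ∈ pth G u v, ((m n w - m' w) ^ 2 +
        (m n (tw G u w) - m' (tw G u w)) ^ 2))) atTop (𝓝 0) := by
    have := ((h0 u).add (tendsto_finsetSum (pth G u v) fun w _ =>
      (h0 w).add (h0 (tw G u w)))).const_mul (10 ^ 6 * θ ^ (2 * G.dist u v) * (G.dist u v + 1))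
    simpa using this
  have h2 : Tendsto (fun n => (Ch G θ u v (m n) - Ch G θ u v m') ^ 2) atTop (𝓝 0) :=
    squeeze_zero (fun n => sq_nonneg _)
      (fun n => Ch_lip_sq hW.tr hW.θ0 hW.sq_le u v (hm n) hm') h1
  have h3 := (Real.continuous_sqrt.tendsto 0).comp h2
  simp only [Function.comp_def, Real.sqrt_sq_eq_abs, Real.sqrt_zero] at h3
  exact tendsto_sub_nhds_zero_iff.1 ((tendsto_zero_iff_abs_tendsto_zero _).2 h3)

lemma iUnion_DN (hT : Tr G d) (i : ℤ) (u : V) (T : Cf V) (A : Set (ℤ × V)) :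
    ⋃ N, (DN i (ball G u N) T ∩ A) = A := by
  ext c
  simp only [Set.mem_iUnion, Set.mem_inter_iff]
  exact ⟨fun ⟨_, h⟩ => h.2, fun h => ⟨G.dist u c.2, Or.inr ((mem_ball hT).2 le_rfl), h⟩⟩

lemma mono_DN (i : ℤ) (u : V) (T : Cf V) (A : Set (ℤ × V)) :
    Monotone fun N => DN i (ball G u N) T ∩ A := fun _ _ h _ hc =>
  ⟨hc.1.imp id fun h' => ball_mono u h h', hc.2⟩

theorem evoA (hW : Wd G d θ ν) (i : ℤ) {b : ℕ → ℝ} (hD : Dec G ν θ i b) (u : V) (R : ℕ) {t : ℝ}
    (ht : ∀ R', ∑ v ∈ ball G u R' \ ball G u R, b (G.dist u v) ≤ t) {s : ℝ}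
    (hs : s ∈ Set.Icc (i : ℝ) (i + 1)) :
    ∫ ω, (mm G ν s u (obs ω) - mm G ν i u (obs ω) -
      ∑ v ∈ ball G u R, act s ω.2.2 (i, v) * Jt G ν θ u (i, v) (obs ω)) ^ 2 ∂PP ν ≤
      4 * eta i ^ 2 * t := by
  have := hW.prob
  have := hW.tr.countable
  refine le_of_tendsto (f := fun N => ∫ ω,
    (Mg G ν u (fld (DN i (ball G u N) ω.2.2 ∩ bt s ω.2.2) (obs ω)) - mm G ν i u (obs ω) -
      ∑ v ∈ ball G u R, xN G ν θ i (ball G u N) s u v (obs ω) ((obs ω).1 (i, v))) ^ 2 ∂PP ν)
    (x := atTop) ?_ ((eventually_ge_atTop R).mono fun N hN => evoA_fin hW i hD u R ht hs hN)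
  refine tendsto_integral_of_dominated_convergence
    (fun _ => (2 + ((ball G u R).card : ℝ)) ^ 2) (fun N => ?_) (integrable_const _)
    (fun N => ae_of_all _ fun ω => ?_) ?_
  · refine (Measurable.pow_const (Measurable.sub (Measurable.sub ?_ ?_)
      (Finset.measurable_sum _ fun v _ => ?_)) 2).aestronglyMeasurable
    · have m3 := (measurable_Mg (G := G) ν u).comp (measurable_yN' i (ball G u N)
        (measurable_const (a := s)) measurable_obs)
      exact m3
    · exact (measurable_mm' ν i u).comp measurable_obs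
    · exact measurable_xN_obs ν θ i _ s u v
  · rw [Real.norm_eq_abs, abs_pow]
    refine pow_le_pow_left₀ (abs_nonneg _) ?_ 2
    have h1 := abs_Mg_le (G := G) ν u (fld (DN i (ball G u N) ω.2.2 ∩ bt s ω.2.2) (obs ω))
    have h2 := abs_mm_le (G := G) ν i u (obs ω)
    have h3 : |∑ v ∈ ball G u R, xN G ν θ i (ball G u N) s u v (obs ω) ((obs ω).1 (i, v))| ≤
        (ball G u R).card := by
      refine (Finset.abs_sum_le_sum_abs _ _).trans ?_
      simpa using Finset.sum_le_sum (s := ball G u R) fun v _ =>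
        abs_xN_le hW i (ball G u N) s u v (obs ω) ((obs ω).1 (i, v))
    refine (abs_sub _ _).trans ?_
    linarith [abs_sub (Mg G ν u (fld (DN i (ball G u N) ω.2.2 ∩ bt s ω.2.2) (obs ω)))
      (mm G ν i u (obs ω))]
  · have a1 := levy hW (An := fun N T => DN i (ball G u N) T ∩ bt s T) (A := bt s)
      (fun N => (rule_bt s).inter (measurableSet_DN i _)) (rule_bt s)
      (fun T => mono_DN i u T _) (fun T => iUnion_DN hW.tr i u T _) u
    have a2 : ∀ᵐ ω ∂PP ν, ∀ v w, Tendsto (fun N => Mg G ν w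
        (fld (DN i (ball G u N) ω.2.2 ∩ bt (tm ω.2.2 (i, v)) ω.2.2) (obs ω))) atTop
        (𝓝 (Mg G ν w (fld (bt (tm ω.2.2 (i, v)) ω.2.2) (obs ω)))) :=
      ae_all_iff.2 fun v => ae_all_iff.2 fun w =>
        levy hW (An := fun N T => DN i (ball G u N) T ∩ bt (tm T (i, v)) T)
          (A := fun T => bt (tm T (i, v)) T)
          (fun N => (rule_btm (i, v)).inter (measurableSet_DN i _)) (rule_btm (i, v))
          (fun T => mono_DN i u T _) (fun T => iUnion_DN hW.tr i u T _) w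
    have a3 : ∀ᵐ ω ∂PP ν, ∀ N v, Conv G ν
        (fld (DN i (ball G u N) ω.2.2 ∩ bt (tm ω.2.2 (i, v)) ω.2.2) (obs ω)) :=
      ae_all_iff.2 fun N => ae_all_iff.2 fun v => ae_conv_DN hW i _ v
    have a4 : ∀ᵐ ω ∂PP ν, ∀ v, Conv G ν (fld (bt (tm ω.2.2 (i, v)) ω.2.2) (obs ω)) :=
      ae_all_iff.2 fun v => ae_conv_btm hW (i, v)
    filter_upwards [a1, a2, a3, a4] with ω h1 h2 h3 h4
    refine Tendsto.pow ((h1.sub_const _).sub (tendsto_finsetSum _ fun v _ => ?_)) 2
    unfold xN act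
    change Tendsto (fun N => (if cl (ω.2.2 (i, v)) < 0 ∧ tm ω.2.2 (i, v) < s then (1 : ℝ) else 0) *
      (Cv G ν θ u v (fld (DN i (ball G u N) ω.2.2 ∩ bt (tm ω.2.2 (i, v)) ω.2.2) (obs ω)) *
        jf (eta i) (Mg G ν v (fld (DN i (ball G u N) ω.2.2 ∩ bt (tm ω.2.2 (i, v)) ω.2.2) (obs ω)))
          ((obs ω).1 (i, v)))) atTop _
    split_ifs with hact
    swap
    · simp
    have hst : st ω.2.2 (i, v) = eta i := by simp [st, hact.1]
    have e : Jt G ν θ u (i, v) (obs ω) =
        Cv G ν θ u v (fld (bt (tm ω.2.2 (i, v)) ω.2.2) (obs ω)) *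
          jf (eta i) (Mg G ν v (fld (bt (tm ω.2.2 (i, v)) ω.2.2) (obs ω))) ((obs ω).1 (i, v)) := by
      change Cv G ν θ u v (fld (bt (tm ω.2.2 (i, v)) ω.2.2) (obs ω)) *
        psi (eta i) (Mg G ν v (fld (bt (tm ω.2.2 (i, v)) ω.2.2) (obs ω)))
          (Ff (st ω.2.2 (i, v) * Mg G ν v (fld (bt (tm ω.2.2 (i, v)) ω.2.2) (obs ω)))
            ((obs ω).1 (i, v))) = _
      rw [hst, psi_Ff (eta_pos i).le (eta_le i) (abs_Mg_le ν _ _)]
      rfl
    rw [e]
    refine Tendsto.const_mul _ (Tendsto.mul ?_ ?_)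
    · simp only [Cv_eq_Ch hW (h3 _ v), Cv_eq_Ch hW (h4 v)]
      exact tendsto_Ch hW u v (fun n w => abs_Mg_le ν _ _) (fun w => abs_Mg_le ν _ _) (h2 v)
    · unfold jf
      refine Tendsto.div tendsto_const_nhds
        ((((h2 v v).const_mul _).mul_const _).const_add _) ?_
      have := jf_den (eta_pos i).le (eta_le i)
        (abs_Mg_le (G := G) ν v (fld (bt (tm ω.2.2 (i, v)) ω.2.2) (obs ω))) ((obs ω).1 (i, v))
      linarith

end

end Crest.Agent.R160
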