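import Crest.Agent.R160.EvoA

/-!
Row 160, EvoB: comparison of the posterior mean with an approximating evolution over one round.

Write `mm s - Z0 - ∑ act J' = rem + X`, `rem = mm s - mm i - ∑_{ball R} act J` (bounded by `evoA`),
`X = (mm i - Z0) + ∑_{v ∈ ball R} x v`, `x v = act (J - J') = xx v o (U b)` where
`xx v o a = act * (Cv * psi e m a - Gc * psi e mc a)` is `Dep (bt (tm b))` in `o` (`dep_of_adapted`;
`act s T b` depends only on `T`) and has `∫ xx v o a dlam = 0` (`integral_psi`).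
* `E X² = E (mm i - Z0)² + ∑ E (x v)²` by `orth` with `D = univ` (`integral_Ff`), and
  `(x v)² ≤ act * (8e²(Cv - Gc)² + 18 e⁴ Gc² (m - mc)²)` (`abs_psi_le`, `psi_lip`), so
  `time_change_sum` bounds the sum by `∫ φ`.
* `E[rem * X] = 0`: (a) `E[(mm s - mm i) W] = 0` for `W` adapted at `i` (`post_tower`), and
  `E[act J * W] = 0` (`pred_innov`).  (b) `E[mm i * x v] = 0` (`pred_innov`),
  `E[act J_{v'} * x v] = 0` for `v' ≠ v` (polarise `orth`, or the same argument), and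
  `E[mm s * x v] = E[σ_u x v] = E[Mg u (fld (insert b (bt (tm b)))) * x v] = E[(mm (tm b) + J_v) x v]
  = E[act J_v * x v]` (`post` twice: `x v` is `Dep (bt s)` thanks to the factor `act s`, and
  `Dep (insert b (bt (tm b)))`; `fld_insert`, `Mg_jump`, `tanh_dl`, `psi_Ff`, `ae_conv`, `pred_innov`).
(Alternatively avoid (b): apply `evoA` with larger radii `R' → ∞`, `orth` on `ball R'`, and note that
the tails tend to 0.)
-/

set_option autoImplicit false

open MeasureTheory Filter Topology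
open scoped Classical

namespace Crest.Agent.R160

noncomputable section

universe u

variable {V : Type u} {G : SimpleGraph V} [G.LocallyFinite] {d : ℕ} {θ : ℝ}
  {ν : Measure (V → Bool)}

namespace EvoB

/-- the algebra behind the comparison: a Pythagoras identity for a symmetric bilinear form -/
lemma abstract {M ι : Type*} [AddCommGroup M] [Module ℝ M] (β : M →ₗ[ℝ] M →ₗ[ℝ] ℝ)
    (hs : ∀ x y, β x y = β y x) (B : Finset ι) (N W : M) (j j' : ι → M) (h1 : β N W = 0)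
    (h2 : ∀ v, β W (j' v) = 0) (h3 : ∀ v, β N (j v) = β (j v) (j v))
    (h4 : ∀ v, β N (j' v) = β (j v) (j' v)) (h5 : ∀ v v', v ≠ v' → β (j v) (j v') = 0)
    (h6 : ∀ v v', v ≠ v' → β (j' v) (j' v') = 0) :
    β (N + W - ∑ v ∈ B, j' v) (N + W - ∑ v ∈ B, j' v) =
      β (N - ∑ v ∈ B, j v) (N - ∑ v ∈ B, j v) + β W W +
        ∑ v ∈ B, β (j v - j' v) (j v - j' v) := by
  have diag : ∀ k : ι → M, (∀ v v', v ≠ v' → β (k v) (k v') = 0) →
      β (∑ v ∈ B, k v) (∑ v ∈ B, k v) = ∑ v ∈ B, β (k v) (k v) := fun k hk => by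
    rw [map_sum]
    refine Finset.sum_congr rfl fun v hv => ?_
    rw [map_sum, LinearMap.sum_apply, Finset.sum_eq_single_of_mem v hv fun v' _ h => hk v' v h]
  have e1 : β N (∑ v ∈ B, j v) = ∑ v ∈ B, β (j v) (j v) := by
    rw [map_sum]; exact Finset.sum_congr rfl fun v _ => h3 v
  have e2 : β N (∑ v ∈ B, j' v) = ∑ v ∈ B, β (j v) (j' v) := by
    rw [map_sum]; exact Finset.sum_congr rfl fun v _ => h4 v
  have e3 : β W (∑ v ∈ B, j' v) = 0 := by
    rw [map_sum]; exact Finset.sum_eq_zero fun v _ => h2 v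
  have e4 : ∑ v ∈ B, β (j v - j' v) (j v - j' v) = ∑ v ∈ B, β (j v) (j v) -
      2 * ∑ v ∈ B, β (j v) (j' v) + ∑ v ∈ B, β (j' v) (j' v) := by
    rw [Finset.mul_sum, ← Finset.sum_sub_distrib, ← Finset.sum_add_distrib]
    refine Finset.sum_congr rfl fun v _ => ?_
    simp only [map_sub, LinearMap.sub_apply]
    rw [hs (j' v) (j v)]
    ring
  have e5 := diag j h5
  have e6 := diag j' h6
  generalize (∑ v ∈ B, j v) = S at *
  generalize (∑ v ∈ B, j' v) = S' at *
  rw [e4]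
  simp only [map_sub, map_add, LinearMap.sub_apply, LinearMap.add_apply]
  rw [hs W N, hs S' N, hs S' W, hs S N, h1, e1, e2, e3, e5, e6]
  ring

/-- bounded measurable functions of the observations -/
def BM (V : Type u) : Submodule ℝ (Ob V → ℝ) where
  carrier := {f | Measurable f ∧ ∃ C, ∀ o, |f o| ≤ C}
  add_mem' := by
    rintro f g ⟨hf, C, hC⟩ ⟨hg, C', hC'⟩
    exact ⟨hf.add hg, C + C', fun o => (abs_add_le _ _).trans (add_le_add (hC o) (hC' o))⟩
  zero_mem' := ⟨measurable_const, 0, fun o => by simp⟩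
  smul_mem' := by
    rintro a f ⟨hf, C, hC⟩
    refine ⟨hf.const_smul a, |a| * C, fun o => ?_⟩
    rw [Pi.smul_apply, smul_eq_mul, abs_mul]
    exact mul_le_mul_of_nonneg_left (hC o) (abs_nonneg _)

lemma integrable_mul (ν : Measure (V → Bool)) [IsProbabilityMeasure ν] {f g : Ob V → ℝ}
    (hf : f ∈ BM V) (hg : g ∈ BM V) : Integrable (fun ω => f (obs ω) * g (obs ω)) (PP ν) := by
  obtain ⟨hf, C, hC⟩ := hf
  obtain ⟨hg, C', hC'⟩ := hg
  refine integrable_of_bdd (C := C * C') ((hf.comp measurable_obs).mul (hg.comp measurable_obs))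
    fun ω => ?_
  rw [abs_mul]
  exact mul_le_mul (hC _) (hC' _) (abs_nonneg _) ((abs_nonneg _).trans (hC (obs ω)))

/-- the `L²` scalar product -/
def ip (ν : Measure (V → Bool)) [IsProbabilityMeasure ν] : BM V →ₗ[ℝ] BM V →ₗ[ℝ] ℝ :=
  LinearMap.mk₂ ℝ (fun f g => ∫ ω, f.1 (obs ω) * g.1 (obs ω) ∂PP ν)
    (fun f f' g => by
      rw [← integral_add (integrable_mul ν f.2 g.2) (integrable_mul ν f'.2 g.2)]
      simp only [Submodule.coe_add, Pi.add_apply, add_mul])
    (fun a f g => by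
      simp only [Submodule.coe_smul, Pi.smul_apply, smul_eq_mul, mul_assoc, integral_const_mul])
    (fun f g g' => by
      rw [← integral_add (integrable_mul ν f.2 g.2) (integrable_mul ν f.2 g'.2)]
      simp only [Submodule.coe_add, Pi.add_apply, mul_add])
    (fun a f g => by
      simp only [Submodule.coe_smul, Pi.smul_apply, smul_eq_mul, mul_left_comm _ a,
        integral_const_mul])

lemma ip_apply (ν : Measure (V → Bool)) [IsProbabilityMeasure ν] (f g : BM V) :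
    ip ν f g = ∫ ω, f.1 (obs ω) * g.1 (obs ω) ∂PP ν := rfl

/-- the jump of the approximating evolution at `(i,v)` as a function of the innovation -/
def kk (s : ℝ) (i : ℤ) (Gc mc : ℝ → V → Ob V → ℝ) (v : V) (o : Ob V) (a : ℝ) : ℝ :=
  act s o.2 (i, v) * (Gc (tm o.2 (i, v)) v o * psi (eta i) (mc (tm o.2 (i, v)) v o) a)

/-- the jump of the approximating evolution at `(i,v)` -/
def jj (G : SimpleGraph V) [G.LocallyFinite] (ν : Measure (V → Bool)) (s : ℝ) (i : ℤ)
    (Gc mc : ℝ → V → Ob V → ℝ) (v : V) (o : Ob V) : ℝ :=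
  kk s i Gc mc v o ((innov G ν o).1 (i, v))

variable {Gc mc : ℝ → V → Ob V → ℝ}

lemma measurable_kk (hA : Apx Gc mc) (s : ℝ) (i : ℤ) (v : V) :
    Measurable fun p : Ob V × ℝ => kk s i Gc mc v p.1 p.2 := by
  have h1 : Measurable fun p : Ob V × ℝ => (tm p.1.2 (i, v), p.1) :=
    ((measurable_tm (i, v)).comp (measurable_snd.comp measurable_fst)).prodMk measurable_fst
  have h2 : Measurable fun p : Ob V × ℝ => act s p.1.2 (i, v) :=
    (measurable_act (i, v)).comp (measurable_const.prodMk (measurable_snd.comp measurable_fst))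
  have h3 : Measurable fun p : Ob V × ℝ => Gc (tm p.1.2 (i, v)) v p.1 := (hA.measG v).comp h1
  have h4 : Measurable fun p : Ob V × ℝ => mc (tm p.1.2 (i, v)) v p.1 := (hA.measm v).comp h1
  have h5 : Measurable fun p : Ob V × ℝ => psi (eta i) (mc (tm p.1.2 (i, v)) v p.1) p.2 :=
    measurable_psi.comp (measurable_const.prodMk (h4.prodMk measurable_snd))
  exact h2.mul (h3.mul h5)

lemma abs_kk_le (hA : Apx Gc mc) (s : ℝ) (i : ℤ) (v : V) (o : Ob V) (a : ℝ) :
    |kk s i Gc mc v o a| ≤ 1 := by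
  unfold kk
  have h1 := abs_psi_le (eta_pos i).le (eta_le i) (hA.bm (tm o.2 (i, v)) v o) a
  rw [abs_mul, abs_mul, abs_of_nonneg (act_nonneg _ _ _)]
  exact mul_le_one₀ (act_le_one _ _ _) (by positivity)
    (mul_le_one₀ (hA.bG _ _ _) (abs_nonneg _) (by linarith [eta_le i]))

lemma dep_kk (hA : Apx Gc mc) (s : ℝ) (i : ℤ) (v : V) (a : ℝ) :
    Dep (fun T => bt (tm T (i, v)) T) fun o => kk s i Gc mc v o a := fun o o' h1 h2 => by
  have e1 := dep_of_adapted (i, v) (F := fun r => Gc r v) (fun r => hA.adG r v) o o' h1 h2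
  have e2 := dep_of_adapted (i, v) (F := fun r => mc r v) (fun r => hA.adm r v) o o' h1 h2
  simp only at e1 e2
  simp only [kk]
  rw [e1, e2, h1]

lemma integral_kk (hA : Apx Gc mc) (s : ℝ) (i : ℤ) (v : V) (o : Ob V) :
    ∫ a, kk s i Gc mc v o a ∂lam = 0 := by
  unfold kk
  rw [integral_const_mul, integral_const_mul,
    integral_psi (eta_pos i).le (eta_le i) (hA.bm _ _ _), mul_zero, mul_zero]

lemma measurable_jj (ν : Measure (V → Bool)) [IsProbabilityMeasure ν] (hA : Apx Gc mc) (s : ℝ)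
    (i : ℤ) (v : V) : Measurable (jj G ν s i Gc mc v) := by
  have h1 : Measurable fun o : Ob V => (o, (innov G ν o).1 (i, v)) :=
    measurable_id.prodMk
      ((measurable_pi_apply (i, v)).comp (measurable_fst.comp (measurable_innov ν)))
  exact (measurable_kk hA s i v).comp h1

lemma abs_jj_le (hA : Apx Gc mc) (s : ℝ) (i : ℤ) (v : V) (o : Ob V) :
    |jj G ν s i Gc mc v o| ≤ 1 := abs_kk_le hA s i v o _

lemma jj_mem (ν : Measure (V → Bool)) [IsProbabilityMeasure ν] (hA : Apx Gc mc) (s : ℝ)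
    (i : ℤ) (v : V) : jj G ν s i Gc mc v ∈ BM V :=
  ⟨measurable_jj ν hA s i v, 1, abs_jj_le hA s i v⟩

lemma jj_congr (hA : Apx Gc mc) (s : ℝ) (i : ℤ) (v : V) {o o' : Ob V} (h1 : o.2 = o'.2)
    (h2 : ∀ c ∈ bt (tm o.2 (i, v)) o.2, o.1 c = o'.1 c) (h3 : o.1 (i, v) = o'.1 (i, v)) :
    jj G ν s i Gc mc v o = jj G ν s i Gc mc v o' := by
  have e1 := dep_of_adapted (i, v) (F := fun r => mm G ν r v) (fun r => adapted_mm ν r v) o o' h1 h2
  have e2 : (innov G ν o).1 (i, v) = (innov G ν o').1 (i, v) := by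
    simp only at e1
    simp only [innov]
    rw [e1, h3, h1]
  unfold jj
  rw [e2]
  exact dep_kk hA s i v _ o o' h1 h2

lemma dep_jj_insert (hA : Apx Gc mc) (s : ℝ) (i : ℤ) (v : V) :
    Dep (fun T => insert (i, v) (bt (tm T (i, v)) T)) (jj G ν s i Gc mc v) := fun _ _ h1 h2 =>
  jj_congr hA s i v h1 (fun c hc => h2 c (Set.mem_insert_of_mem _ hc))
    (h2 _ (Set.mem_insert _ _))

lemma dep_jj_bt (hA : Apx Gc mc) (s : ℝ) (i : ℤ) (v : V) :
    Dep (bt s) (jj G ν s i Gc mc v) := fun o o' h1 h2 => by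
  by_cases h : tm o.2 (i, v) < s
  · exact jj_congr hA s i v h1 (fun c hc => h2 c (lt_trans hc h)) (h2 _ h)
  · have e1 : act s o.2 (i, v) = 0 := by simp [act, h]
    have e2 : act s o'.2 (i, v) = 0 := h1 ▸ e1
    simp only [jj, kk, e1, e2, zero_mul]

/-- a jump is orthogonal to the past -/
lemma past_jj (hW : Wd G d θ ν) (hA : Apx Gc mc) (s : ℝ) (i : ℤ) (v : V) {W : Ob V → ℝ}
    (hWm : Measurable W) {C : ℝ} (hC : ∀ o, |W o| ≤ C)
    (hd : Dep (fun T => bt (tm T (i, v)) T) W) :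
    ∫ ω, W (obs ω) * jj G ν s i Gc mc v (obs ω) ∂PP ν = 0 := by
  have := pred_innov hW (i, v) (Φ := fun o a => W o * kk s i Gc mc v o a)
    ((hWm.comp measurable_fst).mul (measurable_kk hA s i v)) (C := C)
    (fun o a => by
      rw [abs_mul]
      exact (mul_le_of_le_one_right (abs_nonneg _) (abs_kk_le hA s i v o a)).trans (hC o))
    (fun a o o' h1 h2 => by
      have e1 := hd o o' h1 h2
      have e2 := dep_kk hA s i v a o o' h1 h2
      simp only at e2 ⊢
      rw [e1, e2])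
  simp only [integral_const_mul, integral_kk hA, mul_zero, integral_zero] at this
  exact this

lemma adapted_jj (hW : Wd G d θ ν) (hA : Apx Gc mc) (s : ℝ) (i : ℤ) (v : V) {W : Ob V → ℝ}
    (hWm : Measurable W) {C : ℝ} (hC : ∀ o, |W o| ≤ C) (hd : Adapted i W) :
    ∫ ω, W (obs ω) * jj G ν s i Gc mc v (obs ω) ∂PP ν = 0 :=
  past_jj hW hA s i v hWm hC
    (hd.dep.mono fun T _ hc => lt_of_lt_of_le hc (le_tm T (i, v)))

lemma jj_jj_lt (hW : Wd G d θ ν) (hA : Apx Gc mc) (s : ℝ) (i : ℤ) (v v' : V) :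
    ∫ ω, (if tm ω.2.2 (i, v) < tm ω.2.2 (i, v') then jj G ν s i Gc mc v (obs ω) else 0) *
      jj G ν s i Gc mc v' (obs ω) ∂PP ν = 0 := by
  have := hW.prob
  refine past_jj hW hA s i v'
    (W := fun o => if tm o.2 (i, v) < tm o.2 (i, v') then jj G ν s i Gc mc v o else 0)
    (Measurable.ite (measurableSet_lt ((measurable_tm _).comp measurable_snd)
      ((measurable_tm _).comp measurable_snd)) (measurable_jj ν hA s i v) measurable_const)
    (C := 1) (fun o => ?_) fun o o' h1 h2 => ?_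
  · split_ifs
    exacts [abs_jj_le hA s i v o, by simp]
  · simp only [← h1]
    split_ifs with h
    · exact jj_congr hA s i v h1 (fun c hc => h2 c (lt_trans hc h)) (h2 _ h)
    · rfl

/-- different jumps are orthogonal -/
lemma jj_jj (hW : Wd G d θ ν) (hA : Apx Gc mc) (s : ℝ) (i : ℤ) {v v' : V} (hv : v ≠ v') :
    ∫ ω, jj G ν s i Gc mc v (obs ω) * jj G ν s i Gc mc v' (obs ω) ∂PP ν = 0 := by
  have := hW.prob
  have := hW.tr.countable
  have hmem : ∀ w w' : V, (fun o : Ob V =>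
      if tm o.2 (i, w) < tm o.2 (i, w') then jj G ν s i Gc mc w o else 0) ∈ BM V :=
    fun w w' => ⟨Measurable.ite (measurableSet_lt ((measurable_tm _).comp measurable_snd)
      ((measurable_tm _).comp measurable_snd)) (measurable_jj ν hA s i w) measurable_const, 1,
      fun o => by
        dsimp only
        split_ifs
        exacts [abs_jj_le hA s i w o, by simp]⟩
  have h1 := jj_jj_lt hW hA s i v v'
  have h2 := jj_jj_lt hW hA s i v' v
  have h3 := integral_add (integrable_mul ν (hmem v v') (jj_mem (G := G) ν hA s i v'))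
    (integrable_mul ν (hmem v' v) (jj_mem (G := G) ν hA s i v))
  have h4 : ∫ ω, ((if tm ω.2.2 (i, v) < tm ω.2.2 (i, v') then jj G ν s i Gc mc v (obs ω) else 0) *
      jj G ν s i Gc mc v' (obs ω) +
      (if tm ω.2.2 (i, v') < tm ω.2.2 (i, v) then jj G ν s i Gc mc v' (obs ω) else 0) *
      jj G ν s i Gc mc v (obs ω)) ∂PP ν = 0 := by
    exact h3.trans ((congrArg₂ (· + ·) h1 h2).trans (add_zero _))
  rw [← h4]
  refine integral_congr_ae ?_
  filter_upwards [ae_tm_inj ν] with ω hω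
  have hne : tm ω.2.2 (i, v) ≠ tm ω.2.2 (i, v') := fun h => hv (Prod.ext_iff.1 (hω h)).2
  rcases lt_or_gt_of_ne hne with h | h
  · rw [if_pos h, if_neg (not_lt.2 h.le)]; ring
  · rw [if_pos h, if_neg (not_lt.2 h.le)]; ring

lemma apx_true (hW : Wd G d θ ν) (u : V) :
    Apx (fun r v o => Cv G ν θ u v (fy r o)) (mm G ν) := by
  have := hW.prob
  exact ⟨fun v => (measurable_Cv ν θ u v).comp measurable_fy, fun v => measurable_mm ν v,
    fun r v o o' h => by simp only [fy_agree h], fun r v => adapted_mm ν r v,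
    fun r v o => abs_Cv_le hW _ _ _, fun r v o => abs_mm_le ν r v o⟩

/-- the posterior mean right after the observation `(i,v)` -/
lemma Mg_insert (hW : Wd G d θ ν) (s : ℝ) (i : ℤ) (u v : V) {o : Ob V}
    (hc : Conv G ν (fld (bt (tm o.2 (i, v)) o.2) o))
    (hact : cl (o.2 (i, v)) < 0 ∧ tm o.2 (i, v) < s) :
    Mg G ν u (fld (insert (i, v) (bt (tm o.2 (i, v)) o.2)) o) = mm G ν (tm o.2 (i, v)) u o +
      jj G ν s i (fun r v o => Cv G ν θ u v (fy r o)) (mm G ν) v o := by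
  have := hW.prob
  have hst : st o.2 (i, v) = eta i := by simp [st, hact.1]
  have hact' : act s o.2 (i, v) = 1 := by simp [act, hact]
  have hA : ∀ c ∈ bt (tm o.2 (i, v)) o.2, cl (o.2 c) < 0 → c.1 ≤ i + 2 := fun c hc _ => by
    have h1 : tm o.2 c < tm o.2 (i, v) := hc
    have h2 := le_tm o.2 c
    have h3 := tm_le o.2 (i, v)
    have h4 : (c.1 : ℝ) ≤ i + 2 := by linarith
    exact_mod_cast h4
  have hb : (i, v) ∉ bt (tm o.2 (i, v)) o.2 := fun h => lt_irrefl (tm o.2 (i, v)) h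
  rw [fld_insert hA hb, Mg_jump hW hc, hst, tanh_dl (eta_pos i).le (eta_le i)]
  simp only [jj, kk, innov, hact', hst, one_mul]
  rw [psi_Ff (eta_pos i).le (eta_le i) (abs_mm_le ν _ _ _)]
  simp only [mm, fy]
  congr 3
  ring

/-- the scalar product of the posterior mean with a jump -/
lemma mm_jj (hW : Wd G d θ ν) (hA : Apx Gc mc) (s : ℝ) (i : ℤ) (u v : V) :
    ∫ ω, mm G ν s u (obs ω) * jj G ν s i Gc mc v (obs ω) ∂PP ν =
      ∫ ω, jj G ν s i (fun r v o => Cv G ν θ u v (fy r o)) (mm G ν) v (obs ω) *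
        jj G ν s i Gc mc v (obs ω) ∂PP ν := by
  have := hW.prob
  have h1 := post hW (rule_bt s) u (measurable_jj (G := G) ν hA s i v) (abs_jj_le hA s i v)
    (dep_jj_bt hA s i v)
  have h2 := post hW ((rule_btm (i, v)).insert (i, v)) u (measurable_jj (G := G) ν hA s i v)
    (abs_jj_le hA s i v) (dep_jj_insert hA s i v)
  have m0 : Measurable fun o : Ob V => (tm o.2 (i, v), o) :=
    ((measurable_tm (i, v)).comp measurable_snd).prodMk measurable_id
  have m1 : Measurable fun o : Ob V => mm G ν (tm o.2 (i, v)) u o := by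
    have := (measurable_mm (G := G) ν u).comp m0
    exact this
  have h3 := past_jj hW hA s i v m1 (C := 1) (fun o => abs_mm_le ν _ _ _)
    (dep_of_adapted (i, v) (F := fun r => mm G ν r u) fun r => adapted_mm ν r u)
  have h4 := integral_add (integrable_mul ν (f := fun o : Ob V => mm G ν (tm o.2 (i, v)) u o)
    ⟨m1, 1, fun o => abs_mm_le ν _ _ _⟩ (jj_mem (G := G) ν hA s i v))
    (integrable_mul ν (jj_mem (G := G) ν (apx_true hW u) s i v) (jj_mem (G := G) ν hA s i v))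
  rw [h3, zero_add] at h4
  refine (h1.symm.trans h2).trans (Eq.trans (integral_congr_ae ?_) h4)
  filter_upwards [ae_conv_btm hW (i, v)] with ω hω
  by_cases hact : cl (ω.2.2 (i, v)) < 0 ∧ tm ω.2.2 (i, v) < s
  · have := Mg_insert hW s i u v (o := obs ω) hω hact
    rw [← add_mul, ← this]
    rfl
  · have e1 : act s (obs ω).2 (i, v) = 0 := if_neg hact
    have e2 : jj G ν s i Gc mc v (obs ω) = 0 := by simp only [jj, kk, e1, zero_mul]
    simp only [e2, mul_zero, add_zero]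

lemma jj_sub_sq_le {Gc' mc' : ℝ → V → Ob V → ℝ} (hA : Apx Gc mc) (hA' : Apx Gc' mc') (s : ℝ)
    (i : ℤ) (v : V) (o : Ob V) :
    (jj G ν s i Gc' mc' v o - jj G ν s i Gc mc v o) ^ 2 ≤ act s o.2 (i, v) *
      (8 * eta i ^ 2 * (Gc' (tm o.2 (i, v)) v o - Gc (tm o.2 (i, v)) v o) ^ 2 +
        18 * eta i ^ 4 * Gc (tm o.2 (i, v)) v o ^ 2 *
          (mc' (tm o.2 (i, v)) v o - mc (tm o.2 (i, v)) v o) ^ 2) := by
  unfold jj kk
  have h1 := abs_psi_le (eta_pos i).le (eta_le i) (hA'.bm (tm o.2 (i, v)) v o)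
    ((innov G ν o).1 (i, v))
  have h2 := psi_lip (eta_pos i).le (eta_le i) (hA'.bm (tm o.2 (i, v)) v o)
    (hA.bm (tm o.2 (i, v)) v o) ((innov G ν o).1 (i, v))
  generalize psi (eta i) (mc' (tm o.2 (i, v)) v o) ((innov G ν o).1 (i, v)) = p' at *
  generalize psi (eta i) (mc (tm o.2 (i, v)) v o) ((innov G ν o).1 (i, v)) = p at *
  generalize mc' (tm o.2 (i, v)) v o - mc (tm o.2 (i, v)) v o = δ at *
  generalize Gc' (tm o.2 (i, v)) v o = g' at *
  generalize Gc (tm o.2 (i, v)) v o = g at *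
  have h3 : p' ^ 2 ≤ 4 * eta i ^ 2 := by
    have := sq_le_sq' (abs_le.1 h1).1 (abs_le.1 h1).2
    linarith
  have h4 : (p' - p) ^ 2 ≤ 9 * eta i ^ 4 * δ ^ 2 := by
    have := sq_le_sq' (abs_le.1 h2).1 (abs_le.1 h2).2
    rw [mul_pow, sq_abs] at this
    linarith
  rw [← mul_sub, mul_pow, sq (act _ _ _), act_mul_self]
  refine mul_le_mul_of_nonneg_left ?_ (act_nonneg _ _ _)
  have h5 := mul_le_mul_of_nonneg_left h3 (sq_nonneg (g' - g))
  have h6 := mul_le_mul_of_nonneg_left h4 (sq_nonneg g)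
  nlinarith [sq_nonneg ((g' - g) * p' - g * (p' - p))]

lemma sum_jj_sub_sq_le (ν : Measure (V → Bool)) [IsProbabilityMeasure ν]
    {Gc' mc' : ℝ → V → Ob V → ℝ} (hA : Apx Gc mc) (hA' : Apx Gc' mc') (i : ℤ) (B : Finset V)
    {s : ℝ} (hs : s ∈ Set.Icc (i : ℝ) (i + 1)) {φ : ℝ → ℝ} (hφ : Continuous φ)
    (hb : ∀ r ∈ Set.Icc (i : ℝ) (i + 1), ∑ v ∈ B,
      ∫ ω, (8 * eta i ^ 2 * (Gc' r v (obs ω) - Gc r v (obs ω)) ^ 2 +
        18 * eta i ^ 4 * Gc r v (obs ω) ^ 2 * (mc' r v (obs ω) - mc r v (obs ω)) ^ 2) ∂PP ν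
          ≤ φ r) :
    ∑ v ∈ B, ∫ ω, (jj G ν s i Gc' mc' v (obs ω) - jj G ν s i Gc mc v (obs ω)) ^ 2 ∂PP ν ≤
      ∫ r in (i : ℝ)..s, φ r := by
  set H : V → ℝ → Ob V → ℝ := fun v r o => 8 * eta i ^ 2 * (Gc' r v o - Gc r v o) ^ 2 +
    18 * eta i ^ 4 * Gc r v o ^ 2 * (mc' r v o - mc r v o) ^ 2 with hH
  have hHm : ∀ v, Measurable fun p : ℝ × Ob V => H v p.1 p.2 := fun v =>
    ((((hA'.measG v).sub (hA.measG v)).pow_const 2).const_mul _).add
      ((((hA.measG v).pow_const 2).const_mul _).mul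
        (((hA'.measm v).sub (hA.measm v)).pow_const 2))
  have hH0 : ∀ v r o, 0 ≤ H v r o := fun v r o => by simp only [hH]; positivity
  have hsq : ∀ {x y : ℝ}, |x| ≤ 1 → |y| ≤ 1 → (x - y) ^ 2 ≤ 4 := fun hx hy => by
    rw [abs_le] at hx hy
    nlinarith [hx.1, hx.2, hy.1, hy.2]
  have hHC : ∀ v r o, H v r o ≤ 8 * eta i ^ 2 * 4 + 18 * eta i ^ 4 * 1 * 4 := fun v r o => by
    simp only [hH]
    have h1 := hsq (hA'.bG r v o) (hA.bG r v o)
    have h2 := hsq (hA'.bm r v o) (hA.bm r v o)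
    have h3 := (sq_le_one_iff_abs_le_one _).2 (hA.bG r v o)
    gcongr
  refine le_trans (Finset.sum_le_sum fun v _ => ?_)
    (time_change_sum ν i B hs hHm hH0 hHC (fun v r _ o o' h => ?_) hφ hb)
  · have m1 : Measurable fun ω : Om V => act s ω.2.2 (i, v) :=
      (measurable_act (i, v)).comp (measurable_const.prodMk (measurable_snd.comp measurable_snd))
    have m2 : Measurable fun ω : Om V => H v (tm ω.2.2 (i, v)) (obs ω) :=
      (hHm v).comp (((measurable_tm (i, v)).comp (measurable_snd.comp measurable_snd)).prodMk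
        measurable_obs)
    refine integral_mono (integrable_of_bdd (C := 4) ?_ fun ω => ?_)
      (integrable_of_bdd (C := 8 * eta i ^ 2 * 4 + 18 * eta i ^ 4 * 1 * 4) (m1.mul m2) fun ω => ?_)
      fun ω => jj_sub_sq_le hA hA' s i v (obs ω)
    · exact (((measurable_jj ν hA' s i v).comp measurable_obs).sub
        ((measurable_jj ν hA s i v).comp measurable_obs)).pow_const 2
    · rw [abs_of_nonneg (sq_nonneg _)]
      exact hsq (abs_jj_le hA' s i v _) (abs_jj_le hA s i v _)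
    · rw [abs_mul, abs_of_nonneg (act_nonneg _ _ _), abs_of_nonneg (hH0 _ _ _)]
      exact (mul_le_of_le_one_left (hH0 _ _ _) (act_le_one _ _ _)).trans (hHC _ _ _)
  · simp only [hH]
    rw [hA.adG r v o o' h, hA'.adG r v o o' h, hA.adm r v o o' h, hA'.adm r v o o' h]

end EvoB

theorem evo (hW : Wd G d θ ν) (i : ℤ) {b : ℕ → ℝ} (hD : Dec G ν θ i b) (u : V) (R : ℕ) {t : ℝ}
    (ht : ∀ R', ∑ v ∈ ball G u R' \ ball G u R, b (G.dist u v) ≤ t) {s : ℝ}
    (hs : s ∈ Set.Icc (i : ℝ) (i + 1)) {Z0 : Ob V → ℝ} (hZm : Measurable Z0) {C : ℝ}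
    (hZb : ∀ o, |Z0 o| ≤ C) (hZa : Adapted i Z0) {Gc mc : ℝ → V → Ob V → ℝ} (hA : Apx Gc mc)
    {φ : ℝ → ℝ} (hφ : Continuous φ)
    (hb : ∀ r ∈ Set.Icc (i : ℝ) (i + 1), ∑ v ∈ ball G u R,
      ∫ ω, (8 * eta i ^ 2 * (Cv G ν θ u v (fy r (obs ω)) - Gc r v (obs ω)) ^ 2 +
        18 * eta i ^ 4 * Gc r v (obs ω) ^ 2 * (mm G ν r v (obs ω) - mc r v (obs ω)) ^ 2) ∂PP ν
          ≤ φ r) :
    ∫ ω, (mm G ν s u (obs ω) - Z0 (obs ω) - ∑ v ∈ ball G u R, act s ω.2.2 (i, v) *
      (Gc (tm ω.2.2 (i, v)) v (obs ω) * psi (eta i) (mc (tm ω.2.2 (i, v)) v (obs ω))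
        ((innov G ν (obs ω)).1 (i, v)))) ^ 2 ∂PP ν ≤
      ∫ ω, (mm G ν i u (obs ω) - Z0 (obs ω)) ^ 2 ∂PP ν + (∫ r in (i : ℝ)..s, φ r) +
        4 * eta i ^ 2 * t := by
  have := hW.prob
  have hA' := EvoB.apx_true hW u
  have hmm : ∀ r : ℝ, mm G ν r u ∈ EvoB.BM V := fun r =>
    ⟨measurable_mm' ν r u, 1, abs_mm_le ν r u⟩
  let N : EvoB.BM V := ⟨mm G ν s u, hmm s⟩ - ⟨mm G ν i u, hmm i⟩
  let W : EvoB.BM V := ⟨mm G ν i u, hmm i⟩ - ⟨Z0, hZm, C, hZb⟩
  let j : V → EvoB.BM V := fun v => ⟨_, EvoB.jj_mem (G := G) ν hA' s i v⟩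
  let j' : V → EvoB.BM V := fun v => ⟨_, EvoB.jj_mem (G := G) ν hA s i v⟩
  obtain ⟨hWm, C', hC'⟩ := W.2
  have hWa : Adapted i W.1 := fun o o' h => by
    change mm G ν i u o - Z0 o = mm G ν i u o' - Z0 o'
    rw [adapted_mm ν i u o o' h, hZa o o' h]
  have hN : ∀ {Gc mc : ℝ → V → Ob V → ℝ} (hA : Apx Gc mc) (v : V),
      EvoB.ip ν N ⟨_, EvoB.jj_mem (G := G) ν hA s i v⟩ =
        EvoB.ip ν (j v) ⟨_, EvoB.jj_mem (G := G) ν hA s i v⟩ := fun hA v => by
    simp only [N, map_sub, LinearMap.sub_apply, EvoB.ip_apply]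
    rw [EvoB.mm_jj hW hA s i u v, EvoB.adapted_jj hW hA s i v (measurable_mm' ν i u)
      (abs_mm_le ν i u) (adapted_mm ν i u), sub_zero]
  have key := EvoB.abstract (EvoB.ip ν)
    (fun x y => by simp only [EvoB.ip_apply, mul_comm]) (ball G u R) N W j j'
    (post_tower hW (rule_bt i) (rule_bt s) (fun T c hc => lt_of_lt_of_le hc hs.1) u hWm hC'
      hWa.dep)
    (fun v => EvoB.adapted_jj hW hA s i v hWm hC' hWa) (hN hA') (hN hA)
    (fun v v' h => EvoB.jj_jj hW hA' s i h) (fun v v' h => EvoB.jj_jj hW hA s i h)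
  simp only [EvoB.ip_apply, ← sq, Submodule.coe_sub, Submodule.coe_sum,
    Pi.sub_apply, Finset.sum_apply, N, W, j, j', sub_add_sub_cancel] at key
  have h1 := evoA hW i hD u R ht hs
  have h2 := EvoB.sum_jj_sub_sq_le (G := G) ν hA hA' i (ball G u R) hs hφ hb
  refine le_trans (le_of_eq key) ?_
  have h3 : ∫ ω, (mm G ν s u (obs ω) - mm G ν i u (obs ω) - ∑ v ∈ ball G u R,
      EvoB.jj G ν s i (fun r v o => Cv G ν θ u v (fy r o)) (mm G ν) v (obs ω)) ^ 2 ∂PP ν ≤
      4 * eta i ^ 2 * t := h1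
  linarith

end

end Crest.Agent.R160
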