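import Crest.Agent.R160.CritC

/-!
Row 160, Final: the factor map.

`exists_enc`: as `exists_split` in Crest/Agent/R168/Labels.lean with `lam` instead of `lam0`
(`Measure.exists_measurable_map_eq` for `infinitePi fun _ : Bool × ℤ => lam`, `infinitePi_map_pi`,
`infinitePi_map_curry_symm`, `map_infinitePi_infinitePi_of_inj`, `infinitePi_map_curry`,
`infinitePi_map_eval_prod`).
`factor_of_approx`: for each `n` take `I n` from `rec_tendsto` and `θ n, R n, N n` from `Approx`
with `ε = 2^(-n)`; `P n U v = Pic (θ n) (R n) (N n) U v (I n)` satisfies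
`E (σ_v - P n (innov obs) v)² ≤ 4 · 2^(-n)`, so a.s. `P n → sp (σ v)` for all `v`
(`lintegral_tsum`/Borel-Cantelli, `Tr.countable`).  `Ψ U v = decide (∀ᶠ n in atTop, 0 < P n U v)` is
measurable, equivariant (`Pic_pullO`), `Ψ (innov obs) = σ` a.s., hence
`(Lam ⊗ Lam).map Ψ = ν` (`map_innov`, `Measure.map_fst_prod`).
-/

set_option autoImplicit false

open MeasureTheory Filter Topology
open scoped Classical

namespace Crest.Agent.R160

noncomputable section

universe u

variable {V : Type u} {G : SimpleGraph V} [G.LocallyFinite] {d : ℕ} {θ : ℝ}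
  {ν : Measure (V → Bool)}

open Crest.ProbabilityR.Labels in
lemma exists_enc : ∃ f : unitInterval → Bool × ℤ → ℝ, Measurable f ∧
    (labelMeasure V).map (fun x => ((fun c : ℤ × V => f (x c.2) (true, c.1),
      fun c : ℤ × V => f (x c.2) (false, c.1)) : Ob V)) = (Lam V).prod (Lam V) := by
  obtain ⟨f, hf, hf'⟩ := Measure.exists_measurable_map_eq
    (Measure.infinitePi fun _ : Bool × ℤ => lam)
  refine ⟨f, hf, ?_⟩
  have h1 := Measure.infinitePi_map_pi (fun _ : V => (volume : Measure unitInterval))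
    (f := fun _ => f) (fun _ => hf)
  simp only [hf'] at h1
  have h2 := Measure.infinitePi_map_curry_symm (fun (_ : V) (_ : Bool × ℤ) => lam)
  have h3 := Measure.map_infinitePi_infinitePi_of_inj
    (P := fun _ : V × (Bool × ℤ) => lam)
    (f := fun q : Bool × (ℤ × V) => (q.2.2, (q.1, q.2.1))) (by
      rintro ⟨a, b, c⟩ ⟨a', b', c'⟩ h
      simp only [Prod.mk.injEq] at h ⊢
      tauto)
  have h4 := Measure.infinitePi_map_curry (fun (_ : Bool) (_ : ℤ × V) => lam)
  have h5 := Measure.infinitePi_map_eval_prod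
    (P := fun _ : Bool => Measure.infinitePi fun _ : ℤ × V => lam) (i := true) (j := false)
    (by simp)
  unfold Lam
  rw [← h5, ← h4, ← h3, ← h2, ← h1, Measure.map_map, Measure.map_map, Measure.map_map,
    Measure.map_map]
  · rfl
  all_goals fun_prop

lemma ae_eventually_lt_one {Ω : Type*} [MeasurableSpace Ω] (P : Measure Ω) [IsFiniteMeasure P]
    {f : ℕ → Ω → ℝ} (hf : ∀ n, Integrable (f n) P) (h0 : ∀ n x, 0 ≤ f n x) {a : ℕ → ℝ}
    (ha : Summable a) (h : ∀ n, ∫ x, f n x ∂P ≤ a n) :
    ∀ᵐ x ∂P, ∀ᶠ n in atTop, f n x < 1 := by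
  have ha0 : ∀ n, 0 ≤ a n := fun n => (integral_nonneg (h0 n)).trans (h n)
  have h1 : ∀ n, P {x | 1 ≤ f n x} ≤ ENNReal.ofReal (a n) := fun n => by
    have := mul_meas_ge_le_integral_of_nonneg (ae_of_all _ (h0 n)) (hf n) 1
    rw [one_mul] at this
    rw [← ofReal_measureReal]
    exact ENNReal.ofReal_le_ofReal (this.trans (h n))
  have h2 : ∑' n, P {x | 1 ≤ f n x} ≠ ⊤ := by
    refine ne_top_of_le_ne_top ?_ (ENNReal.tsum_le_tsum h1)
    rw [← ENNReal.ofReal_tsum_of_nonneg ha0 ha]
    exact ENNReal.ofReal_ne_top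
  filter_upwards [ae_eventually_notMem h2] with x hx
  exact hx.mono fun n hn => not_le.1 hn

theorem factor_of_approx (hW : Wd G d θ ν) (hA : Approx G ν) :
    ∃ Ψ : Ob V → V → Bool, Measurable Ψ ∧
      (∀ (g : G ≃g G) (o : Ob V), Ψ (pullO g o) = Ψ o ∘ g) ∧
      ((Lam V).prod (Lam V)).map Ψ = ν := by
  have := hW.prob
  have := hW.tr.countable
  have hε : ∀ n : ℕ, (0 : ℝ) < (1 / 2) ^ n := fun n => by positivity
  choose I hI using fun n => rec_tendsto hW (hε n)
  choose θ' R N hP using fun n => hA (I n) _ (hε n)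
  have mP : ∀ n v, Measurable fun o : Ob V => Pic G (θ' n) (R n) (N n) o v (I n) := fun n v => by
    have := (measurable_Pic (G := G) (θ' n) (R n) (N n) v).comp
      ((measurable_const (a := (I n : ℝ))).prodMk measurable_id)
    exact this
  have mI : Measurable fun ω : Om V => innov G ν (obs ω) :=
    (measurable_innov ν).comp measurable_obs
  have mΨ : Measurable fun (o : Ob V) (v : V) =>
      decide (∀ᶠ n in atTop, 0 < Pic G (θ' n) (R n) (N n) o v (I n)) := by
    refine measurable_pi_lambda _ fun v => measurable_to_bool ?_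
    have : (fun o : Ob V => decide (∀ᶠ n in atTop, 0 < Pic G (θ' n) (R n) (N n) o v (I n))) ⁻¹'
        {true} = ⋃ m, ⋂ n, ⋂ (_ : m ≤ n), {o | 0 < Pic G (θ' n) (R n) (N n) o v (I n)} := by
      ext o
      simp [eventually_atTop]
    rw [this]
    exact MeasurableSet.iUnion fun m => MeasurableSet.iInter fun n => MeasurableSet.iInter fun _ =>
      measurableSet_lt measurable_const (mP n v)
  refine ⟨_, mΨ, fun g o => ?_, ?_⟩
  · funext v
    simp only [Pic_pullO hW.tr, Function.comp_apply]
  · have hae : ∀ᵐ ω ∂PP ν, ∀ v, ∀ᶠ n in atTop,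
        (sp (ω.1 v) - Pic G (θ' n) (R n) (N n) (innov G ν (obs ω)) v (I n)) ^ 2 < 1 := by
      refine ae_all_iff.2 fun v => ?_
      have ms : Measurable fun ω : Om V => sp (ω.1 v) :=
        measurable_sp.comp ((measurable_pi_apply v).comp measurable_fst)
      refine ae_eventually_lt_one (PP ν) (fun n => ?_) (fun n ω => sq_nonneg _)
        (a := fun n => 4 * (1 / 2) ^ n) (summable_geometric_two.mul_left 4) fun n => ?_
      · refine integrable_of_bdd ((ms.sub ((mP n v).comp mI)).pow_const 2) (C := 4) fun ω => ?_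
        have h1 := abs_le.1 (abs_sp (ω.1 v)).le
        have h2 := abs_le.1 (abs_Pic_le (G := G) (θ' n) (R n) (N n) (innov G ν (obs ω)) v (I n))
        rw [abs_of_nonneg (sq_nonneg _)]
        nlinarith [h1.1, h1.2, h2.1, h2.2]
      · have h4 := integral_sq_sub_le (PP ν) ms
          ((measurable_mm' (G := G) ν (I n) v).comp measurable_obs) ((mP n v).comp mI)
          (fun ω => (abs_sp _).le) (fun ω => abs_mm_le ν _ _ _) (fun ω => abs_Pic_le _ _ _ _ _ _)
        simp only [Function.comp_def] at h4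
        linarith [hI n v, hP n v]
    rw [← map_innov hW, Measure.map_map mΨ mI]
    have h2 : (PP ν).map Prod.fst = ν := by
      unfold PP
      rw [Measure.map_fst_prod, measure_univ, one_smul]
    refine Eq.trans (Measure.map_congr ?_) h2
    filter_upwards [hae] with ω hω
    funext v
    have h3 := hω v
    simp only [Function.comp_apply]
    cases hσ : ω.1 v
    · rw [decide_eq_false_iff_not]
      intro h4
      obtain ⟨n, h5, h6⟩ := (h3.and h4).exists
      rw [hσ, sp_false] at h5
      nlinarith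
    · rw [decide_eq_true_iff]
      refine h3.mono fun n h5 => ?_
      rw [hσ, sp_true] at h5
      nlinarith

open Crest.ProbabilityR.Labels in
theorem main (hW : Wd G d θ ν) : ∃ Φ : (V → unitInterval) → (V → Bool), Measurable Φ ∧
    (∀ (g : G ≃g G) (x : V → unitInterval), Φ (x ∘ g) = Φ x ∘ g) ∧
    (labelMeasure V).map Φ = ν := by
  obtain ⟨f, hf, hl⟩ := exists_enc (V := V)
  obtain ⟨Ψ, hΨ, he, hm⟩ := factor_of_approx hW (approx hW)
  have hE : Measurable (fun x : V → unitInterval => ((fun c : ℤ × V => f (x c.2) (true, c.1),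
      fun c : ℤ × V => f (x c.2) (false, c.1)) : Ob V)) := by fun_prop
  refine ⟨fun x => Ψ (fun c : ℤ × V => f (x c.2) (true, c.1),
      fun c : ℤ × V => f (x c.2) (false, c.1)), hΨ.comp hE, fun g x => he g
        (fun c : ℤ × V => f (x c.2) (true, c.1), fun c : ℤ × V => f (x c.2) (false, c.1)), ?_⟩
  rw [← hm, ← hl, Measure.map_map hΨ hE]
  rfl

end

end Crest.Agent.R160
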