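import Crest.Agent.R160.TiltB

/-!
Row 160, Fld: fields, information rules, adaptedness, symmetries of the observation scheme.
Each term of `fld` is bounded by `2 * st ≤ 2 * eta j` (`abs_dl_le`) and vanishes for inactive
observations (`dl_zero`); `∑_{j ≤ i} 2 eta j = Yb i`.  For measurability of `tsum` (summable or not)
use `Measurable.tsum`-like lemmas if present, else write `∑' j, f j` for real `f` as
`(∑' ofReal (f j)).toReal - (∑' ofReal (-f j)).toReal` when summable, or as the limit of the partial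
sums over `Finset.Icc (-n) n` (`measurable_of_tendsto_metrizable`); the hypothesis `hI` gives
summability.
-/

set_option autoImplicit false

open MeasureTheory Filter Topology
open scoped Classical

namespace Crest.Agent.R160

noncomputable section

universe u

variable {V : Type u} {G : SimpleGraph V} [G.LocallyFinite] {d : ℕ} {θ : ℝ}
  {ν : Measure (V → Bool)}

lemma Yb_sub (i : ℤ) : Yb i - Yb (i - 1) = 2 * eta i := by
  unfold Yb
  rcases le_or_gt i 0 with h | h
  · rw [eta_pred_of_nonpos h, Int.toNat_of_nonpos h, Int.toNat_of_nonpos (by omega)]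
    push_cast; ring
  · rw [eta_of_nonneg h.le, eta_of_nonneg (by omega)]
    have : (i.toNat : ℝ) = (i - 1).toNat + 1 := by
      exact_mod_cast (show i.toNat = (i - 1).toNat + 1 by omega)
    rw [this]; ring

lemma sum_Ioc_eta (i : ℤ) (n : ℕ) : ∑ j ∈ Finset.Ioc (i - n) i, 2 * eta j = Yb i - Yb (i - n) := by
  induction n with
  | zero => simp
  | succ n ih =>
    have : Finset.Ioc (i - (n + 1 : ℕ)) i = insert (i - n) (Finset.Ioc (i - n) i) := by
      ext j; simp only [Finset.mem_Ioc, Finset.mem_insert]; push_cast; omega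
    rw [this, Finset.sum_insert (by simp), ih, ← Yb_sub (i - n)]
    push_cast
    rw [show i - (n + 1) = i - n - 1 by ring]
    ring

lemma sum_eta_le (i : ℤ) (s : Finset ℤ) :
    ∑ j ∈ s, (if j ≤ i then 2 * eta j else 0) ≤ Yb i := by
  obtain ⟨m, hm⟩ := s.bddBelow
  rw [← Finset.sum_filter]
  have hsub : s.filter (· ≤ i) ⊆ Finset.Ioc (i - ((i - m).toNat + 1 : ℕ)) i := by
    intro j hj
    rw [Finset.mem_filter] at hj
    have := hm hj.1
    rw [Finset.mem_Ioc]
    push_cast
    omega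
  refine (Finset.sum_le_sum_of_subset_of_nonneg hsub fun j _ _ => by
    have := eta_pos j; positivity).trans ?_
  rw [sum_Ioc_eta]
  linarith [Yb_pos (i - ((i - m).toNat + 1 : ℕ))]

lemma eta_bound_nonneg (i j : ℤ) : 0 ≤ (if j ≤ i then 2 * eta j else 0) := by
  have := eta_pos j
  split_ifs <;> positivity

lemma summable_eta (i : ℤ) : Summable fun j : ℤ => if j ≤ i then 2 * eta j else 0 :=
  summable_of_sum_le (eta_bound_nonneg i) (sum_eta_le i)

lemma st_of_not {T : Cf V} {c : ℤ × V} (h : ¬ cl (T c) < 0) : st T c = 0 := if_neg h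

lemma norm_fld_term_le {A : Set (ℤ × V)} {o : Ob V} {i : ℤ}
    (hA : ∀ c ∈ A, cl (o.2 c) < 0 → c.1 ≤ i) (v : V) (j : ℤ) :
    ‖if (j, v) ∈ A then dl (st o.2 (j, v)) (o.1 (j, v)) else 0‖ ≤
      if j ≤ i then 2 * eta j else 0 := by
  by_cases h : (j, v) ∈ A
  · rw [if_pos h]
    by_cases h' : cl (o.2 (j, v)) < 0
    · rw [if_pos (hA _ h h'), Real.norm_eq_abs]
      refine (abs_dl_le (st_nonneg _ _) (st_le _ _) _).trans ?_
      linarith [st_le_eta o.2 (j, v)]
    · rw [st_of_not h', dl_zero, norm_zero]; exact eta_bound_nonneg i j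
  · rw [if_neg h, norm_zero]; exact eta_bound_nonneg i j

lemma summable_fld {A : Set (ℤ × V)} {o : Ob V} {i : ℤ}
    (hA : ∀ c ∈ A, cl (o.2 c) < 0 → c.1 ≤ i) (v : V) :
    Summable fun j : ℤ => if (j, v) ∈ A then dl (st o.2 (j, v)) (o.1 (j, v)) else 0 := by
  exact (summable_eta i).of_norm_bounded (norm_fld_term_le hA v)

lemma abs_fld_le {A : Set (ℤ × V)} {o : Ob V} {i : ℤ}
    (hA : ∀ c ∈ A, cl (o.2 c) < 0 → c.1 ≤ i) (v : V) : |fld A o v| ≤ Yb i := by
  refine (tsum_of_norm_bounded (summable_eta i).hasSum (norm_fld_term_le hA v)).trans ?_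
  exact (summable_eta i).tsum_le_of_sum_le (sum_eta_le i)

lemma abs_fS_le {S : Set V} {s : V → ℝ} {i : ℤ} (hs : ∀ v, s v ≤ i + 1) (o : Ob V) (v : V) :
    |fS S s o v| ≤ Yb i := by
  refine abs_fld_le (fun c hc _ => ?_) v
  have h1 := le_tm o.2 c
  have h2 := hc.2
  have h3 := hs c.2
  have : (c.1 : ℝ) < i + 1 := by linarith
  have : c.1 < i + 1 := by exact_mod_cast this
  omega

lemma abs_fy_le {r : ℝ} {i : ℤ} (hr : r ≤ i + 1) (o : Ob V) (v : V) : |fy r o v| ≤ Yb i := by
  rw [← fS_univ]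
  exact abs_fS_le (fun _ => hr) o v

lemma measurable_fld {X : Type*} [MeasurableSpace X] {A : X → Set (ℤ × V)} {o : X → Ob V}
    (hA : ∀ c, MeasurableSet {x | c ∈ A x}) (ho : Measurable o)
    (hI : ∀ x, ∃ I : ℤ, ∀ c ∈ A x, c.1 ≤ I) : Measurable fun x => fld (A x) (o x) := by
  refine measurable_pi_lambda _ fun v => Measurable.tsum fun j => Measurable.ite (hA _) ?_
    measurable_const
  exact measurable_dl.comp (((measurable_st _).comp (measurable_snd.comp ho)).prodMk
    ((measurable_pi_apply _).comp (measurable_fst.comp ho)))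

lemma Rule.measurable_fld {A : Cf V → Set (ℤ × V)} (hA : Rule A) :
    Measurable fun o : Ob V => fld (A o.2) o := by
  obtain ⟨I, hI⟩ := hA.bdd
  exact R160.measurable_fld (fun c => measurable_snd (hA.meas c)) measurable_id
    fun x => ⟨I, hI x.2⟩

lemma measurable_fy : Measurable fun p : ℝ × Ob V => fy p.1 p.2 := by
  refine measurable_fld (A := fun p : ℝ × Ob V => bt p.1 p.2.2) (fun c => ?_) measurable_snd
    fun p => ⟨⌈p.1⌉, fun c hc => ?_⟩
  · exact measurableSet_lt ((measurable_tm c).comp (measurable_snd.comp measurable_snd))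
      measurable_fst
  · have h1 := le_tm p.2.2 c
    have h2 : tm p.2.2 c < p.1 := hc
    have h3 := Int.le_ceil p.1
    have : (c.1 : ℝ) ≤ ⌈p.1⌉ := by linarith
    exact_mod_cast this

lemma measurable_fS (S : Set V) {s : V → ℝ} {I : ℝ} (hs : ∀ v, s v ≤ I) :
    Measurable (fS S s) := by
  refine measurable_fld (A := fun o : Ob V => bef S s o.2) (fun c => ?_) measurable_id
    fun o => ⟨⌈I⌉, fun c hc => ?_⟩
  · exact (MeasurableSet.const _).inter
      (measurableSet_lt ((measurable_tm c).comp measurable_snd) measurable_const)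
  · have h1 := le_tm o.2 c
    have h2 := hc.2
    have h3 := Int.le_ceil I
    have h4 := hs c.2
    have : (c.1 : ℝ) ≤ ⌈I⌉ := by linarith
    exact_mod_cast this

lemma fld_congr {A A' : Set (ℤ × V)} {o o' : Ob V} {v : V}
    (h1 : ∀ j, (j, v) ∈ A ↔ (j, v) ∈ A')
    (h2 : ∀ j, (j, v) ∈ A → o.1 (j, v) = o'.1 (j, v) ∧ o.2 (j, v) = o'.2 (j, v)) :
    fld A o v = fld A' o' v := by
  refine tsum_congr fun j => ?_
  by_cases h : (j, v) ∈ A
  · rw [if_pos h, if_pos ((h1 j).1 h), (h2 j h).1, st, st, (h2 j h).2]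
  · rw [if_neg h, if_neg (mt (h1 j).2 h)]

/-- inactive observations do not matter -/
lemma fld_congr_active {A A' : Set (ℤ × V)} {o : Ob V}
    (h : ∀ c, cl (o.2 c) < 0 → (c ∈ A ↔ c ∈ A')) : fld A o = fld A' o := by
  funext v
  refine tsum_congr fun j => ?_
  by_cases h' : cl (o.2 (j, v)) < 0
  · simp only [h _ h']
  · simp only [st_of_not h', dl_zero, ite_self]

lemma dep_fld (A : Cf V → Set (ℤ × V)) (Ψ : (V → ℝ) → ℝ) :
    Dep A fun o => Ψ (fld (A o.2) o) := by
  intro o o' h1 h2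
  have : fld (A o.2) o = fld (A o'.2) o' := funext fun v =>
    fld_congr (fun j => by rw [h1]) fun j hj => ⟨h2 _ hj, by rw [h1]⟩
  simp only [this]

lemma indicator_fld (S : Set V) (A : Set (ℤ × V)) (o : Ob V) :
    S.indicator (fld A o) = fld (A ∩ {c | c.2 ∈ S}) o := by
  funext v
  by_cases h : v ∈ S
  · rw [Set.indicator_of_mem h]
    exact fld_congr (fun j => by simp [h]) fun _ _ => ⟨rfl, rfl⟩
  · rw [Set.indicator_of_notMem h]
    simp [fld, h]

lemma indicator_fS (S' S : Set V) (s : V → ℝ) (o : Ob V) :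
    S'.indicator (fS S s o) = fS (S ∩ S') s o := by
  rw [fS, indicator_fld, fS]
  congr 1
  ext c
  simp only [bef, Set.mem_inter_iff, Set.mem_setOf_eq]
  tauto

lemma indicator_fy (S : Set V) (r : ℝ) (o : Ob V) :
    S.indicator (fy r o) = fS S (fun _ => r) o := by
  rw [← fS_univ, indicator_fS, Set.univ_inter]

lemma fld_insert {A : Set (ℤ × V)} {o : Ob V} {i : ℤ} (hA : ∀ c ∈ A, cl (o.2 c) < 0 → c.1 ≤ i)
    {b : ℤ × V} (hb : b ∉ A) :
    fld (insert b A) o = fld A o + Pi.single b.2 (dl (st o.2 b) (o.1 b)) := by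
  funext v
  obtain ⟨k, w⟩ := b
  rw [Pi.add_apply]
  by_cases h : v = w
  · subst h
    rw [Pi.single_eq_same, fld, fld, ← tsum_ite_eq k (fun _ => dl (st o.2 (k, v)) (o.1 (k, v))),
      ← (summable_fld hA v).tsum_add (hasSum_ite_eq k _).summable]
    refine tsum_congr fun j => ?_
    by_cases hj : j = k
    · subst hj; simp [hb]
    · simp [hj]
  · rw [Pi.single_eq_of_ne h, add_zero]
    exact fld_congr (fun j => by simp [h]) fun _ _ => ⟨rfl, rfl⟩

lemma tendsto_fld {A : Set (ℤ × V)} {o : Ob V} {i : ℤ} (hA : ∀ c ∈ A, cl (o.2 c) < 0 → c.1 ≤ i) :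
    Tendsto (fun m : ℕ => fld (A ∩ {c | -(m : ℤ) ≤ c.1}) o) atTop (𝓝 (fld A o)) := by
  refine tendsto_pi_nhds.2 fun v => ?_
  refine tendsto_tsum_of_dominated_convergence (summable_eta i) (fun j => ?_)
    (Eventually.of_forall fun m j => norm_fld_term_le (fun c hc => hA c hc.1) v j)
  refine tendsto_const_nhds.congr' ?_
  filter_upwards [eventually_ge_atTop (-j).toNat] with m hm
  have : -(m : ℤ) ≤ j := by omega
  simp [this]

lemma fld_negO (A : Set (ℤ × V)) (o : Ob V) : fld A (negO o) = -fld A o := by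
  funext v
  rw [Pi.neg_apply, fld, fld, ← tsum_neg]
  refine tsum_congr fun j => ?_
  by_cases h : (j, v) ∈ A
  · simp only [if_pos h, negO, Pi.neg_apply, dl_neg]
  · simp only [if_neg h, neg_zero]

lemma fy_negO (r : ℝ) (o : Ob V) : fy r (negO o) = -fy r o := by
  exact fld_negO _ o

lemma fS_negO (S : Set V) (s : V → ℝ) (o : Ob V) : fS S s (negO o) = -fS S s o := by
  exact fld_negO _ o

lemma fy_pullO (g : V → V) (r : ℝ) (o : Ob V) : fy r (pullO g o) = fy r o ∘ g := by
  rfl

lemma fS_agree {r : ℝ} {S : Set V} {s : V → ℝ} (hs : ∀ v, s v ≤ r) {o o' : Ob V}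
    (h : Agree r o o') : fS S s o = fS S s o' := by
  funext v
  refine fld_congr (fun j => ?_) fun j hj => h _ (Or.inl (hj.2.trans_le (hs v)))
  have key : ∀ {o o' : Ob V}, Agree r o o' → (j, v) ∈ bef S s o.2 → (j, v) ∈ bef S s o'.2 := by
    intro o o' h hj
    refine ⟨hj.1, ?_⟩
    have := (h _ (Or.inl (hj.2.trans_le (hs v)))).2
    have h2 := hj.2
    rw [tm] at h2 ⊢
    rwa [← this]
  exact ⟨key h, key fun c hc => ⟨(h c hc.symm).1.symm, (h c hc.symm).2.symm⟩⟩

lemma fy_agree {r : ℝ} {o o' : Ob V} (h : Agree r o o') : fy r o = fy r o' := by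
  rw [← fS_univ, ← fS_univ]
  exact fS_agree (fun _ => le_rfl) h

lemma rule_bt (r : ℝ) : Rule (bt r : Cf V → Set (ℤ × V)) := by
  refine ⟨fun c => measurableSet_lt (measurable_tm c) measurable_const, ⌈r⌉, fun T c hc => ?_⟩
  have h1 := le_tm T c
  have h2 : tm T c < r := hc
  have h3 := Int.le_ceil r
  have : (c.1 : ℝ) ≤ ⌈r⌉ := by linarith
  exact_mod_cast this

lemma rule_bef (S : Set V) {s : V → ℝ} {I : ℝ} (hs : ∀ v, s v ≤ I) : Rule (bef S s) := by
  refine ⟨fun c => (MeasurableSet.const _).inter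
    (measurableSet_lt (measurable_tm c) measurable_const), ⌈I⌉, fun T c hc => ?_⟩
  have h1 := le_tm T c
  have h2 := hc.2
  have h3 := Int.le_ceil I
  have h4 := hs c.2
  have : (c.1 : ℝ) ≤ ⌈I⌉ := by linarith
  exact_mod_cast this

lemma rule_btm (b : ℤ × V) : Rule fun T : Cf V => bt (tm T b) T := by
  refine ⟨fun c => measurableSet_lt (measurable_tm c) (measurable_tm b), b.1 + 2, fun T c hc => ?_⟩
  have h1 := le_tm T c
  have h2 : tm T c < tm T b := hc
  have h3 := tm_le T b
  have : (c.1 : ℝ) ≤ b.1 + 2 := by linarith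
  exact_mod_cast this

lemma Rule.inter {A B : Cf V → Set (ℤ × V)} (hA : Rule A) (hB : ∀ c, MeasurableSet {T | c ∈ B T}) :
    Rule fun T => B T ∩ A T := by
  obtain ⟨I, hI⟩ := hA.bdd
  exact ⟨fun c => (hB c).inter (hA.meas c), I, fun T c hc => hI T c hc.2⟩

lemma Rule.insert {A : Cf V → Set (ℤ × V)} (hA : Rule A) (b : ℤ × V) :
    Rule fun T => insert b (A T) := by
  obtain ⟨I, hI⟩ := hA.bdd
  refine ⟨fun c => (MeasurableSet.const _).union (hA.meas c), max I b.1, fun T c hc => ?_⟩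
  rcases hc with rfl | hc
  · exact le_max_right _ _
  · exact (hI T c hc).trans (le_max_left _ _)

lemma Adapted.dep {r : ℝ} {F : Ob V → ℝ} (h : Adapted r F) : Dep (bt r) F := by
  intro o o' h1 h2
  refine h o o' fun c hc => ⟨h2 c ?_, by rw [h1]⟩
  rw [← h1, or_self] at hc
  exact hc

lemma dep_of_adapted (b : ℤ × V) {F : ℝ → Ob V → ℝ} (h : ∀ r, Adapted r (F r)) :
    Dep (fun T => bt (tm T b) T) fun o => F (tm o.2 b) o := by
  intro o o' h1 h2
  have := (h (tm o.2 b)).dep o o' h1 h2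
  simp only
  rw [this, h1]

lemma measurable_obs : Measurable (obs : Om V → Ob V) := by
  refine Measurable.prodMk (measurable_pi_lambda _ fun c => Measurable.mul ?_ ?_)
    (measurable_snd.comp measurable_snd)
  · exact measurable_sp.comp ((measurable_pi_apply _).comp measurable_fst)
  · exact measurable_Qf.comp (((measurable_st c).comp (measurable_snd.comp measurable_snd)).prodMk
      ((measurable_pi_apply c).comp (measurable_fst.comp measurable_snd)))

lemma abs_obs_le (ω : Om V) (c : ℤ × V) : |(obs ω).1 c| ≤ 1 := by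
  simp only [obs]
  rw [abs_mul, abs_sp, one_mul]
  exact abs_Qf_le (by rw [abs_of_nonneg (st_nonneg _ _)]; exact st_le _ _) _

lemma obs_flip (ω : Om V) : obs (flip ω) = negO (obs ω) := by
  refine Prod.ext (funext fun c => ?_) rfl
  simp only [obs, flip, negO, Pi.neg_apply, sp_not, neg_mul]

lemma obs_pull (g : V → V) (ω : Om V) : obs (pull g ω) = pullO g (obs ω) := rfl

lemma depOn_fS {S' : Set V} {Ψ : (V → ℝ) → ℝ} (hΨ : DependsOn Ψ S') (S : Set V) (s : V → ℝ) :
    DepOn S' fun ω => Ψ (fS S s (obs ω)) := by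
  intro ω ω' h
  refine hΨ fun v hv => fld_congr (fun j => ?_) fun j _ => ⟨?_, ((h v hv).2 j).2⟩
  · simp only [bef, obs, Set.mem_setOf_eq, tm, ((h v hv).2 j).2]
  · simp only [obs, st, (h v hv).1, ((h v hv).2 j).1, ((h v hv).2 j).2]

lemma depOn_fy {S' : Set V} {Ψ : (V → ℝ) → ℝ} (hΨ : DependsOn Ψ S') (r : ℝ) :
    DepOn S' fun ω => Ψ (fy r (obs ω)) := by
  simp only [← fS_univ]
  exact depOn_fS hΨ _ _

/-- as `ae_injective` in Crest/Agent/R168/Labels.lean: for `c ≠ c'` the pair `(T c, T c')` has law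
`lam ⊗ lam`, `|T c| ≤ 1` a.s., and `lam` has no atoms. -/
lemma ae_tm_inj [Countable V] (ν : Measure (V → Bool)) [IsProbabilityMeasure ν] :
    ∀ᵐ ω ∂PP ν, Function.Injective (tm ω.2.2) := by
  have hlam : ∀ x : ℝ, lam {x} = 0 := fun x => by simp [lam]
  have h0 : ∀ c c' : ℤ × V, ∀ᵐ T ∂Lam V, (c.1 : ℝ) + T c = c'.1 + T c' → c = c' := by
    intro c c'
    by_cases hij : c = c'
    · exact ae_of_all _ fun _ _ => hij
    have h1 := Measure.infinitePi_map_eval_prod (P := fun _ : ℤ × V => lam) hij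
    have hm : MeasurableSet {p : ℝ × ℝ | c.1 + p.1 = c'.1 + p.2} :=
      measurableSet_eq_fun (by fun_prop) (by fun_prop)
    have h2 : (lam.prod lam) {p : ℝ × ℝ | c.1 + p.1 = c'.1 + p.2} = 0 := by
      rw [Measure.prod_apply hm]
      have : ∀ x : ℝ, lam (Prod.mk x ⁻¹' {p : ℝ × ℝ | c.1 + p.1 = c'.1 + p.2}) = 0 := by
        intro x
        have : Prod.mk x ⁻¹' {p : ℝ × ℝ | c.1 + p.1 = c'.1 + p.2} = {c.1 + x - c'.1} := by
          ext y
          simp only [Set.mem_preimage, Set.mem_setOf_eq, Set.mem_singleton_iff]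
          constructor <;> intro h <;> linarith
        rw [this, hlam]
      simp only [this, lintegral_zero]
    rw [← h1, Measure.map_apply (by fun_prop) hm] at h2
    have h3 : ∀ᵐ T ∂Lam V, ¬ ((c.1 : ℝ) + T c = c'.1 + T c') := by
      rw [ae_iff]
      simpa [Lam] using h2
    filter_upwards [h3] with T hT h using absurd h hT
  have h1 : ∀ c : ℤ × V, ∀ᵐ T ∂Lam V, |T c| ≤ 1 := fun c =>
    (measurePreserving_eval_infinitePi (fun _ : ℤ × V => lam) c).quasiMeasurePreserving.ae ae_lam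
  have h2 : ∀ᵐ T ∂Lam V, Function.Injective (tm T) := by
    filter_upwards [ae_all_iff.2 fun c => ae_all_iff.2 (h0 c), ae_all_iff.2 h1] with T hT hT1
    intro c c' h
    rw [tm, tm, cl_of_abs_le (hT1 c), cl_of_abs_le (hT1 c')] at h
    exact hT c c' (by linarith)
  have h3 : MeasurePreserving (fun ω : Om V => ω.2.2) (PP ν) (Lam V) :=
    measurePreserving_snd.comp measurePreserving_snd
  exact h3.quasiMeasurePreserving.ae h2

lemma abs_mm_le (ν : Measure (V → Bool)) [IsProbabilityMeasure ν] (r : ℝ) (u : V) (o : Ob V) :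
    |mm G ν r u o| ≤ 1 := by
  exact abs_Mg_le ν u _

lemma measurable_mm (ν : Measure (V → Bool)) [IsProbabilityMeasure ν] (u : V) :
    Measurable fun p : ℝ × Ob V => mm G ν p.1 u p.2 := by
  exact (measurable_Mg ν u).comp measurable_fy

lemma measurable_mm' (ν : Measure (V → Bool)) [IsProbabilityMeasure ν] (r : ℝ) (u : V) :
    Measurable (mm G ν r u) := by
  have h : Measurable fun o : Ob V => fy r o :=
    measurable_fy.comp (f := fun o : Ob V => (r, o)) measurable_prodMk_left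
  exact (measurable_Mg ν u).comp h

lemma adapted_mm (ν : Measure (V → Bool)) (r : ℝ) (u : V) : Adapted r (mm G ν r u) := by
  intro o o' h
  rw [mm, mm, fy_agree h]

lemma mm_negO (hW : Wd G d θ ν) (r : ℝ) (u : V) (o : Ob V) :
    mm G ν r u (negO o) = -mm G ν r u o := by
  rw [mm, mm, fy_negO, Mg_neg hW]

lemma mm_pullO (hW : Wd G d θ ν) (g : G ≃g G) (r : ℝ) (u : V) (o : Ob V) :
    mm G ν r u (pullO g o) = mm G ν r (g u) o := by
  rw [mm, mm, fy_pullO, Mg_iso hW]

lemma mm_bound (hT : Tr G d) (I : ℕ) : ∃ δ : ℝ, 0 < δ ∧ ∀ (θ : ℝ) (ν : Measure (V → Bool)),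
    Wd G d θ ν → ∀ r : ℝ, r ≤ I + 1 → ∀ (u : V) (o : Ob V), |mm G ν r u o| ≤ 1 - δ := by
  obtain ⟨δ, hδ, h⟩ := Mg_bound hT (Yb I)
  exact ⟨δ, hδ, fun θ ν hW r hr u o => h θ ν hW u _ (abs_fy_le (by exact_mod_cast hr) o u)⟩

lemma measurable_innov (ν : Measure (V → Bool)) [IsProbabilityMeasure ν] :
    Measurable (innov G ν) := by
  refine Measurable.prodMk (measurable_pi_lambda _ fun c => ?_) measurable_snd
  have h0 : Measurable fun o : Ob V => (tm o.2 c, o) :=
    ((measurable_tm c).comp measurable_snd).prodMk measurable_id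
  have h1 : Measurable fun o : Ob V => fy (tm o.2 c) o :=
    measurable_fy.comp (f := fun o : Ob V => (tm o.2 c, o)) h0
  have h2 : Measurable fun o : Ob V => mm G ν (tm o.2 c) c.2 o := (measurable_Mg ν c.2).comp h1
  have h3 : Measurable fun o : Ob V => st o.2 c := (measurable_st c).comp measurable_snd
  have h4 : Measurable fun o : Ob V => o.1 c := (measurable_pi_apply c).comp measurable_fst
  exact measurable_Ff.comp (f := fun o : Ob V => (st o.2 c * mm G ν (tm o.2 c) c.2 o, o.1 c))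
    ((h3.mul h2).prodMk h4)

lemma innov_agree (ν : Measure (V → Bool)) {r : ℝ} {o o' : Ob V} (h : Agree r o o') :
    Agree r (innov G ν o) (innov G ν o') := by
  intro c hc
  have h1 := h c hc
  refine ⟨?_, h1.2⟩
  have ht : tm o.2 c = tm o'.2 c := by rw [tm, tm, h1.2]
  have hr : tm o.2 c < r := by
    rcases hc with hc | hc
    · exact hc
    · rw [ht]; exact hc
  simp only [innov]
  rw [← ht, adapted_mm ν _ c.2 o o' (h.mono hr.le), h1.1, st, st, h1.2]

lemma innov_negO (hW : Wd G d θ ν) (o : Ob V) : innov G ν (negO o) = negO (innov G ν o) := by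
  refine Prod.ext (funext fun c => ?_) rfl
  simp only [innov, mm_negO hW]
  simp only [negO, Pi.neg_apply, mul_neg, Ff_neg]

lemma innov_pullO (hW : Wd G d θ ν) (g : G ≃g G) (o : Ob V) :
    innov G ν (pullO g o) = pullO g (innov G ν o) := by
  refine Prod.ext (funext fun c => ?_) rfl
  simp only [innov, mm_pullO hW]
  rfl

lemma coup_refl (ν : Measure (V → Bool)) : Coup G ν ν id := by
  exact ⟨measurable_id, fun _ => rfl, fun _ _ => rfl, fun _ => rfl, fun _ _ _ h => h, rfl,
    ae_of_all _ fun _ => rfl⟩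

lemma Coup.integral_eq {ν ν' : Measure (V → Bool)} {Γ : Ob V → Ob V} (h : Coup G ν ν' Γ)
    {F : Ob V → ℝ} (hF : Measurable F) :
    ∫ ω, F (Γ (obs ω)) ∂PP ν = ∫ ω, F (obs ω) ∂PP ν' := by
  have hm : Measurable fun ω : Om V => Γ (obs ω) := h.meas.comp measurable_obs
  rw [← integral_map hm.aemeasurable hF.aestronglyMeasurable,
    ← integral_map measurable_obs.aemeasurable hF.aestronglyMeasurable, h.law]

lemma Coup.ae {ν ν' : Measure (V → Bool)} {Γ : Ob V → Ob V} (h : Coup G ν ν' Γ)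
    {P : Ob V → Prop} (hP : MeasurableSet {o | P o}) (h' : ∀ᵐ ω ∂PP ν', P (obs ω)) :
    ∀ᵐ ω ∂PP ν, P (Γ (obs ω)) := by
  have h1 := (ae_map_iff measurable_obs.aemeasurable hP).2 h'
  rw [← h.law] at h1
  exact (ae_map_iff (h.meas.comp measurable_obs).aemeasurable hP).1 h1

end

end Crest.Agent.R160
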