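import Crest.Agent.R160.TreeB

/-!
Row 160, Hom: a regular tree is two-point homogeneous.

Sketch.  For roots `x, x'` let `ch x w` be the set of neighbours `c` of `w` with
`dist x c = dist x w + 1`: it is `neighborFinset x` for `w = x` and `kids w (tw x w)` otherwise
(card `d` resp. `d-1`).  For every pair `(w, w')` with `dist x w = dist x' w'` choose a bijection
`β w w' : V → V` from `ch x w` onto `ch x' w'` (`Finset.exists_bijOn_of_card_eq`-like, or
`Finset.equivOfCardEq`) which, when `w` lies on the geodesic `x → y` strictly before `y` and `w'` on the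
geodesic `x' → y'` (same level), sends the next vertex `tw y w` to `tw y' w'` (compose with a swap).
Define `g` by strong recursion on `dist x v`: `g x = x'`, `g v = β (tw x v) (g (tw x v)) v`.
By induction on the level: `dist x' (g v) = dist x v`, `tw x' (g v) = g (tw x v)` (`v ≠ x`), `g` is
injective, surjective, `g` maps the geodesic to the geodesic, and
`Adj v w ↔ (v ≠ x ∧ w = tw x v) ∨ (w ≠ x ∧ v = tw x w)` (`adj_dist`, `tw_eq`) gives `map_rel_iff`.
-/

set_option autoImplicit false

open MeasureTheory Filter Topology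
open scoped Classical

namespace Crest.Agent.R160

noncomputable section

universe u

variable {V : Type u} {G : SimpleGraph V} [G.LocallyFinite] {d : ℕ}

lemma exists_bij {s t : Finset V} (h : s.card = t.card) (a b : V) :
    ∃ β : V → V, Set.BijOn β s t ∧ (a ∈ s → b ∈ t → β a = b) := by
  obtain ⟨e, he⟩ : ∃ e : s ≃ t, ∀ (ha : a ∈ s) (hb : b ∈ t), e ⟨a, ha⟩ = ⟨b, hb⟩ := by
    by_cases hab : a ∈ s ∧ b ∈ t
    · exact ⟨(Finset.equivOfCardEq h).trans
        (Equiv.swap (Finset.equivOfCardEq h ⟨a, hab.1⟩) ⟨b, hab.2⟩), fun _ _ => by simp⟩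
    · exact ⟨Finset.equivOfCardEq h, fun ha hb => absurd ⟨ha, hb⟩ hab⟩
  refine ⟨fun c => if hc : c ∈ s then e ⟨c, hc⟩ else c, ⟨fun c hc => ?_, fun c hc c' hc' hcc => ?_,
    fun c hc => ⟨e.symm ⟨c, hc⟩, (e.symm ⟨c, hc⟩).2, by simp⟩⟩, fun ha hb => by simp [ha, he ha hb]⟩
  · simp only [dif_pos (Finset.mem_coe.1 hc)]
    exact (e _).2
  · simp only [dif_pos (Finset.mem_coe.1 hc), dif_pos (Finset.mem_coe.1 hc')] at hcc
    exact congrArg Subtype.val (e.injective (Subtype.ext hcc))

variable (G) in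
/-- the children of `w` seen from the root `x` -/
def ch (x w : V) : Finset V := (G.neighborFinset w).filter fun c => G.dist x c = G.dist x w + 1

lemma mem_ch {x w c : V} : c ∈ ch G x w ↔ G.Adj w c ∧ G.dist x c = G.dist x w + 1 := by
  simp [ch]

lemma card_ch (hT : Tr G d) (x w : V) :
    (ch G x w).card = if G.dist x w = 0 then d else d - 1 := by
  split_ifs with h
  · obtain rfl := hT.dist_eq_zero.1 h
    rw [ch, Finset.filter_true_of_mem fun c hc => by
      rw [dist_adj ((G.mem_neighborFinset _ _).1 hc), h], G.card_neighborFinset_eq_degree,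
      hT.reg.degree_eq]
  · have hne : x ≠ w := fun h' => h (hT.dist_eq_zero.2 h')
    rw [← card_kids hT (tw_adj hT hne)]
    congr 1
    ext c
    rw [mem_ch, mem_kids]
    refine and_congr_right fun hc => ⟨fun h1 h2 => ?_, fun h1 => ?_⟩
    · have := dist_tw hT hne
      rw [h2] at h1
      omega
    · exact ((adj_dist hT hc x).resolve_left fun h2 => h1 (tw_eq hT hc h2).symm).symm

lemma adj_iff_tw (hT : Tr G d) (x v w : V) :
    G.Adj v w ↔ (x ≠ v ∧ w = tw G x v) ∨ (x ≠ w ∧ v = tw G x w) := by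
  constructor
  · intro h
    rcases adj_dist hT h x with h1 | h1
    · refine Or.inl ⟨?_, (tw_eq hT h h1).symm⟩
      rintro rfl
      simp at h1
    · refine Or.inr ⟨?_, (tw_eq hT h.symm h1).symm⟩
      rintro rfl
      simp at h1
  · rintro (⟨h, rfl⟩ | ⟨h, rfl⟩)
    · exact tw_adj hT h
    · exact (tw_adj hT h).symm

variable (G) in
/-- the recursion on levels -/
def lvl (x x' : V) (β : V → V → V → V) : ℕ → V → V
  | 0, _ => x'
  | n + 1, v => β (tw G x v) (lvl x x' β n (tw G x v)) v

lemma dist_ind (hT : Tr G d) (x : V) {P : V → Prop} (h0 : P x)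
    (h1 : ∀ v, x ≠ v → P (tw G x v) → P v) (v : V) : P v := by
  induction hn : G.dist x v generalizing v with
  | zero => exact hT.dist_eq_zero.1 hn ▸ h0
  | succ n ih =>
    have hne : x ≠ v := by
      rintro rfl
      simp at hn
    have := dist_tw hT hne
    exact h1 v hne (ih _ (by omega))

theorem exists_iso (hT : Tr G d) {x y x' y' : V} (h : G.dist x y = G.dist x' y') :
    ∃ g : G ≃g G, g x = x' ∧ g y = y' := by
  have hβ : ∀ w w', ∃ β : V → V, G.dist x w = G.dist x' w' →
      Set.BijOn β (ch G x w) (ch G x' w') ∧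
        (tw G y w ∈ ch G x w → tw G y' w' ∈ ch G x' w' → β (tw G y w) = tw G y' w') := by
    intro w w'
    by_cases hw : G.dist x w = G.dist x' w'
    · obtain ⟨β, hβ⟩ := exists_bij (show (ch G x w).card = (ch G x' w').card by
        rw [card_ch hT, card_ch hT, hw]) (tw G y w) (tw G y' w')
      exact ⟨β, fun _ => hβ⟩
    · exact ⟨id, fun h => absurd h hw⟩
  choose β hβ using hβ
  obtain ⟨g, g0, g1⟩ : ∃ g : V → V, g x = x' ∧
      ∀ v, x ≠ v → g v = β (tw G x v) (g (tw G x v)) v :=
    ⟨fun v => lvl G x x' β (G.dist x v) v, by simp [lvl], fun v hv => by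
      simp only [← dist_tw hT hv, lvl]⟩
  have hch : ∀ v, x ≠ v → v ∈ ch G x (tw G x v) := fun v hv =>
    mem_ch.2 ⟨(tw_adj hT hv).symm, (dist_tw hT hv).symm⟩
  have hd : ∀ v, G.dist x v = G.dist x' (g v) := by
    refine dist_ind hT x (by simp [g0]) fun v hv ih => ?_
    rw [g1 v hv, (mem_ch.1 ((hβ _ _ ih).1.mapsTo (hch v hv))).2, ← ih, dist_tw hT hv]
  have hne : ∀ v, x' ≠ g v ↔ x ≠ v := fun v => by
    rw [Ne, Ne, ← hT.dist_eq_zero, ← hT.dist_eq_zero, hd]
  have htw : ∀ v, x ≠ v → tw G x' (g v) = g (tw G x v) := fun v hv => by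
    have := mem_ch.1 ((hβ _ _ (hd _)).1.mapsTo (hch v hv))
    rw [← g1 v hv] at this
    exact tw_eq hT this.1.symm this.2.symm
  have hinj : ∀ v w, g v = g w → v = w := by
    refine dist_ind hT x (fun w hw => by_contra fun hc => (hne w).2 hc (g0.symm.trans hw))
      fun v hv ih w hw => ?_
    have hw' : x ≠ w := (hne w).1 (hw ▸ (hne v).2 hv)
    have h1 : tw G x v = tw G x w := ih _ (by rw [← htw v hv, ← htw w hw', hw])
    rw [g1 v hv, g1 w hw', ← h1] at hw
    exact (hβ _ _ (hd _)).1.injOn (hch v hv) (h1 ▸ hch w hw') hw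
  have hsurj : ∀ v', ∃ v, g v = v' := by
    refine dist_ind hT x' ⟨x, g0⟩ fun v' hv' ⟨p, hp⟩ => ?_
    obtain ⟨c, hc, hc'⟩ := (hβ p (g p) (hd p)).1.surjOn (show v' ∈ ch G x' (g p) from
      mem_ch.2 (hp ▸ ⟨(tw_adj hT hv').symm, (dist_tw hT hv').symm⟩))
    obtain ⟨h1, h2⟩ := mem_ch.1 hc
    have h3 : x ≠ c := by
      rintro rfl
      simp at h2
    exact ⟨c, by rw [g1 c h3, tw_eq hT h1.symm h2.symm, hc']⟩
  have hy : ∀ v, G.dist x v + G.dist y v = G.dist x y →
      G.dist x' (g v) + G.dist y' (g v) = G.dist x' y' := by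
    refine dist_ind hT x (fun _ => by simp [g0, SimpleGraph.dist_comm]) fun v hv ih h1 => ?_
    have h2 := dist_tw hT hv
    have h3 := adj_dist hT (tw_adj hT hv) y
    have h4 := hT.triangle x (tw G x v) y
    rw [SimpleGraph.dist_comm (v := y) (u := tw G x v)] at h4
    have h5 := ih (by omega)
    have h6 := hd (tw G x v)
    have h7 : tw G y (tw G x v) = v := tw_eq hT (tw_adj hT hv).symm (by omega)
    have h8 : y' ≠ g (tw G x v) := by
      intro h9
      rw [← h9] at h6
      omega
    have h9 := dist_tw hT h8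
    have h10 := adj_dist hT (tw_adj hT h8) x'
    have h11 := hT.triangle x' (tw G y' (g (tw G x v))) y'
    rw [SimpleGraph.dist_comm (v := y') (u := tw G y' _)] at h11
    have h12 := (hβ _ _ h6).2 (by rw [h7]; exact hch v hv) (mem_ch.2 ⟨tw_adj hT h8, by omega⟩)
    rw [h7, ← g1 v hv] at h12
    rw [h12]
    omega
  refine ⟨⟨Equiv.ofBijective g ⟨hinj, hsurj⟩, fun {v w} => ?_⟩, g0, ?_⟩
  · change G.Adj (g v) (g w) ↔ _
    rw [adj_iff_tw hT x', adj_iff_tw hT x, hne, hne]
    refine or_congr (and_congr_right fun hv => ?_) (and_congr_right fun hw => ?_)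
    · rw [htw v hv]
      exact ⟨hinj _ _, congrArg g⟩
    · rw [htw w hw]
      exact ⟨hinj _ _, congrArg g⟩
  · have h1 := hy y (by simp)
    have h2 := hd y
    exact (hT.dist_eq_zero.1 (show G.dist y' (g y) = 0 by omega)).symm

/-- mass transport for pair functions -/
theorem symm_of_inv (hT : Tr G d) {F : V → V → ℝ}
    (hF : ∀ (g : G ≃g G) (u v : V), F (g u) (g v) = F u v) (u v : V) : F u v = F v u := by
  obtain ⟨g, h1, h2⟩ := exists_iso hT (SimpleGraph.dist_comm (G := G) (u := u) (v := v))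
  rw [← hF g u v, h1, h2]

end

end Crest.Agent.R160
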