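import Crest.Agent.R160.TreeB

/-!
Row 160, IsingA: existence of the free Ising measure.

Sketch of `isIsing_rep`.  Let `S` be connected (hence nonempty), `z ∈ S` a point of `S` closest to
`x`.  By `tw_mem_of_connected`, for `w ∈ S.erase z`: `w ≠ x`, `tw x w ∈ S`.  With `cfg_step`,
`(∀ v ∈ S, cfg x s τ v = η v) ↔ cfg x s τ z = η z ∧ ∀ w ∈ S.erase z, τ w = xor (η w) (η (tw x w))`
(⇐ by induction on `dist x v`).  For each fixed `τ` exactly one `s` satisfies the first condition,
so (Tonelli, `Measure.prod_apply_symm`, `coin 0 {s} = 1/2`) the probability is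
`1/2 * ∏ w ∈ S.erase z, coin θ {xor (η w) (η (tw x w))}` (`Measure.infinitePi_pi`).
Finally `w ↦ s(w, tw x w)` is a bijection from `S.erase z` onto the edges inside `S`
(for an edge `a ∼ b` inside `S` use `adj_dist`, `tw_eq`, and minimality of `z`); `Finset.prod_bij`.
-/

set_option autoImplicit false

open MeasureTheory Filter Topology
open scoped Classical

namespace Crest.Agent.R160

noncomputable section

universe u

variable {V : Type u} {G : SimpleGraph V} [G.LocallyFinite] {d : ℕ} {θ : ℝ}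
  {ν : Measure (V → Bool)}

lemma cfg_self (hT : Tr G d) (x : V) (s : Bool) (τ : V → Bool) : cfg G x s τ x = s := by
  simp [cfg, pth_self hT]

lemma cfg_step (hT : Tr G d) {x v : V} (h : x ≠ v) (s : Bool) (τ : V → Bool) :
    cfg G x s τ v = xor (cfg G x s τ (tw G x v)) (τ v) := by
  have h1 := notMem_pth_tw hT h
  unfold cfg
  rw [pth_eq_insert_last hT h, Finset.filter_insert]
  cases hv : τ v
  · simp
  · rw [if_pos rfl, Finset.card_insert_of_notMem fun h => h1 (Finset.mem_filter.1 h).1]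
    simp [Nat.odd_add_one, -Nat.not_odd_iff_even]

lemma measurable_cfg (x : V) : Measurable fun p : Bool × (V → Bool) => cfg G x p.1 p.2 := by
  refine measurable_pi_lambda _ fun v => ?_
  simp only [cfg, Finset.card_filter]
  refine (measurable_of_countable fun q : Bool × ℕ => xor q.1 (decide (Odd q.2))).comp
    (f := fun p : Bool × (V → Bool) => (p.1, ∑ w ∈ pth G x v, if p.2 w = true then 1 else 0))
    (measurable_fst.prodMk (Finset.measurable_fun_sum _ fun w _ => ?_))
  exact (measurable_of_countable fun b : Bool => if b = true then 1 else 0).comp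
    ((measurable_pi_apply w).comp measurable_snd)

instance (θ : ℝ) (x : V) : IsProbabilityMeasure (rep G θ x) :=
  Measure.isProbabilityMeasure_map (measurable_cfg x).aemeasurable

lemma ia_coin {θ : ℝ} (h : |θ| ≤ 1) (b : Bool) :
    coin θ {b} = ENNReal.ofReal (if b then (1 - θ) / 2 else (1 + θ) / 2) := by
  cases b <;> simp [coin, cl_of_abs_le h]

lemma ia_iff (hT : Tr G d) {S : Finset V} {x z : V} (hS : ∀ w ∈ S, w ≠ z → w ≠ x ∧ tw G x w ∈ S)
    (hz : z ∈ S) (η : V → Bool) (s : Bool) (τ : V → Bool) :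
    (∀ v ∈ S, cfg G x s τ v = η v) ↔
      cfg G x s τ z = η z ∧ ∀ w ∈ S.erase z, τ w = xor (η w) (η (tw G x w)) := by
  refine ⟨fun h => ⟨h z hz, fun w hw => ?_⟩, fun h v => ?_⟩
  · obtain ⟨hw1, hw⟩ := Finset.mem_erase.1 hw
    obtain ⟨h1, h2⟩ := hS w hw hw1
    rw [← h w hw, ← h _ h2, cfg_step hT h1.symm]
    cases cfg G x s τ (tw G x w) <;> simp
  · induction hn : G.dist x v using Nat.strong_induction_on generalizing v with
    | _ n ih =>
    intro hv
    by_cases hvz : v = z
    · rw [hvz, h.1]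
    · obtain ⟨h1, h2⟩ := hS v hv hvz
      rw [cfg_step hT h1.symm, ih _ (by have := dist_tw hT h1.symm; omega) _ rfl h2,
        h.2 v (Finset.mem_erase.2 ⟨hvz, hv⟩)]
      cases η (tw G x v) <;> simp

lemma ia_prod (hT : Tr G d) {S : Finset V} {x z : V} (hS : ∀ w ∈ S, w ≠ z → w ≠ x ∧ tw G x w ∈ S)
    (hmin : ∀ v ∈ S, G.dist x z ≤ G.dist x v) (f : Sym2 V → ℝ) :
    ∏ w ∈ S.erase z, f s(w, tw G x w) = ∏ e ∈ S.sym2 with e ∈ G.edgeSet, f e := by
  refine Finset.prod_bij (fun w _ => s(w, tw G x w)) (fun w hw => ?_) (fun w hw w' hw' h => ?_)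
    (fun e he => ?_) fun _ _ => rfl
  · obtain ⟨hw1, hw⟩ := Finset.mem_erase.1 hw
    obtain ⟨h1, h2⟩ := hS w hw hw1
    simp [hw, h2, tw_adj hT h1.symm]
  · obtain ⟨hw1, hw⟩ := Finset.mem_erase.1 hw
    obtain ⟨hw1', hw'⟩ := Finset.mem_erase.1 hw'
    have h1 := dist_tw hT (hS w hw hw1).1.symm
    have h2 := dist_tw hT (hS w' hw' hw1').1.symm
    rcases Sym2.eq_iff.1 h with h | h
    · exact h.1
    · rw [h.2] at h1
      rw [← h.1] at h2
      omega
  · induction e using Sym2.ind with
    | _ a b =>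
    simp only [Finset.mem_filter, Finset.mk_mem_sym2_iff, SimpleGraph.mem_edgeSet] at he
    rcases adj_dist hT he.2 x with h | h
    · refine ⟨a, Finset.mem_erase.2 ⟨?_, he.1.1⟩, by rw [tw_eq hT he.2 h]⟩
      rintro rfl
      have := hmin b he.1.2
      omega
    · refine ⟨b, Finset.mem_erase.2 ⟨?_, he.1.2⟩, by rw [tw_eq hT he.2.symm h, Sym2.eq_swap]⟩
      rintro rfl
      have := hmin a he.1.1
      omega

theorem isIsing_rep (hT : Tr G d) (h0 : 0 ≤ θ) (h1 : θ ≤ 1) (x : V) :
    IsIsing G θ (rep G θ x) := by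
  intro S η hS
  obtain ⟨⟨z0, hz0⟩⟩ := hS.nonempty
  obtain ⟨z, hz, hmin⟩ := S.exists_min_image (G.dist x) ⟨z0, hz0⟩
  have hc : ∀ w ∈ S, w ≠ z → w ≠ x ∧ tw G x w ∈ S := fun w hw hne =>
    tw_mem_of_connected hT hS hz hmin hw hne
  have hm : MeasurableSet {σ : V → Bool | ∀ v ∈ S, σ v = η v} := by
    simp only [Set.ofPred_forall]
    exact Finset.measurableSet_biInter _ fun v _ =>
      measurableSet_eq_fun (measurable_pi_apply v) measurable_const
  have hA : MeasurableSet ((S.erase z : Set V).pi fun w => {xor (η w) (η (tw G x w))}) :=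
    MeasurableSet.pi (Set.to_countable _) fun _ _ => measurableSet_singleton _
  have h2 : ∀ τ : V → Bool, coin 0 ((fun s => (s, τ)) ⁻¹' ((fun p : Bool × (V → Bool) =>
      cfg G x p.1 p.2) ⁻¹' {σ | ∀ v ∈ S, σ v = η v})) = ((S.erase z : Set V).pi fun w =>
        {xor (η w) (η (tw G x w))}).indicator (fun _ => ENNReal.ofReal (1 / 2)) τ := fun τ => by
    simp only [Set.preimage_ofPred_eq, ia_iff hT hc hz]
    by_cases h : ∀ w ∈ S.erase z, τ w = xor (η w) (η (tw G x w))
    · rw [Set.indicator_of_mem (by exact h)]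
      have : {s | cfg G x s τ z = η z ∧ ∀ w ∈ S.erase z, τ w = xor (η w) (η (tw G x w))} =
          {xor (η z) (cfg G x false τ z)} := by
        ext s
        simp only [Set.mem_ofPred_eq, and_iff_left h, cfg, Set.mem_singleton_iff]
        cases s <;> cases η z <;> simp
      rw [this, ia_coin (by simp)]
      simp
    · rw [Set.indicator_of_notMem (by exact h)]
      simp only [h, and_false, Set.ofPred_false, measure_empty]
  have hθ : |θ| ≤ 1 := by rwa [abs_of_nonneg h0]
  rw [rep, Measure.map_apply (measurable_cfg x) hm, Measure.prod_apply_symm (measurable_cfg x hm),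
    lintegral_congr h2, lintegral_indicator_const hA,
    Measure.infinitePi_pi _ fun _ _ => measurableSet_singleton _,
    Crest.ProbabilityR.TreeIsing.isingWeight, ENNReal.ofReal_mul (by norm_num)]
  congr 1
  simp only [ia_coin hθ]
  rw [← ENNReal.ofReal_prod_of_nonneg fun w _ => by split_ifs <;> linarith]
  congr 1
  refine Eq.trans (Finset.prod_congr rfl fun w _ => ?_) ((ia_prod hT hc hmin _).trans (by congr))
  simp only [Sym2.map_mk, Sym2.mk_isDiag_iff]
  cases η w <;> cases η (tw G x w) <;> simp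

theorem exists_wd (hT : Tr G d) (h0 : 0 ≤ θ) (h1 : ((d : ℝ) - 1) * θ ^ 2 ≤ 1) :
    ∃ ν, Wd G d θ ν := by
  obtain ⟨x⟩ := hT.tree.isConnected.nonempty
  have := hT.two_le
  exact ⟨rep G θ x, hT, h0, h1, inferInstance, isIsing_rep hT h0 (by nlinarith) x⟩

end

end Crest.Agent.R160
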