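import Crest.Agent.R160.IsingA

/-!
Row 160, IsingB: uniqueness, invariance and continuity in θ of the free Ising measure.

Uniqueness: the cylinder sets `{σ | ∀ v ∈ ball o n, σ v = η v}` together with `∅` form a π-system
(`ball_mono`) generating the product σ-algebra (`{σ | σ v = b}` is a finite union of such cylinders),
`connected_ball`; use `MeasureTheory.ext_of_generate_finite`.  (Alternatively: compare the images
under `Finset.restrict (ball o n)` and use `IsProjectiveLimit.unique`.)
Invariance: `ν.map (· ∘ g)` and `ν.map flip` are again Ising (`isingWeight G θ (S.map g) (η ∘ g⁻¹)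
= isingWeight G θ S η` by `Finset.prod_bij` with `Sym2.map g`; `isingWeight` is invariant under
`η ↦ !η`).
`tv_le`: `∫ φ dν = ∑ η : S → Bool, φ (ext η) * isingWeight G θ S (ext η)` (partition into
cylinders), and each weight is `1/2` times a product of at most `card S ^ 2` factors in [0,1], each
`1/2`-Lipschitz in θ (`S.sym2.card ≤ S.card ^ 2`).
-/

set_option autoImplicit false

open MeasureTheory Filter Topology
open scoped Classical

namespace Crest.Agent.R160

noncomputable section

universe u

variable {V : Type u} {G : SimpleGraph V} [G.LocallyFinite] {d : ℕ} {θ : ℝ}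
  {ν : Measure (V → Bool)}

open Crest.ProbabilityR.TreeIsing

/-- extension of a pattern on a finite set -/
def extB (S : Finset V) (x : S → Bool) (v : V) : Bool := if h : v ∈ S then x ⟨v, h⟩ else false

lemma preimage_restrict (S : Finset V) (x : S → Bool) :
    (S.restrict (π := fun _ => Bool)) ⁻¹' {x} = {σ : V → Bool | ∀ v ∈ S, σ v = extB S x v} := by
  ext σ
  simp only [Set.mem_preimage, Set.mem_singleton_iff, Set.mem_ofPred_eq]
  constructor
  · rintro rfl v hv
    simp [extB, hv]
  · intro h
    funext v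
    simpa [extB] using h v v.2

omit [G.LocallyFinite] in
lemma IsIsing.map_restrict (h : IsIsing G θ ν) {S : Finset V}
    (hS : (G.induce (S : Set V)).Connected) (x : S → Bool) :
    ν.map (S.restrict (π := fun _ => Bool)) {x} =
      ENNReal.ofReal (isingWeight G θ S (extB S x)) := by
  rw [Measure.map_apply (Finset.measurable_restrict S) (measurableSet_singleton x),
    preimage_restrict, h S _ hS]

theorem ising_unique (hT : Tr G d) {ν ν' : Measure (V → Bool)} [IsProbabilityMeasure ν]
    [IsProbabilityMeasure ν'] (h : IsIsing G θ ν) (h' : IsIsing G θ ν') : ν = ν' := by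
  obtain ⟨o⟩ := hT.tree.connected.nonempty
  have hb : ∀ I : Finset V, ν'.map (I.restrict (π := fun _ => Bool)) =
      ν.map (I.restrict (π := fun _ => Bool)) := by
    intro I
    obtain ⟨n, hn⟩ := exists_subset_ball hT o I
    have e : ν'.map ((ball G o n).restrict (π := fun _ => Bool)) =
        ν.map ((ball G o n).restrict (π := fun _ => Bool)) :=
      Measure.ext_of_singleton fun x => by
        rw [h.map_restrict (connected_ball hT o n), h'.map_restrict (connected_ball hT o n)]
    have e2 : I.restrict (π := fun _ => Bool) =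
        Finset.restrict₂ (π := fun _ => Bool) hn ∘ (ball G o n).restrict := rfl
    rw [e2, ← Measure.map_map (Finset.measurable_restrict₂ hn) (Finset.measurable_restrict _),
      ← Measure.map_map (Finset.measurable_restrict₂ hn) (Finset.measurable_restrict _), e]
  let P : (I : Finset V) → Measure (I → Bool) := fun I => ν.map (I.restrict (π := fun _ => Bool))
  have hP : ∀ I, IsFiniteMeasure (P I) := fun I => inferInstanceAs (IsFiniteMeasure (ν.map _))
  have h1 : IsProjectiveLimit (α := fun _ : V => Bool) ν P := fun I => rfl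
  have h2 : IsProjectiveLimit (α := fun _ : V => Bool) ν' P := fun I => hb I
  exact h1.unique h2

lemma Wd.eq_rep (hW : Wd G d θ ν) (x : V) : ν = rep G θ x := by
  have := hW.prob
  exact ising_unique hW.tr hW.ising (isIsing_rep hW.tr hW.θ0 hW.le_one x)

lemma measurableSet_cyl (S : Finset V) (η : V → Bool) :
    MeasurableSet {σ : V → Bool | ∀ v ∈ S, σ v = η v} := by
  have : {σ : V → Bool | ∀ v ∈ S, σ v = η v} = ⋂ v ∈ S, {σ | σ v = η v} := by ext; simp
  rw [this]
  exact Finset.measurableSet_biInter _ fun v _ =>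
    measurableSet_eq_fun (measurable_pi_apply v) measurable_const

omit [G.LocallyFinite] in
lemma isingWeight_map (g : G ≃g G) (θ : ℝ) (S : Finset V) (η : V → Bool) :
    isingWeight G θ (S.map g.toEquiv.toEmbedding) (η ∘ g.symm) = isingWeight G θ S η := by
  unfold isingWeight
  congr 1
  symm
  refine Finset.prod_nbij' (Sym2.map g) (Sym2.map g.symm) ?_ ?_ ?_ ?_ ?_
  · intro e he
    induction e using Sym2.ind with
    | h a b =>
      simp only [Finset.mem_filter, Finset.mk_mem_sym2_iff, SimpleGraph.mem_edgeSet, Sym2.map_mk,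
        Finset.mem_map_equiv] at he ⊢
      refine ⟨⟨?_, ?_⟩, g.map_adj_iff.2 he.2⟩
      · exact (g.toEquiv.symm_apply_apply a).symm ▸ he.1.1
      · exact (g.toEquiv.symm_apply_apply b).symm ▸ he.1.2
  · intro e he
    induction e using Sym2.ind with
    | h a b =>
      simp only [Finset.mem_filter, Finset.mk_mem_sym2_iff, SimpleGraph.mem_edgeSet, Sym2.map_mk,
        Finset.mem_map_equiv] at he ⊢
      exact ⟨he.1, g.symm.map_adj_iff.2 he.2⟩
  · intro e _
    induction e using Sym2.ind with
    | h a b => simp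
  · intro e _
    induction e using Sym2.ind with
    | h a b => simp
  · intro e _
    induction e using Sym2.ind with
    | h a b => simp

theorem Wd.map_comp (hW : Wd G d θ ν) (g : G ≃g G) :
    ν.map (fun σ : V → Bool => σ ∘ g) = ν := by
  have := hW.prob
  have hm : Measurable (fun σ : V → Bool => σ ∘ g) :=
    measurable_pi_lambda _ fun v => measurable_pi_apply (g v)
  have := Measure.isProbabilityMeasure_map (μ := ν) hm.aemeasurable
  refine ising_unique hW.tr (θ := θ) (fun S η hS => ?_) hW.ising
  have hS' : (G.induce ((S.map g.toEquiv.toEmbedding : Finset V) : Set V)).Connected := by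
    refine SimpleGraph.Connected.map (G := G.induce (S : Set V))
      ⟨fun v => ⟨g v, by simp⟩, fun {a b} h => g.map_adj_iff.2 h⟩ ?_ hS
    rintro ⟨v, hv⟩
    obtain ⟨w, hw, rfl⟩ := Finset.mem_map.1 hv
    exact ⟨⟨w, hw⟩, rfl⟩
  rw [Measure.map_apply hm (measurableSet_cyl S η), ← isingWeight_map g, ← hW.ising _ _ hS']
  congr 1
  ext σ
  simp only [Set.mem_preimage, Set.mem_ofPred_eq, Finset.mem_map, Function.comp]
  constructor
  · rintro h v ⟨w, hw, rfl⟩
    simpa using h w hw
  · intro h v hv
    simpa using h (g v) ⟨v, hv, rfl⟩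

theorem Wd.map_not (hW : Wd G d θ ν) : ν.map (fun (σ : V → Bool) v => !σ v) = ν := by
  have := hW.prob
  have hm : Measurable (fun (σ : V → Bool) v => !σ v) :=
    measurable_pi_lambda _ fun v => (measurable_of_countable not).comp (measurable_pi_apply v)
  have := Measure.isProbabilityMeasure_map (μ := ν) hm.aemeasurable
  refine ising_unique hW.tr (θ := θ) (fun S η hS => ?_) hW.ising
  have e : isingWeight G θ S η = isingWeight G θ S fun v => !η v := by
    unfold isingWeight
    congr 1
    refine Finset.prod_congr rfl fun e _ => ?_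
    induction e using Sym2.ind with
    | h a b => simp
  rw [Measure.map_apply hm (measurableSet_cyl S η), e, ← hW.ising _ _ hS]
  congr 1
  ext σ
  simp only [Set.mem_preimage, Set.mem_ofPred_eq]
  refine forall₂_congr fun v _ => ?_
  cases σ v <;> cases η v <;> simp

lemma abs_prod_sub_le {ι : Type*} (s : Finset ι) {a b : ι → ℝ} (ha0 : ∀ i, 0 ≤ a i)
    (ha1 : ∀ i, a i ≤ 1) (hb0 : ∀ i, 0 ≤ b i) (hb1 : ∀ i, b i ≤ 1) :
    |∏ i ∈ s, a i - ∏ i ∈ s, b i| ≤ ∑ i ∈ s, |a i - b i| := by
  induction s using Finset.induction_on with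
  | empty => simp
  | insert i s hi ih =>
    rw [Finset.prod_insert hi, Finset.prod_insert hi, Finset.sum_insert hi]
    have h1 : 0 ≤ ∏ j ∈ s, a j := Finset.prod_nonneg fun j _ => ha0 j
    have h2 : ∏ j ∈ s, a j ≤ 1 := Finset.prod_le_one (fun j _ => ha0 j) fun j _ => ha1 j
    have e : a i * ∏ j ∈ s, a j - b i * ∏ j ∈ s, b j =
        (a i - b i) * ∏ j ∈ s, a j + b i * (∏ j ∈ s, a j - ∏ j ∈ s, b j) := by ring
    rw [e]
    refine (abs_add_le _ _).trans (add_le_add ?_ ?_)
    · rw [abs_mul, abs_of_nonneg h1]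
      exact mul_le_of_le_one_right (abs_nonneg _) h2
    · rw [abs_mul, abs_of_nonneg (hb0 i)]
      exact (mul_le_of_le_one_left (abs_nonneg _) (hb1 i)).trans ih

omit [G.LocallyFinite] in
lemma isingWeight_nonneg (h0 : 0 ≤ θ) (h1 : θ ≤ 1) (S : Finset V) (η : V → Bool) :
    0 ≤ isingWeight G θ S η := by
  unfold isingWeight
  refine mul_nonneg (by norm_num) (Finset.prod_nonneg fun e _ => ?_)
  split_ifs <;> linarith

omit [G.LocallyFinite] in
lemma isingWeight_lip {θ' : ℝ} (h0 : 0 ≤ θ) (h1 : θ ≤ 1) (h0' : 0 ≤ θ') (h1' : θ' ≤ 1)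
    (S : Finset V) (η : V → Bool) :
    |isingWeight G θ S η - isingWeight G θ' S η| ≤ (S.card : ℝ) ^ 2 * |θ - θ'| := by
  unfold isingWeight
  rw [← mul_sub, abs_mul, abs_of_pos (by norm_num : (0 : ℝ) < 1 / 2)]
  refine (mul_le_of_le_one_left (abs_nonneg _) (by norm_num)).trans ?_
  refine (abs_prod_sub_le _ (fun e => ?_) (fun e => ?_) (fun e => ?_) (fun e => ?_)).trans ?_
  iterate 4 split_ifs <;> linarith
  refine (Finset.sum_le_card_nsmul _ _ |θ - θ'| fun e _ => ?_).trans ?_
  · split_ifs
    · rw [show (1 + θ) / 2 - (1 + θ') / 2 = (θ - θ') / 2 by ring, abs_div, abs_two]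
      linarith [abs_nonneg (θ - θ')]
    · rw [show (1 - θ) / 2 - (1 - θ') / 2 = -(θ - θ') / 2 by ring, abs_div, abs_two, abs_neg]
      linarith [abs_nonneg (θ - θ')]
  · rw [nsmul_eq_mul]
    refine mul_le_mul_of_nonneg_right ?_ (abs_nonneg _)
    have h2 : S.sym2.card ≤ S.card ^ 2 := by
      rw [Finset.card_sym2, Nat.choose_two_right]
      refine Nat.div_le_of_le_mul ?_
      simp only [add_tsub_cancel_right]
      nlinarith
    exact_mod_cast (Finset.card_filter_le _ _).trans h2

lemma integral_eq_sum (hW : Wd G d θ ν) {S : Finset V} (hS : (G.induce (S : Set V)).Connected)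
    {φ : (V → Bool) → ℝ} (hφ : DependsOn φ (S : Set V)) :
    ∫ σ, φ σ ∂ν = ∑ x : S → Bool, isingWeight G θ S (extB S x) * φ (extB S x) := by
  have := hW.prob
  have e : ∀ σ, φ σ = φ (extB S (S.restrict (π := fun _ => Bool) σ)) := fun σ =>
    hφ fun v hv => by simp [extB, Finset.mem_coe.1 hv]
  rw [integral_congr_ae (ae_of_all _ e), ← integral_map (f := fun x : S → Bool => φ (extB S x))
    (φ := S.restrict (π := fun _ => Bool)) (Finset.measurable_restrict S).aemeasurable
    (measurable_of_countable _).aestronglyMeasurable, integral_fintype Integrable.of_finite]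
  refine Finset.sum_congr rfl fun x _ => ?_
  rw [Measure.real, hW.ising.map_restrict hS,
    ENNReal.toReal_ofReal (isingWeight_nonneg hW.θ0 hW.le_one _ _), smul_eq_mul]

theorem tv_le {θ' : ℝ} {ν' : Measure (V → Bool)} (hW : Wd G d θ ν) (hW' : Wd G d θ' ν')
    {S : Finset V} (hS : (G.induce (S : Set V)).Connected) {φ : (V → Bool) → ℝ}
    (hφ : DependsOn φ (S : Set V)) {B : ℝ} (hB : ∀ σ, |φ σ| ≤ B) :
    |∫ σ, φ σ ∂ν - ∫ σ, φ σ ∂ν'| ≤ 2 ^ S.card * (S.card : ℝ) ^ 2 * |θ - θ'| * B := by
  rw [integral_eq_sum hW hS hφ, integral_eq_sum hW' hS hφ, ← Finset.sum_sub_distrib]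
  refine (Finset.abs_sum_le_sum_abs _ _).trans ?_
  refine (Finset.sum_le_card_nsmul _ _ ((S.card : ℝ) ^ 2 * |θ - θ'| * B) fun x _ => ?_).trans ?_
  · rw [← sub_mul, abs_mul]
    exact mul_le_mul (isingWeight_lip hW.θ0 hW.le_one hW'.θ0 hW'.le_one _ _) (hB _)
      (abs_nonneg _) (by positivity)
  · simp [mul_assoc]

end

end Crest.Agent.R160
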