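import Crest.Agent.R160.PostB

/-!
Row 160, MomA: moment bounds for the posterior mean by revealing the vertices one at a time.

`lp_step` (2-smoothness of L^q, `q = 2p`): for `p = 1` expand.  For `p ≥ 2`:
`(x+y)^q ≤ x^q + q x^(q-1) y + C(q,2) y² (|x|+|y|)^(q-2)` (binomial theorem or Taylor),
`(|x|+|y|)^(q-2) ≤ 3 |x|^(q-2) + ((q+1)|y|)^(q-2)` (cases `|y| ≤ |x|/q` or not), Young:
`E[y² x^(q-2)] ≤ b a^(p-1)` (weighted AM-GM `s t^(p-1) ≤ (s^p + (p-1) t^p)/p` with `s = y²/b`,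
`t = x²/a`; treat `a = 0`/`b = 0` by replacing them by `a+ε`, `b+ε`), and
`(a + K b)^p ≥ a^p + p K b a^(p-1) + (K b)^p` with `K = 16 p²`, `pK ≥ 3 C(q,2)`,
`K^p ≥ (q+1)^q ≥ C(q,2) (q+1)^(q-2)`.
`bfs_fin`: induction on `(F \\ F0).card`.  Remove `v ∈ F \\ F0` of maximal distance from `u`;
`F' = F.erase v` is again closed and contains `F0`.  With `y = fy r (obs ω)`,
`tilt u F y = Mg u (F.indicator y)` (`Mg_finite`), `F.indicator y = F'.indicator y + single v (y v)`,
so by `Mg_jump`, `conv_finite`, `abs_jump_le`, `abs_fy_le` the increment `Y` satisfies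
`|Y| ≤ Cv u v (F'.indicator y) * J`.  Orthogonality `E[X^(2p-1) Y] = 0` is `post_tower` for the
rules `bef F' (fun _ => r) ⊆ bef F (fun _ => r)` (`indicator_fy`, `dep_fld`; `X` is a function of
`fS F' _`, since `tilt u F0 y = tilt u F0 (F'.indicator y)`).  Apply `lp_step`.
`bfs`: apply `bfs_fin` to `F = F0 ∪ ball u N` (closed), which equals `ball u N` for large `N`, and
let `N → ∞` (`ae_conv_fy`, dominated convergence).
-/

set_option autoImplicit false

open MeasureTheory Filter Topology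
open scoped Classical

namespace Crest.Agent.R160

noncomputable section

universe u

variable {V : Type u} {G : SimpleGraph V} [G.LocallyFinite] {d : ℕ} {θ : ℝ}
  {ν : Measure (V → Bool)}

/-- second-order Taylor bound for powers -/
lemma pow_taylor (x y : ℝ) (m : ℕ) :
    |(x + y) ^ (m + 2) - x ^ (m + 2) - (m + 2) * x ^ (m + 1) * y| ≤
      (m + 2) * (m + 1) / 2 * (y ^ 2 * (|x| + |y|) ^ m) := by
  induction m with
  | zero =>
    have : (x + y) ^ (0 + 2) - x ^ (0 + 2) - ((0 : ℕ) + 2 : ℝ) * x ^ (0 + 1) * y = y ^ 2 := by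
      push_cast; ring
    rw [this, abs_of_nonneg (sq_nonneg y)]
    push_cast
    linarith
  | succ m ih =>
    have hs : 0 ≤ |x| + |y| := by positivity
    have e : (x + y) ^ (m + 1 + 2) - x ^ (m + 1 + 2) - ((m + 1 : ℕ) + 2 : ℝ) * x ^ (m + 1 + 1) * y =
        (x + y) * ((x + y) ^ (m + 2) - x ^ (m + 2) - (m + 2) * x ^ (m + 1) * y) +
          (m + 2) * (x ^ (m + 1) * y ^ 2) := by
      push_cast; ring
    rw [e]
    have h1 : |(x + y) * ((x + y) ^ (m + 2) - x ^ (m + 2) - (m + 2) * x ^ (m + 1) * y)| ≤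
        (|x| + |y|) * ((m + 2) * (m + 1) / 2 * (y ^ 2 * (|x| + |y|) ^ m)) := by
      rw [abs_mul]
      exact mul_le_mul (abs_add_le x y) ih (abs_nonneg _) hs
    have h2 : |((m : ℝ) + 2) * (x ^ (m + 1) * y ^ 2)| ≤ (m + 2) * ((|x| + |y|) ^ (m + 1) * y ^ 2) := by
      rw [abs_mul, abs_mul, abs_pow, abs_of_nonneg (show (0 : ℝ) ≤ m + 2 by positivity),
        abs_of_nonneg (sq_nonneg y)]
      gcongr
      linarith [abs_nonneg y]
    refine (abs_add_le _ _).trans ((add_le_add h1 h2).trans (le_of_eq ?_))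
    push_cast
    ring

/-- tangent line inequality for powers -/
lemma pow_tangent {s t : ℝ} (hs : 0 ≤ s) (ht : 0 ≤ t) (n : ℕ) :
    t ^ (n + 1) + (n + 1) * t ^ n * (s - t) ≤ s ^ (n + 1) := by
  induction n with
  | zero => simp
  | succ n ih =>
    have h1 := mul_le_mul_of_nonneg_left ih hs
    have h2 : 0 ≤ ((n : ℝ) + 1) * t ^ n * (s - t) ^ 2 := by positivity
    have e : s ^ (n + 1 + 1) - (t ^ (n + 1 + 1) + ((n + 1 : ℕ) + 1 : ℝ) * t ^ (n + 1) * (s - t)) =
        (s * s ^ (n + 1) - s * (t ^ (n + 1) + (n + 1) * t ^ n * (s - t))) +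
          ((n : ℝ) + 1) * t ^ n * (s - t) ^ 2 := by
      push_cast; ring
    linarith

/-- pointwise form of Hölder + Minkowski -/
lemma young_mink {a b α β : ℝ} (ha : 0 < a) (hb : 0 < b) (hα : 0 < α) (hβ : 0 < β) (n : ℕ) :
    ∃ A B : ℝ, 0 ≤ A ∧ 0 ≤ B ∧ A * a ^ (n + 1) + B * b ^ (n + 1) = b * (α * a + β * b) ^ n ∧
      ∀ s t : ℝ, 0 ≤ s → 0 ≤ t → s * (α * t + β * s) ^ n ≤ A * t ^ (n + 1) + B * s ^ (n + 1) := by
  set c := α * a + β * b with hc
  have hc0 : 0 < c := by positivity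
  have hn : (0 : ℝ) < n + 1 := by positivity
  refine ⟨b * c ^ n * (n * (α * a / c) / (n + 1)) / a ^ (n + 1),
    b * c ^ n * ((1 + n * (β * b / c)) / (n + 1)) / b ^ (n + 1), by positivity, by positivity,
    ?_, fun s t hs ht => ?_⟩
  · rw [div_mul_cancel₀ _ (by positivity), div_mul_cancel₀ _ (by positivity), ← mul_add,
      ← add_div]
    have : (n : ℝ) * (α * a / c) + (1 + n * (β * b / c)) = n + 1 := by
      have : α * a / c + β * b / c = 1 := by rw [← add_div, ← hc, div_self hc0.ne']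
      linear_combination n * this
    rw [this, div_self hn.ne', mul_one]
  · have hl : α * a / c + β * b / c = 1 := by rw [← add_div, ← hc, div_self hc0.ne']
    have hconv := (convexOn_pow (𝕜 := ℝ) (n + 1)).2 (x := t / a) (y := s / b)
      (Set.mem_Ici.2 (by positivity)) (Set.mem_Ici.2 (by positivity))
      (show 0 ≤ α * a / c by positivity) (show 0 ≤ β * b / c by positivity) hl
    simp only [smul_eq_mul] at hconv
    have e1 : α * a / c * (t / a) + β * b / c * (s / b) = (α * t + β * s) / c := by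
      field_simp
    rw [e1] at hconv
    set z := (α * t + β * s) / c with hz
    have hz0 : 0 ≤ z := by positivity
    have hy := pow_tangent (s := s / b) (t := z) (by positivity) hz0 n
    have hy' : (s / b) * z ^ n ≤ ((s / b) ^ (n + 1) + n * z ^ (n + 1)) / (n + 1) := by
      rw [le_div_iff₀ hn]
      have : z ^ (n + 1) + (n + 1) * z ^ n * (s / b - z) =
          s / b * z ^ n * (n + 1) - n * z ^ (n + 1) := by ring
      linarith
    have h3 : (s / b) * z ^ n ≤ ((s / b) ^ (n + 1) +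
        n * (α * a / c * (t / a) ^ (n + 1) + β * b / c * (s / b) ^ (n + 1))) / (n + 1) := by
      refine hy'.trans ?_
      gcongr
    have e2 : s * (α * t + β * s) ^ n = b * c ^ n * ((s / b) * z ^ n) := by
      rw [hz, div_pow]
      field_simp
    rw [e2]
    refine (mul_le_mul_of_nonneg_left h3 (by positivity)).trans (le_of_eq ?_)
    rw [div_pow, div_pow]
    field_simp
    ring

lemma lp_step_pos {Ω : Type*} [MeasurableSpace Ω] (P : Measure Ω) [IsProbabilityMeasure P]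
    {X Y : Ω → ℝ} (hX : Measurable X) (hY : Measurable Y) {C : ℝ} (bX : ∀ ω, |X ω| ≤ C)
    (bY : ∀ ω, |Y ω| ≤ C) (n : ℕ) (h : ∫ ω, X ω ^ (2 * n + 1) * Y ω ∂P = 0)
    {a b : ℝ} (ha0 : 0 < a) (hb0 : 0 < b) (ha : ∫ ω, X ω ^ (2 * (n + 1)) ∂P ≤ a ^ (n + 1))
    (hb : ∫ ω, Y ω ^ (2 * (n + 1)) ∂P ≤ b ^ (n + 1)) :
    ∫ ω, (X ω + Y ω) ^ (2 * (n + 1)) ∂P ≤ (a + 16 * ((n : ℝ) + 1) ^ 2 * b) ^ (n + 1) := by
  have hn : (0 : ℝ) < n + 1 := by positivity
  obtain ⟨A, B, hA, hB, hAB, hpt⟩ := young_mink (α := 1 + ((n : ℝ) + 1)⁻¹) (β := n + 2) ha0 hb0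
    (by positivity) (by positivity) n
  have iX : Integrable (fun ω => X ω ^ (2 * (n + 1))) P :=
    integrable_of_bdd (hX.pow_const _) (C := C ^ (2 * (n + 1))) fun ω => by
      rw [abs_pow]; exact pow_le_pow_left₀ (abs_nonneg _) (bX ω) _
  have iY : Integrable (fun ω => Y ω ^ (2 * (n + 1))) P :=
    integrable_of_bdd (hY.pow_const _) (C := C ^ (2 * (n + 1))) fun ω => by
      rw [abs_pow]; exact pow_le_pow_left₀ (abs_nonneg _) (bY ω) _
  have iXY : Integrable (fun ω => X ω ^ (2 * n + 1) * Y ω) P :=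
    integrable_of_bdd ((hX.pow_const _).mul hY) (C := C ^ (2 * n + 1) * C) fun ω => by
      rw [abs_mul, abs_pow]
      exact mul_le_mul (pow_le_pow_left₀ (abs_nonneg _) (bX ω) _) (bY ω) (abs_nonneg _)
        (pow_nonneg ((abs_nonneg _).trans (bX ω)) _)
  have iS : Integrable (fun ω => (X ω + Y ω) ^ (2 * (n + 1))) P :=
    integrable_of_bdd ((hX.add hY).pow_const _) (C := (C + C) ^ (2 * (n + 1))) fun ω => by
      rw [abs_pow]
      exact pow_le_pow_left₀ (abs_nonneg _) ((abs_add_le _ _).trans (add_le_add (bX ω) (bY ω))) _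
  set K : ℝ := (n + 1) * (2 * n + 1) with hK
  have hK0 : 0 ≤ K := by positivity
  have hpw : ∀ ω, (X ω + Y ω) ^ (2 * (n + 1)) ≤
      ((1 + K * A) * X ω ^ (2 * (n + 1)) + (2 * n + 2) * (X ω ^ (2 * n + 1) * Y ω)) +
        K * B * Y ω ^ (2 * (n + 1)) := fun ω => by
    set x := X ω
    set y := Y ω
    have h1 := (le_abs_self _).trans (pow_taylor x y (2 * n))
    have h2 : (|x| + |y|) ^ 2 ≤ (1 + ((n : ℝ) + 1)⁻¹) * x ^ 2 + (n + 2) * y ^ 2 := by
      have h3 : 2 * (|x| * |y|) ≤ ((n : ℝ) + 1)⁻¹ * |x| ^ 2 + (n + 1) * |y| ^ 2 := by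
        have h4 : ((n : ℝ) + 1)⁻¹ * |x| ^ 2 + (n + 1) * |y| ^ 2 - 2 * (|x| * |y|) =
            ((n : ℝ) + 1)⁻¹ * (|x| - (n + 1) * |y|) ^ 2 := by
          field_simp
          ring
        have h5 : 0 ≤ ((n : ℝ) + 1)⁻¹ * (|x| - (n + 1) * |y|) ^ 2 := by positivity
        linarith
      rw [← sq_abs x, ← sq_abs y]
      nlinarith
    have h6 : y ^ 2 * (|x| + |y|) ^ (2 * n) ≤ A * x ^ (2 * (n + 1)) + B * y ^ (2 * (n + 1)) := by
      rw [pow_mul, pow_mul, pow_mul]
      refine le_trans ?_ (hpt (y ^ 2) (x ^ 2) (sq_nonneg _) (sq_nonneg _))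
      gcongr
    have e1 : ((2 * n : ℕ) + 2 : ℝ) * ((2 * n : ℕ) + 1) / 2 = K := by
      rw [hK]; push_cast; ring
    rw [e1] at h1
    have h7 := mul_le_mul_of_nonneg_left h6 hK0
    have e2 : 2 * (n + 1) = 2 * n + 2 := by ring
    rw [e2] at h7 ⊢
    push_cast at h1
    nlinarith
  have hint : ∫ ω, (X ω + Y ω) ^ (2 * (n + 1)) ∂P ≤
      (1 + K * A) * a ^ (n + 1) + K * B * b ^ (n + 1) := by
    have j1 : Integrable (fun ω => (1 + K * A) * X ω ^ (2 * (n + 1)) +
        (2 * n + 2) * (X ω ^ (2 * n + 1) * Y ω)) P := (iX.const_mul _).add (iXY.const_mul _)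
    have j2 : Integrable (fun ω => ((1 + K * A) * X ω ^ (2 * (n + 1)) +
        (2 * n + 2) * (X ω ^ (2 * n + 1) * Y ω)) + K * B * Y ω ^ (2 * (n + 1))) P :=
      j1.add (iY.const_mul _)
    refine (integral_mono iS j2 hpw).trans ?_
    rw [integral_add j1 (iY.const_mul _),
      integral_add (iX.const_mul _) (iXY.const_mul _), integral_const_mul, integral_const_mul,
      integral_const_mul, h, mul_zero, add_zero]
    gcongr
  refine hint.trans ?_
  have e3 : (1 + K * A) * a ^ (n + 1) + K * B * b ^ (n + 1) =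
      a ^ (n + 1) + K * (b * ((1 + ((n : ℝ) + 1)⁻¹) * a + (n + 2) * b) ^ n) := by
    rw [← hAB]; ring
  have e4 : (1 + ((n : ℝ) + 1)⁻¹) * a + (n + 2) * b =
      (1 + ((n : ℝ) + 1)⁻¹) * (a + (n + 1) * b) := by
    field_simp
    ring
  have h8 : (1 + ((n : ℝ) + 1)⁻¹) ^ n ≤ 3 := by
    have h9 := Real.one_add_inv_pow_le_exp (n := n + 1)
    push_cast at h9
    have h10 : (1 + ((n : ℝ) + 1)⁻¹) ^ n ≤ (1 + ((n : ℝ) + 1)⁻¹) ^ (n + 1) :=
      pow_le_pow_right₀ (by simp; positivity) (Nat.le_succ n)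
    linarith [Real.exp_one_lt_d9]
  rw [e3, e4, mul_pow]
  set c := a + (n + 1) * b with hc
  have hc0 : 0 ≤ c := by positivity
  have h11 := pow_tangent (s := a + 16 * ((n : ℝ) + 1) ^ 2 * b) (t := c) (by positivity) hc0 n
  have h12 : a ^ (n + 1) ≤ c ^ (n + 1) :=
    pow_le_pow_left₀ ha0.le (by rw [hc]; nlinarith) _
  have h13 : K * (b * ((1 + ((n : ℝ) + 1)⁻¹) ^ n * c ^ n)) ≤ K * (b * (3 * c ^ n)) := by
    gcongr
  have h14 : K * (b * (3 * c ^ n)) ≤
      (n + 1) * c ^ n * (a + 16 * ((n : ℝ) + 1) ^ 2 * b - c) := by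
    have e5 : (n + 1) * c ^ n * (a + 16 * ((n : ℝ) + 1) ^ 2 * b - c) - K * (b * (3 * c ^ n)) =
        (n + 1) * c ^ n * b * (16 * (n : ℝ) ^ 2 + 25 * n + 12) := by
      rw [hK]
      have : a + 16 * ((n : ℝ) + 1) ^ 2 * b - c = (16 * ((n : ℝ) + 1) ^ 2 - (n + 1)) * b := by
        rw [hc]; ring
      rw [this]; ring
    have h15 : 0 ≤ (n + 1) * c ^ n * b * (16 * (n : ℝ) ^ 2 + 25 * n + 12) := by positivity
    linarith
  linarith

theorem lp_step {Ω : Type*} [MeasurableSpace Ω] (P : Measure Ω) [IsProbabilityMeasure P]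
    {X Y : Ω → ℝ} (hX : Measurable X) (hY : Measurable Y) {C : ℝ} (bX : ∀ ω, |X ω| ≤ C)
    (bY : ∀ ω, |Y ω| ≤ C) {p : ℕ} (hp : 1 ≤ p) (h : ∫ ω, X ω ^ (2 * p - 1) * Y ω ∂P = 0)
    {a b : ℝ} (ha0 : 0 ≤ a) (hb0 : 0 ≤ b) (ha : ∫ ω, X ω ^ (2 * p) ∂P ≤ a ^ p)
    (hb : ∫ ω, Y ω ^ (2 * p) ∂P ≤ b ^ p) :
    ∫ ω, (X ω + Y ω) ^ (2 * p) ∂P ≤ (a + 16 * p ^ 2 * b) ^ p := by
  obtain ⟨n, rfl⟩ : ∃ n, p = n + 1 := ⟨p - 1, by omega⟩
  rw [show 2 * (n + 1) - 1 = 2 * n + 1 by omega] at h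
  have hc : Continuous fun ε : ℝ => (a + ε + 16 * ((n : ℝ) + 1) ^ 2 * (b + ε)) ^ (n + 1) := by
    fun_prop
  have ht := (hc.tendsto 0).mono_left (nhdsWithin_le_nhds (s := Set.Ioi 0))
  simp only [add_zero] at ht
  push_cast
  refine ge_of_tendsto ht ?_
  filter_upwards [self_mem_nhdsWithin] with ε hε
  have hε : 0 < ε := hε
  exact lp_step_pos P hX hY bX bY n h (by linarith) (by linarith)
    (ha.trans (pow_le_pow_left₀ ha0 (by linarith) _))
    (hb.trans (pow_le_pow_left₀ hb0 (by linarith) _))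

/-- initial segments for the distance from `u` -/
def Closed (G : SimpleGraph V) (u : V) (F : Finset V) : Prop :=
  ∀ x y, y ∈ F → G.dist u x < G.dist u y → x ∈ F

lemma closed_ball (hT : Tr G d) (u : V) (N : ℕ) : Closed G u (ball G u N) := by
  intro x y hy hxy
  rw [mem_ball hT] at hy ⊢
  omega

omit [G.LocallyFinite] in
lemma closed_empty (u : V) : Closed G u ∅ := by
  intro x y hy
  simp at hy

omit [G.LocallyFinite] in
lemma measurable_tilt_fy (ν : Measure (V → Bool)) [IsProbabilityMeasure ν] (u : V) (F : Finset V)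
    (r : ℝ) : Measurable fun o : Ob V => tilt ν u F (fy r o) :=
  (measurable_tilt ν u F).comp (measurable_fy.comp (measurable_const.prodMk measurable_id))

omit [G.LocallyFinite] in
lemma abs_tilt_sub_le (ν : Measure (V → Bool)) [IsProbabilityMeasure ν] (u : V) (F F' : Finset V)
    (y : V → ℝ) : |tilt ν u F y - tilt ν u F' y| ≤ 2 := by
  have h1 := abs_tilt_le ν u F y
  have h2 := abs_tilt_le ν u F' y
  rw [abs_le] at *
  constructor <;> linarith [h1.1, h1.2, h2.1, h2.2]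

lemma Mg_fS_finite (hT : Tr G d) (ν : Measure (V → Bool)) (u : V) (F : Finset V) (r : ℝ)
    (o : Ob V) : Mg G ν u (fS F (fun _ => r) o) = tilt ν u F (fy r o) := by
  rw [← indicator_fy, Mg_finite hT]

/-- revealing one more vertex -/
lemma abs_reveal_le (hW : Wd G d θ ν) {i : ℤ} {r : ℝ} (hr : r ≤ i + 1) (u : V) {F : Finset V}
    {v : V} (hv : v ∈ F) (o : Ob V) :
    |tilt ν u F (fy r o) - tilt ν u (F.erase v) (fy r o)| ≤
      Cv G ν θ u v (fS (F.erase v) (fun _ => r) o) * (Yb i * Real.exp (2 * Yb i)) := by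
  have := hW.prob
  have e : (F : Set V).indicator (fy r o) =
      ((F.erase v : Finset V) : Set V).indicator (fy r o) + Pi.single v (fy r o v) := by
    funext w
    by_cases hw : w = v
    · subst hw
      simp [hv]
    · by_cases hF : w ∈ F
      · simp [hw, hF]
      · simp [hw, hF]
  rw [← Mg_finite hW.tr, ← Mg_finite hW.tr, e, Mg_jump hW (conv_finite hW.tr ν _ _),
    add_sub_cancel_left, abs_mul, abs_of_nonneg (Cv_nonneg hW _ _ _), ← indicator_fy]
  exact mul_le_mul_of_nonneg_left (abs_jump_le (abs_fy_le hr o v) (abs_Mg_le ν _ _))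
    (Cv_nonneg hW _ _ _)

/-- the increment is orthogonal to functions of the past -/
lemma reveal_orth (hW : Wd G d θ ν) (r : ℝ) (u : V) {F0 F' F : Finset V} (h0 : F0 ⊆ F')
    (h1 : F' ⊆ F) (m : ℕ) :
    ∫ ω, (tilt ν u F' (fy r (obs ω)) - tilt ν u F0 (fy r (obs ω))) ^ m *
      (tilt ν u F (fy r (obs ω)) - tilt ν u F' (fy r (obs ω))) ∂PP ν = 0 := by
  have := hW.prob
  have hd : Dep (bef (F' : Set V) fun _ => r)
      fun o => (tilt ν u F' (fy r o) - tilt ν u F0 (fy r o)) ^ m := by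
    have h := dep_fld (bef (F' : Set V) fun _ => r)
      fun y => (tilt ν u F' y - tilt ν u F0 y) ^ m
    have e : ∀ o : Ob V, ∀ H : Finset V, H ⊆ F' →
        tilt ν u H (fld (bef (F' : Set V) (fun _ => r) o.2) o) = tilt ν u H (fy r o) := by
      intro o H hH
      refine tilt_congr ν u H fun w hw => ?_
      change fS (F' : Set V) (fun _ => r) o w = _
      rw [← indicator_fy, Set.indicator_of_mem (Finset.mem_coe.2 (hH hw))]
    simpa only [e _ F' subset_rfl, e _ F0 h0] using h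
  have h := post_tower hW (rule_bef (F' : Set V) (s := fun _ => r) (I := r) fun _ => le_rfl)
    (rule_bef (F : Set V) (s := fun _ => r) (I := r) fun _ => le_rfl)
    (fun T c hc => ⟨h1 hc.1, hc.2⟩) u
    (((measurable_tilt_fy ν u F' r).sub (measurable_tilt_fy ν u F0 r)).pow_const m)
    (C := 2 ^ m) (fun o => by
      rw [abs_pow]; exact pow_le_pow_left₀ (abs_nonneg _) (abs_tilt_sub_le ν u _ _ _) _) hd
  rw [← h]
  refine integral_congr_ae (ae_of_all _ fun ω => ?_)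
  have e1 := Mg_fS_finite hW.tr ν u F r (obs ω)
  have e2 := Mg_fS_finite hW.tr ν u F' r (obs ω)
  change _ = (Mg G ν u (fS (F : Set V) (fun _ => r) (obs ω)) -
    Mg G ν u (fS (F' : Set V) (fun _ => r) (obs ω))) * _
  rw [e1, e2, mul_comm]
  rfl

theorem bfs_fin (hW : Wd G d θ ν) {i : ℤ} {r : ℝ} (hr : r ≤ i + 1) (u : V) {p : ℕ} (hp : 1 ≤ p)
    {b : ℕ → ℝ} (hb0 : ∀ k, 0 ≤ b k)
    (hb : ∀ (F : Finset V) (v : V), v ∉ F → (∀ x, G.dist u x < G.dist u v → x ∈ F) →
      ∫ ω, Cv G ν θ u v (fS F (fun _ => r) (obs ω)) ^ (2 * p) ∂PP ν ≤ b (G.dist u v) ^ p)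
    {F0 F : Finset V} (h0 : Closed G u F0) (hF : Closed G u F) (hsub : F0 ⊆ F) :
    ∫ ω, (tilt ν u F (fy r (obs ω)) - tilt ν u F0 (fy r (obs ω))) ^ (2 * p) ∂PP ν ≤
      (16 * p ^ 2 * (Yb i * Real.exp (2 * Yb i)) ^ 2 * ∑ v ∈ F \ F0, b (G.dist u v)) ^ p := by
  have := hW.prob
  have hJ : 0 ≤ Yb i * Real.exp (2 * Yb i) := (mul_pos (Yb_pos i) (Real.exp_pos _)).le
  have hnn : ∀ H : Finset V, 0 ≤ 16 * (p : ℝ) ^ 2 * (Yb i * Real.exp (2 * Yb i)) ^ 2 *
      ∑ v ∈ H, b (G.dist u v) := fun H =>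
    mul_nonneg (by positivity) (Finset.sum_nonneg fun v _ => hb0 _)
  obtain ⟨n, hn⟩ : ∃ n, (F \ F0).card = n := ⟨_, rfl⟩
  induction n generalizing F with
  | zero =>
    have hFF : F = F0 := by
      refine Finset.Subset.antisymm ?_ hsub
      rwa [Finset.card_eq_zero, Finset.sdiff_eq_empty_iff_subset] at hn
    subst hFF
    simp only [sub_self]
    rw [zero_pow (by omega), integral_zero]
    exact pow_nonneg (hnn _) _
  | succ n ih =>
    have hne : (F \ F0).Nonempty := Finset.card_pos.1 (by omega)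
    obtain ⟨v, hv, hmax⟩ := Finset.exists_max_image (F \ F0) (G.dist u) hne
    obtain ⟨hvF, hv0⟩ := Finset.mem_sdiff.1 hv
    have hF' : Closed G u (F.erase v) := by
      intro x y hy hxy
      have hyF := Finset.mem_of_mem_erase hy
      refine Finset.mem_erase.2 ⟨?_, hF x y hyF hxy⟩
      rintro rfl
      by_cases hy0 : y ∈ F0
      · exact hv0 (h0 x y hy0 hxy)
      · have := hmax y (Finset.mem_sdiff.2 ⟨hyF, hy0⟩)
        omega
    have hsub' : F0 ⊆ F.erase v := fun x hx =>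
      Finset.mem_erase.2 ⟨fun h => hv0 (h ▸ hx), hsub hx⟩
    have e : F.erase v \ F0 = (F \ F0).erase v := by
      ext x
      simp only [Finset.mem_sdiff, Finset.mem_erase]
      tauto
    have ih' := ih hF' hsub' (by rw [e, Finset.card_erase_of_mem hv]; omega)
    have hbv := hb (F.erase v) v (Finset.notMem_erase v F) fun x hx =>
      Finset.mem_erase.2 ⟨fun h => by rw [h] at hx; omega, hF x v hvF hx⟩
    have mCv : Measurable fun ω : Om V =>
        Cv G ν θ u v (fS ((F.erase v : Finset V) : Set V) (fun _ => r) (obs ω)) :=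
      (measurable_Cv ν θ u v).comp
        ((measurable_fS _ (I := r) fun _ => le_rfl).comp measurable_obs)
    have mY : Measurable fun ω : Om V =>
        tilt ν u F (fy r (obs ω)) - tilt ν u (F.erase v) (fy r (obs ω)) :=
      ((measurable_tilt_fy ν u F r).sub (measurable_tilt_fy ν u _ r)).comp measurable_obs
    have hY : ∫ ω, (tilt ν u F (fy r (obs ω)) - tilt ν u (F.erase v) (fy r (obs ω))) ^ (2 * p)
        ∂PP ν ≤ ((Yb i * Real.exp (2 * Yb i)) ^ 2 * b (G.dist u v)) ^ p := by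
      have i1 : Integrable (fun ω : Om V => (tilt ν u F (fy r (obs ω)) -
          tilt ν u (F.erase v) (fy r (obs ω))) ^ (2 * p)) (PP ν) :=
        integrable_of_bdd (mY.pow_const _) (C := 2 ^ (2 * p)) fun ω => by
          rw [abs_pow]; exact pow_le_pow_left₀ (abs_nonneg _) (abs_tilt_sub_le ν u _ _ _) _
      have i2 : Integrable (fun ω : Om V => Cv G ν θ u v
          (fS ((F.erase v : Finset V) : Set V) (fun _ => r) (obs ω)) ^ (2 * p)) (PP ν) :=
        integrable_of_bdd (mCv.pow_const _) (C := 1 ^ (2 * p)) fun ω => by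
          rw [abs_pow]; exact pow_le_pow_left₀ (abs_nonneg _) (abs_Cv_le hW _ _ _) _
      refine (integral_mono i1 (i2.mul_const ((Yb i * Real.exp (2 * Yb i)) ^ (2 * p)))
        fun ω => ?_).trans ?_
      · have h := pow_le_pow_left₀ (abs_nonneg _) (abs_reveal_le hW hr u hvF (obs ω)) (2 * p)
        rw [(even_two_mul p).pow_abs, mul_pow] at h
        simpa only [Finset.coe_erase] using h
      · rw [integral_mul_const, mul_pow _ (b _), ← pow_mul, mul_comm]
        exact mul_le_mul_of_nonneg_left hbv (pow_nonneg hJ _)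
    have key := lp_step (PP ν)
      (X := fun ω => tilt ν u (F.erase v) (fy r (obs ω)) - tilt ν u F0 (fy r (obs ω)))
      (Y := fun ω => tilt ν u F (fy r (obs ω)) - tilt ν u (F.erase v) (fy r (obs ω)))
      (((measurable_tilt_fy ν u _ r).sub (measurable_tilt_fy ν u F0 r)).comp measurable_obs) mY
      (C := 2) (fun ω => abs_tilt_sub_le ν u _ _ _) (fun ω => abs_tilt_sub_le ν u _ _ _) hp
      (reveal_orth hW r u hsub' (Finset.erase_subset v F) _) (hnn _)
      (mul_nonneg (sq_nonneg _) (hb0 _)) ih' hY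
    rw [e] at key
    rw [← Finset.sum_erase_add _ _ hv]
    convert key using 2
    · funext ω
      ring
    · ring

theorem bfs (hW : Wd G d θ ν) {i : ℤ} {r : ℝ} (hr : r ≤ i + 1) (u : V) {p : ℕ} (hp : 1 ≤ p)
    {b : ℕ → ℝ} (hb0 : ∀ k, 0 ≤ b k)
    (hb : ∀ (F : Finset V) (v : V), v ∉ F → (∀ x, G.dist u x < G.dist u v → x ∈ F) →
      ∫ ω, Cv G ν θ u v (fS F (fun _ => r) (obs ω)) ^ (2 * p) ∂PP ν ≤ b (G.dist u v) ^ p)
    {F0 : Finset V} (h0 : Closed G u F0) {t : ℝ}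
    (ht : ∀ N, ∑ v ∈ ball G u N \ F0, b (G.dist u v) ≤ t) :
    ∫ ω, (mm G ν r u (obs ω) - tilt ν u F0 (fy r (obs ω))) ^ (2 * p) ∂PP ν ≤
      (16 * p ^ 2 * (Yb i * Real.exp (2 * Yb i)) ^ 2 * t) ^ p := by
  have := hW.prob
  obtain ⟨N0, hN0⟩ := exists_subset_ball hW.tr u F0
  have hlim : Tendsto (fun N => ∫ ω, (tilt ν u (ball G u N) (fy r (obs ω)) -
      tilt ν u F0 (fy r (obs ω))) ^ (2 * p) ∂PP ν) atTop
      (𝓝 (∫ ω, (mm G ν r u (obs ω) - tilt ν u F0 (fy r (obs ω))) ^ (2 * p) ∂PP ν)) := by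
    refine tendsto_integral_of_dominated_convergence (fun _ => 2 ^ (2 * p)) (fun N => ?_)
      (integrable_const _) (fun N => ae_of_all _ fun ω => ?_) ?_
    · exact ((((measurable_tilt_fy ν u _ r).sub (measurable_tilt_fy ν u F0 r)).comp
        measurable_obs).pow_const _).aestronglyMeasurable
    · rw [Real.norm_eq_abs, abs_pow]
      exact pow_le_pow_left₀ (abs_nonneg _) (abs_tilt_sub_le ν u _ _ _) _
    · filter_upwards [ae_conv_fy hW r] with ω hω
      exact ((hω.1 u u).sub_const _).pow _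
  refine le_of_tendsto hlim ?_
  filter_upwards [eventually_ge_atTop N0] with N hN
  refine (bfs_fin hW hr u hp hb0 hb h0 (closed_ball hW.tr u N)
    (hN0.trans (ball_mono u hN))).trans ?_
  exact pow_le_pow_left₀ (mul_nonneg (by positivity) (Finset.sum_nonneg fun v _ => hb0 _))
    (mul_le_mul_of_nonneg_left (ht N) (by positivity)) _

end

end Crest.Agent.R160
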