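import Crest.Agent.R160.MomA
import Crest.Agent.R160.AC2

/-!
Row 160, MomB: consequences of `bfs`.

Near-critical case: put `x = cA d * eta i`, `b k = θ^(2k) * exp (x (n0 i + 1)/p) * exp (-x k/p)`.
`bfs_hyp`: for `v ∉ F ⊇ {dist u · < k}`, `k = dist u v`: `Cv^(2p) ≤ θ^(2kp) Wp` (`Cv_le`, `Wp ≤ 1`) and
`decay` with `m = k - n0 i - 1` (natural subtraction; `dist u x ≤ dist u w + dist w x ≤ k - 1`; if
`m = 0` the hypothesis is void because `w ≠ u`) gives `E Wp ≤ (1-x)^m ≤ exp (-x (k - n0 i - 1))`.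
Then `(d-1)^k b k ≤ C q^k` with `C = exp (x (n0+1)/p) ≤ 2` (`n0_le`, `cA_le`), `q = exp (-x/p)`,
`1/(1-q) ≤ 2p/x`; use `total_le`/`tail_small`, `Yb_le`, `Yb_le'`, `tilt_empty`.
`mom_rate`: `p = 1`, `F0 = ball u N`, `eta i0 ≤ eta i`.
`mom_sub`: `b k = θ^(2k)`, `p = 1`, `q = (d-1) θ²`, `i = -R0 - 1`, `Yb i = 4 eta i → 0`.
`rec_tendsto`: `post_best` with `A = bt I`, `X = (48/I) ∑ j < I, xi j u`: by `xi_mean`, `xi_corr`
(`eta j = 1/8` for `j ≥ 0`), `E (σ - X)² = 1 - 2 + E X² ≤ 48²/I`.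
-/

set_option autoImplicit false

open MeasureTheory Filter Topology
open scoped Classical

namespace Crest.Agent.R160

noncomputable section

universe u

variable {V : Type u} {G : SimpleGraph V} [G.LocallyFinite] {d : ℕ} {θ : ℝ}
  {ν : Measure (V → Bool)}

lemma bfs_hyp (hW : Wd G d θ ν) {i : ℤ} (hN : NC d θ i) {r : ℝ} (hr : (i : ℝ) ≤ r) (u : V)
    {p : ℕ} (hp : 1 ≤ p) (F : Finset V) (v : V)
    (hF : ∀ x, G.dist u x < G.dist u v → x ∈ F) :
    ∫ ω, Cv G ν θ u v (fS F (fun _ => r) (obs ω)) ^ (2 * p) ∂PP ν ≤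
      (θ ^ (2 * G.dist u v) * Real.exp (cA d * eta i * (n0 i + 1) / p) *
        Real.exp (-(cA d * eta i / p)) ^ G.dist u v) ^ p := by
  have := hW.prob
  set x := cA d * eta i with hx
  set k := G.dist u v with hk
  have hx0 : 0 < x := mul_pos (cA_pos hW.tr.three) (eta_pos i)
  have hx1 : x ≤ 1 := by
    have h1 := cA_le hW.tr.three
    have h2 := eta_le i
    have h3 := eta_pos i
    have h4 := cA_pos hW.tr.three
    rw [hx]
    nlinarith
  have hdec := decay hW hN (F : Set V) (s := fun _ => r) (I := r) (fun _ => le_rfl) u v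
    (m := k - n0 i - 1) (by omega) fun w hw hwm z _ hz => by
      refine ⟨Finset.mem_coe.2 (hF z ?_), hr⟩
      have h1 : w ≠ u := ((mem_pth hW.tr).1 hw).1
      have h2 : G.dist u w ≠ 0 := fun h => h1 (hW.tr.dist_eq_zero.1 h).symm
      have h3 := hW.tr.triangle u w z
      omega
  have mW : Measurable fun ω : Om V => Wp G ν θ u v (fS (F : Set V) (fun _ => r) (obs ω)) :=
    (measurable_Wp ν θ u v).comp ((measurable_fS _ (I := r) fun _ => le_rfl).comp measurable_obs)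
  have mC : Measurable fun ω : Om V => Cv G ν θ u v (fS (F : Set V) (fun _ => r) (obs ω)) :=
    (measurable_Cv ν θ u v).comp ((measurable_fS _ (I := r) fun _ => le_rfl).comp measurable_obs)
  have i1 : Integrable (fun ω : Om V =>
      Cv G ν θ u v (fS (F : Set V) (fun _ => r) (obs ω)) ^ (2 * p)) (PP ν) :=
    integrable_of_bdd (mC.pow_const _) (C := 1 ^ (2 * p)) fun ω => by
      rw [abs_pow]; exact pow_le_pow_left₀ (abs_nonneg _) (abs_Cv_le hW _ _ _) _
  have i2 : Integrable (fun ω : Om V => Wp G ν θ u v (fS (F : Set V) (fun _ => r) (obs ω)))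
      (PP ν) :=
    integrable_of_bdd mW (C := 1) fun ω => by
      rw [abs_of_nonneg (Wp_nonneg hW _ _ _)]; exact Wp_le_one hW _ _ _
  have hθk : 0 ≤ (θ ^ k) ^ (2 * p) := pow_nonneg (pow_nonneg hW.θ0 _) _
  refine (integral_mono i1 (i2.const_mul ((θ ^ k) ^ (2 * p))) fun ω => ?_).trans ?_
  · refine (pow_le_pow_left₀ (Cv_nonneg hW _ _ _) (Cv_le hW _ _ _) _).trans ?_
    rw [mul_pow]
    exact mul_le_mul_of_nonneg_left
      (pow_le_of_le_one (Wp_nonneg hW _ _ _) (Wp_le_one hW _ _ _) (by omega)) hθk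
  · rw [integral_const_mul]
    have hp0 : (p : ℝ) ≠ 0 := by positivity
    have e : (θ ^ (2 * k) * Real.exp (x * (n0 i + 1) / p) * Real.exp (-(x / p)) ^ k) ^ p =
        (θ ^ k) ^ (2 * p) * Real.exp (-(x * (k - n0 i - 1))) := by
      rw [mul_assoc, mul_pow, ← Real.exp_nat_mul, ← Real.exp_add, ← Real.exp_nat_mul,
        ← pow_mul, ← pow_mul]
      congr 1
      · congr 1; ring
      · congr 1; field_simp; ring
    rw [e]
    refine mul_le_mul_of_nonneg_left (hdec.trans ?_) hθk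
    have h1 : 1 - x ≤ Real.exp (-x) := by linarith [Real.add_one_le_exp (-x)]
    refine (pow_le_pow_left₀ (by linarith) h1 _).trans ?_
    rw [← Real.exp_nat_mul, Real.exp_le_exp]
    have h2 : (k : ℝ) - n0 i - 1 ≤ ((k - n0 i - 1 : ℕ) : ℝ) := by
      have : (k : ℤ) - n0 i - 1 ≤ ((k - n0 i - 1 : ℕ) : ℤ) := by omega
      exact_mod_cast this
    nlinarith

lemma nc_series (hW : Wd G d θ ν) (i : ℤ) {p : ℕ} (hp : 1 ≤ p) (k : ℕ) :
    ((d : ℝ) - 1) ^ k * (θ ^ (2 * k) * Real.exp (cA d * eta i * (n0 i + 1) / p) *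
      Real.exp (-(cA d * eta i / p)) ^ k) ≤ 3 * Real.exp (-(cA d * eta i / p)) ^ k := by
  have h1 := cA_le hW.tr.three
  have h2 := eta_le i
  have h3 := eta_pos i
  have h4 := cA_pos hW.tr.three
  have h5 : eta i * n0 i ≤ 2 := by
    have := n0_le i
    rwa [le_div_iff₀ h3, mul_comm] at this
  have hp1 : (1 : ℝ) ≤ p := by exact_mod_cast hp
  have h6 : cA d * eta i * (n0 i + 1) / p ≤ 1 := by
    rw [div_le_one (by linarith)]
    have : cA d * eta i * (n0 i + 1) = cA d * (eta i * n0 i + eta i) := by ring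
    rw [this]
    nlinarith
  have h7 : Real.exp (cA d * eta i * (n0 i + 1) / p) ≤ 3 :=
    (Real.exp_le_exp.2 h6).trans (by linarith [Real.exp_one_lt_d9])
  have h8 : (((d : ℝ) - 1) * θ ^ 2) ^ k ≤ 1 :=
    pow_le_one₀ (mul_nonneg (by linarith [hW.tr.two_le]) (sq_nonneg _)) hW.θ1
  have e : ((d : ℝ) - 1) ^ k * (θ ^ (2 * k) * Real.exp (cA d * eta i * (n0 i + 1) / p) *
      Real.exp (-(cA d * eta i / p)) ^ k) = ((((d : ℝ) - 1) * θ ^ 2) ^ k *
        Real.exp (cA d * eta i * (n0 i + 1) / p)) * Real.exp (-(cA d * eta i / p)) ^ k := by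
    rw [mul_pow, pow_mul]; ring
  rw [e]
  refine mul_le_mul_of_nonneg_right ?_ (by positivity)
  calc _ ≤ 1 * 3 := mul_le_mul h8 h7 (Real.exp_pos _).le zero_le_one
    _ = 3 := one_mul _

lemma half_le_one_sub_exp {y : ℝ} (h0 : 0 ≤ y) (h1 : y ≤ 1) : y / 2 ≤ 1 - Real.exp (-y) := by
  have h2 : Real.exp (-y) ≤ 1 / (1 + y) := by
    rw [Real.exp_neg, one_div]
    exact inv_anti₀ (by linarith) (by linarith [Real.add_one_le_exp y])
  have h3 : 1 / (1 + y) ≤ 1 - y / 2 := by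
    rw [div_le_iff₀ (by linarith)]
    nlinarith
  linarith

lemma orth_sum {Ω : Type*} [MeasurableSpace Ω] (P : Measure Ω) [IsProbabilityMeasure P]
    {Z : ℕ → Ω → ℝ} (hm : ∀ j, Measurable (Z j)) {C : ℝ} (hb : ∀ j ω, |Z j ω| ≤ C)
    (ho : ∀ j j', j ≠ j' → ∫ ω, Z j ω * Z j' ω ∂P = 0) (n : ℕ) :
    ∫ ω, (∑ j ∈ Finset.range n, Z j ω) ^ 2 ∂P ≤ n * C ^ 2 := by
  have hbb : ∀ j j' ω, |Z j ω * Z j' ω| ≤ C ^ 2 := fun j j' ω => by
    rw [abs_mul, sq]
    exact mul_le_mul (hb j ω) (hb j' ω) (abs_nonneg _) ((abs_nonneg _).trans (hb j ω))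
  have hi : ∀ j j', Integrable (fun ω => Z j ω * Z j' ω) P := fun j j' =>
    integrable_of_bdd ((hm j).mul (hm j')) (hbb j j')
  simp_rw [sq (∑ j ∈ Finset.range n, _), Finset.sum_mul_sum]
  rw [integral_finsetSum _ fun j _ => integrable_finsetSum _ fun j' _ => hi j j']
  have : ∀ j ∈ Finset.range n,
      ∫ ω, ∑ j' ∈ Finset.range n, Z j ω * Z j' ω ∂P ≤ C ^ 2 := fun j hj => by
    rw [integral_finsetSum _ fun j' _ => hi j j',
      Finset.sum_eq_single_of_mem j hj fun j' _ h => ho j j' h.symm]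
    refine (integral_mono (hi j j) (integrable_const (C ^ 2))
      fun ω => (le_abs_self _).trans (hbb j j ω)).trans ?_
    simp
  refine (Finset.sum_le_sum this).trans ?_
  simp

theorem mom_nc (hT : Tr G d) (I : ℕ) : ∃ C : ℝ, 1 ≤ C ∧ ∀ (θ : ℝ) (ν : Measure (V → Bool)),
    Wd G d θ ν → ∀ i : ℤ, i ≤ I → NC d θ i → ∀ r ∈ Set.Icc (i : ℝ) (i + 1), ∀ p : ℕ, 1 ≤ p →
      ∀ u, ∫ ω, mm G ν r u (obs ω) ^ (2 * p) ∂PP ν ≤ (C * p ^ 3 * eta i) ^ p := by
  have hc := cA_pos hT.three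
  refine ⟨1 + 192 * ((4 + 2 * I) * Real.exp (2 * (1 + I))) ^ 2 / cA d,
    le_add_of_nonneg_right (by positivity), fun θ ν hW i hi hN r hr p hp u => ?_⟩
  have he := eta_pos i
  have hp1 : (1 : ℝ) ≤ p := by exact_mod_cast hp
  have hy0 : 0 < cA d * eta i / p := by positivity
  have hy1 : cA d * eta i / p ≤ 1 := by
    rw [div_le_one (by linarith)]
    nlinarith [cA_le hT.three, eta_le i]
  have hq1 : Real.exp (-(cA d * eta i / p)) < 1 := Real.exp_lt_one_iff.2 (by linarith)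
  have hθ := hW.θ0
  have key := bfs hW hr.2 u hp
    (b := fun k => θ ^ (2 * k) * Real.exp (cA d * eta i * (n0 i + 1) / p) *
      Real.exp (-(cA d * eta i / p)) ^ k) (fun k => by positivity)
    (fun F v _ hF => bfs_hyp hW hN hr.1 u hp F v hF) (closed_empty u)
    (t := 2 * 3 / (1 - Real.exp (-(cA d * eta i / p)))) fun N => by
      rw [Finset.sdiff_empty]
      exact total_le hT (b := fun k => θ ^ (2 * k) * Real.exp (cA d * eta i * (n0 i + 1) / p) *
        Real.exp (-(cA d * eta i / p)) ^ k) (fun k => by positivity) (Real.exp_pos _).le hq1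
        (nc_series hW i hp) u N
  simp only [tilt_empty hW, sub_zero] at key
  refine key.trans (pow_le_pow_left₀ (by have := sub_pos.2 hq1; positivity) ?_ _)
  have h1 : 2 * 3 / (1 - Real.exp (-(cA d * eta i / p))) ≤ 12 * p / (cA d * eta i) := by
    have h2 := half_le_one_sub_exp hy0.le hy1
    calc _ ≤ 2 * 3 / (cA d * eta i / p / 2) := by gcongr
      _ = _ := by field_simp; norm_num
  have h3 : Yb i * Real.exp (2 * Yb i) ≤ (4 + 2 * I) * eta i * Real.exp (2 * (1 + I)) := by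
    have := Yb_le hi
    have := Yb_le' hi
    have := Yb_pos i
    gcongr
  have h4 := Yb_pos i
  calc 16 * (p : ℝ) ^ 2 * (Yb i * Real.exp (2 * Yb i)) ^ 2 *
        (2 * 3 / (1 - Real.exp (-(cA d * eta i / p))))
      ≤ 16 * (p : ℝ) ^ 2 * ((4 + 2 * I) * eta i * Real.exp (2 * (1 + I))) ^ 2 *
        (12 * p / (cA d * eta i)) := by
        have := sub_pos.2 hq1
        gcongr
    _ = 192 * ((4 + 2 * I) * Real.exp (2 * (1 + I))) ^ 2 / cA d * p ^ 3 * eta i := by
        field_simp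
        norm_num
    _ ≤ _ := by
        gcongr
        linarith

theorem mom_rate (hT : Tr G d) (I : ℕ) (i0 : ℤ) {ε : ℝ} (hε : 0 < ε) : ∃ N : ℕ,
    ∀ (θ : ℝ) (ν : Measure (V → Bool)), Wd G d θ ν → ∀ i : ℤ, i0 ≤ i → i ≤ I → NC d θ i →
      ∀ r ∈ Set.Icc (i : ℝ) (i + 1), ∀ u,
        ∫ ω, (mm G ν r u (obs ω) - tilt ν u (ball G u N) (fy r (obs ω))) ^ 2 ∂PP ν ≤ ε := by
  have hc := cA_pos hT.three
  have he0 := eta_pos i0
  set q := Real.exp (-(cA d * eta i0)) with hq
  have hq0 : 0 ≤ q := (Real.exp_pos _).le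
  have hq1 : q < 1 := Real.exp_lt_one_iff.2 (by have := mul_pos hc he0; linarith)
  have hlim : Tendsto (fun N : ℕ => 16 * ((1 + I) * Real.exp (2 * (1 + I))) ^ 2 *
      (2 * 3 * q ^ (N + 1) / (1 - q))) atTop (𝓝 (16 * ((1 + I) * Real.exp (2 * (1 + I))) ^ 2 *
      (2 * 3 * 0 / (1 - q)))) :=
    ((((tendsto_pow_atTop_nhds_zero_of_lt_one hq0 hq1).comp (tendsto_add_atTop_nat 1)).const_mul
      _).div_const _).const_mul _
  simp only [mul_zero, zero_div] at hlim
  obtain ⟨N, hN⟩ := (hlim.eventually (ge_mem_nhds hε)).exists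
  refine ⟨N, fun θ ν hW i hi0 hi hNC r hr u => ?_⟩
  have hθ := hW.θ0
  have key := bfs hW hr.2 u (p := 1) le_rfl
    (b := fun k => θ ^ (2 * k) * Real.exp (cA d * eta i * (n0 i + 1) / (1 : ℕ)) *
      Real.exp (-(cA d * eta i / (1 : ℕ))) ^ k) (fun k => by positivity)
    (fun F v _ hF => bfs_hyp hW hNC hr.1 u le_rfl F v hF) (closed_ball hT u N)
    (t := 2 * 3 * q ^ (N + 1) / (1 - q)) fun M =>
      tail_small hT (b := fun k => θ ^ (2 * k) * Real.exp (cA d * eta i * (n0 i + 1) / (1 : ℕ)) *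
        Real.exp (-(cA d * eta i / (1 : ℕ))) ^ k) (fun k => by positivity) hq0 hq1
        (fun k => (nc_series hW i le_rfl k).trans (by
          have := eta_mono hi0
          rw [Nat.cast_one, div_one, hq]
          gcongr)) u N M
  simp only [mul_one, Nat.cast_one, one_pow, pow_one] at key
  refine key.trans (le_trans ?_ hN)
  have := Yb_le' hi
  have := Yb_pos i
  have := sub_pos.2 hq1
  gcongr

theorem mom_sub (hW : Wd G d θ ν) (hs : ((d : ℝ) - 1) * θ ^ 2 < 1) {ε : ℝ} (hε : 0 < ε) :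
    ∃ R0 : ℕ, ∀ s : ℝ, s ≤ -(R0 : ℝ) → ∀ u, ∫ ω, mm G ν s u (obs ω) ^ 2 ∂PP ν ≤ ε := by
  have := hW.prob
  set q := ((d : ℝ) - 1) * θ ^ 2 with hq
  have hq0 : 0 ≤ q := mul_nonneg (by linarith [hW.tr.two_le]) (sq_nonneg _)
  have hlim : Tendsto (fun N : ℕ => 16 * (16 * Real.exp (-N) * Real.exp 2 ^ 2) *
      (2 * 1 / (1 - q))) atTop (𝓝 (16 * (16 * 0 * Real.exp 2 ^ 2) * (2 * 1 / (1 - q)))) :=
    ((((Real.tendsto_exp_neg_atTop_nhds_zero.comp tendsto_natCast_atTop_atTop).const_mul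
      _).mul_const _).const_mul _).mul_const _
  simp only [mul_zero, zero_mul] at hlim
  obtain ⟨N, hN⟩ := (hlim.eventually (ge_mem_nhds hε)).exists
  refine ⟨N, fun s hsN u => ?_⟩
  have hθ := hW.θ0
  have key := bfs hW (i := -(N : ℤ) - 1) (r := s) (by push_cast; linarith) u (p := 1) le_rfl
    (b := fun k => θ ^ (2 * k)) (fun k => by positivity)
    (fun F v _ _ => by
      have mC : Measurable fun ω : Om V => Cv G ν θ u v (fS (F : Set V) (fun _ => s) (obs ω)) :=
        (measurable_Cv ν θ u v).comp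
          ((measurable_fS _ (I := s) fun _ => le_rfl).comp measurable_obs)
      have hb : ∀ ω : Om V, Cv G ν θ u v (fS (F : Set V) (fun _ => s) (obs ω)) ^ (2 * 1) ≤
          (θ ^ (2 * G.dist u v)) ^ 1 := fun ω => by
        rw [pow_one, mul_one, mul_comm, pow_mul]
        exact pow_le_pow_left₀ (Cv_nonneg hW _ _ _) (Cv_le_pow hW _ _ _) _
      refine (integral_mono (integrable_of_bdd (mC.pow_const _)
        (C := (θ ^ (2 * G.dist u v)) ^ 1) fun ω => ?_) (integrable_const _) hb).trans (by simp)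
      rw [abs_of_nonneg (pow_nonneg (Cv_nonneg hW _ _ _) _)]
      exact hb ω)
    (closed_empty u) (t := 2 * 1 / (1 - q)) fun M => by
      rw [Finset.sdiff_empty]
      exact total_le hW.tr (b := fun k => θ ^ (2 * k)) (fun k => by positivity) hq0 hs
        (fun k => by rw [hq, mul_pow, pow_mul, one_mul]) u M
  simp only [tilt_empty hW, sub_zero, mul_one, Nat.cast_one, one_pow, pow_one] at key hN
  refine key.trans (le_trans ?_ hN)
  have h1 := Yb_le (i := -(N : ℤ) - 1) (I := 0) (by omega)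
  have h2 := Yb_le' (i := -(N : ℤ) - 1) (I := 0) (by omega)
  have h3 := Yb_pos (-(N : ℤ) - 1)
  have h4 := eta_sq_le_exp (j := -(N : ℤ) - 1) (r := -(N : ℝ)) (by push_cast; linarith)
  have h5 := sub_pos.2 hs
  simp only [Nat.cast_zero, mul_zero, add_zero] at h1 h2
  have h6 : Yb (-(N : ℤ) - 1) ^ 2 ≤ 16 * Real.exp (-N) := by
    have := pow_le_pow_left₀ h3.le h1 2
    nlinarith
  rw [mul_pow]
  gcongr
  linarith

theorem rec_tendsto (hW : Wd G d θ ν) {ε : ℝ} (hε : 0 < ε) :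
    ∃ I : ℕ, ∀ u, ∫ ω, (sp (ω.1 u) - mm G ν I u (obs ω)) ^ 2 ∂PP ν ≤ ε := by
  have := hW.prob
  obtain ⟨I, hI⟩ := exists_nat_gt (49 ^ 2 / ε)
  have hI0 : (0 : ℝ) < I := lt_trans (by positivity) hI
  refine ⟨I, fun u => ?_⟩
  have hX : Measurable fun o : Ob V => 48 / (I : ℝ) * ∑ j ∈ Finset.range I, xi j u o :=
    (Finset.measurable_sum _ fun (j : ℕ) _ => measurable_xi j u).const_mul _
  have hC : ∀ o : Ob V, |48 / (I : ℝ) * ∑ j ∈ Finset.range I, xi j u o| ≤ 48 / (I : ℝ) * I :=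
    fun o => by
      rw [abs_mul, abs_of_nonneg (by positivity)]
      refine mul_le_mul_of_nonneg_left ((Finset.abs_sum_le_sum_abs _ _).trans ?_) (by positivity)
      refine (Finset.sum_le_sum fun (j : ℕ) _ => abs_xi_le j u o).trans ?_
      simp
  have hd : Dep (bt (I : ℝ)) fun o : Ob V => 48 / (I : ℝ) * ∑ j ∈ Finset.range I, xi j u o := by
    intro o o' h1 h2
    refine congrArg _ (Finset.sum_congr rfl fun j hj => ?_)
    have hj' : (j : ℝ) + 1 ≤ I := by exact_mod_cast Finset.mem_range.1 hj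
    unfold xi act
    rw [← h1]
    split_ifs with h
    · rw [h2 _ (h.2.trans_le (by push_cast; exact hj'))]
    · rw [zero_mul, zero_mul]
  refine (post_best hW (rule_bt (I : ℝ)) u hX hC hd).trans ?_
  have mσ : Measurable fun ω : Om V => sp (ω.1 u) := by fun_prop
  have mξ : ∀ j : ℕ, Measurable fun ω : Om V => xi j u (obs ω) := fun j =>
    (measurable_xi j u).comp measurable_obs
  have hmean : ∀ j : ℕ, ∫ ω, sp (ω.1 u) * xi j u (obs ω) ∂PP ν = 1 / 48 := fun j => by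
    rw [xi_mean ν j u (φ := fun σ => sp (σ u)) (by fun_prop) (C := 1) fun σ => (abs_sp _).le,
      eta_of_nonneg (Int.natCast_nonneg j)]
    simp only [sp_mul_self, integral_const, probReal_univ, smul_eq_mul]
    norm_num
  have horth := orth_sum (PP ν) (Z := fun j ω => sp (ω.1 u) - 48 * xi j u (obs ω))
    (fun j => mσ.sub ((mξ j).const_mul _)) (C := 49) (fun j ω => by
      have h1 := abs_sp (ω.1 u)
      have h2 := abs_xi_le j u (obs ω)
      refine (abs_sub _ _).trans ?_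
      rw [abs_mul, abs_of_nonneg (show (0 : ℝ) ≤ 48 by norm_num)]
      linarith) (fun j j' hjj => by
      have hcorr : ∫ ω, xi j u (obs ω) * xi j' u (obs ω) ∂PP ν = 1 / 48 * (1 / 48) := by
        rw [xi_corr ν (fun h => hjj (by simpa using h)), eta_of_nonneg (Int.natCast_nonneg j),
          eta_of_nonneg (Int.natCast_nonneg j')]
        simp only [sp_mul_self, integral_const, probReal_univ, smul_eq_mul]
        norm_num
      have i1 : ∀ j : ℕ, Integrable (fun ω : Om V => sp (ω.1 u) * xi j u (obs ω)) (PP ν) :=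
        fun j => integrable_of_bdd (mσ.mul (mξ j)) (C := 1) fun ω => by
          rw [abs_mul, abs_sp, one_mul]; exact abs_xi_le _ _ _
      have i2 : Integrable (fun ω : Om V => xi j u (obs ω) * xi j' u (obs ω)) (PP ν) :=
        integrable_of_bdd ((mξ j).mul (mξ j')) (C := 1) fun ω => by
          rw [abs_mul]; exact mul_le_one₀ (abs_xi_le _ _ _) (abs_nonneg _) (abs_xi_le _ _ _)
      have e : ∀ ω : Om V, (sp (ω.1 u) - 48 * xi j u (obs ω)) * (sp (ω.1 u) - 48 * xi j' u (obs ω))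
          = ((1 - 48 * (sp (ω.1 u) * xi j u (obs ω))) - 48 * (sp (ω.1 u) * xi j' u (obs ω))) +
            48 ^ 2 * (xi j u (obs ω) * xi j' u (obs ω)) := fun ω => by
        linear_combination sp_mul_self (ω.1 u)
      have j1 : Integrable (fun ω : Om V => 1 - 48 * (sp (ω.1 u) * xi j u (obs ω))) (PP ν) :=
        (integrable_const _).sub ((i1 j).const_mul _)
      have j2 : Integrable (fun ω : Om V => (1 - 48 * (sp (ω.1 u) * xi j u (obs ω))) -
          48 * (sp (ω.1 u) * xi j' u (obs ω))) (PP ν) := j1.sub ((i1 j').const_mul _)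
      simp only [e]
      rw [integral_add j2 (i2.const_mul _), integral_sub j1 ((i1 j').const_mul _),
        integral_sub (integrable_const _) ((i1 j).const_mul _), integral_const_mul,
        integral_const_mul, integral_const_mul, hmean, hmean, hcorr]
      simp only [integral_const, probReal_univ, smul_eq_mul]
      norm_num) I
  have e : ∀ ω : Om V, (sp (ω.1 u) - 48 / (I : ℝ) * ∑ j ∈ Finset.range I, xi j u (obs ω)) ^ 2 =
      (1 / (I : ℝ)) ^ 2 *
        (∑ j ∈ Finset.range I, (sp (ω.1 u) - 48 * xi j u (obs ω))) ^ 2 := fun ω => by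
    rw [Finset.sum_sub_distrib, ← Finset.mul_sum]
    simp only [Finset.sum_const, Finset.card_range, nsmul_eq_mul]
    field_simp
  simp only [e]
  rw [integral_const_mul]
  refine (mul_le_mul_of_nonneg_left horth (by positivity)).trans ?_
  rw [div_lt_iff₀ hε] at hI
  have : (1 / (I : ℝ)) ^ 2 * (I * 49 ^ 2) = 49 ^ 2 / I := by field_simp
  rw [this, div_le_iff₀ hI0]
  linarith

end

end Crest.Agent.R160
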