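import Crest.Agent.R160.Fld

/-!
Row 160, PicA: pointwise properties of the Picard iterates and of the reconstruction map.
All by induction on `n`.  Adaptedness: if `act s T c = 1` then `tm T c < s`, so `c` has the same
time and value in `o'`, and the previous iterate at time `tm T c` agrees (`Agree.mono`); if
`tm T c < s` fails in `o` it fails in `o'`.
-/

set_option autoImplicit false

open MeasureTheory Filter Topology
open scoped Classical

namespace Crest.Agent.R160

noncomputable section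

universe u

variable {V : Type u} {G : SimpleGraph V} [G.LocallyFinite] {d : ℕ} {θ : ℝ}
  {ν : Measure (V → Bool)}

lemma abs_Pic_le (θ : ℝ) (R n : ℕ) (o : Ob V) (u : V) (s : ℝ) : |Pic G θ R n o u s| ≤ 1 := by
  cases n with
  | zero => simp [Pic]
  | succ n => exact abs_cl_le _

lemma measurable_pre (θ : ℝ) (R : ℕ) {M : Ob V → V → ℝ → ℝ}
    (hM : ∀ u, Measurable fun p : ℝ × Ob V => M p.2 u p.1) (u : V) :
    Measurable fun p : ℝ × Ob V => pre G θ R (M p.2) p.2 u p.1 := by
  unfold pre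
  refine Finset.measurable_sum _ fun j _ => Finset.measurable_sum _ fun v _ => ?_
  have h1 : ∀ w, Measurable fun p : ℝ × Ob V => M p.2 w (tm p.2.2 (j, v)) := fun w =>
    (hM w).comp (((measurable_tm (j, v)).comp measurable_snd.snd).prodMk measurable_snd)
  refine ((measurable_act (j, v)).comp (measurable_fst.prodMk measurable_snd.snd)).mul
    (((measurable_Ch θ u v).comp (measurable_pi_lambda _ h1)).mul ?_)
  have h2 : Measurable fun p : ℝ × Ob V =>
      ((eta j, M p.2 v (tm p.2.2 (j, v)), p.2.1 (j, v)) : ℝ × ℝ × ℝ) :=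
    measurable_const.prodMk ((h1 v).prodMk ((measurable_pi_apply (j, v)).comp measurable_snd.fst))
  have h3 := measurable_psi.comp h2
  exact h3

lemma measurable_Pic (θ : ℝ) (R n : ℕ) (u : V) :
    Measurable fun p : ℝ × Ob V => Pic G θ R n p.2 u p.1 := by
  induction n generalizing u with
  | zero => exact measurable_const
  | succ n ih => exact measurable_cl.comp (measurable_pre θ R (M := Pic G θ R n) ih u)

lemma measurable_pre_Pic (θ : ℝ) (R n : ℕ) (u : V) (s : ℝ) :
    Measurable fun o : Ob V => pre G θ R (Pic G θ R n o) o u s := by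
  exact (measurable_pre θ R (M := Pic G θ R n) (measurable_Pic θ R n) u).of_uncurry_left
    (f := fun s o => pre G θ R (Pic G θ R n o) o u s)

lemma pre_Pic_bdd (hW : Wd G d θ ν) (R : ℕ) :
    ∃ C : ℝ, ∀ n o u s, |pre G θ R (Pic G θ R n o) o u s| ≤ C := by
  refine ⟨∑ _j ∈ Finset.Icc (-(R : ℤ)) R, ((d : ℝ) + 1) ^ R, fun n o u s => ?_⟩
  unfold pre
  refine (Finset.abs_sum_le_sum_abs _ _).trans (Finset.sum_le_sum fun j _ => ?_)
  refine (Finset.abs_sum_le_sum_abs _ _).trans ?_
  refine (Finset.sum_le_card_nsmul _ _ 1 fun v _ => ?_).trans ?_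
  · have h1 := Ch_le hW.tr hW.θ0 hW.sq_le u v (m := fun w => Pic G θ R n o w (tm o.2 (j, v)))
      fun w => abs_Pic_le _ _ _ _ _ _
    have h2 := Ch_nonneg (G := G) hW.θ0 hW.sq_le u v
      (m := fun w => Pic G θ R n o w (tm o.2 (j, v))) fun w => abs_Pic_le _ _ _ _ _ _
    have h3 := abs_psi_le (eta_pos j).le (eta_le j) (abs_Pic_le (G := G) θ R n o v (tm o.2 (j, v)))
      (o.1 (j, v))
    have h4 := h1.trans (pow_le_one₀ hW.θ0 hW.le_one)
    rw [abs_mul, abs_mul, abs_of_nonneg (act_nonneg _ _ _), abs_of_nonneg h2]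
    exact mul_le_one₀ (act_le_one _ _ _) (by positivity)
      (mul_le_one₀ h4 (abs_nonneg _) (by linarith [eta_le j]))
  · rw [nsmul_eq_mul, mul_one]
    exact_mod_cast card_ball_le hW.tr u R

lemma adapted_pre (θ : ℝ) (R : ℕ) {M : Ob V → V → ℝ → ℝ}
    (hM : ∀ u s, Adapted s fun o => M o u s) (u : V) (s : ℝ) :
    Adapted s fun o : Ob V => pre G θ R (M o) o u s := by
  intro o o' h
  unfold pre
  refine Finset.sum_congr rfl fun j _ => Finset.sum_congr rfl fun v _ => ?_
  by_cases hc : tm o.2 (j, v) < s ∨ tm o'.2 (j, v) < s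
  · obtain ⟨h1, h2⟩ := h _ hc
    have h3 : tm o.2 (j, v) = tm o'.2 (j, v) := by simp only [tm, h2]
    have h4 : tm o'.2 (j, v) < s := hc.elim (fun h => h3 ▸ h) id
    have h5 : ∀ w, M o w (tm o'.2 (j, v)) = M o' w (tm o'.2 (j, v)) := fun w =>
      hM w _ o o' (h.mono h4.le)
    simp only [act, h1, h2, h3, h5]
  · rw [not_or] at hc
    simp only [act, hc.1, hc.2, and_false, if_false, zero_mul]

lemma adapted_Pic (θ : ℝ) (R n : ℕ) (u : V) (s : ℝ) :
    Adapted s fun o : Ob V => Pic G θ R n o u s := by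
  induction n generalizing u s with
  | zero => exact fun _ _ _ => rfl
  | succ n ih => exact fun o o' h => congrArg cl (adapted_pre θ R ih u s o o' h)

lemma adapted_pre_Pic (θ : ℝ) (R n : ℕ) (u : V) (s : ℝ) :
    Adapted s fun o : Ob V => pre G θ R (Pic G θ R n o) o u s := by
  exact adapted_pre θ R (adapted_Pic θ R n) u s

lemma Pic_negO (θ : ℝ) (R n : ℕ) (o : Ob V) (u : V) (s : ℝ) :
    Pic G θ R n (negO o) u s = -Pic G θ R n o u s := by
  induction n generalizing u s with
  | zero => simp [Pic]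
  | succ n ih =>
    simp only [Pic]
    rw [← cl_neg]
    congr 1
    unfold pre
    rw [← Finset.sum_neg_distrib]
    refine Finset.sum_congr rfl fun j _ => ?_
    rw [← Finset.sum_neg_distrib]
    refine Finset.sum_congr rfl fun v _ => ?_
    simp only [ih]
    rw [Ch_neg θ u v fun w => Pic G θ R n o w (tm (negO o).2 (j, v))]
    simp only [negO, Pi.neg_apply, psi_neg]
    ring

lemma Pic_pullO (hT : Tr G d) (g : G ≃g G) (θ : ℝ) (R n : ℕ) (o : Ob V) (u : V) (s : ℝ) :
    Pic G θ R n (pullO g o) u s = Pic G θ R n o (g u) s := by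
  induction n generalizing u s with
  | zero => rfl
  | succ n ih =>
    simp only [Pic]
    congr 1
    unfold pre
    refine Finset.sum_congr rfl fun j _ => ?_
    rw [sum_ball_iso hT g]
    refine Finset.sum_congr rfl fun v _ => ?_
    simp only [ih]
    rw [Ch_iso hT g θ u v fun w => Pic G θ R n o w (tm (pullO g o).2 (j, v))]
    rfl

omit [G.LocallyFinite] in
lemma act_eq_zero {s : ℝ} {T : Cf V} {c : ℤ × V} (h : s ≤ c.1) : act s T c = 0 :=
  if_neg fun h' => absurd (h.trans (le_tm T c)) (not_le.2 h'.2)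

omit [G.LocallyFinite] in
lemma act_eq_of_le {s s' : ℝ} {T : Cf V} {c : ℤ × V} (h : c.1 + 1 ≤ s) (h' : c.1 + 1 ≤ s') :
    act s T c = act s' T c := by
  unfold act
  by_cases hc : cl (T c) < 0
  · have := (tm_lt_iff T c).2 hc
    rw [if_pos ⟨hc, this.trans_le h⟩, if_pos ⟨hc, this.trans_le h'⟩]
  · simp only [hc, false_and, if_false]

lemma pre_of_le (θ : ℝ) (R : ℕ) (m : V → ℝ → ℝ) (o : Ob V) (u : V) {s : ℝ} (hs : s ≤ -(R : ℝ)) :
    pre G θ R m o u s = 0 := by
  unfold pre
  refine Finset.sum_eq_zero fun j hj => Finset.sum_eq_zero fun v _ => ?_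
  have h1 : (-(R : ℝ)) ≤ j := by exact_mod_cast (Finset.mem_Icc.1 hj).1
  rw [act_eq_zero (hs.trans h1), zero_mul]

lemma Pic_of_le (θ : ℝ) (R n : ℕ) (o : Ob V) (u : V) {s : ℝ} (hs : s ≤ -(R : ℝ)) :
    Pic G θ R n o u s = 0 := by
  cases n with
  | zero => rfl
  | succ n => simp only [Pic, pre_of_le θ R _ o u hs, cl_zero]

/-- increments of `pre` during round `i`: for `j < i` `act s = act i`, for `j > i` both vanish,
for `j = i` `act i = 0` -/
lemma pre_round (θ : ℝ) (R : ℕ) (m : V → ℝ → ℝ) (o : Ob V) (u : V) {i : ℤ}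
    (hi : i ∈ Finset.Icc (-(R : ℤ)) R) {s : ℝ} (hs : s ∈ Set.Icc (i : ℝ) (i + 1)) :
    pre G θ R m o u s = pre G θ R m o u i + ∑ v ∈ ball G u R, act s o.2 (i, v) *
      (Ch G θ u v (fun w => m w (tm o.2 (i, v))) *
        psi (eta i) (m v (tm o.2 (i, v))) (o.1 (i, v))) := by
  unfold pre
  rw [← Finset.add_sum_erase _ _ hi, ← Finset.add_sum_erase _ _ hi, add_comm]
  congr 1
  rw [Finset.sum_eq_zero (s := ball G u R) fun v _ => by
    rw [act_eq_zero (c := (i, v)) le_rfl, zero_mul], zero_add]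
  refine Finset.sum_congr rfl fun j hj => Finset.sum_congr rfl fun v _ => ?_
  congr 1
  rcases lt_or_gt_of_ne (Finset.ne_of_mem_erase hj) with h | h
  · have h1 : (j : ℝ) + 1 ≤ i := by exact_mod_cast h
    exact act_eq_of_le (c := (j, v)) (h1.trans hs.1) h1
  · have h1 : (i : ℝ) + 1 ≤ j := by exact_mod_cast h
    rw [act_eq_zero (c := (j, v)) (hs.2.trans h1), act_eq_zero (c := (j, v)) (by linarith)]

lemma apx_Pic (hW : Wd G d θ ν) (R n : ℕ) (u : V) :
    Apx (fun r v o => Ch G θ u v fun w => Pic G θ R n (innov G ν o) w r)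
      (fun r v o => Pic G θ R n (innov G ν o) v r) := by
  have := hW.prob
  have hm : ∀ v, Measurable fun p : ℝ × Ob V => Pic G θ R n (innov G ν p.2) v p.1 := fun v =>
    (measurable_Pic θ R n v).comp (measurable_fst.prodMk ((measurable_innov ν).comp measurable_snd))
  have ha : ∀ r v, Adapted r fun o => Pic G θ R n (innov G ν o) v r := fun r v o o' h =>
    adapted_Pic θ R n v r _ _ (innov_agree ν h)
  refine ⟨fun v => (measurable_Ch θ u v).comp (measurable_pi_lambda _ hm), hm,
    fun r v o o' h => ?_, ha, fun r v o => ?_, fun r v o => abs_Pic_le _ _ _ _ _ _⟩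
  · exact congrArg (Ch G θ u v) (funext fun w => ha r w o o' h)
  · rw [abs_of_nonneg (Ch_nonneg hW.θ0 hW.sq_le u v fun w => abs_Pic_le _ _ _ _ _ _)]
    exact (Ch_le hW.tr hW.θ0 hW.sq_le u v fun w => abs_Pic_le _ _ _ _ _ _).trans
      (pow_le_one₀ hW.θ0 hW.le_one)

lemma measurable_Psi (θ : ℝ) (R N : ℕ → ℕ) : Measurable (Psi G θ R N) := by
  refine Measurable.prodMk (measurable_pi_lambda _ fun c => ?_) measurable_snd
  refine measurable_Qf.comp (Measurable.prodMk (((measurable_st c).comp measurable_snd).mul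
    (measurable_slim fun n => ?_)) ((measurable_pi_apply c).comp measurable_fst))
  exact (measurable_Pic θ (R n) (N n) c.2).comp
    (((measurable_tm c).comp measurable_snd).prodMk measurable_id)

lemma Psi_agree (θ : ℝ) (R N : ℕ → ℕ) {r : ℝ} {o o' : Ob V} (h : Agree r o o') :
    Agree r (Psi G θ R N o) (Psi G θ R N o') := by
  intro c hc
  obtain ⟨h1, h2⟩ := h c hc
  refine ⟨?_, h2⟩
  have h3 : tm o.2 c = tm o'.2 c := by simp only [tm, h2]
  have h4 : tm o'.2 c < r := hc.elim (fun h => h3 ▸ h) id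
  have h5 : ∀ n, Pic G θ (R n) (N n) o c.2 (tm o'.2 c) = Pic G θ (R n) (N n) o' c.2 (tm o'.2 c) :=
    fun n => adapted_Pic θ _ _ _ _ o o' (h.mono h4.le)
  simp only [Psi, st, h1, h2, h3, h5]

lemma Psi_negO (θ : ℝ) (R N : ℕ → ℕ) (o : Ob V) :
    Psi G θ R N (negO o) = negO (Psi G θ R N o) := by
  refine Prod.ext (funext fun c => ?_) rfl
  simp only [Psi, Pic_negO]
  rw [slim_neg fun n => Pic G θ (R n) (N n) o c.2 (tm (negO o).2 c), mul_neg]
  exact Qf_neg _ _

lemma Psi_pullO (hT : Tr G d) (g : G ≃g G) (θ : ℝ) (R N : ℕ → ℕ) (o : Ob V) :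
    Psi G θ R N (pullO g o) = pullO g (Psi G θ R N o) := by
  refine Prod.ext (funext fun c => ?_) rfl
  simp only [Psi, Pic_pullO hT]
  rfl

end

end Crest.Agent.R160
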