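import Crest.Agent.R160.PicA
import Crest.Agent.R160.EvoB
import Crest.Agent.R160.MomB

/-!
Row 160, PicB: convergence of the Picard iteration in the subcritical case `q = (d-1) θ² < 1`.

Constants: `K0` with `∑ v ∈ ball u R, θ^(2k) (8·10^6 (k+1)(2k+1) + 18) ≤ K0` for all `R` (`k = dist u v`;
`sum_ball_le`, summability of `k² q^k`), `w s = exp (2 K0 exp s)`, so `∫_j^s K0 e^r w r dr =
(w s - w j)/2` and `w ≥ 1`.  Given `I, ε` choose `R ≥ I` with (`mom_sub`, `tail_small` for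
`b k = θ^(2k)`, `dec_triv`) `E mm s u² ≤ a0` for `s ≤ -R` and
`a = a0 + ∑_{-R ≤ j < I} 4 eta j² t_R` small (`∑_{j<I} eta j² ≤ I + 1`).
Claim (induction on `n`): `E (mm r u - Pic n u r)² ≤ B n * w r` for all `u` and `r ∈ [-R, I]`, where
`B 0 = 1`, `B (n+1) = a + B n / 2`.  Step: by induction on the round `j = -R, …, I-1`, for
`s ∈ [j, j+1]`: `E (mm s u - pre u s)² ≤ a0 + ∑_{j' ≤ j} 4 eta j'² t_R + B n (w s - w (-R))/2`, from
`evo` with `Z0 = pre … u j` (`pre_round`, `apx_Pic`, `innov_agree`), `φ r = K0 e^r B n w r`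
(`Cv_eq_Ch` a.s., `Ch_lip_sq`, `card_pth`, `Ch_le`, `eta_sq_le_exp`); then clamp (`sq_sub_cl_le`).
`B n ≤ 2a + 2^(-n)`; for `s ≤ -R` use `Pic_of_le`.
-/

set_option autoImplicit false

open MeasureTheory Filter Topology
open scoped Classical

namespace Crest.Agent.R160

noncomputable section

universe u

variable {V : Type u} {G : SimpleGraph V} [G.LocallyFinite] {d : ℕ} {θ : ℝ}
  {ν : Measure (V → Bool)}

lemma exists_K0 (hW : Wd G d θ ν) (hs : ((d : ℝ) - 1) * θ ^ 2 < 1) : ∃ K0 : ℝ, 0 ≤ K0 ∧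
    ∀ (u : V) (R : ℕ), ∑ v ∈ ball G u R, θ ^ (2 * G.dist u v) *
      (8 * 10 ^ 6 * ((G.dist u v : ℝ) + 1) * (2 * G.dist u v + 1) + 18) ≤ K0 := by
  set q := ((d : ℝ) - 1) * θ ^ 2 with hq
  have hd := hW.tr.two_le
  have hq0 : 0 ≤ q := by positivity
  have hn : ‖q‖ < 1 := by rwa [Real.norm_of_nonneg hq0]
  set g : ℕ → ℝ := fun k => 16 * 10 ^ 6 * ((k : ℝ) ^ 2 * q ^ k) + 24 * 10 ^ 6 * ((k : ℝ) ^ 1 * q ^ k) +
    (8 * 10 ^ 6 + 18) * q ^ k with hg
  have hsum : Summable g :=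
    (((summable_pow_mul_geometric_of_norm_lt_one 2 hn).mul_left _).add
      ((summable_pow_mul_geometric_of_norm_lt_one 1 hn).mul_left _)).add
      ((summable_geometric_of_lt_one hq0 hs).mul_left _)
  have hg0 : ∀ k, 0 ≤ g k := fun k => by positivity
  refine ⟨2 * ∑' k, g k, mul_nonneg zero_le_two (tsum_nonneg hg0), fun u R => ?_⟩
  have h0 := hW.θ0
  refine (sum_ball_le hW.tr u R (h := fun k => θ ^ (2 * k) *
    (8 * 10 ^ 6 * ((k : ℝ) + 1) * (2 * k + 1) + 18)) fun k => by positivity).trans ?_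
  gcongr
  refine le_trans (le_of_eq (Finset.sum_congr rfl fun k _ => ?_))
    (hsum.sum_le_tsum (Finset.range (R + 1)) fun k _ => hg0 k)
  simp only [hg, hq, mul_pow, pow_mul]
  ring

lemma pic_rate (hW : Wd G d θ ν) (R n : ℕ) (i : ℤ) (r : ℝ) {β : ℝ}
    (hβ : ∀ u, ∫ ω, (mm G ν r u (obs ω) - Pic G θ R n (innov G ν (obs ω)) u r) ^ 2 ∂PP ν ≤ β)
    (u v : V) :
    ∫ ω, (8 * eta i ^ 2 * (Cv G ν θ u v (fy r (obs ω)) -
        Ch G θ u v fun w => Pic G θ R n (innov G ν (obs ω)) w r) ^ 2 +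
      18 * eta i ^ 4 * (Ch G θ u v fun w => Pic G θ R n (innov G ν (obs ω)) w r) ^ 2 *
        (mm G ν r v (obs ω) - Pic G θ R n (innov G ν (obs ω)) v r) ^ 2) ∂PP ν ≤
      eta i ^ 2 * β * (θ ^ (2 * G.dist u v) *
        (8 * 10 ^ 6 * ((G.dist u v : ℝ) + 1) * (2 * G.dist u v + 1) + 18)) := by
  have := hW.prob
  set δ : V → Om V → ℝ := fun w ω =>
    (mm G ν r w (obs ω) - Pic G θ R n (innov G ν (obs ω)) w r) ^ 2 with hδ
  have hδi : ∀ w, Integrable (δ w) (PP ν) := fun w => by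
    refine integrable_of_bdd (C := 4) ?_ fun ω => ?_
    · exact (((measurable_mm' ν r w).comp measurable_obs).sub ((measurable_Pic θ R n w).comp
        (measurable_const.prodMk ((measurable_innov ν).comp measurable_obs)))).pow_const 2
    · have h1 := abs_le.1 (abs_mm_le (G := G) ν r w (obs ω))
      have h2 := abs_le.1 (abs_Pic_le (G := G) θ R n (innov G ν (obs ω)) w r)
      rw [abs_of_nonneg (sq_nonneg _)]
      nlinarith [h1.1, h1.2, h2.1, h2.2]
  set k := G.dist u v with hk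
  set c : ℝ := eta i ^ 2 * θ ^ (2 * k) with hc
  have h0 := hW.θ0
  have hc0 : 0 ≤ c := by positivity
  have hsi : Integrable (fun ω => ∑ w ∈ pth G u v, (δ w ω + δ (tw G u w) ω)) (PP ν) :=
    integrable_finsetSum _ fun w _ => (hδi w).add (hδi _)
  have hi1 : Integrable (fun ω => 8 * 10 ^ 6 * ((k : ℝ) + 1) *
      (δ u ω + ∑ w ∈ pth G u v, (δ w ω + δ (tw G u w) ω))) (PP ν) :=
    ((hδi u).add hsi).const_mul _
  have hi2 : Integrable (fun ω => 18 * δ v ω) (PP ν) := (hδi v).const_mul _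
  calc _ ≤ ∫ ω, c * (8 * 10 ^ 6 * ((k : ℝ) + 1) *
        (δ u ω + ∑ w ∈ pth G u v, (δ w ω + δ (tw G u w) ω)) + 18 * δ v ω) ∂PP ν := by
        refine integral_mono_of_nonneg (ae_of_all _ fun ω => by positivity)
          ((hi1.add hi2).const_mul c) ?_
        filter_upwards [ae_conv_fy hW r] with ω hω
        have h1 := Ch_lip_sq hW.tr h0 hW.sq_le u v (m := fun w => mm G ν r w (obs ω))
          (m' := fun w => Pic G θ R n (innov G ν (obs ω)) w r) (fun w => abs_mm_le ν r w _)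
          (fun w => abs_Pic_le θ R n _ w r)
        have h2 := Ch_le hW.tr h0 hW.sq_le u v
          (m := fun w => Pic G θ R n (innov G ν (obs ω)) w r) (fun w => abs_Pic_le θ R n _ w r)
        have h3 := Ch_nonneg (G := G) h0 hW.sq_le u v
          (m := fun w => Pic G θ R n (innov G ν (obs ω)) w r) (fun w => abs_Pic_le θ R n _ w r)
        have h4 : (Ch G θ u v fun w => Pic G θ R n (innov G ν (obs ω)) w r) ^ 2 ≤ θ ^ (2 * k) := by
          rw [mul_comm, pow_mul]
          exact pow_le_pow_left₀ h3 h2 2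
        have h5 : eta i ^ 4 ≤ eta i ^ 2 :=
          pow_le_pow_of_le_one (eta_pos i).le ((eta_le i).trans (by norm_num)) (by norm_num)
        have h6 : Cv G ν θ u v (fy r (obs ω)) = Ch G θ u v fun w => mm G ν r w (obs ω) :=
          Cv_eq_Ch hW hω u v
        have h7 : 18 * eta i ^ 4 * (Ch G θ u v fun w => Pic G θ R n (innov G ν (obs ω)) w r) ^ 2 *
            δ v ω ≤ 18 * eta i ^ 2 * θ ^ (2 * k) * δ v ω := by
          have : 0 ≤ δ v ω := sq_nonneg _
          gcongr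
        have h8 := mul_le_mul_of_nonneg_left h1 (show 0 ≤ 8 * eta i ^ 2 by positivity)
        rw [h6]
        refine (add_le_add h8 h7).trans (le_of_eq ?_)
        simp only [hc, hδ, hk]
        ring
    _ = c * (8 * 10 ^ 6 * ((k : ℝ) + 1) * (∫ ω, δ u ω ∂PP ν + ∑ w ∈ pth G u v,
        (∫ ω, δ w ω ∂PP ν + ∫ ω, δ (tw G u w) ω ∂PP ν)) + 18 * ∫ ω, δ v ω ∂PP ν) := by
        rw [integral_const_mul, integral_add hi1 hi2, integral_const_mul, integral_const_mul,
          integral_add (hδi u) hsi, integral_finsetSum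
            (f := fun w ω => δ w ω + δ (tw G u w) ω) _ fun w _ => (hδi w).add (hδi _)]
        congr 4
        exact Finset.sum_congr rfl fun w _ => integral_add (hδi w) (hδi _)
    _ ≤ c * (8 * 10 ^ 6 * ((k : ℝ) + 1) * (β + ∑ w ∈ pth G u v, (β + β)) + 18 * β) := by
        gcongr with w hw <;> exact hβ _
    _ = _ := by
        rw [Finset.sum_const, card_pth hW.tr, nsmul_eq_mul, hc]
        ring

lemma integral_weight (K B a b : ℝ) :
    ∫ r in a..b, K * Real.exp r * (B * Real.exp (2 * K * Real.exp r)) =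
      B * Real.exp (2 * K * Real.exp b) / 2 - B * Real.exp (2 * K * Real.exp a) / 2 := by
  refine intervalIntegral.integral_eq_sub_of_hasDerivAt
    (f := fun r => B * Real.exp (2 * K * Real.exp r) / 2) (fun r _ => ?_)
    (Continuous.intervalIntegrable (by fun_prop) _ _)
  have h := ((((Real.hasDerivAt_exp r).const_mul (2 * K)).exp).const_mul B).div_const 2
  refine h.congr_deriv ?_
  ring

lemma pic_round (hW : Wd G d θ ν) {K0 : ℝ}
    (hK : ∀ (u : V) (R : ℕ), ∑ v ∈ ball G u R, θ ^ (2 * G.dist u v) *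
      (8 * 10 ^ 6 * ((G.dist u v : ℝ) + 1) * (2 * G.dist u v + 1) + 18) ≤ K0) (hK0 : 0 ≤ K0)
    (R n : ℕ) {t : ℝ} (ht0 : 0 ≤ t)
    (ht : ∀ u R', ∑ v ∈ ball G u R' \ ball G u R, θ ^ (2 * G.dist u v) ≤ t) {i : ℤ}
    (hi : i ∈ Finset.Icc (-(R : ℤ)) R) {B : ℝ} (hB0 : 0 ≤ B)
    (hB : ∀ r ∈ Set.Icc (i : ℝ) (i + 1), ∀ u,
      ∫ ω, (mm G ν r u (obs ω) - Pic G θ R n (innov G ν (obs ω)) u r) ^ 2 ∂PP ν ≤
        B * Real.exp (2 * K0 * Real.exp r)) {s : ℝ} (hs : s ∈ Set.Icc (i : ℝ) (i + 1)) (u : V) :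
    ∫ ω, (mm G ν s u (obs ω) -
        pre G θ R (Pic G θ R n (innov G ν (obs ω))) (innov G ν (obs ω)) u s) ^ 2 ∂PP ν ≤
      ∫ ω, (mm G ν i u (obs ω) -
        pre G θ R (Pic G θ R n (innov G ν (obs ω))) (innov G ν (obs ω)) u i) ^ 2 ∂PP ν +
      (B * Real.exp (2 * K0 * Real.exp s) / 2 - B * Real.exp (2 * K0 * Real.exp i) / 2) +
      4 * Real.exp i * t := by
  have := hW.prob
  obtain ⟨C, hC⟩ := pre_Pic_bdd hW R
  have h := evo hW i (dec_triv hW i) u R (ht u) hs
    (Z0 := fun o => pre G θ R (Pic G θ R n (innov G ν o)) (innov G ν o) u i)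
    ((measurable_pre_Pic θ R n u i).comp (measurable_innov ν)) (C := C) (fun o => hC _ _ _ _)
    (fun o o' h => adapted_pre_Pic θ R n u i _ _ (innov_agree ν h)) (apx_Pic hW R n u)
    (φ := fun r => K0 * Real.exp r * (B * Real.exp (2 * K0 * Real.exp r))) (by fun_prop)
    (fun r hr => by
      refine (Finset.sum_le_sum fun v _ => pic_rate hW R n i r (hB r hr) u v).trans ?_
      rw [← Finset.mul_sum]
      have h1 := eta_sq_le_exp hr.1
      calc _ ≤ Real.exp r * (B * Real.exp (2 * K0 * Real.exp r)) * K0 := by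
            gcongr
            · exact Finset.sum_nonneg fun v _ => by have := hW.θ0; positivity
            · exact hK u R
        _ = _ := by ring)
  rw [integral_weight] at h
  have h2 : 4 * eta i ^ 2 * t ≤ 4 * Real.exp i * t := by
    gcongr
    exact eta_sq_le_exp le_rfl
  refine le_trans (le_of_eq ?_) (h.trans (by linarith))
  congr 1
  ext ω
  rw [pre_round θ R _ _ u hi hs, sub_add_eq_sub_sub]
  rfl

theorem pic (hW : Wd G d θ ν) (hs : ((d : ℝ) - 1) * θ ^ 2 < 1) (I : ℕ) {ε : ℝ} (hε : 0 < ε) :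
    ∃ R n : ℕ, ∀ s : ℝ, s ≤ I → ∀ u,
      ∫ ω, (mm G ν s u (obs ω) - Pic G θ R n (innov G ν (obs ω)) u s) ^ 2 ∂PP ν ≤ ε := by
  have := hW.prob
  obtain ⟨K0, hK0, hK⟩ := exists_K0 hW hs
  set q := ((d : ℝ) - 1) * θ ^ 2 with hq
  have hd := hW.tr.two_le
  have hq0 : 0 ≤ q := by positivity
  have hq1 : 0 < 1 - q := by linarith
  set w : ℝ → ℝ := fun r => Real.exp (2 * K0 * Real.exp r) with hw
  have hw1 : ∀ r, 1 ≤ w r := fun r => Real.one_le_exp (by positivity)
  have hwI : ∀ r : ℝ, r ≤ I → w r ≤ w I := fun r hr => by simp only [hw]; gcongr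
  have hW0 : 0 < w I := Real.exp_pos _
  set a0 := ε / (8 * w I) with ha0
  have ha : 0 < a0 := by positivity
  obtain ⟨R0, hR0⟩ := mom_sub hW hs ha
  obtain ⟨N, hN⟩ := exists_pow_lt_of_lt_one
    (show 0 < a0 * (1 - q) / (8 * Real.exp I) by positivity) hs
  obtain ⟨n, hn⟩ := exists_pow_lt_of_lt_one (show 0 < ε / (2 * w I) by positivity)
    (show (1 / 2 : ℝ) < 1 by norm_num)
  set R := R0 + N + I with hR
  set t := 2 * 1 * q ^ (R + 1) / (1 - q) with ht
  have ht0 : 0 ≤ t := by positivity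
  have htail : ∀ u R', ∑ v ∈ ball G u R' \ ball G u R, θ ^ (2 * G.dist u v) ≤ t := fun u R' =>
    tail_small hW.tr (b := fun k => θ ^ (2 * k)) (fun k => by have := hW.θ0; positivity) hq0 hs
      (fun k => by rw [hq, mul_pow, pow_mul, one_mul]) u R R'
  have htI : 4 * Real.exp I * t ≤ a0 := by
    have h1 : q ^ (R + 1) ≤ q ^ N := pow_le_pow_of_le_one hq0 hs.le (by omega)
    have h2 := h1.trans hN.le
    rw [le_div_iff₀ (by positivity)] at h2
    rw [ht, ← mul_div_assoc, div_le_iff₀ hq1]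
    linarith
  have hlow : ∀ s : ℝ, s ≤ -(R : ℝ) → ∀ u, ∫ ω, mm G ν s u (obs ω) ^ 2 ∂PP ν ≤ a0 := by
    intro s hs' u
    refine hR0 s (hs'.trans ?_) u
    have : (R0 : ℝ) ≤ R := by exact_mod_cast (show R0 ≤ R by omega)
    linarith
  have key : ∀ m : ℕ, ∀ s : ℝ, s ≤ I → ∀ u,
      ∫ ω, (mm G ν s u (obs ω) - Pic G θ R m (innov G ν (obs ω)) u s) ^ 2 ∂PP ν ≤
        (4 * a0 + (1 / 2) ^ m) * w s := by
    intro m
    induction m with
    | zero =>
      intro s _ u
      have h1 : ∫ ω, (mm G ν s u (obs ω) - Pic G θ R 0 (innov G ν (obs ω)) u s) ^ 2 ∂PP ν ≤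
          ∫ _, (1 : ℝ) ∂PP ν := by
        refine integral_mono_of_nonneg (ae_of_all _ fun ω => sq_nonneg _) (integrable_const _)
          (ae_of_all _ fun ω => ?_)
        simp only [Pic, sub_zero, sq_le_one_iff_abs_le_one]
        exact abs_mm_le ν s u _
      simp only [integral_const, probReal_univ, smul_eq_mul, mul_one] at h1
      have := hw1 s
      nlinarith
    | succ m ih =>
      set B := 4 * a0 + (1 / 2 : ℝ) ^ m with hB
      have hB0 : 0 ≤ B := by positivity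
      have hrd : ∀ i : ℤ, -(R : ℤ) ≤ i → i + 1 ≤ I → ∀ s ∈ Set.Icc (i : ℝ) (i + 1), ∀ u, _ :=
        fun i h1 h2 s hs' u => pic_round hW hK hK0 R m ht0 htail (i := i)
          (Finset.mem_Icc.2 ⟨h1, by omega⟩) hB0
          (fun r hr => ih r (hr.2.trans (by exact_mod_cast h2))) hs' u
      have hint : ∀ i : ℤ, -(R : ℤ) ≤ i → i ≤ I → ∀ u, ∫ ω, (mm G ν i u (obs ω) -
          pre G θ R (Pic G θ R m (innov G ν (obs ω))) (innov G ν (obs ω)) u i) ^ 2 ∂PP ν ≤
            a0 + 4 * Real.exp i * t + B * w i / 2 := by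
        intro i hi
        induction i, hi using Int.leInduction with
        | base =>
          intro _ u
          have h1 := hlow ((-(R : ℤ) : ℤ) : ℝ) (by push_cast; exact le_rfl) u
          simp only [pre_of_le θ R _ _ u (s := ((-(R : ℤ) : ℤ) : ℝ)) (by push_cast; exact le_rfl),
            sub_zero]
          have := hw1 ((-(R : ℤ) : ℤ) : ℝ)
          have : 0 ≤ 4 * Real.exp ((-(R : ℤ) : ℤ) : ℝ) * t := by positivity
          have : 0 ≤ B * w ((-(R : ℤ) : ℤ) : ℝ) / 2 := by positivity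
          linarith
        | succ i hi ihi =>
          intro h2 u
          have h3 := hrd i hi h2 ((i + 1 : ℤ) : ℝ) (by push_cast; constructor <;> linarith) u
          have h4 := ihi (by omega) u
          have h5 : 2 * Real.exp i ≤ Real.exp ((i + 1 : ℤ) : ℝ) := by
            push_cast
            rw [Real.exp_add]
            nlinarith [Real.add_one_le_exp (1 : ℝ), Real.exp_pos (i : ℝ)]
          have h6 := mul_le_mul_of_nonneg_right h5 ht0
          simp only [hw] at h4 ⊢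
          linarith
      intro s hsI u
      have hws := hw1 s
      have hp : (0 : ℝ) ≤ (1 / 2) ^ (m + 1) := by positivity
      rcases le_or_gt s (-(R : ℝ)) with h | h
      · simp only [Pic_of_le θ R (m + 1) _ u h, sub_zero]
        have := hlow s h u
        nlinarith
      · have h1 : -(R : ℤ) ≤ ⌈s⌉ - 1 := by
          have : (-(R : ℤ) : ℤ) < ⌈s⌉ := Int.lt_ceil.2 (by push_cast; exact h)
          omega
        have h2 : ⌈s⌉ ≤ (I : ℤ) := Int.ceil_le.2 (by exact_mod_cast hsI)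
        have h3 := hrd (⌈s⌉ - 1) h1 (by omega) s (by
          push_cast
          exact ⟨by linarith [Int.ceil_lt_add_one s], by linarith [Int.le_ceil s]⟩) u
        have h4 := hint (⌈s⌉ - 1) h1 (by omega) u
        have h5 : 2 * Real.exp ((⌈s⌉ - 1 : ℤ) : ℝ) ≤ Real.exp I := by
          have : ((⌈s⌉ - 1 : ℤ) : ℝ) + 1 ≤ I := by exact_mod_cast (show ⌈s⌉ - 1 + 1 ≤ I by omega)
          refine le_trans ?_ (Real.exp_le_exp.2 this)
          rw [Real.exp_add]
          nlinarith [Real.add_one_le_exp (1 : ℝ), Real.exp_pos ((⌈s⌉ - 1 : ℤ) : ℝ)]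
        have h6 := mul_le_mul_of_nonneg_right h5 ht0
        obtain ⟨C, hC⟩ := pre_Pic_bdd hW R
        have h7 : ∫ ω, (mm G ν s u (obs ω) - Pic G θ R (m + 1) (innov G ν (obs ω)) u s) ^ 2 ∂PP ν ≤
            ∫ ω, (mm G ν s u (obs ω) -
              pre G θ R (Pic G θ R m (innov G ν (obs ω))) (innov G ν (obs ω)) u s) ^ 2 ∂PP ν := by
          refine integral_mono_of_nonneg (ae_of_all _ fun ω => sq_nonneg _) ?_
            (ae_of_all _ fun ω => sq_sub_cl_le (abs_mm_le ν s u _) _)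
          refine integrable_of_bdd (C := (1 + C) ^ 2) ?_ fun ω => ?_
          · exact (((measurable_mm' ν s u).comp measurable_obs).sub
              ((measurable_pre_Pic θ R m u s).comp
                ((measurable_innov ν).comp measurable_obs))).pow_const 2
          · rw [abs_pow]
            exact pow_le_pow_left₀ (abs_nonneg _)
              ((abs_sub _ _).trans (add_le_add (abs_mm_le ν s u _) (hC _ _ _ _))) 2
        have h8 : (4 * a0 + (1 / 2) ^ (m + 1)) * w s = 2 * a0 * w s + B * w s / 2 := by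
          rw [hB]; ring
        have h9 : 2 * a0 ≤ 2 * a0 * w s := le_mul_of_one_le_right (by positivity) hws
        rw [h8]
        simp only [hw] at h4 h9 ⊢
        linarith
  refine ⟨R, n, fun s hs' u => (key n s hs' u).trans ?_⟩
  have h1 : (4 * a0 + (1 / 2) ^ n) * w s ≤ (4 * a0 + ε / (2 * w I)) * w I := by
    gcongr
    exact hwI s hs'
  refine h1.trans (le_of_eq ?_)
  rw [ha0]
  field_simp
  ring

theorem approx_sub (hW : Wd G d θ ν) (hs : ((d : ℝ) - 1) * θ ^ 2 < 1) : Approx G ν := by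
  intro I ε hε
  obtain ⟨R, n, h⟩ := pic hW hs I hε
  exact ⟨θ, R, n, h I le_rfl⟩

end

end Crest.Agent.R160
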