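import Crest.Agent.R160.Fld
import Crest.Agent.R168.Prod

/-!
Row 160, PostA: Bayes' formula in finite volume (compare Crest/Agent/R168/Posterior.lean, Prod.lean:
`integral_update_infinitePi`).

`obs_density` (fixed times `T`, fixed spins `σ`, finite set `K` of indices): induction on `K`,
resampling one coordinate with `integral_update_infinitePi` and `integral_sp_Qf`; base case
`K = ∅`: `Ψ` is constant.  (In the inductive step apply the hypothesis to
`Y ↦ ∫ y, Ψ (update Y b y) * (1 + st * sp * y) ∂lam`.)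
`bayes_fin`: Fubini over `T` and `σ`; for fixed `T` put `K = hK.toFinset` of `A T`;
`∏ c ∈ K, (1 + st c * sp (σ c.2) * cl (ζ c)) = (∏ √(1 - st² cl²)) * wt F (fld (A T) (ζ, T)) σ` by
`exp_dl` (`fld` is a finite sum here, `tsum_eq_sum`, `Finset.sum_fiberwise`/`sum_product`).  Hence both
sides equal `∫ T ∫ ζ Φ (ζ,T) * ∏√ * ∫ σ, sp (σ u) * wt` (use `tilt * ∫ wt = ∫ sp * wt`,
`integral_wt_pos`, `dep_fld`).
`bayes`: let `A m T = A T ∩ {c | -m ≤ c.1}` and `mask A o = (fun c => if c ∈ A o.2 then o.1 c else 0, o.2)`.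
`Φ = Φ ∘ mask A`.  Either use Lévy's theorem (`tendsto_ae_condExp`) for the filtration
`comap (mask (A m) ∘ obs)` with `iSup_comap_mask`, `tendsto_fld`, `continuous_tilt`, or any other
approximation argument.
-/

set_option autoImplicit false

open MeasureTheory Filter Topology
open scoped Classical

namespace Crest.Agent.R160

noncomputable section

universe u

variable {V : Type u} {G : SimpleGraph V} [G.LocallyFinite] {d : ℕ} {θ : ℝ}
  {ν : Measure (V → Bool)}

/-- hide the observations that are not revealed -/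
def mask (A : Cf V → Set (ℤ × V)) (o : Ob V) : Ob V :=
  (fun c => if c ∈ A o.2 then o.1 c else 0, o.2)

lemma measurable_mask {A : Cf V → Set (ℤ × V)} (hA : ∀ c, MeasurableSet {T | c ∈ A T}) :
    Measurable (mask A) := by
  refine Measurable.prodMk (measurable_pi_lambda _ fun c => ?_) measurable_snd
  exact Measurable.ite (measurable_snd (hA c)) ((measurable_pi_apply c).comp measurable_fst)
    measurable_const

lemma Dep.mask_eq {A : Cf V → Set (ℤ × V)} {Φ : Ob V → ℝ} (h : Dep A Φ) (o : Ob V) :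
    Φ (mask A o) = Φ o :=
  h _ _ rfl fun _ hc => if_pos hc

lemma dep_comp_mask (A : Cf V → Set (ℤ × V)) (Φ : Ob V → ℝ) : Dep A fun o => Φ (mask A o) := by
  rintro ⟨Y, T⟩ ⟨Y', T'⟩ h1 h2
  obtain rfl : T = T' := h1
  have : mask A (Y, T) = mask A (Y', T) := by
    refine Prod.ext (funext fun c => ?_) rfl
    by_cases hc : c ∈ A T
    · exact (if_pos hc).trans ((h2 c hc).trans (if_pos hc).symm)
    · exact (if_neg hc).trans (if_neg hc).symm
  exact congrArg Φ this

/-- the σ-algebra generated by the revealed observations -/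
def inf (A : Cf V → Set (ℤ × V)) : MeasurableSpace (Om V) :=
  MeasurableSpace.comap (fun ω => mask A (obs ω)) inferInstance

lemma inf_le {A : Cf V → Set (ℤ × V)} (hA : ∀ c, MeasurableSet {T | c ∈ A T}) :
    inf A ≤ (inferInstance : MeasurableSpace (Om V)) :=
  ((measurable_mask hA).comp measurable_obs).comap_le

private lemma measurable_inf_mask (A : Cf V → Set (ℤ × V)) :
    Measurable[inf A] fun ω : Om V => mask A (obs ω) := comap_measurable _

lemma inf_mono {A B : Cf V → Set (ℤ × V)} (hA : ∀ c, MeasurableSet {T | c ∈ A T})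
    (h : ∀ T, A T ⊆ B T) : inf A ≤ inf B := by
  have h1 : (fun ω : Om V => mask A (obs ω)) = mask A ∘ fun ω => mask B (obs ω) := by
    funext ω
    refine Prod.ext (funext fun c => ?_) rfl
    by_cases hc : c ∈ A (obs ω).2
    · exact (if_pos hc).trans ((if_pos hc).trans (if_pos (h _ hc))).symm
    · exact (if_neg hc).trans (if_neg hc).symm
  have h2 : Measurable[inf B] fun ω : Om V => mask A (obs ω) := by
    rw [h1]; exact (measurable_mask hA).comp (measurable_inf_mask B)
  exact h2.comap_le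

/-- coordinatewise: `mask A o c` is the eventual value of `mask (An n) o c` -/
lemma iSup_inf {An : ℕ → Cf V → Set (ℤ × V)} {A : Cf V → Set (ℤ × V)}
    (hAn : ∀ n c, MeasurableSet {T | c ∈ An n T}) (hmono : ∀ T, Monotone fun n => An n T)
    (hU : ∀ T, ⋃ n, An n T = A T) : ⨆ n, inf (An n) = inf A := by
  have hsub : ∀ n T, An n T ⊆ A T := fun n T => hU T ▸ Set.subset_iUnion (fun n => An n T) n
  refine le_antisymm (iSup_le fun n => inf_mono (hAn n) (hsub n)) ?_
  have hm : ∀ n, Measurable[⨆ n, inf (An n)] fun ω : Om V => mask (An n) (obs ω) := fun n =>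
    (measurable_inf_mask (An n)).mono (le_iSup (fun n => inf (An n)) n) le_rfl
  have h2 : Measurable[⨆ n, inf (An n)] fun ω : Om V => mask A (obs ω) := by
    let _ : MeasurableSpace (Om V) := ⨆ n, inf (An n)
    have h0 : Measurable fun ω : Om V => (mask (An 0) (obs ω)).2 := measurable_snd.comp (hm 0)
    refine Measurable.prodMk (measurable_pi_lambda _ fun c => ?_) h0
    refine measurable_of_tendsto_metrizable (f := fun n ω => (mask (An n) (obs ω)).1 c)
      (fun n => (measurable_pi_apply c).comp (measurable_fst.comp (hm n))) ?_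
    refine tendsto_pi_nhds.2 fun ω => tendsto_const_nhds.congr' ?_
    by_cases hc : c ∈ A (obs ω).2
    · have hc' := hc
      rw [← hU, Set.mem_iUnion] at hc'
      obtain ⟨n, hn⟩ := hc'
      filter_upwards [eventually_ge_atTop n] with k hk
      exact (if_pos hc).trans (if_pos (hmono _ hk hn)).symm
    · exact Eventually.of_forall fun k => (if_neg hc).trans (if_neg fun h => hc (hsub k _ h)).symm
  exact h2.comap_le

lemma Dep.measurable_inf {A : Cf V → Set (ℤ × V)} {Φ : Ob V → ℝ} (h : Dep A Φ)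
    (hΦ : Measurable Φ) : Measurable[inf A] fun ω => Φ (obs ω) := by
  have h1 : (fun ω : Om V => Φ (obs ω)) = Φ ∘ fun ω => mask A (obs ω) :=
    funext fun ω => (h.mask_eq _).symm
  rw [h1]
  exact hΦ.comp (measurable_inf_mask A)

/-- characterisation of a version of the conditional expectation by test functions -/
lemma ae_eq_condExp_inf (ν : Measure (V → Bool)) [IsProbabilityMeasure ν]
    {A : Cf V → Set (ℤ × V)} (hA : ∀ c, MeasurableSet {T | c ∈ A T}) {X : Om V → ℝ}
    (hX : Measurable X) {M : Ob V → ℝ} (hM : Measurable M) (hd : Dep A M) {C : ℝ}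
    (bX : ∀ ω, |X ω| ≤ C) (bM : ∀ o, |M o| ≤ C)
    (h : ∀ Φ : Ob V → ℝ, Measurable Φ → (∀ o, |Φ o| ≤ 1) → Dep A Φ →
      ∫ ω, X ω * Φ (obs ω) ∂PP ν = ∫ ω, M (obs ω) * Φ (obs ω) ∂PP ν) :
    (fun ω => M (obs ω)) =ᵐ[PP ν] (PP ν)[X | inf A] := by
  have hle := inf_le hA
  refine ae_eq_condExp_of_forall_setIntegral_eq hle (integrable_of_bdd hX bX)
    (fun s _ _ => (integrable_of_bdd (hM.comp measurable_obs) fun ω => bM _).integrableOn)
    (fun s hs _ => ?_) (hd.measurable_inf hM).stronglyMeasurable.aestronglyMeasurable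
  have hs' := hle s hs
  obtain ⟨t, ht, rfl⟩ := hs
  have h1 := h (fun o => t.indicator (fun _ => (1 : ℝ)) (mask A o))
    ((measurable_const.indicator ht).comp (measurable_mask hA))
    (fun o => by by_cases ho : mask A o ∈ t <;> simp [ho])
    (dep_comp_mask A (t.indicator fun _ => (1 : ℝ)))
  rw [← integral_indicator hs', ← integral_indicator hs']
  refine Eq.trans ?_ (h1.symm.trans ?_)
  · refine integral_congr_ae (ae_of_all _ fun ω => ?_)
    by_cases ho : mask A (obs ω) ∈ t <;> simp [Set.indicator, ho]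
  · refine integral_congr_ae (ae_of_all _ fun ω => ?_)
    by_cases ho : mask A (obs ω) ∈ t <;> simp [Set.indicator, ho]

/-- and conversely -/
lemma integral_mul_of_ae_eq_condExp (ν : Measure (V → Bool)) [IsProbabilityMeasure ν]
    {A : Cf V → Set (ℤ × V)} (hA : ∀ c, MeasurableSet {T | c ∈ A T}) {X M : Om V → ℝ}
    (hX : Measurable X) {C : ℝ} (bX : ∀ ω, |X ω| ≤ C) (h : M =ᵐ[PP ν] (PP ν)[X | inf A])
    {Φ : Ob V → ℝ} (hΦ : Measurable Φ) {C' : ℝ} (bΦ : ∀ o, |Φ o| ≤ C') (hd : Dep A Φ) :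
    ∫ ω, X ω * Φ (obs ω) ∂PP ν = ∫ ω, M ω * Φ (obs ω) ∂PP ν := by
  have hle := inf_le hA
  have hi : Integrable (X * fun ω => Φ (obs ω)) (PP ν) :=
    integrable_of_bdd (hX.mul (hΦ.comp measurable_obs)) (C := C * C') fun ω => by
      rw [Pi.mul_apply, abs_mul]
      exact mul_le_mul (bX ω) (bΦ _) (abs_nonneg _) ((abs_nonneg _).trans (bX ω))
  have h1 := condExp_mul_of_stronglyMeasurable_right (μ := PP ν)
    (hd.measurable_inf hΦ).stronglyMeasurable hi (integrable_of_bdd hX bX)
  have h2 := integral_condExp (μ := PP ν) (f := X * fun ω => Φ (obs ω)) hle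
  refine h2.symm.trans (integral_congr_ae ?_)
  filter_upwards [h1, h] with ω e1 e2
  rw [e1, e2]; rfl

private lemma abs_fac_le (T : Cf V) (c : ℤ × V) (b : Bool) (y : ℝ) :
    |1 + st T c * sp b * cl y| ≤ 2 := by
  have h1 : |st T c * sp b * cl y| ≤ 1 := by
    rw [mul_assoc]
    refine (abs_st_mul_le T c ?_).trans (by norm_num)
    rw [abs_mul, abs_sp, one_mul]; exact abs_cl_le y
  rw [abs_le] at h1 ⊢
  constructor <;> linarith [h1.1, h1.2]

private lemma abs_prod_le (T : Cf V) (K : Finset (ℤ × V)) (σ : V → Bool) (ζ : Cf V) :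
    |∏ c ∈ K, (1 + st T c * sp (σ c.2) * cl (ζ c))| ≤ 2 ^ K.card := by
  rw [Finset.abs_prod, ← Finset.prod_const]
  exact Finset.prod_le_prod (fun _ _ => abs_nonneg _) fun c _ => abs_fac_le T c _ _

private lemma measurable_prod_fac (T : Cf V) (K : Finset (ℤ × V)) :
    Measurable fun p : (V → Bool) × Cf V =>
      ∏ c ∈ K, (1 + st T c * sp (p.1 c.2) * cl (p.2 c)) := by
  refine Finset.measurable_prod _ fun c _ => ?_
  fun_prop

private lemma measurable_obs1 (σ : V → Bool) (T : Cf V) :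
    Measurable fun ζ : Cf V => (obs (σ, ζ, T)).1 :=
  measurable_fst.comp (measurable_obs.comp
    (measurable_const.prodMk (measurable_id.prodMk measurable_const)))

lemma obs_density (σ : V → Bool) (T : Cf V) (K : Finset (ℤ × V)) {Ψ : Cf V → ℝ}
    (hΨ : Measurable Ψ) {C : ℝ} (hC : ∀ Y, |Ψ Y| ≤ C) (hd : DependsOn Ψ (K : Set (ℤ × V))) :
    ∫ ζ, Ψ (obs (σ, ζ, T)).1 ∂Lam V =
      ∫ ζ, Ψ ζ * ∏ c ∈ K, (1 + st T c * sp (σ c.2) * cl (ζ c)) ∂Lam V := by
  induction K using Finset.induction_on generalizing Ψ C with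
  | empty =>
    simp only [Finset.prod_empty, mul_one]
    rw [Finset.coe_empty] at hd
    exact integral_congr_ae (ae_of_all _ fun ζ => hd.empty _ _)
  | insert b K hb ih =>
    have hC0 : 0 ≤ C := (abs_nonneg _).trans (hC 0)
    set Ψ' : Cf V → ℝ := fun Y =>
      ∫ y, Ψ (Function.update Y b y) * (1 + st T b * sp (σ b.2) * cl y) ∂lam with hΨ'
    have hm2 : Measurable fun p : Cf V × ℝ =>
        Ψ (Function.update p.1 b p.2) * (1 + st T b * sp (σ b.2) * cl p.2) :=
      (hΨ.comp measurable_update').mul (by fun_prop)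
    have hm' : Measurable Ψ' := hm2.stronglyMeasurable.integral_prod_right'.measurable
    have hb' : ∀ Y, |Ψ' Y| ≤ C * 2 := fun Y => by
      have := norm_integral_le_of_norm_le_const (μ := lam) (C := C * 2)
        (f := fun y => Ψ (Function.update Y b y) * (1 + st T b * sp (σ b.2) * cl y))
        (ae_of_all _ fun y => by
          rw [Real.norm_eq_abs, abs_mul]
          exact mul_le_mul (hC _) (abs_fac_le T b _ _) (abs_nonneg _) hC0)
      simpa using this
    have hd' : DependsOn Ψ' (K : Set (ℤ × V)) := by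
      intro Y Y' hY
      refine integral_congr_ae (ae_of_all _ fun y => ?_)
      have : Ψ (Function.update Y b y) = Ψ (Function.update Y' b y) := by
        refine hd fun c hc => ?_
        by_cases hcb : c = b
        · subst hcb; simp
        · rw [Function.update_of_ne hcb, Function.update_of_ne hcb]
          exact hY c (by simpa [hcb] using hc)
      simp only [this]
    have e1 : ∫ ζ, Ψ (obs (σ, ζ, T)).1 ∂Lam V = ∫ ζ, Ψ' (obs (σ, ζ, T)).1 ∂Lam V := by
      unfold Lam
      rw [R168.integral_update_infinitePi (fun _ => lam) b (f := fun ζ => Ψ (obs (σ, ζ, T)).1)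
        (hΨ.comp (measurable_obs1 σ T)) (fun ζ => hC _)]
      refine integral_congr_ae (ae_of_all _ fun ζ => ?_)
      have ha : |st T b| ≤ 1 / 8 := by rw [abs_of_nonneg (st_nonneg T b)]; exact st_le T b
      have h1 := integral_sp_Qf ha (σ b.2) fun y => Ψ (Function.update (obs (σ, ζ, T)).1 b y)
      have h2 : ∀ t, (obs (σ, Function.update ζ b t, T)).1 =
          Function.update (obs (σ, ζ, T)).1 b (sp (σ b.2) * Qf (st T b) t) := by
        intro t
        funext c
        by_cases hcb : c = b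
        · subst hcb; simp [obs]
        · simp [obs, Function.update_of_ne hcb]
      simp only [h2]
      rw [h1]
      refine integral_congr_ae ?_
      filter_upwards [ae_lam] with y hy
      rw [cl_of_abs_le hy]
    rw [e1, ih hm' hb' hd']
    have hm3 : Measurable fun ζ : Cf V =>
        Ψ ζ * ∏ c ∈ insert b K, (1 + st T c * sp (σ c.2) * cl (ζ c)) :=
      hΨ.mul ((measurable_prod_fac T (insert b K)).comp (measurable_const.prodMk measurable_id))
    unfold Lam
    rw [R168.integral_update_infinitePi (fun _ => lam) b hm3 (C := C * 2 ^ (insert b K).card)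
      fun ζ => by
        rw [abs_mul]
        exact mul_le_mul (hC _) (abs_prod_le T _ σ ζ) (abs_nonneg _) hC0]
    refine integral_congr_ae (ae_of_all _ fun ζ => ?_)
    simp only [hΨ']
    rw [← integral_mul_const]
    refine integral_congr_ae (ae_of_all _ fun y => ?_)
    simp only
    rw [Finset.prod_insert hb, Function.update_self, mul_assoc]
    congr 2
    refine Finset.prod_congr rfl fun c hc => ?_
    rw [Function.update_of_ne (by rintro rfl; exact hb hc)]

private lemma obs_snd' (ω : Om V) : (obs ω).2 = ω.2.2 := rfl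

private lemma integral_PP (ν : Measure (V → Bool)) [IsProbabilityMeasure ν] {H : Om V → ℝ}
    (hH : Measurable H) {C : ℝ} (hC : ∀ ω, |H ω| ≤ C) :
    ∫ ω, H ω ∂PP ν = ∫ T, ∫ σ, ∫ ζ, H (σ, ζ, T) ∂Lam V ∂ν ∂Lam V := by
  have hi : Integrable H (ν.prod ((Lam V).prod (Lam V))) := integrable_of_bdd hH hC
  unfold PP
  rw [integral_prod_symm _ hi, integral_prod_symm _ hi.integral_prod_right]
  refine integral_congr_ae (ae_of_all _ fun T => ?_)
  refine (integral_integral_swap (f := fun σ ζ => H (σ, ζ, T)) ?_).symm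
  exact integrable_of_bdd
    (hH.comp (measurable_fst.prodMk (measurable_snd.prodMk measurable_const))) fun p => hC _

private lemma prod_eq_wt {A : Set (ℤ × V)} {K : Finset (ℤ × V)} (hK : ∀ c, c ∈ K ↔ c ∈ A)
    {F : Finset V} (hF : ∀ c ∈ A, c.2 ∈ F) (σ : V → Bool) (ζ T : Cf V) :
    ∏ c ∈ K, (1 + st T c * sp (σ c.2) * cl (ζ c)) =
      (∏ c ∈ K, √(1 - st T c ^ 2 * cl (ζ c) ^ 2)) * wt F (fld A (ζ, T)) σ := by
  rw [Finset.prod_congr rfl fun c _ => exp_dl (st_nonneg T c) (st_le T c) (ζ c) (σ c.2),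
    Finset.prod_mul_distrib, ← Real.exp_sum]
  congr 2
  have h1 : ∀ v, fld A (ζ, T) v = ∑ j ∈ K.image Prod.fst,
      if (j, v) ∈ K then dl (st T (j, v)) (ζ (j, v)) else 0 := by
    intro v
    unfold fld
    rw [tsum_eq_sum (s := K.image Prod.fst) fun j hj => if_neg fun h =>
      hj (Finset.mem_image.2 ⟨(j, v), (hK _).2 h, rfl⟩)]
    exact Finset.sum_congr rfl fun j _ => by simp only [hK]
  simp only [h1, Finset.sum_mul, ite_mul, zero_mul]
  rw [Finset.sum_comm, ← Finset.sum_product' (f := fun j v =>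
    if (j, v) ∈ K then dl (st T (j, v)) (ζ (j, v)) * sp (σ v) else 0), ← Finset.sum_filter]
  refine Finset.sum_congr ?_ fun c _ => rfl
  ext c
  simp only [Finset.mem_filter, Finset.mem_product, Finset.mem_image, Prod.mk.eta]
  exact ⟨fun h => ⟨⟨⟨c, h, rfl⟩, hF c ((hK c).1 h)⟩, h⟩, fun h => h.2⟩

private lemma key (ν : Measure (V → Bool)) [IsProbabilityMeasure ν] {A : Set (ℤ × V)}
    {K : Finset (ℤ × V)} (hK : ∀ c, c ∈ K ↔ c ∈ A) {F : Finset V} (hF : ∀ c ∈ A, c.2 ∈ F)
    (T : Cf V) {g : (V → Bool) → ℝ} (hg : Measurable g) (bg : ∀ σ, |g σ| ≤ 1) {Ψ : Cf V → ℝ}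
    (hΨ : Measurable Ψ) {C : ℝ} (hC : ∀ Y, |Ψ Y| ≤ C) (hd : DependsOn Ψ (K : Set (ℤ × V))) :
    ∫ σ, ∫ ζ, g σ * Ψ (obs (σ, ζ, T)).1 ∂Lam V ∂ν =
      ∫ ζ, Ψ ζ * (∏ c ∈ K, √(1 - st T c ^ 2 * cl (ζ c) ^ 2)) *
        ∫ σ, g σ * wt F (fld A (ζ, T)) σ ∂ν ∂Lam V := by
  have hC0 : 0 ≤ C := (abs_nonneg _).trans (hC 0)
  have h1 : ∀ σ, ∫ ζ, g σ * Ψ (obs (σ, ζ, T)).1 ∂Lam V =
      ∫ ζ, g σ * (Ψ ζ * ∏ c ∈ K, (1 + st T c * sp (σ c.2) * cl (ζ c))) ∂Lam V := by
    intro σ
    rw [integral_const_mul, integral_const_mul, obs_density σ T K hΨ hC hd]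
  simp only [h1]
  rw [integral_integral_swap]
  · refine integral_congr_ae (ae_of_all _ fun ζ => ?_)
    simp only
    rw [← integral_const_mul]
    refine integral_congr_ae (ae_of_all _ fun σ => ?_)
    simp only
    rw [prod_eq_wt hK hF]
    ring
  · refine integrable_of_bdd ((hg.comp measurable_fst).mul ((hΨ.comp measurable_snd).mul
      (measurable_prod_fac T K))) (C := 1 * (C * 2 ^ K.card)) fun p => ?_
    simp only [Function.uncurry]
    rw [abs_mul, abs_mul]
    exact mul_le_mul (bg _) (mul_le_mul (hC _) (abs_prod_le T K _ _) (abs_nonneg _) hC0)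
      (by positivity) zero_le_one

lemma bayes_fin (ν : Measure (V → Bool)) [IsProbabilityMeasure ν] {A : Cf V → Set (ℤ × V)}
    (hA : Rule A) (hK : ∀ T, (A T).Finite) {F : Finset V} (hF : ∀ T, ∀ c ∈ A T, c.2 ∈ F) (u : V)
    {Φ : Ob V → ℝ} (hΦ : Measurable Φ) {C : ℝ} (hC : ∀ o, |Φ o| ≤ C) (hd : Dep A Φ) :
    ∫ ω, sp (ω.1 u) * Φ (obs ω) ∂PP ν =
      ∫ ω, tilt ν u F (fld (A ω.2.2) (obs ω)) * Φ (obs ω) ∂PP ν := by
  have hC0 : 0 ≤ C := (abs_nonneg _).trans (hC 0)
  have hM : Measurable fun o : Ob V => tilt ν u F (fld (A o.2) o) * Φ o :=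
    ((measurable_tilt ν u F).comp hA.measurable_fld).mul hΦ
  have bM : ∀ o : Ob V, |tilt ν u F (fld (A o.2) o) * Φ o| ≤ C := fun o => by
    rw [abs_mul]
    exact (mul_le_mul (abs_tilt_le ν u F _) (hC o) (abs_nonneg _) zero_le_one).trans_eq (one_mul C)
  have hsp : Measurable fun σ : V → Bool => sp (σ u) := measurable_sp.comp (measurable_pi_apply u)
  have m1 : Measurable fun ω : Om V => sp (ω.1 u) * Φ (obs ω) :=
    (hsp.comp measurable_fst).mul (hΦ.comp measurable_obs)
  have m2 : Measurable fun ω : Om V => tilt ν u F (fld (A ω.2.2) (obs ω)) * Φ (obs ω) := by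
    simpa only [Function.comp_def, obs_snd'] using hM.comp measurable_obs
  rw [integral_PP ν m1 (C := C) (fun ω => by rw [abs_mul, abs_sp, one_mul]; exact hC _),
    integral_PP ν m2 (C := C) fun ω => by simpa only [obs_snd'] using bM (obs ω)]
  refine integral_congr_ae (ae_of_all _ fun T => ?_)
  have hKm : ∀ c, c ∈ (hK T).toFinset ↔ c ∈ A T := fun c => (hK T).mem_toFinset
  have hmk : Measurable fun Y : Cf V => ((Y, T) : Ob V) := measurable_id.prodMk measurable_const
  have m3 : Measurable fun Y : Cf V => Φ (Y, T) := hΦ.comp hmk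
  have m4 : Measurable fun Y : Cf V => tilt ν u F (fld (A T) (Y, T)) * Φ (Y, T) := by
    simpa only [Function.comp_def] using hM.comp hmk
  have d3 : DependsOn (fun Y : Cf V => Φ (Y, T)) ((hK T).toFinset : Set (ℤ × V)) :=
    fun Y Y' h => hd (Y, T) (Y', T) rfl fun c hc => h c ((hKm c).2 hc)
  have d4 : DependsOn (fun Y : Cf V => tilt ν u F (fld (A T) (Y, T)) * Φ (Y, T))
      ((hK T).toFinset : Set (ℤ × V)) := fun Y Y' h => by
    have e1 : Φ (Y, T) = Φ (Y', T) := d3 h
    have e2 : tilt ν u F (fld (A T) (Y, T)) = tilt ν u F (fld (A T) (Y', T)) :=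
      dep_fld A (tilt ν u F) (Y, T) (Y', T) rfl fun c hc => h c ((hKm c).2 hc)
    simp only [e1, e2]
  have h1 := key ν hKm (hF T) T hsp (fun σ => (abs_sp _).le) m3 (fun Y => hC _) d3
  have h2 := key ν hKm (hF T) T (g := fun _ => 1) measurable_const (fun _ => by simp)
    m4 (fun Y => bM (Y, T)) d4
  simp only [one_mul] at h2
  refine Eq.trans h1 (Eq.trans ?_ h2.symm)
  refine integral_congr_ae (ae_of_all _ fun ζ => ?_)
  have h3 := (integral_wt_pos ν F (fld (A T) (ζ, T))).ne'
  simp only [tilt]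
  field_simp

theorem bayes (ν : Measure (V → Bool)) [IsProbabilityMeasure ν] {A : Cf V → Set (ℤ × V)}
    (hA : Rule A) {F : Finset V} (hF : ∀ T, ∀ c ∈ A T, c.2 ∈ F) (u : V)
    {Φ : Ob V → ℝ} (hΦ : Measurable Φ) {C : ℝ} (hC : ∀ o, |Φ o| ≤ C) (hd : Dep A Φ) :
    ∫ ω, sp (ω.1 u) * Φ (obs ω) ∂PP ν =
      ∫ ω, tilt ν u F (fld (A ω.2.2) (obs ω)) * Φ (obs ω) ∂PP ν := by
  obtain ⟨I, hI⟩ := hA.bdd
  let An : ℕ → Cf V → Set (ℤ × V) := fun m T => A T ∩ {c | -(m : ℤ) ≤ c.1}
  have hAn : ∀ m, Rule (An m) := fun m =>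
    ⟨fun c => (hA.meas c).inter (MeasurableSet.const (-(m : ℤ) ≤ c.1)),
      I, fun T c hc => hI T c hc.1⟩
  have hfin : ∀ m T, (An m T).Finite := fun m T =>
    ((Set.finite_Icc (-(m : ℤ)) I).prod F.finite_toSet).subset fun c hc =>
      ⟨⟨hc.2, hI T c hc.1⟩, hF T c hc.1⟩
  have hmono : ∀ T, Monotone fun m => An m T := fun T m m' h c hc =>
    ⟨hc.1, le_trans (by exact_mod_cast neg_le_neg (Int.ofNat_le.2 h)) hc.2⟩
  have hU : ∀ T, ⋃ m, An m T = A T := fun T => by
    ext c
    simp only [Set.mem_iUnion]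
    exact ⟨fun ⟨m, hm⟩ => hm.1, fun h => ⟨(-c.1).toNat, h, show -(((-c.1).toNat : ℕ) : ℤ) ≤ c.1 by omega⟩⟩
  have hX : Measurable fun ω : Om V => sp (ω.1 u) :=
    measurable_sp.comp ((measurable_pi_apply u).comp measurable_fst)
  have h1 : ∀ m, (fun ω => tilt ν u F (fld (An m (obs ω).2) (obs ω))) =ᵐ[PP ν]
      (PP ν)[fun ω => sp (ω.1 u) | inf (An m)] := fun m =>
    ae_eq_condExp_inf ν (hAn m).meas hX (M := fun o => tilt ν u F (fld (An m o.2) o))
      ((measurable_tilt ν u F).comp (hAn m).measurable_fld) (dep_fld (An m) (tilt ν u F))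
      (fun ω => (abs_sp _).le) (fun o => abs_tilt_le ν u F _) fun Φ hΦ bΦ hd =>
        bayes_fin ν (hAn m) (hfin m) (fun T c hc => hF T c hc.1) u hΦ bΦ hd
  let ℱ : Filtration ℕ (inferInstance : MeasurableSpace (Om V)) :=
    ⟨fun m => inf (An m), fun m m' h => inf_mono (hAn m).meas fun T => hmono T h,
      fun m => inf_le (hAn m).meas⟩
  have h2 := tendsto_ae_condExp (μ := PP ν) (ℱ := ℱ) fun ω => sp (ω.1 u)
  have h3 : ⨆ m, ℱ m = inf A := iSup_inf (fun m => (hAn m).meas) hmono hU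
  rw [h3] at h2
  refine integral_mul_of_ae_eq_condExp ν hA.meas hX (fun ω => (abs_sp _).le) ?_ hΦ hC hd
  filter_upwards [h2, ae_all_iff.2 h1] with ω e1 e2
  have e3 : Tendsto (fun m => tilt ν u F (fld (An m (obs ω).2) (obs ω))) atTop
      (𝓝 (tilt ν u F (fld (A (obs ω).2) (obs ω)))) :=
    ((continuous_tilt ν u F).tendsto _).comp (tendsto_fld fun c hc _ => hI _ c hc)
  exact tendsto_nhds_unique e3 (e1.congr fun m => (e2 m).symm)

end

end Crest.Agent.R160
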