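import Crest.Agent.R160.PostB
import Crest.Agent.R168.Prod

/-!
Row 160, PostC: predictive law of a new observation, orthogonality of martingale differences, and
the IID law of the innovations.

`pred`: resample the noise coordinate `ζ b` (`integral_update_infinitePi` of R168/Prod.lean inside
Fubini): only `(obs ω).1 b` changes, so by `hd`, `hb` and `integral_sp_Qf` the left side is
`E ∫ Φ (obs ω) y (1 + st * sp (σ b.2) * y) dlam = E [α (obs ω) + sp (σ b.2) * β (obs ω)]` with
`α o = ∫ Φ o y`, `β o = st o.2 b * ∫ Φ o y * y`, both measurable, bounded and `Dep A`; apply `post`.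
`pred_innov`: `pred` with `A T = bt (tm T b) T`, `Φ' o y = Φ o (Ff (st * mm) y)` and `integral_Ff`.
`orth`: expand the square.  `E[X0 * x v] = 0` by `pred` (note `i ≤ tm T (i,v)`).  For `v ≠ v'` split
`1 = 1(tm (i,v) < tm (i,v')) + 1(tm (i,v') < tm (i,v))` a.s. (`ae_tm_inj`); the function
`o ↦ 1(tm (i,v) < tm (i,v')) * x v o (o.1 (i,v))` is `Dep` on the information set of `v'` (use `hB`);
apply `pred` at `(i,v')`.
`map_innov`: show by induction on the finset `s` of indices, for all bounded measurable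
`H : Cf V → ℝ`, `E[H T * ∏ b ∈ s, 1(U b ∈ t b)] = (∏ b ∈ s, lam (t b)) * E[H T]`: decompose according to
which `b ∈ s` has the largest time (a.s. unique), use `pred_innov` at `b` (the other factors times the
indicator are `Dep` on `bt (tm T b) T`, by `innov_agree`), and the induction hypothesis for
`s.erase b` with `H' = H * 1(b is last)`.  Conclude with `Measure.prod_eq`/`Measure.ext_prod` and
`Measure.eq_infinitePi` (e.g. for measurable `t ⊆ Cf V` the measure
`s ↦ P (U ∈ s, T ∈ t)` has the cylinder values of `Lam t • Lam`), cf. R168/Innov.lean `map_innov`.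
-/

set_option autoImplicit false

open MeasureTheory Filter Topology
open scoped Classical

namespace Crest.Agent.R160

noncomputable section

universe u

variable {V : Type u} {G : SimpleGraph V} [G.LocallyFinite] {d : ℕ} {θ : ℝ}
  {ν : Measure (V → Bool)}

lemma pc_integral_PP (ν : Measure (V → Bool)) [IsProbabilityMeasure ν] {f : Om V → ℝ}
    (hf : Measurable f) {C : ℝ} (hC : ∀ ω, |f ω| ≤ C) :
    ∫ ω, f ω ∂PP ν = ∫ σ, ∫ T, ∫ ζ, f (σ, ζ, T) ∂Lam V ∂Lam V ∂ν := by
  rw [PP, integral_prod _ (integrable_of_bdd hf hC)]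
  refine integral_congr_ae (ae_of_all _ fun σ => ?_)
  exact integral_prod_symm _ (integrable_of_bdd (hf.comp measurable_prodMk_left) fun _ => hC _)

lemma pc_abs_integral {Ω : Type*} [MeasurableSpace Ω] (P : Measure Ω) [IsProbabilityMeasure P]
    {f : Ω → ℝ} {C : ℝ} (hC : ∀ᵐ ω ∂P, |f ω| ≤ C) : |∫ ω, f ω ∂P| ≤ C := by
  simpa using norm_integral_le_of_norm_le_const (μ := P) (f := f) hC

lemma pc_measurable_integral {Ω : Type*} [MeasurableSpace Ω] {f : Ω → ℝ → ℝ}
    (hf : Measurable fun p : Ω × ℝ => f p.1 p.2) : Measurable fun ω => ∫ y, f ω y ∂lam :=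
  (hf.stronglyMeasurable.integral_prod_right' (ν := lam)).measurable

lemma pc_resample (ν : Measure (V → Bool)) [IsProbabilityMeasure ν] (b : ℤ × V) {f : Om V → ℝ}
    (hf : Measurable f) {C : ℝ} (hC : ∀ ω, |f ω| ≤ C) :
    ∫ ω, f ω ∂PP ν = ∫ ω, ∫ t, f (ω.1, Function.update ω.2.1 b t, ω.2.2) ∂lam ∂PP ν := by
  have h : Measurable fun p : Om V × ℝ =>
      ((p.1.1, Function.update p.1.2.1 b p.2, p.1.2.2) : Om V) :=
    measurable_fst.fst.prodMk (Measurable.prodMk
      (measurable_update'.comp (measurable_fst.snd.fst.prodMk measurable_snd)) measurable_fst.snd.snd)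
  rw [pc_integral_PP ν hf hC, pc_integral_PP ν (C := C) (pc_measurable_integral
    (f := fun (ω : Om V) t => f (ω.1, Function.update ω.2.1 b t, ω.2.2)) (hf.comp h))
    fun ω => pc_abs_integral _ (ae_of_all _ fun _ => hC _)]
  refine integral_congr_ae (ae_of_all _ fun σ => integral_congr_ae (ae_of_all _ fun T => ?_))
  exact R168.integral_update_infinitePi _ b (f := fun ζ => f (σ, ζ, T)) (hf.comp (by fun_prop))
    fun _ => hC _

lemma pc_ae_mul {g : ℝ → ℝ} {C : ℝ} (hC : ∀ y, |g y| ≤ C) : ∀ᵐ y ∂lam, |g y * y| ≤ C := by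
  filter_upwards [ae_lam] with y hy
  rw [abs_mul]
  exact (mul_le_of_le_one_right (abs_nonneg _) hy).trans (hC y)

lemma pc_split {g : ℝ → ℝ} (hg : Measurable g) {C : ℝ} (hC : ∀ y, |g y| ≤ C) (a s : ℝ) :
    ∫ y, g y * (1 + a * s * y) ∂lam = ∫ y, g y ∂lam + s * (a * ∫ y, g y * y ∂lam) := by
  have h1 : Integrable (fun y => g y * y) lam :=
    Integrable.of_bound (hg.mul measurable_id).aestronglyMeasurable C (pc_ae_mul hC)
  rw [← mul_assoc, ← integral_const_mul, ← integral_add (integrable_of_bdd hg hC) (h1.const_mul _)]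
  exact integral_congr_ae (ae_of_all _ fun y => by ring)

lemma pc_abs_mul {a b A B : ℝ} (ha : |a| ≤ A) (hb : |b| ≤ B) : |a * b| ≤ A * B := by
  rw [abs_mul]
  exact mul_le_mul ha hb (abs_nonneg _) ((abs_nonneg _).trans ha)

theorem pred (hW : Wd G d θ ν) {A : Cf V → Set (ℤ × V)} (hA : Rule A) (b : ℤ × V)
    (hb : ∀ T, b ∉ A T) {Φ : Ob V → ℝ → ℝ} (hΦ : Measurable fun p : Ob V × ℝ => Φ p.1 p.2)
    {C : ℝ} (hC : ∀ o y, |Φ o y| ≤ C) (hd : ∀ y, Dep A fun o => Φ o y) :
    ∫ ω, Φ (obs ω) ((obs ω).1 b) ∂PP ν =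
      ∫ ω, ∫ y, Φ (obs ω) y *
        (1 + st ω.2.2 b * Mg G ν b.2 (fld (A ω.2.2) (obs ω)) * y) ∂lam ∂PP ν := by
  have := hW.prob
  have hg : ∀ o, Measurable (Φ o) := fun o => hΦ.comp measurable_prodMk_left
  have hst : ∀ T : Cf V, |st T b| ≤ 1 / 8 := fun T => by
    rw [abs_of_nonneg (st_nonneg T b)]; exact st_le T b
  have hα : Measurable fun o => ∫ y, Φ o y ∂lam := pc_measurable_integral hΦ
  have hβ : Measurable fun o : Ob V => st o.2 b * ∫ y, Φ o y * y ∂lam :=
    ((measurable_st b).comp measurable_snd).mul (pc_measurable_integral (hΦ.mul measurable_snd))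
  have bβ : ∀ o : Ob V, |st o.2 b * ∫ y, Φ o y * y ∂lam| ≤ 1 / 8 * C := fun o =>
    pc_abs_mul (hst _) (pc_abs_integral _ (pc_ae_mul (hC o)))
  have iα : Integrable (fun ω => ∫ y, Φ (obs ω) y ∂lam) (PP ν) :=
    integrable_of_bdd (hα.comp measurable_obs) fun ω => pc_abs_integral _ (ae_of_all _ (hC _))
  have h1 : ∀ ω : Om V, ∫ t, Φ (obs (ω.1, Function.update ω.2.1 b t, ω.2.2))
      ((obs (ω.1, Function.update ω.2.1 b t, ω.2.2)).1 b) ∂lam =
      ∫ y, Φ (obs ω) y ∂lam + sp (ω.1 b.2) * (st ω.2.2 b * ∫ y, Φ (obs ω) y * y ∂lam) := fun ω => by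
    rw [← pc_split (hg _) (hC _), ← integral_sp_Qf (hst _)]
    refine integral_congr_ae (ae_of_all _ fun t => ?_)
    simp only [obs, Function.update_self]
    refine hd _ _ _ rfl fun c hc => ?_
    simp only [Function.update_of_ne (ne_of_mem_of_not_mem hc (hb _))]
  rw [pc_resample ν b (f := fun ω => Φ (obs ω) ((obs ω).1 b)) (hΦ.comp (measurable_obs.prodMk
    ((measurable_pi_apply b).comp measurable_obs.fst))) fun _ => hC _ _]
  simp only [h1, pc_split (hg _) (hC _)]
  rw [integral_add iα, integral_add iα]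
  · congr 1
    exact post hW hA b.2 hβ bβ fun o o' h h' => by
      simp only [h, fun y => hd y o o' h h']
  · exact integrable_of_bdd (((measurable_Mg ν b.2).comp (hA.measurable_fld.comp
      measurable_obs)).mul (hβ.comp measurable_obs)) fun ω => pc_abs_mul (abs_Mg_le ν _ _) (bβ (obs ω))
  · exact integrable_of_bdd ((measurable_sp.comp ((measurable_pi_apply _).comp
      measurable_fst)).mul (hβ.comp measurable_obs)) fun ω => pc_abs_mul (abs_sp _).le (bβ (obs ω))

theorem pred_innov (hW : Wd G d θ ν) (b : ℤ × V) {Φ : Ob V → ℝ → ℝ}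
    (hΦ : Measurable fun p : Ob V × ℝ => Φ p.1 p.2) {C : ℝ} (hC : ∀ o y, |Φ o y| ≤ C)
    (hd : ∀ y, Dep (fun T => bt (tm T b) T) fun o => Φ o y) :
    ∫ ω, Φ (obs ω) ((innov G ν (obs ω)).1 b) ∂PP ν = ∫ ω, ∫ y, Φ (obs ω) y ∂lam ∂PP ν := by
  have := hW.prob
  have hm : Measurable fun o : Ob V => st o.2 b * mm G ν (tm o.2 b) b.2 o :=
    ((measurable_st b).comp measurable_snd).mul ((measurable_mm ν b.2).comp
      (f := fun o : Ob V => (tm o.2 b, o))
      (((measurable_tm b).comp measurable_snd).prodMk measurable_id))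
  refine (pred hW (rule_btm b) b (fun T => lt_irrefl (tm T b))
    (Φ := fun o y => Φ o (Ff (st o.2 b * mm G ν (tm o.2 b) b.2 o) y))
    (hΦ.comp (measurable_fst.prodMk (measurable_Ff.comp ((hm.comp measurable_fst).prodMk
      measurable_snd)))) (fun _ _ => hC _ _) fun y o o' h h' => ?_).trans ?_
  · have h1 := dep_of_adapted b (fun r => adapted_mm (G := G) ν r b.2) o o' h h'
    simp only at h1 ⊢
    rw [h1, ← h]
    exact hd _ o o' h h'
  · exact integral_congr_ae (ae_of_all _ fun ω =>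
      integral_Ff (abs_st_mul_le _ _ (abs_Mg_le ν _ _)) _)

lemma pc_sq_sum {Ω ι : Type*} [MeasurableSpace Ω] (P : Measure Ω) [IsFiniteMeasure P]
    (s : Finset ι) {X : Ω → ℝ} {Z : ι → Ω → ℝ} (hX : Measurable X) (hZ : ∀ i, Measurable (Z i))
    {C : ℝ} (bX : ∀ ω, |X ω| ≤ C) (bZ : ∀ i ω, |Z i ω| ≤ C)
    (h1 : ∀ i ∈ s, ∫ ω, X ω * Z i ω ∂P = 0)
    (h2 : ∀ i ∈ s, ∀ j ∈ s, i ≠ j → ∫ ω, Z i ω * Z j ω ∂P = 0) :
    ∫ ω, (X ω + ∑ i ∈ s, Z i ω) ^ 2 ∂P = ∫ ω, X ω ^ 2 ∂P + ∑ i ∈ s, ∫ ω, Z i ω ^ 2 ∂P := by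
  have i1 : Integrable (fun ω => X ω * X ω) P :=
    integrable_of_bdd (hX.mul hX) fun ω => pc_abs_mul (bX ω) (bX ω)
  have i2 : ∀ i, Integrable (fun ω => X ω * Z i ω) P := fun i =>
    integrable_of_bdd (hX.mul (hZ i)) fun ω => pc_abs_mul (bX ω) (bZ i ω)
  have i3 : ∀ i j, Integrable (fun ω => Z i ω * Z j ω) P := fun i j =>
    integrable_of_bdd ((hZ i).mul (hZ j)) fun ω => pc_abs_mul (bZ i ω) (bZ j ω)
  have i4 : Integrable (fun ω => 2 * ∑ i ∈ s, X ω * Z i ω) P :=
    (integrable_finsetSum _ fun i _ => i2 i).const_mul 2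
  have i5 : ∀ i, Integrable (fun ω => ∑ j ∈ s, Z i ω * Z j ω) P := fun i =>
    integrable_finsetSum _ fun j _ => i3 i j
  have e : ∀ ω, (X ω + ∑ i ∈ s, Z i ω) ^ 2 =
      X ω * X ω + 2 * ∑ i ∈ s, X ω * Z i ω + ∑ i ∈ s, ∑ j ∈ s, Z i ω * Z j ω := fun ω => by
    rw [← Finset.sum_mul_sum, ← Finset.mul_sum]; ring
  simp only [e, sq (X _), sq (Z _ _)]
  rw [integral_add (i1.fun_add i4) (integrable_finsetSum _ fun i _ => i5 i), integral_add i1 i4,
    integral_const_mul, integral_finsetSum _ fun i _ => i2 i, Finset.sum_eq_zero h1,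
    integral_finsetSum _ fun i _ => i5 i, mul_zero, add_zero]
  congr 1
  refine Finset.sum_congr rfl fun i hi => ?_
  rw [integral_finsetSum _ fun j _ => i3 i j]
  exact Finset.sum_eq_single_of_mem i hi fun j hj h => h2 i hi j hj h.symm

theorem orth (hW : Wd G d θ ν) (i : ℤ) (B : Finset V) {D : Cf V → Set (ℤ × V)}
    (hD : ∀ c, MeasurableSet {T | c ∈ D T}) (hB : ∀ v ∈ B, ∀ T, (i, v) ∈ D T)
    {X0 : Ob V → ℝ} (hX0 : Measurable X0) {x : V → Ob V → ℝ → ℝ}
    (hx : ∀ v, Measurable fun p : Ob V × ℝ => x v p.1 p.2) {C : ℝ} (bX0 : ∀ o, |X0 o| ≤ C)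
    (bx : ∀ v o y, |x v o y| ≤ C) (dX0 : Dep (fun T => D T ∩ bt i T) X0)
    (dx : ∀ v y, Dep (fun T => D T ∩ bt (tm T (i, v)) T) fun o => x v o y)
    (h0 : ∀ v o, ∫ y, x v o y * (1 + st o.2 (i, v) *
      Mg G ν v (fld (D o.2 ∩ bt (tm o.2 (i, v)) o.2) o) * y) ∂lam = 0) :
    ∫ ω, (X0 (obs ω) + ∑ v ∈ B, x v (obs ω) ((obs ω).1 (i, v))) ^ 2 ∂PP ν =
      ∫ ω, X0 (obs ω) ^ 2 ∂PP ν +
        ∑ v ∈ B, ∫ ω, x v (obs ω) ((obs ω).1 (i, v)) ^ 2 ∂PP ν := by
  have := hW.prob
  have := hW.tr.countable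
  have hZ : ∀ v, Measurable fun o : Ob V => x v o (o.1 (i, v)) := fun v =>
    (hx v).comp (measurable_id.prodMk ((measurable_pi_apply _).comp measurable_fst))
  have mart : ∀ (v : V) (W : Ob V → ℝ), Measurable W → (∀ o, |W o| ≤ C) →
      Dep (fun T => D T ∩ bt (tm T (i, v)) T) W →
      ∫ ω, W (obs ω) * x v (obs ω) ((obs ω).1 (i, v)) ∂PP ν = 0 := fun v W hW1 hW2 hW3 => by
    rw [pred hW ((rule_btm (i, v)).inter hD) (i, v) (fun T h => lt_irrefl (tm T (i, v)) h.2)
      (Φ := fun o y => W o * x v o y) ((hW1.comp measurable_fst).mul (hx v))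
      (fun o y => pc_abs_mul (hW2 o) (bx v o y)) fun y o o' h h' => by
        simp only [hW3 o o' h h', dx v y o o' h h']]
    have := fun ω => h0 v (obs ω)
    simp only [obs] at this
    simp only [mul_assoc (W _), integral_const_mul, obs, this, mul_zero, integral_zero]
  have hL : ∀ v v', Measurable fun o : Ob V =>
      if tm o.2 (i, v) < tm o.2 (i, v') then x v o (o.1 (i, v)) else 0 := fun v v' =>
    Measurable.ite (measurableSet_lt ((measurable_tm _).comp measurable_snd)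
      ((measurable_tm _).comp measurable_snd)) (hZ v) measurable_const
  have bL : ∀ v v' (o : Ob V),
      |if tm o.2 (i, v) < tm o.2 (i, v') then x v o (o.1 (i, v)) else 0| ≤ C := fun v v' o => by
    split_ifs
    exacts [bx _ _ _, by simpa using (abs_nonneg _).trans (bX0 o)]
  have key : ∀ v ∈ B, ∀ v', ∫ ω, (if tm ω.2.2 (i, v) < tm ω.2.2 (i, v') then
      x v (obs ω) ((obs ω).1 (i, v)) else 0) * x v' (obs ω) ((obs ω).1 (i, v')) ∂PP ν = 0 :=
    fun v hv v' => mart v' _ (hL v v') (bL v v') fun o o' h h' => by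
      simp only [← h]
      split_ifs with hlt
      · rw [← h' (i, v) ⟨hB v hv _, hlt⟩]
        exact dx v _ o o' h fun c hc => h' c ⟨hc.1, lt_trans hc.2 hlt⟩
      · rfl
  refine pc_sq_sum _ B (hX0.comp measurable_obs) (fun v => (hZ v).comp measurable_obs)
    (fun _ => bX0 _) (fun _ _ => bx _ _ _) (fun v _ => mart v X0 hX0 bX0 (dX0.mono fun T c hc =>
      ⟨hc.1, lt_of_lt_of_le hc.2 (le_tm T (i, v))⟩)) fun v hv v' hv' hne => ?_
  have hi : ∀ v v', Integrable (fun ω => (if tm ω.2.2 (i, v) < tm ω.2.2 (i, v') then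
      x v (obs ω) ((obs ω).1 (i, v)) else 0) * x v' (obs ω) ((obs ω).1 (i, v'))) (PP ν) :=
    fun v v' => integrable_of_bdd (((hL v v').mul (hZ v')).comp measurable_obs)
      fun ω => pc_abs_mul (bL v v' (obs ω)) (bx _ _ _)
  rw [← add_zero 0, ← congrArg₂ (· + ·) (key v hv v') (key v' hv' v),
    ← integral_add (hi v v') (hi v' v)]
  refine integral_congr_ae ?_
  filter_upwards [ae_tm_inj ν] with ω hω
  rcases lt_or_gt_of_ne (hω.ne (show (i, v) ≠ (i, v') by simpa using hne)) with h | h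
  · simp [h, h.not_gt]
  · simp [h, h.not_gt, mul_comm]

lemma pc_abs_ind {X : Type*} (t : Set X) (x : X) : |t.indicator (1 : X → ℝ) x| ≤ 1 := by
  by_cases h : x ∈ t <;> simp [h]

lemma pc_last {ι : Type*} [DecidableEq ι] {s : Finset ι} (hs : s.Nonempty) {f : ι → ℝ} (hf : Function.Injective f) :
    ∑ b ∈ s, (if ∀ c ∈ s.erase b, f c < f b then (1 : ℝ) else 0) = 1 := by
  obtain ⟨b, hb, hm⟩ := s.exists_max_image f hs
  rw [Finset.sum_eq_single_of_mem b hb fun c hc h => if_neg fun h' =>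
    (h' b (Finset.mem_erase.2 ⟨h.symm, hb⟩)).not_ge (hm c hc), if_pos]
  exact fun c hc => (hm c (Finset.mem_of_mem_erase hc)).lt_of_ne (hf.ne (Finset.ne_of_mem_erase hc))

lemma pc_key (hW : Wd G d θ ν) {t : ℤ × V → Set ℝ} (ht : ∀ b, MeasurableSet (t b))
    (s : Finset (ℤ × V)) : ∀ H : Cf V → ℝ, Measurable H → (∀ T, |H T| ≤ 1) →
    ∫ ω, H ω.2.2 * ∏ b ∈ s, (t b).indicator 1 ((innov G ν (obs ω)).1 b) ∂PP ν =
      (∏ b ∈ s, lam.real (t b)) * ∫ ω, H ω.2.2 ∂PP ν := by
  have := hW.prob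
  have := hW.tr.countable
  induction s using Finset.strongInduction with
  | H s ih =>
  intro H hH bH
  rcases s.eq_empty_or_nonempty with rfl | hs
  · simp
  have hL : ∀ b, Measurable fun T : Cf V =>
      H T * if ∀ c ∈ s.erase b, tm T c < tm T b then (1 : ℝ) else 0 := fun b => by
    refine hH.mul (Measurable.ite ?_ measurable_const measurable_const)
    simp only [Set.ofPred_forall]
    exact Finset.measurableSet_biInter _ fun c _ =>
      measurableSet_lt (measurable_tm c) (measurable_tm b)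
  have bL : ∀ b (T : Cf V), |H T * if ∀ c ∈ s.erase b, tm T c < tm T b then (1 : ℝ) else 0| ≤ 1 :=
    fun b T => by split_ifs <;> simp [bH T]
  have hP : ∀ s' : Finset (ℤ × V), Measurable fun o : Ob V =>
      ∏ b ∈ s', (t b).indicator (1 : ℝ → ℝ) ((innov G ν o).1 b) := fun s' =>
    Finset.measurable_prod _ fun b _ => (measurable_one.indicator (ht b)).comp
      ((measurable_pi_apply b).comp (measurable_innov ν).fst)
  have bP : ∀ (s' : Finset (ℤ × V)) (o : Ob V),
      |∏ b ∈ s', (t b).indicator (1 : ℝ → ℝ) ((innov G ν o).1 b)| ≤ 1 := fun s' o => by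
    rw [Finset.abs_prod]
    exact Finset.prod_le_one (fun _ _ => abs_nonneg _) fun b _ => pc_abs_ind _ _
  have h1 : ∀ b ∈ s, ∫ ω, (H ω.2.2 * if ∀ c ∈ s.erase b, tm ω.2.2 c < tm ω.2.2 b then 1 else 0) *
      ∏ b ∈ s, (t b).indicator 1 ((innov G ν (obs ω)).1 b) ∂PP ν = (∏ b ∈ s, lam.real (t b)) *
      ∫ ω, H ω.2.2 * if ∀ c ∈ s.erase b, tm ω.2.2 c < tm ω.2.2 b then 1 else 0 ∂PP ν := by
    intro b hb
    rw [← Finset.mul_prod_erase s _ hb, mul_assoc, ← ih _ (Finset.erase_ssubset hb) _ (hL b) (bL b),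
      mul_comm, ← integral_mul_const]
    simp only [← Finset.prod_erase_mul s _ hb, ← mul_assoc]
    refine (pred_innov hW b (C := 1 * 1 * 1) (Φ := fun o y =>
      (H o.2 * if ∀ c ∈ s.erase b, tm o.2 c < tm o.2 b then 1 else 0) *
        (∏ c ∈ s.erase b, (t c).indicator 1 ((innov G ν o).1 c)) * (t b).indicator 1 y)
      (((((hL b).comp measurable_snd).mul (hP _)).comp measurable_fst).mul
        ((measurable_one.indicator (ht b)).comp measurable_snd))
      (fun o y => pc_abs_mul (pc_abs_mul (bL b _) (bP _ _)) (pc_abs_ind _ _))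
      fun y o o' h h' => ?_).trans ?_
    · simp only [← h]
      split_ifs with hlt
      · have := innov_agree (G := G) ν (r := tm o.2 b) (o := o) (o' := o') fun c hc =>
          ⟨h' c (hc.elim id fun hc => by rwa [← h] at hc), by rw [h]⟩
        rw [Finset.prod_congr rfl fun c hc => by rw [(this c (Or.inl (hlt c hc))).1]]
      · simp
    · simp only [integral_const_mul, integral_indicator_one (ht b)]
      rfl
  have h2 : ∀ F : Om V → ℝ, Measurable F → (∀ ω, |F ω| ≤ 1) → ∫ ω, H ω.2.2 * F ω ∂PP ν =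
      ∑ b ∈ s, ∫ ω, (H ω.2.2 * if ∀ c ∈ s.erase b, tm ω.2.2 c < tm ω.2.2 b then 1 else 0) * F ω
        ∂PP ν := fun F hF bF => by
    refine Eq.trans (integral_congr_ae ?_) (integral_finsetSum _ fun b _ => integrable_of_bdd
      (((hL b).comp measurable_snd.snd).mul hF) fun ω => pc_abs_mul (bL b _) (bF ω))
    filter_upwards [ae_tm_inj ν] with ω hω
    rw [← Finset.sum_mul, ← Finset.mul_sum, pc_last hs hω, mul_one]
  have h3 := h2 (fun _ => 1) measurable_const (by simp)
  simp only [mul_one] at h3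
  rw [h3, Finset.mul_sum]
  exact (h2 _ ((hP s).comp measurable_obs) fun _ => bP _ _).trans (Finset.sum_congr rfl h1)

theorem map_innov (hW : Wd G d θ ν) :
    (PP ν).map (fun ω => innov G ν (obs ω)) = (Lam V).prod (Lam V) := by
  have := hW.prob
  have hm : Measurable fun ω => innov G ν (obs ω) := (measurable_innov ν).comp measurable_obs
  refine (Measure.prod_eq_generateFrom generateFrom_squareCylinders
    MeasurableSpace.generateFrom_measurableSet
    (isPiSystem_squareCylinders (fun _ => MeasurableSpace.isPiSystem_measurableSet) (by simp))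
    MeasurableSpace.isPiSystem_measurableSet
    ⟨fun _ => Set.univ, fun _ => ⟨∅, fun _ => Set.univ, by simp, by simp⟩,
      fun _ => measure_lt_top _ _, Set.iUnion_const _⟩ (Lam V).toFiniteSpanningSetsIn ?_).symm
  rintro _ ⟨s, t, ht, rfl⟩ S hS
  have ht : ∀ b, MeasurableSet (t b) := fun b => ht b trivial
  have hS : MeasurableSet S := hS
  have hms : MeasurableSet ((s : Set (ℤ × V)).pi t ×ˢ S) :=
    (MeasurableSet.pi s.countable_toSet fun _ _ => ht _).prod hS
  have h1 := pc_key hW ht s (S.indicator 1) (measurable_one.indicator hS) (pc_abs_ind S)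
  have h2 : ∫ ω, S.indicator (1 : Cf V → ℝ) ω.2.2 ∂PP ν = (Lam V).real S := by
    refine (pc_integral_PP ν ((measurable_one.indicator hS).comp measurable_snd.snd)
      fun _ => pc_abs_ind _ _).trans ?_
    simp [integral_indicator_one hS]
  rw [Measure.map_apply hm hms, ← ofReal_measureReal, ← integral_indicator_one (hm hms),
    ← ofReal_measureReal (μ := Lam V) (s := S), ← h2, ← ofReal_measureReal (μ := Lam V),
    ← ENNReal.ofReal_mul measureReal_nonneg, measureReal_def, Lam,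
    Measure.infinitePi_pi _ fun b _ => ht b, ENNReal.toReal_prod]
  refine congrArg _ (Eq.trans (integral_congr_ae (ae_of_all _ fun ω => ?_)) h1)
  simp only [Set.indicator_apply, Set.mem_preimage, Set.mem_prod, Set.mem_pi, Finset.mem_coe,
    Pi.one_apply, Finset.prod_ite_zero, Finset.prod_const_one, ite_and, ite_mul, one_mul, zero_mul]
  split_ifs <;> first | rfl | contradiction

end

end Crest.Agent.R160
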