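import Crest.Agent.R160.Hom

/-!
Row 160, TempA: decay of correlations of invariant finite-range fields on directed edges
(temperedness), by the tensor-power trick.

Let `s = √(d-1)`, `q = 1/s`.  Fix `j ≥ 1` and define on fields `F : V → V → H`
`N F w p = ∑ v ∈ lev w p j, F v (tw w v) + ∑ v ∈ lev p w j, F (tw w v) v`; for an edge `w ∼ p` all
pairs on the right are edges.  Call `(F, F')` jointly invariant if
`⟪F (g a) (g b), F' (g a') (g b')⟫ = ⟪F a b, F' a' b'⟫`; `N` preserves this in each argument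
(`sum_lev_iso`, `tw_iso`).  By `exists_iso` (applied to `(p, v)`, `dist p v = j+1`, and `tw_iso`)
`α = ⟪F v (tw w v), F' w p⟫` and `β = ⟪F w p, F' v (tw w v)⟫` do not depend on the edge `w ∼ p` and
`v ∈ lev w p j`; and for `v ∈ lev p w j` the edge `(w,p)` is a level-`j` descendant of
`(tw w v, v)` (`w ∈ lev (tw w v) v j`, `tw (tw w v) w = p`).  With `card_lev`:
`⟪N F w p, F' w p⟫ = (d-1)^j (α + β) = ⟪F w p, N F' w p⟫`  (self-adjointness).
Let `a m = ⟪F e, N^[m] F e⟫` for a fixed edge `e = (w,p)`.  Then `a (2m) = ‖N^[m] F e‖²`, so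
`(a m)² ≤ W * a (2m)`.  Schur test: `|⟪F e, F a b⟫| ≤ C h a` on edges with `h a = q^(dist w a)`,
`C = W s^R` (Cauchy-Schwarz and `hR`), and `schur` gives `N h ≤ ρ h` on edges with
`ρ = d (j+1) s^j` (second sum: `h (tw w' v) ≤ s h v`, `h p' ≤ s h w'`, `1 + s² = d`); so
`|a m| ≤ C ρ^m`.  `power_trick` gives `|a 1| ≤ W ρ`, and `a 1 = 2 (d-1)^j c_j`.
`temp_abs`: expand the norm as a double sum over `w, w' ∈ pth u v`; by `pth_comparable`,
`pth_dist_inj` the term is `c_{|dist u w - dist u w'|}`, each value of the difference occurs at most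
twice for given `w`, and `∑ (j+1) q^j < ∞` (`q ≤ 1/√2`).
-/

set_option autoImplicit false

open MeasureTheory Filter Topology
open scoped Classical

namespace Crest.Agent.R160

noncomputable section

universe u

variable {V : Type u} {G : SimpleGraph V} [G.LocallyFinite] {d : ℕ}

lemma sq_s (hT : Tr G d) : √((d : ℝ) - 1) ^ 2 = (d : ℝ) - 1 :=
  Real.sq_sqrt (by linarith [hT.two_le])

lemma one_le_s (hT : Tr G d) : 1 ≤ √((d : ℝ) - 1) :=
  Real.one_le_sqrt.2 (by linarith [hT.two_le])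

lemma cast_pred (hT : Tr G d) : ((d - 1 : ℕ) : ℝ) = √((d : ℝ) - 1) ^ 2 := by
  rw [sq_s hT, Nat.cast_sub (by have := hT.three; omega)]
  simp

lemma schur_far (hT : Tr G d) {o w p : V} (h : G.Adj w p) (ho : o ∈ sub G p w) (j : ℕ) :
    ∑ v ∈ lev G w p j, (1 / √((d : ℝ) - 1)) ^ G.dist o v =
      √((d : ℝ) - 1) ^ j * (1 / √((d : ℝ) - 1)) ^ G.dist o w := by
  have hs := one_le_s hT
  have key : ∀ v ∈ lev G w p j, (1 / √((d : ℝ) - 1)) ^ G.dist o v =
      (1 / √((d : ℝ) - 1)) ^ (G.dist o w + j) := by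
    intro v hv
    rw [mem_lev hT] at hv
    have h1 := dist_cross hT h.symm ho hv.1
    have h2 := dist_of_mem_sub hT h.symm ho
    rw [SimpleGraph.dist_comm (u := w), SimpleGraph.dist_comm (u := p)] at h2
    congr 1
    omega
  rw [Finset.sum_congr rfl key, Finset.sum_const, card_lev hT h, nsmul_eq_mul, Nat.cast_pow,
    cast_pred hT, pow_add, ← pow_mul, mul_comm 2 j, pow_mul, one_div, inv_pow _ j]
  have : √((d : ℝ) - 1) ^ j ≠ 0 := by positivity
  field_simp

lemma schur (hT : Tr G d) (o : V) {w p : V} (h : G.Adj w p) (j : ℕ) :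
    ∑ v ∈ lev G w p j, (1 / √((d : ℝ) - 1)) ^ G.dist o v ≤
      (j + 1) * √((d : ℝ) - 1) ^ j * (1 / √((d : ℝ) - 1)) ^ G.dist o w := by
  have hs := one_le_s hT
  have hc1 := cast_pred hT
  have hfar := fun (a b : V) (hab : G.Adj a b) (ho : o ∈ sub G b a) (j : ℕ) =>
    schur_far hT hab ho j
  set s := √((d : ℝ) - 1) with hsdef
  have hs0 : 0 < s := by linarith
  induction j generalizing w p with
  | zero => simp [lev_zero h]
  | succ j ih =>
    rw [sum_lev_succ hT h]
    set A := s ^ j * (1 / s) ^ G.dist o w with hA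
    have hA0 : 0 ≤ A := by positivity
    have key : ∀ c ∈ kids G w p, ∑ v ∈ lev G c w j, (1 / s) ^ G.dist o v ≤
        A / s + if o ∈ sub G c w then (j + 1) * s * A else 0 := by
      intro c hc
      have hcw : G.Adj c w := (mem_kids.1 hc).1.symm
      split_ifs with ho
      · have h2 := dist_of_mem_sub hT hcw ho
        rw [SimpleGraph.dist_comm (u := w), SimpleGraph.dist_comm (u := c)] at h2
        refine (ih hcw).trans ?_
        have e : (j + 1 : ℝ) * s * A = (j + 1) * s ^ j * (1 / s) ^ G.dist o c := by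
          rw [hA, h2, pow_succ]
          field_simp
        rw [e]
        have : 0 ≤ A / s := by positivity
        linarith
      · have ho' : o ∈ sub G w c := (mem_sub_iff_notMem hT hcw.symm).2 ho
        have h2 := dist_of_mem_sub hT hcw.symm ho'
        rw [SimpleGraph.dist_comm (u := w), SimpleGraph.dist_comm (u := c)] at h2
        rw [hfar c w hcw ho' j, hA, h2, pow_succ]
        apply le_of_eq
        field_simp
        ring
    refine (Finset.sum_le_sum key).trans ?_
    rw [Finset.sum_add_distrib, Finset.sum_const, card_kids hT h, nsmul_eq_mul, hc1,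
      ← Finset.sum_filter, Finset.sum_const, nsmul_eq_mul]
    have hcard : (((kids G w p).filter fun c => o ∈ sub G c w).card : ℝ) ≤ 1 := by
      have : ((kids G w p).filter fun c => o ∈ sub G c w).card ≤ 1 := by
        rw [Finset.card_le_one]
        intro a ha b hb
        rw [Finset.mem_filter] at ha hb
        exact eq_of_mem_sub hT (mem_kids.1 ha.1).1 (mem_kids.1 hb.1).1 ha.2 hb.2
      exact_mod_cast this
    have hB : 0 ≤ (j + 1 : ℝ) * s * A := by positivity
    have e1 : s ^ 2 * (A / s) = s * A := by field_simp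
    have e2 : ((j + 1 : ℕ) + 1 : ℝ) * s ^ (j + 1) * (1 / s) ^ G.dist o w =
        s * A + (j + 1) * s * A := by
      rw [hA]; push_cast; ring
    rw [e1, e2]
    nlinarith

/-- `|a 1|^(2^n) ≤ W^(2^n - 1) |a (2^n)| ≤ W^(2^n - 1) C ρ^(2^n)` for all `n` -/
lemma power_trick {a : ℕ → ℝ} {W C ρ : ℝ} (hW : 0 ≤ W) (hρ : 0 ≤ ρ)
    (h1 : ∀ m, a m ^ 2 ≤ W * a (2 * m)) (h2 : ∀ m, |a m| ≤ C * ρ ^ m) : |a 1| ≤ W * ρ := by
  rcases hW.eq_or_lt with hW0 | hW0
  · have := h1 1
    rw [← hW0, zero_mul] at this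
    have h3 : a 1 = 0 := by nlinarith [sq_nonneg (a 1)]
    rw [h3, ← hW0]; simp
  rcases hρ.eq_or_lt with hρ0 | hρ0
  · have := h2 1
    rw [← hρ0] at this ⊢
    simpa using this
  have key : ∀ n : ℕ, |a 1| ^ (2 ^ n) * W ≤ W ^ (2 ^ n) * |a (2 ^ n)| := by
    intro n
    induction n with
    | zero => simp [mul_comm]
    | succ n ih =>
      have h3 := h1 (2 ^ n)
      have h4 : |a (2 ^ n)| ^ 2 ≤ W * |a (2 ^ (n + 1))| := by
        rw [sq_abs, pow_succ' 2 n]
        exact h3.trans (mul_le_mul_of_nonneg_left (le_abs_self _) hW)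
      have h5 : (|a 1| ^ (2 ^ n) * W) ^ 2 ≤ (W ^ (2 ^ n) * |a (2 ^ n)|) ^ 2 :=
        pow_le_pow_left₀ (by positivity) ih 2
      rw [mul_pow, mul_pow, ← pow_mul, ← pow_mul, ← pow_succ] at h5
      have h6 : W ^ 2 ^ (n + 1) * |a (2 ^ n)| ^ 2 ≤ W ^ 2 ^ (n + 1) * (W * |a (2 ^ (n + 1))|) :=
        mul_le_mul_of_nonneg_left h4 (by positivity)
      have h7 : (|a 1| ^ 2 ^ (n + 1) * W) * W ≤ (W ^ 2 ^ (n + 1) * |a (2 ^ (n + 1))|) * W := by
        nlinarith
      exact le_of_mul_le_mul_right h7 hW0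
  by_contra hlt
  push Not at hlt
  have hWρ : 0 < W * ρ := by positivity
  set x := |a 1| / (W * ρ) with hx
  have hx1 : 1 < x := (one_lt_div hWρ).2 hlt
  have hb : ∀ n : ℕ, x ^ (2 ^ n) ≤ C / W := by
    intro n
    rw [hx, div_pow, div_le_div_iff₀ (by positivity) hW0]
    refine (key n).trans ?_
    have := mul_le_mul_of_nonneg_left (h2 (2 ^ n)) (show 0 ≤ W ^ (2 ^ n) by positivity)
    refine this.trans (le_of_eq ?_)
    rw [mul_pow]; ring
  obtain ⟨n, hn⟩ := pow_unbounded_of_one_lt (C / W) hx1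
  have h8 : x ^ n ≤ x ^ (2 ^ n) := pow_le_pow_right₀ hx1.le Nat.lt_two_pow_self.le
  linarith [hb n]

section Op

variable {H : Type*} [NormedAddCommGroup H] [InnerProductSpace ℝ H]

variable (G) in
/-- the symmetrised level-`j` averaging operator on fields on directed edges -/
def Nop (j : ℕ) (F : V → V → H) (w p : V) : H :=
  ∑ v ∈ lev G w p j, F v (tw G p v) + ∑ v ∈ lev G p w j, F (tw G w v) v

variable (G) in
/-- joint invariance -/
def JI (F F' : V → V → H) : Prop :=
  ∀ (g : G ≃g G) (a b a' b' : V),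
    inner ℝ (F (g a) (g b)) (F' (g a') (g b')) = inner ℝ (F a b) (F' a' b')

omit [G.LocallyFinite] in
lemma JI.symm {F F' : V → V → H} (h : JI G F F') : JI G F' F := by
  intro g a b a' b'
  rw [real_inner_comm, h, real_inner_comm]

lemma JI.left (hT : Tr G d) (j : ℕ) {F F' : V → V → H} (h : JI G F F') :
    JI G (Nop G j F) F' := by
  intro g a b a' b'
  unfold Nop
  rw [sum_lev_iso hT g, sum_lev_iso hT g, inner_add_left, inner_add_left, sum_inner, sum_inner,
    sum_inner, sum_inner]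
  congr 1
  · refine Finset.sum_congr rfl fun v _ => ?_
    rw [tw_iso hT, h]
  · refine Finset.sum_congr rfl fun v _ => ?_
    rw [tw_iso hT, h]

lemma JI.iter_left (hT : Tr G d) (j : ℕ) {F F' : V → V → H} (h : JI G F F') (m : ℕ) :
    JI G ((Nop G j)^[m] F) F' := by
  induction m with
  | zero => exact h
  | succ m ih => rw [Function.iterate_succ_apply']; exact ih.left hT j

lemma JI.iter (hT : Tr G d) (j : ℕ) {F : V → V → H} (h : JI G F F) (m k : ℕ) :
    JI G ((Nop G j)^[m] F) ((Nop G j)^[k] F) :=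
  ((h.iter_left hT j k).symm).iter_left hT j m

lemma JI.hom (hT : Tr G d) {F F' : V → V → H} (h : JI G F F') {x y x' y' : V}
    (hd : G.dist x y = G.dist x' y') :
    inner ℝ (F y (tw G x y)) (F' (tw G y x) x) =
      (inner ℝ (F y' (tw G x' y')) (F' (tw G y' x') x') : ℝ) := by
  obtain ⟨g, h1, h2⟩ := exists_iso hT hd
  rw [← h1, ← h2, tw_iso hT, tw_iso hT, h]

lemma sum_desc (hT : Tr G d) {F F' : V → V → H} (h : JI G F F') {j : ℕ} {x y w p : V}
    (hxy : G.dist x y = j + 1) (hwp : G.Adj w p) :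
    ∑ v ∈ lev G w p j, inner ℝ (F v (tw G p v)) (F' w p) =
      ((d - 1 : ℕ) : ℝ) ^ j * inner ℝ (F y (tw G x y)) (F' (tw G y x) x) := by
  have key : ∀ v ∈ lev G w p j, inner ℝ (F v (tw G p v)) (F' w p) =
      (inner ℝ (F y (tw G x y)) (F' (tw G y x) x) : ℝ) := by
    intro v hv
    rw [mem_lev hT] at hv
    have h1 := dist_of_mem_sub hT hwp hv.1
    rw [← h.hom hT (x := p) (y := v) (by omega), tw_of_mem_sub hT hwp hv.1]
  rw [Finset.sum_congr rfl key, Finset.sum_const, card_lev hT hwp, nsmul_eq_mul, Nat.cast_pow]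

lemma sum_anc (hT : Tr G d) {F F' : V → V → H} (h : JI G F F') {j : ℕ} {x y w p : V}
    (hxy : G.dist x y = j + 1) (hwp : G.Adj w p) :
    ∑ v ∈ lev G p w j, inner ℝ (F w p) (F' (tw G w v) v) =
      ((d - 1 : ℕ) : ℝ) ^ j * inner ℝ (F y (tw G x y)) (F' (tw G y x) x) := by
  have key : ∀ v ∈ lev G p w j, inner ℝ (F w p) (F' (tw G w v) v) =
      (inner ℝ (F y (tw G x y)) (F' (tw G y x) x) : ℝ) := by
    intro v hv
    rw [mem_lev hT] at hv
    have h1 := dist_of_mem_sub hT hwp.symm hv.1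
    rw [SimpleGraph.dist_comm (u := w)] at h1
    rw [← h.hom hT (x := v) (y := w) (by omega), tw_of_mem_sub hT hwp.symm hv.1]
  rw [Finset.sum_congr rfl key, Finset.sum_const, card_lev hT hwp.symm, nsmul_eq_mul,
    Nat.cast_pow]

lemma inner_Nop (hT : Tr G d) {F F' : V → V → H} (h : JI G F F') {j : ℕ} {x y w p : V}
    (hxy : G.dist x y = j + 1) (hwp : G.Adj w p) :
    inner ℝ (F w p) (Nop G j F' w p) =
      ((d - 1 : ℕ) : ℝ) ^ j * (inner ℝ (F' y (tw G x y)) (F (tw G y x) x) +
        inner ℝ (F y (tw G x y)) (F' (tw G y x) x)) := by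
  unfold Nop
  rw [inner_add_right, inner_sum, inner_sum, sum_anc hT h hxy hwp, mul_add,
    ← sum_desc hT h.symm hxy hwp]
  congr 1
  exact Finset.sum_congr rfl fun v _ => real_inner_comm _ _

lemma Nop_adj (hT : Tr G d) {F F' : V → V → H} (h : JI G F F') {j : ℕ} {x y w p : V}
    (hxy : G.dist x y = j + 1) (hwp : G.Adj w p) :
    inner ℝ (Nop G j F w p) (F' w p) = (inner ℝ (F w p) (Nop G j F' w p) : ℝ) := by
  rw [real_inner_comm, inner_Nop hT h hxy hwp, inner_Nop hT h.symm hxy hwp, add_comm]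

lemma iter_adj (hT : Tr G d) {F : V → V → H} (h : JI G F F) {j : ℕ} {x y w p : V}
    (hxy : G.dist x y = j + 1) (hwp : G.Adj w p) (m k : ℕ) :
    inner ℝ ((Nop G j)^[m] F w p) ((Nop G j)^[k] F w p) =
      (inner ℝ (F w p) ((Nop G j)^[m + k] F w p) : ℝ) := by
  induction m generalizing k with
  | zero => simp
  | succ m ih =>
    rw [Function.iterate_succ_apply', Nop_adj hT (h.iter hT j m k) hxy hwp,
      ← Function.iterate_succ_apply' (Nop G j) k F, ih, show m + k.succ = m + 1 + k by omega]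

lemma q_adj (hT : Tr G d) (o : V) {a b : V} (h : G.Adj a b) :
    (1 / √((d : ℝ) - 1)) ^ G.dist o b ≤ √((d : ℝ) - 1) * (1 / √((d : ℝ) - 1)) ^ G.dist o a := by
  have hs := one_le_s hT
  set s := √((d : ℝ) - 1) with hsdef
  have hs0 : 0 < s := by linarith
  have hq : 1 / s ≤ 1 := by rw [div_le_one hs0]; exact hs
  have hd : G.dist o a ≤ G.dist o b + 1 := by rcases adj_dist hT h o with h | h <;> omega
  have h1 : (1 / s) ^ (G.dist o b + 1) ≤ (1 / s) ^ G.dist o a :=
    pow_le_pow_of_le_one (by positivity) hq hd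
  have e : (1 / s) ^ G.dist o b = s * (1 / s) ^ (G.dist o b + 1) := by
    rw [pow_succ]; field_simp
  rw [e]
  gcongr

lemma schur_Nop (hT : Tr G d) (j : ℕ) (o : V) (x : H) {F : V → V → H} {C : ℝ} (hC : 0 ≤ C)
    (hF : ∀ a b, G.Adj a b → |inner ℝ x (F a b)| ≤ C * (1 / √((d : ℝ) - 1)) ^ G.dist o a)
    {a b : V} (hab : G.Adj a b) :
    |inner ℝ x (Nop G j F a b)| ≤
      C * (d * (j + 1) * √((d : ℝ) - 1) ^ j) * (1 / √((d : ℝ) - 1)) ^ G.dist o a := by
  have hs := one_le_s hT
  have hs2 := sq_s hT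
  have hq := fun (a b : V) (h : G.Adj a b) => q_adj hT o h
  have hS1 := schur hT o hab j
  have hS2 := schur hT o hab.symm j
  set s := √((d : ℝ) - 1) with hsdef
  have hs0 : 0 < s := by linarith
  unfold Nop
  rw [inner_add_right, inner_sum, inner_sum]
  have h1 : |∑ v ∈ lev G a b j, inner ℝ x (F v (tw G b v))| ≤
      C * ((j + 1) * s ^ j * (1 / s) ^ G.dist o a) := by
    refine (Finset.abs_sum_le_sum_abs _ _).trans ?_
    refine le_trans ?_ (mul_le_mul_of_nonneg_left hS1 hC)
    rw [Finset.mul_sum]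
    refine Finset.sum_le_sum fun v hv => hF _ _ (tw_adj hT ?_)
    rintro rfl
    exact notMem_sub a b ((mem_lev hT).1 hv).1
  have h2 : |∑ v ∈ lev G b a j, inner ℝ x (F (tw G a v) v)| ≤
      C * s * ((j + 1) * s ^ j * (1 / s) ^ G.dist o b) := by
    refine (Finset.abs_sum_le_sum_abs _ _).trans ?_
    refine le_trans ?_ (mul_le_mul_of_nonneg_left hS2 (by positivity))
    rw [Finset.mul_sum]
    refine Finset.sum_le_sum fun v hv => ?_
    have hadj : G.Adj v (tw G a v) := by
      refine tw_adj hT ?_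
      rintro rfl
      exact notMem_sub b a ((mem_lev hT).1 hv).1
    refine (hF _ _ hadj.symm).trans ?_
    rw [mul_assoc]
    exact mul_le_mul_of_nonneg_left (hq _ _ hadj) hC
  have h3 : C * s * ((j + 1) * s ^ j * (1 / s) ^ G.dist o b) ≤
      C * s * ((j + 1) * s ^ j * (s * (1 / s) ^ G.dist o a)) := by
    have := hq _ _ hab
    gcongr
  refine (abs_add_le _ _).trans ((add_le_add h1 (h2.trans h3)).trans (le_of_eq ?_))
  have : (d : ℝ) = s ^ 2 + 1 := by linarith
  rw [this]
  ring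

end Op

theorem edge_corr (hT : Tr G d) {H : Type*} [NormedAddCommGroup H] [InnerProductSpace ℝ H]
    {F : V → V → H} {W : ℝ} {R : ℕ}
    (hinv : ∀ (g : G ≃g G) (a b a' b' : V),
      inner ℝ (F (g a) (g b)) (F (g a') (g b')) = inner ℝ (F a b) (F a' b'))
    (hW : ∀ a b, G.Adj a b → ‖F a b‖ ^ 2 ≤ W)
    (hR : ∀ a b a' b', G.Adj a b → G.Adj a' b' → R < G.dist a a' →
      inner ℝ (F a b) (F a' b') = (0 : ℝ))
    {w p v : V} (h : G.Adj w p) (hv : v ∈ sub G w p) (hne : v ≠ w) :
    |inner ℝ (F w p) (F v (tw G w v))| ≤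
      d * (G.dist w v + 1) * (1 / √((d : ℝ) - 1)) ^ G.dist w v * W := by
  have hJ : JI G F F := hinv
  have hs := one_le_s hT
  have hc1 := cast_pred hT
  have hW0 : 0 ≤ W := (sq_nonneg _).trans (hW w p h)
  set j := G.dist w v with hj
  have hpv : G.dist p v = j + 1 := dist_of_mem_sub hT h hv
  have hSN := fun (F' : V → V → H) (C : ℝ) (hC : 0 ≤ C) hF (a b : V) (hab : G.Adj a b) =>
    schur_Nop hT j w (F w p) (F := F') hC hF hab
  set s := √((d : ℝ) - 1) with hsdef
  have hs0 : 0 < s := by linarith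
  set ρ := (d : ℝ) * (j + 1) * s ^ j with hρ
  have hρ0 : 0 ≤ ρ := by positivity
  have hbase : ∀ a b, G.Adj a b →
      |inner ℝ (F w p) (F a b)| ≤ W * s ^ R * (1 / s) ^ G.dist w a := by
    intro a b hab
    by_cases hd : R < G.dist w a
    · rw [hR w p a b h hab hd, abs_zero]; positivity
    · push Not at hd
      have h1 : |inner ℝ (F w p) (F a b)| ≤ W := by
        refine (abs_real_inner_le_norm _ _).trans ?_
        nlinarith [hW w p h, hW a b hab, sq_nonneg (‖F w p‖ - ‖F a b‖)]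
      have h2 : (1 / s) ^ R ≤ (1 / s) ^ G.dist w a :=
        pow_le_pow_of_le_one (by positivity) (by rw [div_le_one hs0]; exact hs) hd
      have h3 : W = W * s ^ R * (1 / s) ^ R := by
        rw [mul_assoc, ← mul_pow, mul_one_div_cancel hs0.ne', one_pow, mul_one]
      refine h1.trans (h3.le.trans ?_)
      gcongr
  have hall : ∀ m : ℕ, ∀ a b, G.Adj a b →
      |inner ℝ (F w p) ((Nop G j)^[m] F a b)| ≤ W * s ^ R * ρ ^ m * (1 / s) ^ G.dist w a := by
    intro m
    induction m with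
    | zero => simpa using hbase
    | succ m ih =>
      intro a b hab
      rw [Function.iterate_succ_apply']
      refine (hSN _ _ (by positivity) ih a b hab).trans (le_of_eq ?_)
      ring
  have hpt := power_trick (a := fun m => inner ℝ (F w p) ((Nop G j)^[m] F w p))
    (C := W * s ^ R) hW0 hρ0 (fun m => by
      rw [two_mul, ← iter_adj hT hJ hpv h, real_inner_self_eq_norm_sq]
      have h1 := abs_real_inner_le_norm (F w p) ((Nop G j)^[m] F w p)
      have h2 := pow_le_pow_left₀ (abs_nonneg _) h1 2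
      rw [sq_abs, mul_pow] at h2
      exact h2.trans (mul_le_mul_of_nonneg_right (hW w p h) (sq_nonneg _)))
    (fun m => by simpa using hall m w p h)
  simp only [Function.iterate_one] at hpt
  rw [inner_Nop hT hJ hpv h, tw_of_mem_sub hT h hv,
    tw_cross hT h (mem_sub_self h.symm) hv hne, real_inner_comm, hc1, abs_mul,
    abs_of_nonneg (by positivity), ← two_mul, abs_mul, abs_two] at hpt
  set c := |inner ℝ (F w p) (F v (tw G w v))| with hc
  have hc0 : 0 ≤ c := abs_nonneg _
  have hsj : 0 < s ^ j := by positivity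
  have e : (d : ℝ) * (j + 1) * (1 / s) ^ j * W = W * ρ / (s ^ 2) ^ j := by
    rw [hρ, ← pow_mul, mul_comm 2 j, pow_mul, one_div, inv_pow]
    field_simp
  rw [e, le_div_iff₀ (by positivity)]
  have : 0 ≤ c * (s ^ 2) ^ j := by positivity
  nlinarith

lemma sum_geom_le {q : ℝ} (h0 : 0 ≤ q) (h1 : q ≤ 71 / 100) (S : Finset ℕ) :
    ∑ k ∈ S, ((k : ℝ) + 1) * q ^ k ≤ 15 := by
  have hr : ‖(71 / 100 : ℝ)‖ < 1 := by rw [Real.norm_eq_abs, abs_of_pos] <;> norm_num
  have hs := hasSum_choose_mul_geometric_of_norm_lt_one 1 hr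
  have h2 : ∑ k ∈ S, ((k : ℝ) + 1) * q ^ k ≤
      ∑ k ∈ S, (((k + 1).choose 1 : ℕ) : ℝ) * (71 / 100 : ℝ) ^ k := by
    refine Finset.sum_le_sum fun k _ => ?_
    rw [Nat.choose_one_right]
    push_cast
    gcongr
  refine h2.trans ((sum_le_hasSum S (fun k _ => by positivity) hs).trans ?_)
  norm_num

theorem temp_abs (hT : Tr G d) {H : Type*} [NormedAddCommGroup H] [InnerProductSpace ℝ H]
    {F : V → V → H} {W : ℝ} {R : ℕ}
    (hinv : ∀ (g : G ≃g G) (a b a' b' : V),
      inner ℝ (F (g a) (g b)) (F (g a') (g b')) = inner ℝ (F a b) (F a' b'))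
    (hW : ∀ a b, G.Adj a b → ‖F a b‖ ^ 2 ≤ W)
    (hR : ∀ a b a' b', G.Adj a b → G.Adj a' b' → R < G.dist a a' →
      inner ℝ (F a b) (F a' b') = (0 : ℝ)) (u v : V) :
    ‖∑ w ∈ pth G u v, F w (tw G u w)‖ ^ 2 ≤ 30 * d * G.dist u v * W := by
  have hs := one_le_s hT
  have hs2 := sq_s hT
  have hd2 := hT.two_le
  have hW0 : 0 ≤ W := by
    obtain ⟨c, hc, -⟩ := exists_third hT u u u
    exact (sq_nonneg _).trans (hW u c hc)
  have hec := fun (w p v : V) (h : G.Adj w p) (hv : v ∈ sub G w p) (hne : v ≠ w) =>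
    edge_corr hT hinv hW hR h hv hne
  set s := √((d : ℝ) - 1) with hsdef
  have hs0 : 0 < s := by linarith
  have hq : 1 / s ≤ 71 / 100 := by
    rw [div_le_iff₀ hs0]
    nlinarith
  have hq0 : 0 ≤ 1 / s := by positivity
  -- the bound of a single term
  set B : V → V → ℝ := fun w w' => if G.dist u w ≤ G.dist u w' then
    d * W * (((G.dist u w' - G.dist u w : ℕ) + 1) * (1 / s) ^ (G.dist u w' - G.dist u w))
    else 0 with hB
  have hB0 : ∀ w w', 0 ≤ B w w' := by
    intro w w'
    simp only [hB]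
    split_ifs
    · positivity
    · exact le_rfl
  have hadj : ∀ w ∈ pth G u v, G.Adj w (tw G u w) := fun w hw =>
    tw_adj hT ((mem_pth hT).1 hw).1.symm
  have hlt : ∀ w ∈ pth G u v, ∀ w' ∈ pth G u v, G.dist u w ≤ G.dist u w' →
      inner ℝ (F w (tw G u w)) (F w' (tw G u w')) ≤ B w w' := by
    intro w hw w' hw' hle
    simp only [hB, if_pos hle]
    rcases hle.eq_or_lt with he | hl
    · have := pth_dist_inj hT hw hw' he
      subst this
      rw [real_inner_self_eq_norm_sq]
      have := hW _ _ (hadj w hw)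
      simp only [Nat.sub_self, Nat.cast_zero, zero_add, pow_zero, mul_one]
      nlinarith
    · obtain ⟨h1, h2, h3⟩ := pth_comparable hT hw hw' hl
      have hne : w' ≠ w := by rintro rfl; exact lt_irrefl _ hl
      have h4 := hec w _ w' (hadj w hw) h1 hne
      rw [h2, show G.dist u w' - G.dist u w = G.dist w w' by omega]
      refine (le_abs_self _).trans (h4.trans (le_of_eq ?_))
      ring
  have hterm : ∀ w ∈ pth G u v, ∀ w' ∈ pth G u v,
      inner ℝ (F w (tw G u w)) (F w' (tw G u w')) ≤ B w w' + B w' w := by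
    intro w hw w' hw'
    rcases le_total (G.dist u w) (G.dist u w') with hle | hle
    · linarith [hlt w hw w' hw' hle, hB0 w' w]
    · rw [real_inner_comm]
      linarith [hlt w' hw' w hw hle, hB0 w w']
  have hrow : ∀ w ∈ pth G u v, ∑ w' ∈ pth G u v, B w w' ≤ d * W * 15 := by
    intro w hw
    simp only [hB]
    rw [← Finset.sum_filter, ← Finset.mul_sum]
    refine mul_le_mul_of_nonneg_left ?_ (by positivity)
    rw [← Finset.sum_image (s := (pth G u v).filter fun w' => G.dist u w ≤ G.dist u w')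
      (g := fun w' => G.dist u w' - G.dist u w) (f := fun k : ℕ => ((k : ℝ) + 1) * (1 / s) ^ k)]
    · exact sum_geom_le hq0 hq _
    · intro a ha b hb hab
      simp only [Finset.coe_filter, Set.mem_ofPred_eq] at ha hb hab
      exact pth_dist_inj hT ha.1 hb.1 (by omega)
  rw [← real_inner_self_eq_norm_sq, sum_inner]
  calc ∑ w ∈ pth G u v, inner ℝ (F w (tw G u w)) (∑ w' ∈ pth G u v, F w' (tw G u w'))
      ≤ ∑ w ∈ pth G u v, ∑ w' ∈ pth G u v, (B w w' + B w' w) := by
        refine Finset.sum_le_sum fun w hw => ?_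
        rw [inner_sum]
        exact Finset.sum_le_sum fun w' hw' => hterm w hw w' hw'
    _ = 2 * ∑ w ∈ pth G u v, ∑ w' ∈ pth G u v, B w w' := by
        simp only [Finset.sum_add_distrib]
        rw [Finset.sum_comm (f := fun w w' => B w' w), two_mul]
    _ ≤ 2 * ∑ w ∈ pth G u v, (d * W * 15 : ℝ) := by
        gcongr with w hw
        exact hrow w hw
    _ = 30 * d * G.dist u v * W := by
        rw [Finset.sum_const, card_pth hT, nsmul_eq_mul]; ring

end

end Crest.Agent.R160
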