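import Crest.Agent.R160.Markov
import Crest.Agent.R160.ChanB

/-!
Row 160, TiltA: finite-volume identities for the tilted Ising measure.

Notation: for an edge `z ∼ x` and a field `y`, `wt F y = wt F y1 * wt F y2` with
`y1 = (sub z x).indicator y`, `y2 = (sub x z).indicator y` (`compl_sub`); `wt F y1` depends on
`sub z x`.  Put `A1 = ∫ wt F y1 > 0`, `B1 = ∫ wt F y1 * σx = θ ∫ wt F y1 * σz` (`mk_theta`).  By `mk_nu`,
for bounded `φ` depending on `sub x z`: `∫ φ wt F y = A1 ∫ φ wt2 + B1 ∫ φ σx wt2`.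
* `tilt_theta` is `B1 / A1 = θ * tilt z`.
* `tilt_merge`: take `φ = σx` and `φ = 1` (`σx² = 1`).
* `tilt_step` (edge `w ∼ p`, `A = tilt w F ((sub w p).indicator y)`): by `mk_nu` with `φ1 = σw wt1`,
  `∫ σw φ wt = A1 (A ∫ φ wt2 + θ ∫ φ σp wt2)` (as `∫ σw wt1 σp = θ ∫ σw² wt1`), while
  `∫ (α + κ σp) φ wt = A1 ∫ φ (α + κ σp)(1 + θ A σp) wt2` and `(α + κ s)(1 + θ A s) = A + θ s` for
  `s = ±1`.
* `tilt_Bf`: `tilt_step` with `φ = 1` and `Bf_spec`.
* `tcov_prod`: induction on `dist u v` with `prod_pth_last`: `tilt_step` with `φ = σu` and `φ = 1`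
  gives `tcov u v = κ * tcov u (tw u v)` (`mem_sub_tw`).
* `tilt_jump`: `exp (δ s) = cosh δ (1 + s tanh δ)` for `s = ±1`.
* `tilt_bound`: for a finset `A` of neighbours of `u` let `yA` be `y` restricted to
  `{u} ∪ ⋃ c ∈ A, sub c u`.  By induction on `A` with `tilt_merge` (edge `c ∼ u`), `tilt_theta` and
  `1 ∓ (a+b)/(1+ab) = (1∓a)(1∓b)/(1+ab) ≥ (1∓a)(1∓b)/2`, `|a| ≤ θ ≤ 3/4`:
  `1 - |tilt u F yA| ≥ (1 - tanh Y) / 8 ^ card A`; for `A = ∅` the tilt is `tanh (y u)` or `0`
  (`integral_sp`, `tilt_jump` from the zero field); for `A = neighborFinset u`, `yA = y`.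
-/

set_option autoImplicit false

open MeasureTheory Filter Topology
open scoped Classical

namespace Crest.Agent.R160

noncomputable section

universe u

variable {V : Type u} {G : SimpleGraph V} [G.LocallyFinite] {d : ℕ} {θ : ℝ}
  {ν : Measure (V → Bool)}

lemma wt_pos (F : Finset V) (y : V → ℝ) (σ : V → Bool) : 0 < wt F y σ := Real.exp_pos _

lemma abs_sum_sp_le (F : Finset V) (y : V → ℝ) (σ : V → Bool) :
    |∑ v ∈ F, y v * sp (σ v)| ≤ ∑ v ∈ F, |y v| :=
  (Finset.abs_sum_le_sum_abs _ _).trans (le_of_eq (Finset.sum_congr rfl fun v _ => by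
    rw [abs_mul, abs_sp, mul_one]))

lemma abs_wt_le (F : Finset V) (y : V → ℝ) (σ : V → Bool) :
    |wt F y σ| ≤ Real.exp (∑ v ∈ F, |y v|) := by
  rw [abs_of_pos (wt_pos F y σ)]
  exact Real.exp_le_exp.2 (abs_le.1 (abs_sum_sp_le F y σ)).2

lemma le_wt (F : Finset V) (y : V → ℝ) (σ : V → Bool) :
    Real.exp (-∑ v ∈ F, |y v|) ≤ wt F y σ :=
  Real.exp_le_exp.2 (abs_le.1 (abs_sum_sp_le F y σ)).1

lemma measurable_wt (F : Finset V) :
    Measurable fun p : (V → ℝ) × (V → Bool) => wt F p.1 p.2 := by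
  unfold wt
  refine Real.measurable_exp.comp (Finset.measurable_sum _ fun v _ => ?_)
  exact ((measurable_pi_apply v).comp measurable_fst).mul
    (measurable_sp.comp ((measurable_pi_apply v).comp measurable_snd))

lemma measurable_wt' (F : Finset V) (y : V → ℝ) : Measurable (wt F y) :=
  (measurable_wt F).comp (measurable_const.prodMk measurable_id)

lemma measurable_sp_apply (u : V) : Measurable fun σ : V → Bool => sp (σ u) :=
  measurable_sp.comp (measurable_pi_apply u)

lemma abs_mul_wt_le {φ : (V → Bool) → ℝ} {C : ℝ} (hb : ∀ σ, |φ σ| ≤ C) (F : Finset V)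
    (y : V → ℝ) (σ : V → Bool) : |φ σ * wt F y σ| ≤ C * Real.exp (∑ v ∈ F, |y v|) := by
  rw [abs_mul]
  exact mul_le_mul (hb σ) (abs_wt_le F y σ) (abs_nonneg _) ((abs_nonneg _).trans (hb σ))

lemma integrable_mul_wt (ν : Measure (V → Bool)) [IsProbabilityMeasure ν]
    {φ : (V → Bool) → ℝ} (hm : Measurable φ) {C : ℝ} (hb : ∀ σ, |φ σ| ≤ C) (F : Finset V)
    (y : V → ℝ) : Integrable (fun σ => φ σ * wt F y σ) ν :=
  integrable_of_bdd (hm.mul (measurable_wt' F y)) (abs_mul_wt_le hb F y)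

lemma integrable_wt (ν : Measure (V → Bool)) [IsProbabilityMeasure ν] (F : Finset V)
    (y : V → ℝ) : Integrable (wt F y) ν :=
  integrable_of_bdd (measurable_wt' F y) (abs_wt_le F y)

lemma le_integral_wt (ν : Measure (V → Bool)) [IsProbabilityMeasure ν] (F : Finset V)
    (y : V → ℝ) : Real.exp (-∑ v ∈ F, |y v|) ≤ ∫ σ, wt F y σ ∂ν := by
  have := integral_mono (integrable_const (Real.exp (-∑ v ∈ F, |y v|))) (integrable_wt ν F y)
    (fun σ => le_wt F y σ)
  simpa using this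

lemma integral_wt_pos (ν : Measure (V → Bool)) [IsProbabilityMeasure ν] (F : Finset V)
    (y : V → ℝ) : 0 < ∫ σ, wt F y σ ∂ν :=
  (Real.exp_pos _).trans_le (le_integral_wt ν F y)

lemma abs_integral_mul_wt_le (ν : Measure (V → Bool)) [IsProbabilityMeasure ν]
    {φ : (V → Bool) → ℝ} (hb : ∀ σ, |φ σ| ≤ 1) (F : Finset V) (y : V → ℝ) :
    |∫ σ, φ σ * wt F y σ ∂ν| ≤ ∫ σ, wt F y σ ∂ν := by
  rw [← Real.norm_eq_abs]
  refine norm_integral_le_of_norm_le (integrable_wt ν F y) (ae_of_all _ fun σ => ?_)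
  rw [Real.norm_eq_abs, abs_mul, abs_of_pos (wt_pos F y σ)]
  exact mul_le_of_le_one_left (wt_pos F y σ).le (hb σ)

lemma abs_tilt_le (ν : Measure (V → Bool)) [IsProbabilityMeasure ν] (u : V) (F : Finset V)
    (y : V → ℝ) : |tilt ν u F y| ≤ 1 := by
  unfold tilt
  rw [abs_div, abs_of_pos (integral_wt_pos ν F y), div_le_one (integral_wt_pos ν F y)]
  exact abs_integral_mul_wt_le ν (fun σ => (abs_sp _).le) F y

lemma continuous_integral_mul_wt (ν : Measure (V → Bool)) [IsProbabilityMeasure ν]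
    {φ : (V → Bool) → ℝ} (hm : Measurable φ) (hb : ∀ σ, |φ σ| ≤ 1) (F : Finset V) :
    Continuous fun y : V → ℝ => ∫ σ, φ σ * wt F y σ ∂ν := by
  have key : Continuous fun z : F → ℝ =>
      ∫ σ, φ σ * Real.exp (∑ v : F, z v * sp (σ v)) ∂ν := by
    rw [continuous_iff_continuousAt]
    intro z0
    have hc : Continuous fun z : F → ℝ => Real.exp (∑ v : F, |z v|) := by fun_prop
    refine continuousAt_of_dominated (bound := fun _ => Real.exp (∑ v : F, |z0 v|) + 1) ?_ ?_
      (integrable_const _) (ae_of_all _ fun σ => ?_)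
    · refine Eventually.of_forall fun z => (hm.mul ?_).aestronglyMeasurable
      refine Real.measurable_exp.comp (Finset.measurable_sum _ fun v _ => ?_)
      exact measurable_const.mul (measurable_sp_apply _)
    · filter_upwards [hc.continuousAt.eventually
        (gt_mem_nhds (lt_add_one (Real.exp (∑ v : F, |z0 v|))))] with z hz
      refine ae_of_all _ fun σ => ?_
      rw [Real.norm_eq_abs, abs_mul, abs_of_pos (Real.exp_pos _)]
      refine (mul_le_of_le_one_left (Real.exp_pos _).le (hb σ)).trans (le_trans ?_ hz.le)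
      refine Real.exp_le_exp.2 (Finset.sum_le_sum fun v _ => ?_)
      refine (le_abs_self _).trans (le_of_eq ?_)
      rw [abs_mul, abs_sp, mul_one]
    · exact Continuous.continuousAt (by fun_prop)
  have h2 : Continuous fun (y : V → ℝ) (v : F) => y v := by fun_prop
  refine (key.comp h2).congr fun y => ?_
  simp only [Function.comp, wt]
  congr 1
  ext σ
  rw [Finset.sum_coe_sort F fun v => y v * sp (σ v)]

lemma continuous_tilt (ν : Measure (V → Bool)) [IsProbabilityMeasure ν] (u : V) (F : Finset V) :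
    Continuous (tilt ν u F) := by
  have h1 := continuous_integral_mul_wt ν (measurable_sp_apply u) (fun σ => (abs_sp _).le) F
  have h2 := continuous_integral_mul_wt ν (φ := fun _ => 1) measurable_const (fun σ => by simp) F
  simp only [one_mul] at h2
  exact h1.div h2 fun y => (integral_wt_pos ν F y).ne'

lemma measurable_tilt (ν : Measure (V → Bool)) [IsProbabilityMeasure ν] (u : V) (F : Finset V) :
    Measurable (tilt ν u F) := by
  have h1 : Measurable fun y : V → ℝ => ∫ σ, sp (σ u) * wt F y σ ∂ν :=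
    ((((measurable_sp_apply u).comp measurable_snd).mul
      (measurable_wt F)).stronglyMeasurable.integral_prod_right' (ν := ν)).measurable
  have h2 : Measurable fun y : V → ℝ => ∫ σ, wt F y σ ∂ν :=
    ((measurable_wt F).stronglyMeasurable.integral_prod_right' (ν := ν)).measurable
  exact h1.div h2

lemma wt_congr (F : Finset V) {y y' : V → ℝ} (h : ∀ v ∈ F, y v = y' v) : wt F y = wt F y' := by
  ext σ
  unfold wt
  rw [Finset.sum_congr rfl fun v hv => by rw [h v hv]]

lemma tilt_congr (ν : Measure (V → Bool)) (u : V) (F : Finset V) {y y' : V → ℝ}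
    (h : ∀ v ∈ F, y v = y' v) : tilt ν u F y = tilt ν u F y' := by
  unfold tilt
  rw [wt_congr F h]

/-- vertices carrying zero field do not matter -/
lemma tilt_of_subset (ν : Measure (V → Bool)) (u : V) {F F' : Finset V} (hF : F ⊆ F')
    {y : V → ℝ} (h : ∀ v ∈ F', v ∉ F → y v = 0) : tilt ν u F' y = tilt ν u F y := by
  have : wt F' y = wt F y := by
    ext σ
    unfold wt
    rw [Finset.sum_subset hF fun v hv hv' => by rw [h v hv hv', zero_mul]]
  unfold tilt
  rw [this]

lemma tilt_empty (hW : Wd G d θ ν) (u : V) (y : V → ℝ) : tilt ν u ∅ y = 0 := by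
  simp [tilt, wt, integral_sp hW u]

lemma integral_not (hW : Wd G d θ ν) {f : (V → Bool) → ℝ} (hf : Measurable f) :
    ∫ σ, f (fun v => !σ v) ∂ν = ∫ σ, f σ ∂ν := by
  have hm : Measurable fun (σ : V → Bool) v => !σ v :=
    measurable_pi_lambda _ fun v => (measurable_of_countable not).comp (measurable_pi_apply v)
  conv_rhs => rw [← hW.map_not]
  rw [integral_map hm.aemeasurable hf.aestronglyMeasurable]

lemma integral_comp_iso (hW : Wd G d θ ν) (g : G ≃g G) {f : (V → Bool) → ℝ} (hf : Measurable f) :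
    ∫ σ, f (σ ∘ g) ∂ν = ∫ σ, f σ ∂ν := by
  have hm : Measurable fun σ : V → Bool => σ ∘ g :=
    measurable_pi_lambda _ fun v => measurable_pi_apply (g v)
  conv_rhs => rw [← hW.map_comp g]
  rw [integral_map hm.aemeasurable hf.aestronglyMeasurable]

lemma tilt_neg (hW : Wd G d θ ν) (u : V) (F : Finset V) (y : V → ℝ) :
    tilt ν u F (-y) = -tilt ν u F y := by
  have hw : ∀ σ : V → Bool, wt F (-y) (fun v => !σ v) = wt F y σ := fun σ => by
    simp [wt, sp_not]
  unfold tilt
  rw [← integral_not hW ((measurable_sp_apply u).fun_mul (measurable_wt' F (-y))),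
    ← integral_not hW (measurable_wt' F (-y))]
  simp only [hw, sp_not, neg_mul, integral_neg, neg_div]

lemma tilt_iso (hW : Wd G d θ ν) (g : G ≃g G) (u : V) (F : Finset V) (y : V → ℝ) :
    tilt ν u F (y ∘ g) = tilt ν (g u) (F.map g.toEquiv.toEmbedding) y := by
  have hw : ∀ σ : V → Bool,
      wt F (y ∘ g) (σ ∘ g) = wt (F.map g.toEquiv.toEmbedding) y σ := fun σ => by
    simp [wt, Finset.sum_map]
  unfold tilt
  rw [← integral_comp_iso hW g ((measurable_sp_apply u).fun_mul (measurable_wt' F (y ∘ g))),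
    ← integral_comp_iso hW g (measurable_wt' F (y ∘ g))]
  simp only [hw, Function.comp_apply]

lemma wt_split (hT : Tr G d) {z x : V} (h : G.Adj z x) (F : Finset V) (y : V → ℝ)
    (σ : V → Bool) :
    wt F y σ = wt F ((sub G z x).indicator y) σ * wt F ((sub G x z).indicator y) σ := by
  unfold wt
  rw [← Real.exp_add, ← Finset.sum_add_distrib, ← compl_sub hT h]
  congr 1
  refine Finset.sum_congr rfl fun v _ => ?_
  rw [← add_mul, Set.indicator_self_add_compl_apply]

lemma dependsOn_wt (S : Set V) (F : Finset V) (y : V → ℝ) :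
    DependsOn (wt F (S.indicator y)) S := by
  intro σ σ' h
  unfold wt
  congr 1
  refine Finset.sum_congr rfl fun v _ => ?_
  by_cases hv : v ∈ S
  · rw [h v hv]
  · simp [Set.indicator_of_notMem hv]

lemma dependsOn_mul {S : Set V} {f g : (V → Bool) → ℝ} (hf : DependsOn f S) (hg : DependsOn g S) :
    DependsOn (fun σ => f σ * g σ) S := fun _ _ h => by
  simp only [hf h, hg h]

lemma dependsOn_sp {S : Set V} {u : V} (hu : u ∈ S) :
    DependsOn (fun σ : V → Bool => sp (σ u)) S := fun _ _ h => by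
  simp only [h u hu]

/-- Markov decomposition of tilted integrals across the edge `z ∼ x` -/
lemma mk_wt (hW : Wd G d θ ν) {z x : V} (h : G.Adj z x) (F : Finset V) (y : V → ℝ)
    {φ1 φ2 : (V → Bool) → ℝ} (m1 : Measurable φ1) (m2 : Measurable φ2) {C1 C2 : ℝ}
    (b1 : ∀ σ, |φ1 σ| ≤ C1) (b2 : ∀ σ, |φ2 σ| ≤ C2) (d1 : DependsOn φ1 (sub G z x))
    (d2 : DependsOn φ2 (sub G x z)) :
    ∫ σ, φ1 σ * φ2 σ * wt F y σ ∂ν =
      (∫ σ, φ1 σ * wt F ((sub G z x).indicator y) σ ∂ν) *
        (∫ σ, φ2 σ * wt F ((sub G x z).indicator y) σ ∂ν) +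
      θ * (∫ σ, sp (σ z) * φ1 σ * wt F ((sub G z x).indicator y) σ ∂ν) *
        ∫ σ, sp (σ x) * φ2 σ * wt F ((sub G x z).indicator y) σ ∂ν := by
  set y1 := (sub G z x).indicator y
  set y2 := (sub G x z).indicator y
  have e1 := mk_nu hW h (m1.mul (measurable_wt' F y1)) (m2.mul (measurable_wt' F y2))
    (C := max (C1 * Real.exp (∑ v ∈ F, |y1 v|)) (C2 * Real.exp (∑ v ∈ F, |y2 v|)))
    (fun σ => (abs_mul_wt_le b1 F y1 σ).trans (le_max_left _ _))
    (fun σ => (abs_mul_wt_le b2 F y2 σ).trans (le_max_right _ _))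
    (dependsOn_mul d1 (dependsOn_wt _ F y)) (dependsOn_mul d2 (dependsOn_wt _ F y))
  have e2 := mk_theta hW h (m1.mul (measurable_wt' F y1)) (abs_mul_wt_le b1 F y1)
    (dependsOn_mul d1 (dependsOn_wt _ F y))
  rw [e2] at e1
  have e3 : ∀ σ, φ1 σ * φ2 σ * wt F y σ = φ1 σ * wt F y1 σ * (φ2 σ * wt F y2 σ) := fun σ => by
    rw [wt_split hW.tr h F y σ]; ring
  have e4 : ∀ σ, sp (σ z) * φ1 σ * wt F y1 σ = φ1 σ * wt F y1 σ * sp (σ z) := fun σ => by ring
  have e5 : ∀ σ, sp (σ x) * φ2 σ * wt F y2 σ = φ2 σ * wt F y2 σ * sp (σ x) := fun σ => by ring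
  simp only [e3, e4, e5]
  exact e1

lemma tilt_theta (hW : Wd G d θ ν) {z x : V} (h : G.Adj z x) (F : Finset V) (y : V → ℝ) :
    tilt ν x F ((sub G z x).indicator y) = θ * tilt ν z F ((sub G z x).indicator y) := by
  have e2 := mk_theta hW h (measurable_wt' F ((sub G z x).indicator y)) (abs_wt_le F _)
    (dependsOn_wt _ F y)
  unfold tilt
  simp only [mul_comm (sp _)]
  rw [e2, mul_div_assoc]

lemma tilt_merge (hW : Wd G d θ ν) {z x : V} (h : G.Adj z x) (F : Finset V) (y : V → ℝ) :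
    tilt ν x F y =
      (tilt ν x F ((sub G z x).indicator y) + tilt ν x F ((sub G x z).indicator y)) /
        (1 + tilt ν x F ((sub G z x).indicator y) * tilt ν x F ((sub G x z).indicator y)) := by
  have := hW.prob
  have e1 := mk_wt hW h F y (φ1 := fun _ => 1) (φ2 := fun _ => 1) measurable_const
    measurable_const (C1 := 1) (C2 := 1) (fun _ => by simp) (fun _ => by simp)
    (fun _ _ _ => rfl) (fun _ _ _ => rfl)
  have e2 := mk_wt hW h F y (φ1 := fun _ => 1) (φ2 := fun σ => sp (σ x)) measurable_const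
    (measurable_sp_apply x) (C1 := 1) (C2 := 1) (fun _ => by simp) (fun _ => (abs_sp _).le)
    (fun _ _ _ => rfl) (dependsOn_sp (mem_sub_self h.symm))
  simp only [one_mul, mul_one, sp_mul_self] at e1 e2
  rw [tilt_theta hW h]
  have p0 := integral_wt_pos ν F y
  have p1 := integral_wt_pos ν F ((sub G z x).indicator y)
  have p2 := integral_wt_pos ν F ((sub G x z).indicator y)
  unfold tilt
  rw [e1] at p0
  rw [e1, e2]
  generalize (∫ σ, wt F ((sub G z x).indicator y) σ ∂ν) = A1 at *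
  generalize (∫ σ, wt F ((sub G x z).indicator y) σ ∂ν) = A2 at *
  generalize (∫ σ, sp (σ z) * wt F ((sub G z x).indicator y) σ ∂ν) = B1 at *
  generalize (∫ σ, sp (σ x) * wt F ((sub G x z).indicator y) σ ∂ν) = B2 at *
  have h3 : 1 + θ * (B1 / A1) * (B2 / A2) = (A1 * A2 + θ * B1 * B2) / (A1 * A2) := by
    field_simp
  rw [h3]
  field_simp
  ring

lemma one_sub_sq_pos (hθ : θ ^ 2 ≤ 1 / 2) {A : ℝ} (hA : |A| ≤ 1) : 0 < 1 - θ ^ 2 * A ^ 2 := by
  have h1 : A ^ 2 ≤ 1 := by rw [← sq_abs]; nlinarith [abs_nonneg A]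
  nlinarith [sq_nonneg θ, sq_nonneg A]

lemma tilt_step (hW : Wd G d θ ν) {w p : V} (h : G.Adj w p) (F : Finset V) (y : V → ℝ)
    {φ : (V → Bool) → ℝ} (hm : Measurable φ) {C : ℝ} (hb : ∀ σ, |φ σ| ≤ C)
    (hd : DependsOn φ (sub G p w)) {A : ℝ} (hA : A = tilt ν w F ((sub G w p).indicator y)) :
    ∫ σ, sp (σ w) * φ σ * wt F y σ ∂ν =
      A * (1 - θ ^ 2) / (1 - θ ^ 2 * A ^ 2) * ∫ σ, φ σ * wt F y σ ∂ν +
        kap θ A * ∫ σ, sp (σ p) * φ σ * wt F y σ ∂ν := by
  have := hW.prob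
  have hA1 : |A| ≤ 1 := hA ▸ abs_tilt_le ν w F _
  have hD := one_sub_sq_pos hW.sq_le hA1
  have e1 := mk_wt hW h F y (φ1 := fun σ => sp (σ w)) (measurable_sp_apply w) hm
    (fun _ => (abs_sp _).le) hb (dependsOn_sp (mem_sub_self h)) hd
  have e2 := mk_wt hW h F y (φ1 := fun _ => 1) measurable_const hm (C1 := 1)
    (fun _ => by simp) hb (fun _ _ _ => rfl) hd
  have e3 := mk_wt hW h F y (φ1 := fun _ => 1) (φ2 := fun σ => sp (σ p) * φ σ) measurable_const
    ((measurable_sp_apply p).mul hm) (C1 := 1) (C2 := C)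
    (fun _ => by simp) (fun σ => by rw [abs_mul, abs_sp, one_mul]; exact hb σ)
    (fun _ _ _ => rfl) (dependsOn_mul (dependsOn_sp (mem_sub_self h.symm)) hd)
  simp only [one_mul, mul_one, sp_mul_self, ← mul_assoc (sp _) (sp _)] at e1 e2 e3
  have p1 := integral_wt_pos ν F ((sub G w p).indicator y)
  have hB : ∫ σ, sp (σ w) * wt F ((sub G w p).indicator y) σ ∂ν =
      A * ∫ σ, wt F ((sub G w p).indicator y) σ ∂ν := by
    rw [hA, tilt, div_mul_cancel₀ _ p1.ne']
  rw [e1, e2, e3, hB]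
  unfold kap rr
  have hD' : 1 - A ^ 2 * θ ^ 2 ≠ 0 := by rw [mul_comm]; exact hD.ne'
  field_simp
  ring

lemma tilt_step_one (hW : Wd G d θ ν) {w p : V} (h : G.Adj w p) (F : Finset V) (y : V → ℝ)
    {A : ℝ} (hA : A = tilt ν w F ((sub G w p).indicator y)) :
    tilt ν w F y = A * (1 - θ ^ 2) / (1 - θ ^ 2 * A ^ 2) + kap θ A * tilt ν p F y := by
  have := hW.prob
  have e := tilt_step hW h F y (φ := fun _ => 1) measurable_const (C := 1) (fun _ => by simp)
    (fun _ _ _ => rfl) hA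
  simp only [one_mul, mul_one] at e
  have p0 := integral_wt_pos ν F y
  unfold tilt
  rw [e]
  field_simp

lemma tilt_Bf (hW : Wd G d θ ν) {w p : V} (h : G.Adj w p) (F : Finset V) (y : V → ℝ) :
    tilt ν w F ((sub G w p).indicator y) = Bf θ (tilt ν p F y) (tilt ν w F y) := by
  have := hW.prob
  have hA1 := abs_tilt_le ν w F ((sub G w p).indicator y)
  have hD := one_sub_sq_pos hW.sq_le hA1
  refine (Bf_spec hW.θ0 hW.sq_le (abs_tilt_le ν p F y) hA1 ?_).symm
  rw [tilt_step_one hW h F y rfl]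
  unfold kap rr
  generalize tilt ν w F ((sub G w p).indicator y) = A at *
  have hD' : 1 - A ^ 2 * θ ^ 2 ≠ 0 := by rw [mul_comm]; exact hD.ne'
  field_simp

lemma tcov_comm (ν : Measure (V → Bool)) (u v : V) (F : Finset V) (y : V → ℝ) :
    tcov ν u v F y = tcov ν v u F y := by
  unfold tcov
  have : ∀ σ : V → Bool, sp (σ u) * sp (σ v) = sp (σ v) * sp (σ u) := fun σ => mul_comm _ _
  simp only [this, mul_comm (tilt ν u F y)]

lemma tcov_self (ν : Measure (V → Bool)) [IsProbabilityMeasure ν] (u : V) (F : Finset V)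
    (y : V → ℝ) : tcov ν u u F y = 1 - tilt ν u F y ^ 2 := by
  unfold tcov
  simp only [sp_mul_self, one_mul]
  rw [div_self (integral_wt_pos ν F y).ne', sq]

lemma tcov_prod (hW : Wd G d θ ν) (u v : V) (F : Finset V) (y : V → ℝ) :
    tcov ν u v F y = (1 - tilt ν u F y ^ 2) *
      ∏ w ∈ pth G u v, kap θ (tilt ν w F ((sub G w (tw G u w)).indicator y)) := by
  have := hW.prob
  have hT := hW.tr
  induction hn : G.dist u v generalizing v with
  | zero =>
    obtain rfl := hT.dist_eq_zero.1 hn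
    rw [pth_self hT, Finset.prod_empty, mul_one, tcov_self]
  | succ n ih =>
    have huv : u ≠ v := by
      rintro rfl
      simp at hn
    have ih' := ih (tw G u v) (by have := dist_tw hT huv; omega)
    rw [prod_pth_last hT huv fun x q => kap θ (tilt ν x F ((sub G x q).indicator y)), ← mul_assoc,
      ← ih']
    have hadj := tw_adj hT huv
    have e1 := tilt_step hW hadj F y (measurable_sp_apply u) (fun _ => (abs_sp _).le)
      (dependsOn_sp (mem_sub_tw hT huv)) rfl
    have e2 := tilt_step_one hW hadj F y rfl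
    have p0 := integral_wt_pos ν F y
    have c1 : ∀ σ : V → Bool, sp (σ v) * sp (σ u) = sp (σ u) * sp (σ v) := fun σ => mul_comm _ _
    have c2 : ∀ σ : V → Bool, sp (σ (tw G u v)) * sp (σ u) = sp (σ u) * sp (σ (tw G u v)) :=
      fun σ => mul_comm _ _
    simp only [c1, c2] at e1
    unfold tcov
    rw [e1, e2]
    generalize kap θ (tilt ν v F ((sub G v (tw G u v)).indicator y)) = κ
    generalize tilt ν v F ((sub G v (tw G u v)).indicator y) * (1 - θ ^ 2) /
      (1 - θ ^ 2 * tilt ν v F ((sub G v (tw G u v)).indicator y) ^ 2) = α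
    have : ∫ σ, sp (σ u) * wt F y σ ∂ν = tilt ν u F y * ∫ σ, wt F y σ ∂ν := by
      rw [tilt, div_mul_cancel₀ _ p0.ne']
    rw [this]
    field_simp
    ring

lemma exp_mul_sp (δ : ℝ) (b : Bool) :
    Real.exp (δ * sp b) = Real.cosh δ * (1 + Real.tanh δ * sp b) := by
  have := Real.cosh_pos δ
  rw [Real.tanh_eq_sinh_div_cosh]
  cases b
  · simp only [sp_false, mul_neg, mul_one]
    rw [← Real.cosh_sub_sinh]
    field_simp
    ring
  · simp only [sp_true, mul_one]
    rw [← Real.cosh_add_sinh]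
    field_simp

lemma wt_single {v : V} {F : Finset V} (hv : v ∈ F) (y : V → ℝ) (δ : ℝ) (σ : V → Bool) :
    wt F (y + Pi.single v δ) σ =
      Real.cosh δ * (wt F y σ + Real.tanh δ * (sp (σ v) * wt F y σ)) := by
  have : ∑ w ∈ F, (y + Pi.single v δ : V → ℝ) w * sp (σ w) =
      ∑ w ∈ F, y w * sp (σ w) + δ * sp (σ v) := by
    simp only [Pi.add_apply, add_mul, Finset.sum_add_distrib]
    congr 1
    rw [Finset.sum_eq_single_of_mem v hv fun w _ hw => by simp [Pi.single_eq_of_ne hw]]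
    simp
  unfold wt
  rw [this, Real.exp_add, exp_mul_sp]
  ring

lemma tilt_jump (ν : Measure (V → Bool)) [IsProbabilityMeasure ν] (u : V) {v : V} {F : Finset V}
    (hv : v ∈ F) (y : V → ℝ) (δ : ℝ) :
    tilt ν u F (y + Pi.single v δ) = tilt ν u F y +
      tcov ν u v F y * (Real.tanh δ / (1 + tilt ν v F y * Real.tanh δ)) := by
  have i0 := integrable_wt ν F y
  have iu := integrable_mul_wt ν (measurable_sp_apply u) (fun _ => (abs_sp _).le) F y
  have iv := integrable_mul_wt ν (measurable_sp_apply v) (fun _ => (abs_sp _).le) F y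
  have iuv := integrable_mul_wt ν ((measurable_sp_apply u).fun_mul (measurable_sp_apply v))
    (C := 1) (fun _ => by rw [abs_mul, abs_sp, abs_sp, one_mul]) F y
  have e1 : ∫ σ, wt F (y + Pi.single v δ) σ ∂ν = Real.cosh δ *
      (∫ σ, wt F y σ ∂ν + Real.tanh δ * ∫ σ, sp (σ v) * wt F y σ ∂ν) := by
    simp only [wt_single hv]
    rw [integral_const_mul, integral_add i0 (iv.const_mul _), integral_const_mul]
  have e2 : ∫ σ, sp (σ u) * wt F (y + Pi.single v δ) σ ∂ν = Real.cosh δ *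
      (∫ σ, sp (σ u) * wt F y σ ∂ν + Real.tanh δ * ∫ σ, sp (σ u) * sp (σ v) * wt F y σ ∂ν) := by
    rw [← integral_const_mul, ← integral_add iu (iuv.const_mul _), ← integral_const_mul]
    refine integral_congr_ae (ae_of_all _ fun σ => ?_)
    simp only [wt_single hv]
    ring
  have p0 := integral_wt_pos ν F y
  have hc := Real.cosh_pos δ
  have p1 := integral_wt_pos ν F (y + Pi.single v δ)
  rw [e1] at p1
  have p2 := (pos_iff_pos_of_mul_pos p1).1 hc
  unfold tcov tilt
  rw [e1, e2]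
  generalize (∫ σ, wt F y σ ∂ν) = Z at *
  generalize (∫ σ, sp (σ v) * wt F y σ ∂ν) = Nv at *
  generalize (∫ σ, sp (σ u) * wt F y σ ∂ν) = Nu at *
  generalize (∫ σ, sp (σ u) * sp (σ v) * wt F y σ ∂ν) = Nuv at *
  have h3 : 1 + Nv / Z * Real.tanh δ = (Z + Real.tanh δ * Nv) / Z := by field_simp
  rw [h3]
  field_simp
  ring

lemma abs_tanh_le_of {x Y : ℝ} (h : |x| ≤ Y) : |Real.tanh x| ≤ 1 - Real.exp (-(2 * Y)) := by
  have h1 : Real.exp x ≤ Real.exp Y := Real.exp_le_exp.2 (abs_le.1 h).2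
  have h2 : Real.exp (-x) ≤ Real.exp Y := Real.exp_le_exp.2 (by linarith [(abs_le.1 h).1])
  have h3 : Real.exp (-Y) ≤ Real.exp x := Real.exp_le_exp.2 (abs_le.1 h).1
  have h4 : Real.exp (-Y) ≤ Real.exp (-x) := Real.exp_le_exp.2 (by linarith [(abs_le.1 h).2])
  have h5 : Real.exp (-(2 * Y)) * Real.exp Y = Real.exp (-Y) := by
    rw [← Real.exp_add]; congr 1; ring
  have p1 := Real.exp_pos x
  have p2 := Real.exp_pos (-x)
  have p3 := Real.exp_pos (-(2 * Y))
  rw [Real.tanh_eq, abs_div, abs_of_pos (by positivity : 0 < Real.exp x + Real.exp (-x)),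
    div_le_iff₀ (by positivity), abs_le]
  constructor <;> nlinarith

lemma abs_merge_le {a b ε : ℝ} (ha : |a| ≤ 3 / 4) (hε : 0 ≤ ε) (hb : |b| ≤ 1 - ε) :
    |(a + b) / (1 + a * b)| ≤ 1 - ε / 8 := by
  have hab : |a * b| ≤ 3 / 4 := by
    rw [abs_mul]; nlinarith [abs_nonneg a, abs_nonneg b]
  rw [abs_le] at ha hb hab
  have hp : 0 < 1 + a * b := by linarith
  rw [abs_div, abs_of_pos hp, div_le_iff₀ hp, abs_le]
  have h1 : 1 / 4 * ε ≤ (1 - a) * (1 - b) :=
    mul_le_mul (by linarith) (by linarith) hε (by linarith)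
  have h2 : 1 / 4 * ε ≤ (1 + a) * (1 + b) :=
    mul_le_mul (by linarith) (by linarith) hε (by linarith)
  have h3 : ε * (1 + a * b) ≤ ε * 2 := mul_le_mul_of_nonneg_left (by linarith) hε
  constructor <;> nlinarith

lemma tilt_bound_aux (hW : Wd G d θ ν) {Y : ℝ} (u : V) (F : Finset V) (A : Finset V)
    (hA : ∀ c ∈ A, G.Adj u c) (y : V → ℝ) (hy : |y u| ≤ Y)
    (hs : ∀ v, v ≠ u → y v ≠ 0 → ∃ c ∈ A, v ∈ sub G c u) :
    |tilt ν u F y| ≤ 1 - Real.exp (-(2 * Y)) / 8 ^ A.card := by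
  have := hW.prob
  have hT := hW.tr
  have h0 : ∀ w, tilt ν w F 0 = 0 := fun w => by
    rw [tilt_of_subset ν w (Finset.empty_subset F) (y := 0) fun _ _ _ => rfl, tilt_empty hW]
  induction A using Finset.induction_on generalizing y with
  | empty =>
    have hy0 : ∀ v, v ≠ u → y v = 0 := fun v hv => by
      by_contra hne
      simpa using hs v hv hne
    simp only [Finset.card_empty, pow_zero, div_one]
    by_cases hu : u ∈ F
    · have : y = 0 + Pi.single u (y u) := by
        ext v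
        by_cases hv : v = u
        · subst hv; simp
        · simp [Pi.single_eq_of_ne hv, hy0 v hv]
      rw [this, tilt_jump ν u hu, tcov_self, h0]
      simpa using abs_tanh_le_of hy
    · rw [tilt_congr ν u F (y' := 0) fun v hv => hy0 v fun h => hu (h ▸ hv), h0, abs_zero]
      have : Real.exp (-(2 * Y)) ≤ 1 :=
        Real.exp_le_one_iff.2 (by linarith [abs_nonneg (y u)])
      linarith
  | insert c A hc ih =>
    have hcu : G.Adj c u := (hA c (Finset.mem_insert_self c A)).symm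
    have hu : u ∈ sub G u c := mem_sub_self hcu.symm
    have ih' := ih (fun c' hc' => hA c' (Finset.mem_insert_of_mem hc')) ((sub G u c).indicator y)
      (by rwa [Set.indicator_of_mem hu]) (fun v hv hne => by
        have hv1 : v ∈ sub G u c := Set.mem_of_indicator_ne_zero hne
        rw [Set.indicator_of_mem hv1] at hne
        obtain ⟨c', hc', hv2⟩ := hs v hv hne
        rcases Finset.mem_insert.1 hc' with rfl | hc'
        · exact absurd hv1 ((mem_sub_iff_notMem hT hcu).1 hv2)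
        · exact ⟨c', hc', hv2⟩)
    rw [tilt_merge hW hcu, Finset.card_insert_of_notMem hc, pow_succ, ← div_div]
    refine abs_merge_le ?_ (by positivity) ih'
    rw [tilt_theta hW hcu, abs_mul, abs_of_nonneg hW.θ0]
    have h1 : θ ≤ 3 / 4 := by nlinarith [hW.sq_le, hW.θ0]
    exact (mul_le_of_le_one_right hW.θ0 (abs_tilt_le ν c F _)).trans h1

lemma tilt_bound (hT : Tr G d) (Y : ℝ) : ∃ δ : ℝ, 0 < δ ∧ ∀ (θ : ℝ) (ν : Measure (V → Bool)),
    Wd G d θ ν → ∀ (u : V) (F : Finset V) (y : V → ℝ), |y u| ≤ Y → |tilt ν u F y| ≤ 1 - δ := by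
  refine ⟨Real.exp (-(2 * Y)) / 8 ^ d, by positivity, fun θ ν hW u F y hy => ?_⟩
  have := tilt_bound_aux hW u F (G.neighborFinset u) (fun c hc => by simpa using hc) y hy
    fun v hv _ => ⟨tw G v u, by simpa using tw_adj hT hv, mem_sub_tw hT hv⟩
  rwa [SimpleGraph.card_neighborFinset_eq_degree, hT.reg.degree_eq u] at this

/-- continuity of the tilt in θ: numerators and denominators differ by at most
`τ exp (card S * Y)` (`tv_le`), denominators are at least `exp (-card S * Y)`. -/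
lemma tilt_tv {θ' : ℝ} {ν' : Measure (V → Bool)} (hW : Wd G d θ ν) (hW' : Wd G d θ' ν')
    {S F : Finset V} (hS : (G.induce (S : Set V)).Connected) (hF : F ⊆ S) {u : V} (hu : u ∈ S)
    {y : V → ℝ} {Y : ℝ} (hy : ∀ v, |y v| ≤ Y) :
    |tilt ν u F y - tilt ν' u F y| ≤
      2 * (2 ^ S.card * (S.card : ℝ) ^ 2 * |θ - θ'|) * Real.exp (2 * S.card * Y) := by
  have := hW.prob
  have := hW'.prob
  have hY : 0 ≤ Y := (abs_nonneg _).trans (hy u)
  have hsum : ∑ v ∈ F, |y v| ≤ S.card * Y := by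
    refine (Finset.sum_le_card_nsmul F _ Y fun v _ => hy v).trans ?_
    rw [nsmul_eq_mul]
    exact mul_le_mul_of_nonneg_right (by exact_mod_cast Finset.card_le_card hF) hY
  have hdw : DependsOn (wt F y) (S : Set V) := fun σ σ' h => by
    unfold wt
    rw [Finset.sum_congr rfl fun v hv => by rw [h v (hF hv)]]
  have hbw : ∀ σ, |wt F y σ| ≤ Real.exp (S.card * Y) := fun σ =>
    (abs_wt_le F y σ).trans (Real.exp_le_exp.2 hsum)
  have t1 := tv_le hW hW' hS hdw hbw
  have t2 := tv_le hW hW' hS (dependsOn_mul (dependsOn_sp (S := (S : Set V)) hu) hdw)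
    (B := Real.exp (S.card * Y)) fun σ => by rw [abs_mul, abs_sp, one_mul]; exact hbw σ
  have hZ : Real.exp (-(S.card * Y)) ≤ ∫ σ, wt F y σ ∂ν :=
    (Real.exp_le_exp.2 (by linarith)).trans (le_integral_wt ν F y)
  have p0 := integral_wt_pos ν F y
  have p1 := integral_wt_pos ν' F y
  have hm := abs_tilt_le ν' u F y
  have hN' : ∫ σ, sp (σ u) * wt F y σ ∂ν' = tilt ν' u F y * ∫ σ, wt F y σ ∂ν' := by
    rw [tilt, div_mul_cancel₀ _ p1.ne']
  rw [hN'] at t2
  rw [tilt]
  generalize tilt ν' u F y = m at *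
  generalize (∫ σ, wt F y σ ∂ν) = Z at *
  generalize (∫ σ, wt F y σ ∂ν') = Z' at *
  generalize (∫ σ, sp (σ u) * wt F y σ ∂ν) = N at *
  have hτ : 0 ≤ 2 ^ S.card * (S.card : ℝ) ^ 2 * |θ - θ'| := by positivity
  generalize 2 ^ S.card * (S.card : ℝ) ^ 2 * |θ - θ'| = τ at *
  have e1 : N / Z - m = ((N - m * Z') - m * (Z - Z')) / Z := by field_simp; ring
  have e2 : |(N - m * Z') - m * (Z - Z')| ≤ 2 * τ * Real.exp (S.card * Y) := by
    refine (abs_sub _ _).trans ?_
    rw [abs_mul m]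
    nlinarith [abs_nonneg m, abs_nonneg (Z - Z')]
  have e3 : Real.exp (2 * S.card * Y) * Real.exp (-(S.card * Y)) = Real.exp (S.card * Y) := by
    rw [← Real.exp_add]; congr 1; ring
  rw [e1, abs_div, abs_of_pos p0, div_le_iff₀ p0]
  refine e2.trans ?_
  rw [← e3, ← mul_assoc]
  exact mul_le_mul_of_nonneg_left hZ (by positivity)

end

end Crest.Agent.R160
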