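import Crest.Agent.R160.TiltA

/-!
Row 160, TiltB: infinite-volume magnetisations, cavities and covariances.
On `Conv y` pass to the limit in the identities of TiltA along `F = ball o n` for one common centre
`o` (`tendsto_nhds_unique`; `kap θ A = θ * rr θ (cl A)` for `|A| ≤ 1` and `continuous_rr_cl`;
`Bf_lip` for the continuity of `Bf`).
`cav_merge`: with `y' = (sub w p).indicator y`, `tilt_merge` on the edge `c ∼ w` gives
`A n = (a n + b n)/(1 + a n * b n)` along `ball w n`, where `a n → θ cav c w y`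
(`(sub c w).indicator y' = (sub c w).indicator y` by `sub_subset`), `|a n| ≤ θ`, `A n → cav w p y`,
and `b n = tilt w (ball w n) ((sub w p \\ sub c w).indicator y) = (A n - a n)/(1 - A n * a n)`
converges, so its limit is `Mg`; finally `|1 + ab| ≤ 2`.
`Cv_split`: `prod_pth_split`, `Cv u p = Cv p u ≤ θ^_ Wp p u` (`Cv_symm`, `Cv_le`), `kap ≤ θ`,
`dist_split`.
-/

set_option autoImplicit false

open MeasureTheory Filter Topology
open scoped Classical

namespace Crest.Agent.R160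

noncomputable section

universe u

variable {V : Type u} {G : SimpleGraph V} [G.LocallyFinite] {d : ℕ} {θ : ℝ}
  {ν : Measure (V → Bool)}

omit [G.LocallyFinite] in
private lemma measurable_indicator_fun (S : Set V) : Measurable fun y : V → ℝ => S.indicator y := by
  refine measurable_pi_lambda _ fun v => ?_
  by_cases h : v ∈ S
  · simp only [Set.indicator_of_mem h]; exact measurable_pi_apply v
  · simp only [Set.indicator_of_notMem h]; exact measurable_const

private lemma tendsto_tilt_finite (hT : Tr G d) (ν : Measure (V → Bool)) (F : Finset V) {y : V → ℝ}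
    (h : ∀ v, v ∉ F → y v = 0) (u o : V) :
    Tendsto (fun n => tilt ν u (ball G o n) y) atTop (𝓝 (tilt ν u F y)) := by
  obtain ⟨N, hN⟩ := exists_subset_ball hT o F
  refine tendsto_const_nhds.congr' ?_
  filter_upwards [eventually_ge_atTop N] with n hn
  exact (tilt_of_subset ν u (hN.trans (ball_mono o hn)) fun v _ hv => h v hv).symm

private lemma tendsto_Bf {θ p m : ℝ} {ps ms : ℕ → ℝ} (h0 : 0 ≤ θ) (hθ : θ ^ 2 ≤ 1 / 2)
    (hps : ∀ n, |ps n| ≤ 1) (hms : ∀ n, |ms n| ≤ 1) (hp : |p| ≤ 1) (hm : |m| ≤ 1)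
    (tp : Tendsto ps atTop (𝓝 p)) (tm : Tendsto ms atTop (𝓝 m)) :
    Tendsto (fun n => Bf θ (ps n) (ms n)) atTop (𝓝 (Bf θ p m)) := by
  rw [tendsto_iff_norm_sub_tendsto_zero]
  have h1 := (((tendsto_iff_norm_sub_tendsto_zero.1 tp).add
    (tendsto_iff_norm_sub_tendsto_zero.1 tm)).add_const |θ - θ|).const_mul 100
  simp only [sub_self, abs_zero, add_zero, mul_zero] at h1
  refine squeeze_zero (fun n => norm_nonneg _) (fun n => ?_) h1
  simpa using Bf_lip h0 hθ h0 hθ (hps n) hp (hms n) hm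

private lemma tendsto_kap {θ A : ℝ} {As : ℕ → ℝ} (hθ : θ ^ 2 ≤ 1 / 2) (hAs : ∀ n, |As n| ≤ 1)
    (hA : |A| ≤ 1) (h : Tendsto As atTop (𝓝 A)) :
    Tendsto (fun n => kap θ (As n)) atTop (𝓝 (kap θ A)) := by
  have h1 := (((continuous_rr_cl hθ).tendsto A).comp h).const_mul θ
  simp only [Function.comp_def, cl_of_abs_le hA, cl_of_abs_le (hAs _)] at h1
  exact h1

lemma abs_Mg_le (ν : Measure (V → Bool)) [IsProbabilityMeasure ν] (u : V) (y : V → ℝ) :
    |Mg G ν u y| ≤ 1 := by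
  exact abs_slim_le fun n => abs_tilt_le ν u _ y

lemma measurable_Mg (ν : Measure (V → Bool)) [IsProbabilityMeasure ν] (u : V) :
    Measurable (Mg G ν u) := by
  exact measurable_slim fun n => measurable_tilt ν u _

lemma Mg_neg (hW : Wd G d θ ν) (u : V) (y : V → ℝ) : Mg G ν u (-y) = -Mg G ν u y := by
  simp only [Mg, tilt_neg hW]
  exact slim_neg _

lemma Mg_iso (hW : Wd G d θ ν) (g : G ≃g G) (u : V) (y : V → ℝ) :
    Mg G ν u (y ∘ g) = Mg G ν (g u) y := by
  simp only [Mg, tilt_iso hW, ball_iso hW.tr]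

lemma Mg_bound (hT : Tr G d) (Y : ℝ) : ∃ δ : ℝ, 0 < δ ∧ ∀ (θ : ℝ) (ν : Measure (V → Bool)),
    Wd G d θ ν → ∀ (u : V) (y : V → ℝ), |y u| ≤ Y → |Mg G ν u y| ≤ 1 - δ := by
  obtain ⟨δ, hδ, h⟩ := tilt_bound hT Y
  exact ⟨δ, hδ, fun θ ν hW u y hy => abs_slim_le fun n => h θ ν hW u _ y hy⟩

lemma Mg_finite (hT : Tr G d) (ν : Measure (V → Bool)) (u : V) (F : Finset V) (y : V → ℝ) :
    Mg G ν u ((F : Set V).indicator y) = tilt ν u F y := by
  rw [Mg, slim_of_tendsto (tendsto_tilt_finite hT ν F (fun v hv => by simp [hv]) u u)]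
  exact tilt_congr ν u F fun v hv => by simp [hv]

lemma conv_finite (hT : Tr G d) (ν : Measure (V → Bool)) (F : Finset V) (y : V → ℝ) :
    Conv G ν ((F : Set V).indicator y) := by
  have key : ∀ y' : V → ℝ, (∀ v, v ∉ F → y' v = 0) → ∀ u o,
      Tendsto (fun n => tilt ν u (ball G o n) y') atTop (𝓝 (Mg G ν u y')) := fun y' h u o => by
    rw [Mg, slim_of_tendsto (tendsto_tilt_finite hT ν F h u u)]
    exact tendsto_tilt_finite hT ν F h u o
  refine ⟨key _ fun v hv => by simp [hv], fun z x _ => key _ fun v hv => ?_⟩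
  by_cases h : v ∈ sub G z x <;> simp [h, hv]

lemma measurableSet_conv (hT : Tr G d) (ν : Measure (V → Bool)) [IsProbabilityMeasure ν] :
    MeasurableSet {y | Conv G ν y} := by
  have := hT.countable
  simp only [Conv, Set.ofPred_and, Set.ofPred_forall]
  refine MeasurableSet.inter (MeasurableSet.iInter fun u => MeasurableSet.iInter fun o =>
    measurableSet_tendsto_fun (fun n => measurable_tilt ν u _) (measurable_Mg ν u)) ?_
  refine MeasurableSet.iInter fun z => MeasurableSet.iInter fun x => MeasurableSet.iInter fun _ =>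
    MeasurableSet.iInter fun u => MeasurableSet.iInter fun o => ?_
  exact measurableSet_tendsto_fun
    (fun n => (measurable_tilt ν u _).comp (measurable_indicator_fun _))
    ((measurable_Mg ν u).comp (measurable_indicator_fun _))

lemma abs_cav_le (ν : Measure (V → Bool)) [IsProbabilityMeasure ν] (z x : V) (y : V → ℝ) :
    |cav G ν z x y| ≤ 1 := by
  exact abs_Mg_le ν z _

lemma measurable_cav (ν : Measure (V → Bool)) [IsProbabilityMeasure ν] (z x : V) :
    Measurable (cav G ν z x) := by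
  exact (measurable_Mg ν z).comp (measurable_indicator_fun _)

lemma cav_neg (hW : Wd G d θ ν) (z x : V) (y : V → ℝ) : cav G ν z x (-y) = -cav G ν z x y := by
  rw [cav, cav, ← Mg_neg hW, Set.indicator_neg']

lemma cav_iso (hW : Wd G d θ ν) (g : G ≃g G) (z x : V) (y : V → ℝ) :
    cav G ν z x (y ∘ g) = cav G ν (g z) (g x) y := by
  rw [cav, cav, ← Mg_iso hW]
  congr 1
  funext v
  by_cases h : v ∈ sub G z x
  · simp [h, (mem_sub_iso g).2 h]
  · have h' : g v ∉ sub G (g z) (g x) := fun h' => h ((mem_sub_iso g).1 h')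
    simp [h, h']

lemma dependsOn_cav (ν : Measure (V → Bool)) (z x : V) :
    DependsOn (cav G ν z x) (sub G z x) := by
  intro y y' h
  unfold cav
  rw [Set.indicator_congr h]

lemma theta_cav (hW : Wd G d θ ν) {y : V → ℝ} (hy : Conv G ν y) {z x : V} (h : G.Adj z x) :
    Mg G ν x ((sub G z x).indicator y) = θ * cav G ν z x y := by
  refine tendsto_nhds_unique (hy.2 z x h x x) ?_
  simp only [tilt_theta hW h]
  exact (hy.2 z x h z x).const_mul θ

lemma cav_eq_Bf (hW : Wd G d θ ν) {y : V → ℝ} (hy : Conv G ν y) {w p : V} (h : G.Adj w p) :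
    cav G ν w p y = Bf θ (Mg G ν p y) (Mg G ν w y) := by
  have := hW.prob
  refine tendsto_nhds_unique (hy.2 w p h w w) ?_
  simp only [tilt_Bf hW h]
  exact tendsto_Bf hW.θ0 hW.sq_le (fun n => abs_tilt_le ν _ _ _) (fun n => abs_tilt_le ν _ _ _)
    (abs_Mg_le ν _ _) (abs_Mg_le ν _ _) (hy.1 p w) (hy.1 w w)

lemma Cv_eq_Ch (hW : Wd G d θ ν) {y : V → ℝ} (hy : Conv G ν y) (u v : V) :
    Cv G ν θ u v y = Ch G θ u v fun w => Mg G ν w y := by
  unfold Cv Ch
  congr 1
  refine Finset.prod_congr rfl fun w hw => ?_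
  rw [cav_eq_Bf hW hy (tw_adj hW.tr ((mem_pth hW.tr).1 hw).1.symm)]

lemma tendsto_tcov (hW : Wd G d θ ν) {y : V → ℝ} (hy : Conv G ν y) (u v o : V) :
    Tendsto (fun n => tcov ν u v (ball G o n) y) atTop (𝓝 (Cv G ν θ u v y)) := by
  have := hW.prob
  simp only [tcov_prod hW]
  refine (((hy.1 u o).pow 2).const_sub 1).mul (tendsto_finsetProd _ fun w hw => ?_)
  exact tendsto_kap hW.sq_le (fun n => abs_tilt_le ν _ _ _) (abs_cav_le ν _ _ _)
    (hy.2 w _ (tw_adj hW.tr ((mem_pth hW.tr).1 hw).1.symm) w o)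

lemma Cv_symm (hW : Wd G d θ ν) {y : V → ℝ} (hy : Conv G ν y) (u v : V) :
    Cv G ν θ u v y = Cv G ν θ v u y := by
  refine tendsto_nhds_unique (tendsto_tcov hW hy u v u) ?_
  simp only [tcov_comm ν u v]
  exact tendsto_tcov hW hy v u u

lemma Mg_jump (hW : Wd G d θ ν) {y : V → ℝ} (hy : Conv G ν y) (u v : V) (δ : ℝ) :
    Mg G ν u (y + Pi.single v δ) = Mg G ν u y +
      Cv G ν θ u v y * (Real.tanh δ / (1 + Mg G ν v y * Real.tanh δ)) := by
  have := hW.prob
  refine slim_of_tendsto ?_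
  have hne : 1 + Mg G ν v y * Real.tanh δ ≠ 0 := by
    have h1 : |Mg G ν v y * Real.tanh δ| < 1 := by
      rw [abs_mul]
      exact (mul_le_of_le_one_left (abs_nonneg _) (abs_Mg_le ν v y)).trans_lt
        (Real.abs_tanh_lt_one δ)
    linarith [(abs_lt.1 h1).1]
  refine ((hy.1 u u).add ((tendsto_tcov hW hy u v u).mul (tendsto_const_nhds.div
    (((hy.1 v u).mul_const (Real.tanh δ)).const_add 1) hne))).congr' ?_
  filter_upwards [eventually_ge_atTop (G.dist u v)] with n hn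
  exact (tilt_jump ν u ((mem_ball hW.tr).2 hn) y δ).symm

lemma cav_merge (hW : Wd G d θ ν) {y : V → ℝ} (hy : Conv G ν y) {c w p : V} (hwp : G.Adj w p)
    (hc : c ∈ kids G w p) :
    (θ * cav G ν c w y + Mg G ν w ((sub G w p \ sub G c w).indicator y)) ^ 2 / 4 ≤
      cav G ν w p y ^ 2 := by
  have := hW.prob
  have hcw : G.Adj c w := (mem_kids.1 hc).1.symm
  have hsub := sub_subset hW.tr hwp hc
  have e1 : (sub G c w).indicator ((sub G w p).indicator y) = (sub G c w).indicator y := by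
    rw [Set.indicator_indicator, Set.inter_eq_left.2 hsub]
  have e2 : (sub G w c).indicator ((sub G w p).indicator y) =
      (sub G w p \ sub G c w).indicator y := by
    rw [Set.indicator_indicator, ← compl_sub hW.tr hcw, Set.sdiff_eq, Set.inter_comm]
  set A : ℕ → ℝ := fun n => tilt ν w (ball G w n) ((sub G w p).indicator y) with hAdef
  set a : ℕ → ℝ := fun n => tilt ν w (ball G w n) ((sub G c w).indicator y) with hadef
  set b : ℕ → ℝ := fun n => tilt ν w (ball G w n) ((sub G w p \ sub G c w).indicator y)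
    with hbdef
  have hθ : θ < 1 := by nlinarith [hW.sq_le, hW.θ0]
  have hA : Tendsto A atTop (𝓝 (cav G ν w p y)) := hy.2 w p hwp w w
  have ha : Tendsto a atTop (𝓝 (θ * cav G ν c w y)) := by
    rw [← theta_cav hW hy hcw]; exact hy.2 c w hcw w w
  have hmul : ∀ s : ℝ, |s| ≤ 1 → |θ * s| ≤ θ := fun s hs => by
    rw [abs_mul, abs_of_nonneg hW.θ0]; exact mul_le_of_le_one_right hW.θ0 hs
  have haθ : ∀ n, |a n| ≤ θ := fun n => by
    simp only [hadef, tilt_theta hW hcw]; exact hmul _ (abs_tilt_le ν _ _ _)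
  have hlt : ∀ s t : ℝ, |s| ≤ θ → |t| ≤ 1 → |s * t| < 1 := fun s t hs ht => by
    rw [abs_mul]; exact ((mul_le_of_le_one_right (abs_nonneg _) ht).trans hs).trans_lt hθ
  have hab : ∀ n, |a n * b n| < 1 := fun n => hlt _ _ (haθ n) (abs_tilt_le ν _ _ _)
  have hm : ∀ n, A n * (1 + a n * b n) = a n + b n := fun n => by
    have h1 := tilt_merge hW hcw (ball G w n) ((sub G w p).indicator y)
    rw [e1, e2] at h1
    have h2 : 1 + a n * b n ≠ 0 := by linarith [(abs_lt.1 (hab n)).1]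
    exact (eq_div_iff h2).1 h1
  have hb : ∀ n, b n = (A n - a n) / (1 - a n * A n) := fun n => by
    have h2 : 1 - a n * A n ≠ 0 := by
      linarith [(abs_lt.1 (hlt _ (A n) (haθ n) (abs_tilt_le ν _ _ _))).2]
    rw [eq_div_iff h2]; linear_combination -hm n
  have hne : 1 - θ * cav G ν c w y * cav G ν w p y ≠ 0 := by
    linarith [(abs_lt.1 (hlt _ _ (hmul _ (abs_cav_le (G := G) ν c w y)) (abs_cav_le (G := G) ν w p y))).2]
  have hb1 := ((hA.sub ha).div ((ha.mul hA).const_sub 1) hne).congr fun n => (hb n).symm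
  have hb2 : Tendsto b atTop (𝓝 (Mg G ν w ((sub G w p \ sub G c w).indicator y))) := by
    rw [Mg, slim_of_tendsto hb1]; exact hb1
  refine le_of_tendsto_of_tendsto' (((ha.add hb2).pow 2).div_const 4) (hA.pow 2) fun n => ?_
  have h1 := abs_lt.1 (hab n)
  have h2 : (1 + a n * b n) ^ 2 ≤ 4 := by nlinarith
  rw [← hm n, mul_pow]
  nlinarith [sq_nonneg (A n)]

private lemma prod_kap (hT : Tr G d) (ν : Measure (V → Bool)) (θ : ℝ) (u v : V) (y : V → ℝ) :
    ∏ w ∈ pth G u v, kap θ (cav G ν w (tw G u w) y) = θ ^ G.dist u v * Wp G ν θ u v y := by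
  simp only [kap, Finset.prod_mul_distrib, Finset.prod_const, card_pth hT, Wp]

private lemma Cv_eq_Wp (hT : Tr G d) (ν : Measure (V → Bool)) (θ : ℝ) (u v : V) (y : V → ℝ) :
    Cv G ν θ u v y = (1 - Mg G ν u y ^ 2) * (θ ^ G.dist u v * Wp G ν θ u v y) := by
  rw [Cv, prod_kap hT]

lemma measurable_Wp (ν : Measure (V → Bool)) [IsProbabilityMeasure ν] (θ : ℝ) (u v : V) :
    Measurable (Wp G ν θ u v) := by
  exact Finset.measurable_prod _ fun w _ => (measurable_rr θ).comp (measurable_cav ν _ _)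

lemma measurable_Cv (ν : Measure (V → Bool)) [IsProbabilityMeasure ν] (θ : ℝ) (u v : V) :
    Measurable (Cv G ν θ u v) := by
  exact (((measurable_Mg ν u).pow_const 2).const_sub 1).mul
    (Finset.measurable_prod _ fun w _ => (measurable_kap θ).comp (measurable_cav ν _ _))

lemma Wp_nonneg (hW : Wd G d θ ν) (u v : V) (y : V → ℝ) : 0 ≤ Wp G ν θ u v y := by
  have := hW.prob
  exact Finset.prod_nonneg fun w _ => rr_nonneg hW.sq_le (abs_cav_le ν _ _ _)

lemma Wp_le_one (hW : Wd G d θ ν) (u v : V) (y : V → ℝ) : Wp G ν θ u v y ≤ 1 := by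
  have := hW.prob
  exact Finset.prod_le_one (fun w _ => rr_nonneg hW.sq_le (abs_cav_le ν _ _ _))
    fun w _ => rr_le_one hW.sq_le (abs_cav_le ν _ _ _)

lemma Cv_nonneg (hW : Wd G d θ ν) (u v : V) (y : V → ℝ) : 0 ≤ Cv G ν θ u v y := by
  have := hW.prob
  rw [Cv_eq_Wp hW.tr]
  exact mul_nonneg (sub_nonneg.2 ((sq_le_one_iff_abs_le_one _).2 (abs_Mg_le ν u y)))
    (mul_nonneg (pow_nonneg hW.θ0 _) (Wp_nonneg hW u v y))

lemma Cv_le (hW : Wd G d θ ν) (u v : V) (y : V → ℝ) :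
    Cv G ν θ u v y ≤ θ ^ G.dist u v * Wp G ν θ u v y := by
  rw [Cv_eq_Wp hW.tr]
  exact mul_le_of_le_one_left (mul_nonneg (pow_nonneg hW.θ0 _) (Wp_nonneg hW u v y))
    (sub_le_self _ (sq_nonneg _))

lemma Cv_le_pow (hW : Wd G d θ ν) (u v : V) (y : V → ℝ) : Cv G ν θ u v y ≤ θ ^ G.dist u v := by
  exact (Cv_le hW u v y).trans (mul_le_of_le_one_right (pow_nonneg hW.θ0 _) (Wp_le_one hW u v y))

lemma abs_Cv_le (hW : Wd G d θ ν) (u v : V) (y : V → ℝ) : |Cv G ν θ u v y| ≤ 1 := by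
  rw [abs_of_nonneg (Cv_nonneg hW u v y)]
  exact (Cv_le_pow hW u v y).trans (pow_le_one₀ hW.θ0 hW.le_one)

lemma Cv_neg (hW : Wd G d θ ν) (u v : V) (y : V → ℝ) :
    Cv G ν θ u v (-y) = Cv G ν θ u v y := by
  simp only [Cv, Mg_neg hW, cav_neg hW, kap_neg, neg_sq]

lemma Cv_iso (hW : Wd G d θ ν) (g : G ≃g G) (u v : V) (y : V → ℝ) :
    Cv G ν θ u v (y ∘ g) = Cv G ν θ (g u) (g v) y := by
  simp only [Cv, Mg_iso hW, cav_iso hW]
  rw [prod_pth_iso hW.tr g u v fun w p => kap θ (cav G ν w p y)]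

lemma Wp_neg (hW : Wd G d θ ν) (u v : V) (y : V → ℝ) :
    Wp G ν θ u v (-y) = Wp G ν θ u v y := by
  simp only [Wp, cav_neg hW, rr_neg]

lemma Wp_iso (hW : Wd G d θ ν) (g : G ≃g G) (u v : V) (y : V → ℝ) :
    Wp G ν θ u v (y ∘ g) = Wp G ν θ (g u) (g v) y := by
  simp only [Wp, cav_iso hW]
  rw [prod_pth_iso hW.tr g u v fun w p => rr θ (cav G ν w p y)]

lemma Wp_self (hT : Tr G d) (ν : Measure (V → Bool)) (θ : ℝ) (u : V) (y : V → ℝ) :
    Wp G ν θ u u y = 1 := by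
  rw [Wp, pth_self hT, Finset.prod_empty]

lemma Wp_first (hT : Tr G d) (ν : Measure (V → Bool)) (θ : ℝ) {c a v : V} (h : G.Adj c a)
    (hv : v ∈ sub G c a) (y : V → ℝ) :
    Wp G ν θ a v y = rr θ (cav G ν c a y) * Wp G ν θ c v y := by
  exact prod_pth_first hT h hv fun w p => rr θ (cav G ν w p y)

/-- `pth_subset_sub`, `sub_tw_subset`, `dependsOn_cav` -/
lemma dependsOn_Wp (hT : Tr G d) (ν : Measure (V → Bool)) (θ : ℝ) {a c v : V} (h : G.Adj a c)
    (hv : v ∈ sub G a c) : DependsOn (Wp G ν θ a v) (sub G a c) := by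
  intro y y' hy
  refine Finset.prod_congr rfl fun w hw => ?_
  rw [dependsOn_cav ν w (tw G a w) fun i hi => hy i
    (sub_tw_subset hT h (pth_subset_sub hT h hv hw) ((mem_pth hT).1 hw).1 hi)]

lemma Cv_split (hW : Wd G d θ ν) {y : V → ℝ} (hy : Conv G ν y) {u v w : V}
    (hw : w ∈ pth G u v) :
    Cv G ν θ u v y ≤ θ ^ G.dist u v * (Wp G ν θ (tw G u w) u y * Wp G ν θ w v y) := by
  have := hW.prob
  have h1 : Cv G ν θ u v y = Cv G ν θ u (tw G u w) y * (θ * rr θ (cav G ν w (tw G u w) y)) *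
      (θ ^ G.dist w v * Wp G ν θ w v y) := by
    rw [← prod_kap hW.tr, Cv, Cv, prod_pth_split hW.tr hw fun w p => kap θ (cav G ν w p y), kap]
    ring
  have h2 : Cv G ν θ u (tw G u w) y ≤ θ ^ G.dist (tw G u w) u * Wp G ν θ (tw G u w) u y := by
    rw [Cv_symm hW hy]; exact Cv_le hW _ _ y
  have h3 : θ * rr θ (cav G ν w (tw G u w) y) ≤ θ :=
    mul_le_of_le_one_right hW.θ0 (rr_le_one hW.sq_le (abs_cav_le ν _ _ _))
  have h4 : 0 ≤ θ * rr θ (cav G ν w (tw G u w) y) :=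
    mul_nonneg hW.θ0 (rr_nonneg hW.sq_le (abs_cav_le ν _ _ _))
  have h5 : 0 ≤ θ ^ G.dist w v * Wp G ν θ w v y :=
    mul_nonneg (pow_nonneg hW.θ0 _) (Wp_nonneg hW _ _ y)
  calc Cv G ν θ u v y ≤ θ ^ G.dist (tw G u w) u * Wp G ν θ (tw G u w) u y * θ *
        (θ ^ G.dist w v * Wp G ν θ w v y) := by
        rw [h1]
        exact mul_le_mul_of_nonneg_right (mul_le_mul h2 h3 h4
          (mul_nonneg (pow_nonneg hW.θ0 _) (Wp_nonneg hW _ _ y))) h5
    _ = _ := by rw [dist_split hW.tr hw]; ring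

lemma measurable_Zs (ν : Measure (V → Bool)) [IsProbabilityMeasure ν] (θ lm : ℝ) (a b : V)
    (n : ℕ) : Measurable (Zs G ν θ lm a b n) := by
  exact Finset.measurable_sum _ fun v _ => (measurable_Wp ν θ a v).const_mul _

lemma Zs_nonneg (hW : Wd G d θ ν) {lm : ℝ} (hl : 0 ≤ lm) (a b : V) (n : ℕ) (y : V → ℝ) :
    0 ≤ Zs G ν θ lm a b n y := by
  exact Finset.sum_nonneg fun v _ => mul_nonneg (pow_nonneg hl _) (Wp_nonneg hW a v y)

lemma Zs_bdd (hW : Wd G d θ ν) (lm : ℝ) (n : ℕ) :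
    ∃ C : ℝ, ∀ a b y, |Zs G ν θ lm a b n y| ≤ C := by
  refine ⟨((d + 1) ^ n : ℕ) * (1 + |lm|) ^ n, fun a b y => ?_⟩
  have h0 := abs_nonneg lm
  calc |Zs G ν θ lm a b n y| ≤ ∑ v ∈ sb G a b n, |lm ^ G.dist a v * Wp G ν θ a v y| :=
        Finset.abs_sum_le_sum_abs _ _
    _ ≤ ∑ v ∈ sb G a b n, (1 + |lm|) ^ n := Finset.sum_le_sum fun v hv => by
        rw [abs_mul, abs_pow, abs_of_nonneg (Wp_nonneg hW a v y)]
        calc |lm| ^ G.dist a v * Wp G ν θ a v y ≤ |lm| ^ G.dist a v :=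
              mul_le_of_le_one_right (by positivity) (Wp_le_one hW a v y)
          _ ≤ (1 + |lm|) ^ G.dist a v := pow_le_pow_left₀ h0 (by linarith) _
          _ ≤ (1 + |lm|) ^ n := pow_le_pow_right₀ (by linarith) ((mem_sb hW.tr).1 hv).1
    _ = (sb G a b n).card * (1 + |lm|) ^ n := by rw [Finset.sum_const, nsmul_eq_mul]
    _ ≤ _ := by
        refine mul_le_mul_of_nonneg_right ?_ (by positivity)
        exact_mod_cast (Finset.card_filter_le _ _).trans (card_ball_le hW.tr a n)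

lemma Zs_neg (hW : Wd G d θ ν) (lm : ℝ) (a b : V) (n : ℕ) (y : V → ℝ) :
    Zs G ν θ lm a b n (-y) = Zs G ν θ lm a b n y := by
  simp only [Zs, Wp_neg hW]

lemma Zs_iso (hW : Wd G d θ ν) (g : G ≃g G) (lm : ℝ) (a b : V) (n : ℕ) (y : V → ℝ) :
    Zs G ν θ lm a b n (y ∘ g) = Zs G ν θ lm (g a) (g b) n y := by
  rw [Zs, Zs, sum_sb_iso hW.tr]
  simp only [Wp_iso hW, dist_iso]

lemma dependsOn_Zs (hT : Tr G d) (ν : Measure (V → Bool)) (θ lm : ℝ) {a b : V} (h : G.Adj a b)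
    (n : ℕ) : DependsOn (Zs G ν θ lm a b n) (sub G a b) := by
  intro y y' hy
  refine Finset.sum_congr rfl fun v hv => ?_
  rw [dependsOn_Wp hT ν θ h ((mem_sb hT).1 hv).2 hy]

lemma Zs_zero (hT : Tr G d) (ν : Measure (V → Bool)) (θ lm : ℝ) {a b : V} (h : G.Adj a b)
    (y : V → ℝ) : Zs G ν θ lm a b 0 y = 1 := by
  rw [Zs, sb_zero h, Finset.sum_singleton, Wp_self hT, SimpleGraph.dist_self, pow_zero, one_mul]

lemma Zs_succ (hT : Tr G d) (ν : Measure (V → Bool)) (θ lm : ℝ) {a b : V} (h : G.Adj a b)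
    (n : ℕ) (y : V → ℝ) :
    Zs G ν θ lm a b (n + 1) y =
      1 + lm * ∑ c ∈ kids G a b, rr θ (cav G ν c a y) * Zs G ν θ lm c a n y := by
  rw [Zs, sum_sb_succ hT h, Wp_self hT, SimpleGraph.dist_self, pow_zero, one_mul, Finset.mul_sum]
  congr 1
  refine Finset.sum_congr rfl fun c hc => ?_
  have hca : G.Adj c a := (mem_kids.1 hc).1.symm
  rw [Zs, Finset.mul_sum, Finset.mul_sum]
  refine Finset.sum_congr rfl fun v hv => ?_
  have hv' := ((mem_sb hT).1 hv).2
  rw [Wp_first hT ν θ hca hv', dist_of_mem_sub hT hca hv']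
  ring

/-- `sum_ball_split`, `Cv_le`, `Wp ≤ 1`; for `v ∈ sub x u` use `Wp_first` and `θ ≤ 1`. -/
lemma sum_Cv_sq_le (hW : Wd G d θ ν) {lm : ℝ} (hl : θ ^ 2 ≤ lm) {u x : V} (h : G.Adj u x)
    (R : ℕ) (y : V → ℝ) :
    ∑ v ∈ ball G u R, Cv G ν θ u v y ^ 2 ≤ Zs G ν θ lm u x R y + Zs G ν θ lm x u R y := by
  have := hW.prob
  have key : ∀ v, Cv G ν θ u v y ^ 2 ≤ (θ ^ 2) ^ G.dist u v * Wp G ν θ u v y := fun v => by
    have h0 := Wp_nonneg hW u v y
    calc Cv G ν θ u v y ^ 2 ≤ (θ ^ G.dist u v * Wp G ν θ u v y) ^ 2 :=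
          pow_le_pow_left₀ (Cv_nonneg hW u v y) (Cv_le hW u v y) 2
      _ = (θ ^ 2) ^ G.dist u v * (Wp G ν θ u v y * Wp G ν θ u v y) := by ring
      _ ≤ _ := mul_le_mul_of_nonneg_left (mul_le_of_le_one_right h0 (Wp_le_one hW u v y))
          (by positivity)
  refine (sum_ball_split hW.tr h R fun v => sq_nonneg _).trans (add_le_add ?_ ?_)
  · refine Finset.sum_le_sum fun v _ => (key v).trans ?_
    exact mul_le_mul_of_nonneg_right (pow_le_pow_left₀ (sq_nonneg _) hl _) (Wp_nonneg hW u v y)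
  · refine Finset.sum_le_sum fun v hv => (key v).trans ?_
    have hv' := ((mem_sb hW.tr).1 hv).2
    rw [Wp_first hW.tr ν θ h.symm hv', dist_of_mem_sub hW.tr h.symm hv', pow_succ]
    refine mul_le_mul ?_ (mul_le_of_le_one_left (Wp_nonneg hW x v y)
      (rr_le_one hW.sq_le (abs_cav_le ν _ _ _))) (mul_nonneg (rr_nonneg hW.sq_le
      (abs_cav_le ν _ _ _)) (Wp_nonneg hW x v y)) (pow_nonneg ((sq_nonneg θ).trans hl) _)
    exact (mul_le_of_le_one_right (by positivity) (by linarith [hW.sq_le])).trans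
      (pow_le_pow_left₀ (sq_nonneg _) hl _)

end

end Crest.Agent.R160
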