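import Crest.Agent.R160.Basic

/-!
Row 160, TreeA: distances, the neighbour towards a vertex, sides of an edge in a tree.
Useful Mathlib: `SimpleGraph.IsTree.existsUnique_path`, `IsAcyclic.path_unique`,
`Connected.dist_triangle`, `Connected.exists_path_of_dist`, `IsTree.dist_ne_of_adj`,
`IsTree.dist_eq_dist_add_one_of_adj`-type lemmas in Mathlib/Combinatorics/SimpleGraph/Acyclic.lean.
Key fact (`tw_eq`): two neighbours of `v` at distance `dist u v - 1` from `u` coincide (otherwise
two different geodesics from `u` to `v`).  Everything else follows by induction on distances.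
-/

set_option autoImplicit false

open MeasureTheory Filter Topology
open scoped Classical

namespace Crest.Agent.R160

noncomputable section

universe u

variable {V : Type u} {G : SimpleGraph V} [G.LocallyFinite] {d : ℕ}

lemma Tr.conn (hT : Tr G d) : G.Connected := hT.tree.connected

omit [G.LocallyFinite] in
lemma dist_adj {v w : V} (h : G.Adj v w) : G.dist v w = 1 := SimpleGraph.dist_eq_one_iff_adj.2 h

lemma exists_pred (hT : Tr G d) {u v : V} (h : u ≠ v) :
    ∃ w, G.Adj v w ∧ G.dist u w + 1 = G.dist u v := by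
  obtain ⟨p, hp⟩ := hT.conn.exists_walk_length_eq_dist v u
  cases p with
  | nil => exact absurd rfl h
  | @cons _ w _ hw q =>
    refine ⟨w, hw, ?_⟩
    have h1 := SimpleGraph.dist_le q
    have h2 := hT.conn.dist_triangle (u := u) (v := w) (w := v)
    rw [dist_adj hw.symm] at h2
    rw [SimpleGraph.Walk.length_cons, SimpleGraph.dist_comm] at hp
    rw [SimpleGraph.dist_comm] at h1
    omega

lemma pred_unique (hT : Tr G d) {u v w w' : V} (h : G.Adj v w) (h' : G.Adj v w')
    (hd : G.dist u w + 1 = G.dist u v) (hd' : G.dist u w' + 1 = G.dist u v) : w = w' := by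
  obtain ⟨p, hp⟩ := hT.conn.exists_walk_length_eq_dist u w
  obtain ⟨p', hp'⟩ := hT.conn.exists_walk_length_eq_dist u w'
  have h1 := (p.concat h.symm).isPath_of_length_eq_dist (by simp [hp, hd])
  have h2 := (p'.concat h'.symm).isPath_of_length_eq_dist (by simp [hp', hd'])
  exact (SimpleGraph.Walk.concat_inj
    ((hT.tree.existsUnique_path u v).unique h1 h2)).1

lemma ball_mono (o : V) {n m : ℕ} (h : n ≤ m) : ball G o n ⊆ ball G o m := by
  induction h with
  | refl => exact Finset.Subset.rfl
  | step _ ih => exact ih.trans Finset.subset_union_left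

lemma mem_ball (hT : Tr G d) {o v : V} {n : ℕ} : v ∈ ball G o n ↔ G.dist o v ≤ n := by
  induction n generalizing v with
  | zero => simp [ball, hT.conn.dist_eq_zero_iff, eq_comm]
  | succ n ih =>
    simp only [ball, Finset.mem_union, Finset.mem_biUnion, SimpleGraph.mem_neighborFinset, ih]
    constructor
    · rintro (h | ⟨w, hw, hwv⟩)
      · omega
      · have := hT.conn.dist_triangle (u := o) (v := w) (w := v)
        rw [dist_adj hwv] at this
        omega
    · intro h
      rcases eq_or_ne o v with rfl | hne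
      · simp
      · obtain ⟨w, hw, hd⟩ := exists_pred hT hne
        exact Or.inr ⟨w, by omega, hw.symm⟩

lemma Tr.countable (hT : Tr G d) : Countable V := by
  obtain ⟨o⟩ := hT.conn.nonempty
  rw [← Set.countable_univ_iff]
  refine (Set.countable_iUnion fun n => (ball G o n).countable_toSet).mono fun v _ => ?_
  exact Set.mem_iUnion.2 ⟨G.dist o v, (mem_ball hT).2 le_rfl⟩

lemma Tr.triangle (hT : Tr G d) (u v w : V) : G.dist u w ≤ G.dist u v + G.dist v w := by
  exact hT.conn.dist_triangle

lemma Tr.dist_eq_zero (hT : Tr G d) {u v : V} : G.dist u v = 0 ↔ u = v := by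
  exact hT.conn.dist_eq_zero_iff

lemma exists_subset_ball (hT : Tr G d) (o : V) (F : Finset V) : ∃ n, F ⊆ ball G o n := by
  exact ⟨F.sup (G.dist o), fun v hv => (mem_ball hT).2 (Finset.le_sup hv)⟩

lemma adj_dist (hT : Tr G d) {v w : V} (h : G.Adj v w) (u : V) :
    G.dist u w + 1 = G.dist u v ∨ G.dist u v + 1 = G.dist u w := by
  have := hT.tree.dist_eq_dist_add_one_of_adj u h
  omega

omit [G.LocallyFinite] in
lemma tw_self (u : V) : tw G u u = u := by
  rw [tw, dif_neg]
  simp

lemma tw_adj (hT : Tr G d) {u v : V} (h : u ≠ v) : G.Adj v (tw G u v) := by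
  rw [tw, dif_pos (exists_pred hT h)]
  exact (exists_pred hT h).choose_spec.1

lemma dist_tw (hT : Tr G d) {u v : V} (h : u ≠ v) : G.dist u (tw G u v) + 1 = G.dist u v := by
  rw [tw, dif_pos (exists_pred hT h)]
  exact (exists_pred hT h).choose_spec.2

lemma tw_eq (hT : Tr G d) {u v w : V} (h : G.Adj v w) (hd : G.dist u w + 1 = G.dist u v) :
    tw G u v = w := by
  have hne : u ≠ v := by
    rintro rfl
    simp at hd
  exact pred_unique hT (tw_adj hT hne) h (dist_tw hT hne) hd

omit [G.LocallyFinite] in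
lemma mem_sub_self {z x : V} (h : G.Adj z x) : z ∈ sub G z x := by
  simp [sub, dist_adj h.symm]

omit [G.LocallyFinite] in
lemma notMem_sub (z x : V) : x ∉ sub G z x := by
  simp [sub]

lemma mem_sub_iff_notMem (hT : Tr G d) {z x v : V} (h : G.Adj z x) :
    v ∈ sub G z x ↔ v ∉ sub G x z := by
  have := adj_dist hT h v
  simp only [sub, Set.mem_ofPred_eq, SimpleGraph.dist_comm (v := v)]
  omega

lemma compl_sub (hT : Tr G d) {z x : V} (h : G.Adj z x) : (sub G z x)ᶜ = sub G x z := by
  ext v
  rw [Set.mem_compl_iff, mem_sub_iff_notMem hT h.symm]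

lemma dist_of_mem_sub (hT : Tr G d) {z x v : V} (h : G.Adj z x) (hv : v ∈ sub G z x) :
    G.dist x v = G.dist z v + 1 := by
  have := adj_dist hT h v
  simp only [sub, Set.mem_ofPred_eq, SimpleGraph.dist_comm (v := v)] at hv ⊢
  omega

/-- an edge leaving the side of `z` is the edge `z ∼ x` -/
lemma adj_cross (hT : Tr G d) {z x a b : V} (h : G.Adj z x) (hab : G.Adj a b)
    (ha : a ∈ sub G z x) (hb : b ∉ sub G z x) : a = z ∧ b = x := by
  have h1 := dist_of_mem_sub hT h ha
  have h2 := dist_of_mem_sub hT h.symm ((mem_sub_iff_notMem hT h.symm).2 hb)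
  have h3 := adj_dist hT hab z
  have h4 := adj_dist hT hab x
  have h5 : z = a := by
    by_contra hne
    have h6 := dist_tw hT hne
    have h7 := adj_dist hT (tw_adj hT hne) x
    have h8 := hT.triangle x z (tw G z a)
    rw [dist_adj h.symm] at h8
    have h9 : tw G z a = b := pred_unique hT (u := x) (tw_adj hT hne) hab (by omega) (by omega)
    rw [h9] at h6
    omega
  subst h5
  rw [SimpleGraph.dist_self] at h1 h3
  exact ⟨rfl, (hT.dist_eq_zero.1 (by omega)).symm⟩

lemma dist_cross (hT : Tr G d) {z x v w : V} (h : G.Adj z x) (hv : v ∈ sub G z x)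
    (hw : w ∈ sub G x z) : G.dist v w = G.dist v z + 1 + G.dist x w := by
  induction hn : G.dist v w generalizing w with
  | zero =>
    rw [hT.dist_eq_zero.1 hn] at hv
    exact absurd hw ((mem_sub_iff_notMem hT h).1 hv)
  | succ n ih =>
    have hne : v ≠ w := by
      rintro rfl
      simp at hn
    have h1 := dist_tw hT hne
    by_cases hw' : tw G v w ∈ sub G x z
    · have h2 := ih hw' (by omega)
      have h3 := adj_dist hT (tw_adj hT hne) x
      have h4 := hT.triangle v z w
      have h5 := dist_of_mem_sub hT h.symm hw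
      omega
    · obtain ⟨rfl, -⟩ := adj_cross hT h.symm (tw_adj hT hne) hw hw'
      have h2 := dist_of_mem_sub hT h hv
      rw [SimpleGraph.dist_comm, SimpleGraph.dist_comm (u := z)] at h2
      rw [SimpleGraph.dist_self]
      omega

lemma tw_of_mem_sub (hT : Tr G d) {c z v : V} (h : G.Adj c z) (hv : v ∈ sub G c z) :
    tw G v z = c := by
  refine tw_eq hT h.symm ?_
  rw [SimpleGraph.dist_comm, SimpleGraph.dist_comm (u := v), dist_of_mem_sub hT h hv]

lemma mem_sub_tw (hT : Tr G d) {u v : V} (h : u ≠ v) : u ∈ sub G (tw G u v) v := by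
  have := dist_tw hT h
  simp only [sub, Set.mem_ofPred_eq, SimpleGraph.dist_comm (v := u)]
  omega

/-- seen from the other side of the edge `z ∼ x`, the way to `w` passes through `z` -/
lemma tw_cross (hT : Tr G d) {z x u w : V} (h : G.Adj z x) (hu : u ∈ sub G x z)
    (hw : w ∈ sub G z x) (hne : w ≠ z) : tw G u w = tw G z w := by
  have h1 := tw_adj hT hne.symm
  have h2 : tw G z w ∈ sub G z x := by
    by_contra hc
    exact hne (adj_cross hT h h1 hw hc).1
  refine tw_eq hT h1 ?_
  rw [dist_cross hT h.symm hu h2, dist_cross hT h.symm hu hw, ← dist_tw hT hne.symm]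
  omega

lemma mem_kids {z x c : V} : c ∈ kids G z x ↔ G.Adj z c ∧ c ≠ x := by
  simp [kids, and_comm]

lemma card_kids (hT : Tr G d) {z x : V} (h : G.Adj z x) : (kids G z x).card = d - 1 := by
  rw [kids, Finset.card_erase_of_mem (by simpa using h), G.card_neighborFinset_eq_degree,
    hT.reg.degree_eq]

lemma sub_subset (hT : Tr G d) {z x c : V} (h : G.Adj z x) (hc : c ∈ kids G z x) :
    sub G c z ⊆ sub G z x := by
  intro v hv
  obtain ⟨h1, h2⟩ := mem_kids.1 hc
  rw [mem_sub_iff_notMem hT h]
  exact fun hv' => h2 ((tw_of_mem_sub hT h1.symm hv).symm.trans (tw_of_mem_sub hT h.symm hv'))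

lemma mem_sub_iff (hT : Tr G d) {z x v : V} (h : G.Adj z x) :
    v ∈ sub G z x ↔ v = z ∨ ∃ c ∈ kids G z x, v ∈ sub G c z := by
  constructor
  · intro hv
    rcases eq_or_ne v z with rfl | hne
    · exact Or.inl rfl
    · refine Or.inr ⟨tw G v z, mem_kids.2 ⟨tw_adj hT hne, fun hx => ?_⟩, mem_sub_tw hT hne⟩
      exact (mem_sub_iff_notMem hT h).1 hv (hx ▸ mem_sub_tw hT hne)
  · rintro (rfl | ⟨c, hc, hv⟩)
    · exact mem_sub_self h
    · exact sub_subset hT h hc hv

/-- different neighbours of `z` have disjoint sides -/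
lemma eq_of_mem_sub (hT : Tr G d) {z c c' v : V} (hc : G.Adj z c) (hc' : G.Adj z c')
    (hv : v ∈ sub G c z) (hv' : v ∈ sub G c' z) : c = c' := by
  exact (tw_of_mem_sub hT hc.symm hv).symm.trans (tw_of_mem_sub hT hc'.symm hv')

lemma sub_tw_subset (hT : Tr G d) {a c w : V} (h : G.Adj a c) (hw : w ∈ sub G a c)
    (hne : w ≠ a) : sub G w (tw G a w) ⊆ sub G a c := by
  intro v hv
  rw [mem_sub_iff_notMem hT h]
  intro hv'
  have hvw : v ≠ w := by
    rintro rfl
    exact (mem_sub_iff_notMem hT h).1 hw hv'
  have h1 := mem_sub_tw hT hvw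
  rw [tw_cross hT h hv' hw hne] at h1
  exact (mem_sub_iff_notMem hT (tw_adj hT hne.symm)).1 hv h1

/-- a vertex has a neighbour different from two given vertices (degree ≥ 3) -/
lemma exists_third (hT : Tr G d) (w a b : V) : ∃ c, G.Adj w c ∧ c ≠ a ∧ c ≠ b := by
  obtain ⟨c, hc, hc'⟩ := Finset.exists_mem_notMem_of_card_lt_card
    (s := ({a, b} : Finset V)) (t := G.neighborFinset w) (by
      rw [G.card_neighborFinset_eq_degree, hT.reg.degree_eq]
      exact Finset.card_le_two.trans_lt hT.three)
  exact ⟨c, by simpa using hc, by simpa [not_or] using hc'⟩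

lemma connected_ball (hT : Tr G d) (o : V) (n : ℕ) :
    (G.induce (ball G o n : Set V)).Connected := by
  have ho : o ∈ ball G o n := (mem_ball hT).2 (by simp)
  rw [SimpleGraph.connected_iff_exists_forall_reachable]
  refine ⟨⟨o, ho⟩, fun ⟨v, hv⟩ => ?_⟩
  induction hk : G.dist o v generalizing v with
  | zero =>
    obtain rfl := hT.dist_eq_zero.1 hk
    rfl
  | succ k ih =>
    have hne : o ≠ v := by
      rintro rfl
      simp at hk
    have h1 := dist_tw hT hne
    have h2 : G.dist o v ≤ n := (mem_ball hT).1 hv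
    have h3 : tw G o v ∈ ball G o n := (mem_ball hT).2 (by omega)
    exact (ih _ h3 (by omega)).trans (SimpleGraph.Adj.reachable (tw_adj hT hne).symm)

lemma exists_mid (hT : Tr G d) (w w' : V) (k : ℕ) (hk : k ≤ G.dist w w') :
    ∃ z, G.dist w z = k ∧ G.dist w' z + k = G.dist w w' := by
  induction k with
  | zero => exact ⟨w, by simp, by simp [SimpleGraph.dist_comm]⟩
  | succ k ih =>
    obtain ⟨z, h1, h2⟩ := ih (by omega)
    have hne : w' ≠ z := by
      rintro rfl
      omega
    have h3 := dist_tw hT hne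
    have h4 := adj_dist hT (tw_adj hT hne) w
    have h5 := hT.triangle w (tw G w' z) w'
    rw [SimpleGraph.dist_comm (u := tw G w' z) (v := w')] at h5
    exact ⟨tw G w' z, by omega, by omega⟩

/-- two far balls are separated by an edge: take the edge at position `R` of the geodesic from `w`
to `w'` and use `dist_cross`. -/
lemma exists_sep (hT : Tr G d) {w w' : V} {R : ℕ} (h : 2 * R < G.dist w w') :
    ∃ z x, G.Adj z x ∧ (ball G w R : Set V) ⊆ sub G z x ∧ (ball G w' R : Set V) ⊆ sub G x z := by
  obtain ⟨z, hz, hz'⟩ := exists_mid hT w w' R (by omega)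
  have hne : w' ≠ z := by
    rintro rfl
    omega
  have h1 := tw_adj hT hne
  have h2 := dist_tw hT hne
  have h3 := mem_sub_tw hT hne
  have h4 : w ∈ sub G z (tw G w' z) := by
    have := hT.triangle w (tw G w' z) w'
    rw [SimpleGraph.dist_comm (u := tw G w' z) (v := w')] at this
    simp only [sub, Set.mem_ofPred_eq, SimpleGraph.dist_comm (v := w)]
    omega
  refine ⟨z, _, h1, fun v hv => ?_, fun v hv => ?_⟩
  · have h5 : G.dist w v ≤ R := (mem_ball hT).1 hv
    rw [mem_sub_iff_notMem hT h1]
    intro h6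
    have := dist_cross hT h1 h4 h6
    omega
  · have h5 : G.dist w' v ≤ R := (mem_ball hT).1 hv
    rw [mem_sub_iff_notMem hT h1.symm]
    intro h6
    have := dist_cross hT h1.symm h3 h6
    omega

/-- a connected set is closed under moving towards `x`, except at its closest point `z`.
Proof: `w ≠ x` by minimality.  If `tw x w ∉ S`, a walk in `S` from `w` to `z` stays in
`sub w (tw x w)` by `adj_cross`, so `dist x z = dist x w + dist w z > dist x w` by `dist_cross`. -/
lemma tw_mem_of_connected (hT : Tr G d) {S : Finset V}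
    (hS : (G.induce (S : Set V)).Connected) {x z w : V} (hz : z ∈ S)
    (hmin : ∀ v ∈ S, G.dist x z ≤ G.dist x v) (hw : w ∈ S) (hne : w ≠ z) :
    w ≠ x ∧ tw G x w ∈ S := by
  have hwx : x ≠ w := by
    rintro rfl
    have := hmin x hw
    rw [SimpleGraph.dist_self, Nat.le_zero, hT.dist_eq_zero] at this
    exact hne this
  refine ⟨hwx.symm, by_contra fun hc => ?_⟩
  have h1 := tw_adj hT hwx
  have key : ∀ {a b : (S : Set V)} (_ : (G.induce (S : Set V)).Walk a b),
      (a : V) ∈ sub G w (tw G x w) → (b : V) ∈ sub G w (tw G x w) := by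
    intro a b p
    induction p with
    | nil => exact id
    | @cons a c b hac _ ih =>
      refine fun ha => ih (by_contra fun hc' => hc ?_)
      rw [← (adj_cross hT h1 hac ha hc').2]
      exact c.2
  obtain ⟨p⟩ := hS ⟨w, hw⟩ ⟨z, hz⟩
  have h2 := dist_cross hT h1.symm (mem_sub_tw hT hwx) (key p (mem_sub_self h1))
  have h3 := dist_tw hT hwx
  have h4 := hmin w hw
  exact hne (hT.dist_eq_zero.1 (by simp only at h2; omega))

end

end Crest.Agent.R160
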