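import Crest.Agent.R160.TreeA

/-!
Row 160, TreeB: geodesics, levels, counting and equivariance.
-/

set_option autoImplicit false

open MeasureTheory Filter Topology
open scoped Classical

namespace Crest.Agent.R160

noncomputable section

universe u

variable {V : Type u} {G : SimpleGraph V} [G.LocallyFinite] {d : ℕ}

lemma mem_pth (hT : Tr G d) {u v w : V} :
    w ∈ pth G u v ↔ w ≠ u ∧ G.dist u w + G.dist w v = G.dist u v := by
  simp only [pth, Finset.mem_filter, mem_ball hT]
  exact ⟨fun h => h.2, fun h => ⟨by omega, h⟩⟩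

lemma pth_self (hT : Tr G d) (u : V) : pth G u u = ∅ := by
  ext w
  simp only [mem_pth hT, SimpleGraph.dist_self, Finset.notMem_empty, iff_false, not_and]
  exact fun h h' => h (hT.dist_eq_zero.1 (by omega))

lemma self_mem_pth (hT : Tr G d) {u v : V} (h : u ≠ v) : v ∈ pth G u v := by
  simp [mem_pth hT, h.symm]

lemma pth_eq_insert_last (hT : Tr G d) {u v : V} (h : u ≠ v) :
    pth G u v = insert v (pth G u (tw G u v)) := by
  ext w
  have h1 := dist_tw hT h
  simp only [Finset.mem_insert, mem_pth hT]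
  rcases eq_or_ne w v with rfl | hne
  · simp [h.symm]
  · have h2 := adj_dist hT (tw_adj hT h) w
    have h3 := hT.triangle u w (tw G u v)
    have h4 := hT.triangle u w v
    simp only [hne, false_or]
    refine and_congr_right fun _ => ⟨fun h5 => ?_, fun h5 => by omega⟩
    have h6 := dist_tw hT hne
    have h7 := hT.triangle u w (tw G w v)
    have h8 := adj_dist hT (tw_adj hT hne) u
    rw [tw_eq hT (tw_adj hT hne) (show G.dist u _ + 1 = _ by omega)]
    omega

lemma notMem_pth_tw (hT : Tr G d) {u v : V} (h : u ≠ v) : v ∉ pth G u (tw G u v) := by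
  have := dist_tw hT h
  rw [mem_pth hT]
  omega

lemma pth_eq_insert_first (hT : Tr G d) {c a v : V} (h : G.Adj c a) (hv : v ∈ sub G c a) :
    pth G a v = insert c (pth G c v) := by
  ext w
  have h1 := dist_of_mem_sub hT h hv
  simp only [Finset.mem_insert, mem_pth hT]
  rcases eq_or_ne w c with rfl | hne
  · simp only [true_or, iff_true, dist_adj h.symm]
    exact ⟨h.ne, by omega⟩
  · simp only [hne, false_or, ne_eq, not_false_eq_true, true_and]
    by_cases hw : w ∈ sub G c a
    · have h2 := dist_of_mem_sub hT h hw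
      refine ⟨fun h3 => by omega, fun h3 => ⟨?_, by omega⟩⟩
      rintro rfl
      exact notMem_sub _ _ hw
    · have hw' := (mem_sub_iff_notMem hT h.symm).2 hw
      have h2 := dist_of_mem_sub hT h.symm hw'
      have h3 := dist_cross hT h.symm hw' hv
      rw [SimpleGraph.dist_comm (u := w) (v := a)] at h3
      exact ⟨fun h4 => (h4.1 (hT.dist_eq_zero.1 (by omega)).symm).elim, fun h4 => by omega⟩

lemma card_pth (hT : Tr G d) (u v : V) : (pth G u v).card = G.dist u v := by
  induction hn : G.dist u v generalizing v with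
  | zero => rw [← hT.dist_eq_zero.1 hn, pth_self hT, Finset.card_empty]
  | succ n ih =>
    have hne : u ≠ v := by
      rintro rfl
      simp at hn
    have := dist_tw hT hne
    rw [pth_eq_insert_last hT hne, Finset.card_insert_of_notMem (notMem_pth_tw hT hne),
      ih _ (by omega)]

lemma mem_sub_of_mem_pth (hT : Tr G d) {u v w : V} (hw : w ∈ pth G u v) :
    v ∈ sub G w (tw G u w) := by
  obtain ⟨h1, h2⟩ := (mem_pth hT).1 hw
  have h3 := dist_tw hT h1.symm
  have h4 := hT.triangle u (tw G u w) v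
  simp only [sub, Set.mem_ofPred_eq]
  omega

lemma dist_split (hT : Tr G d) {u v w : V} (hw : w ∈ pth G u v) :
    G.dist u v = G.dist (tw G u w) u + 1 + G.dist w v := by
  obtain ⟨h1, h2⟩ := (mem_pth hT).1 hw
  have h3 := dist_tw hT h1.symm
  rw [SimpleGraph.dist_comm (v := u)]
  omega

lemma pth_subset_sub (hT : Tr G d) {a c v w : V} (h : G.Adj a c) (hv : v ∈ sub G a c)
    (hw : w ∈ pth G a v) : w ∈ sub G a c := by
  obtain ⟨h1, h2⟩ := (mem_pth hT).1 hw
  rw [mem_sub_iff_notMem hT h]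
  intro hw'
  have h3 := dist_cross hT h.symm hw' hv
  omega

lemma pth_dist_inj (hT : Tr G d) {u v w w' : V} (hw : w ∈ pth G u v) (hw' : w' ∈ pth G u v)
    (h : G.dist u w = G.dist u w') : w = w' := by
  induction hn : G.dist u v generalizing v with
  | zero =>
    rw [← hT.dist_eq_zero.1 hn, pth_self hT] at hw
    simp at hw
  | succ n ih =>
    have hne : u ≠ v := by
      rintro rfl
      simp at hn
    have h1 := dist_tw hT hne
    rw [pth_eq_insert_last hT hne, Finset.mem_insert] at hw hw'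
    rcases hw with rfl | hw <;> rcases hw' with rfl | hw'
    · rfl
    · have := ((mem_pth hT).1 hw').2
      omega
    · have := ((mem_pth hT).1 hw).2
      omega
    · exact ih hw hw' (by omega)

lemma tw_of_mem_pth (hT : Tr G d) {u v w : V} (hw : w ∈ pth G u v) (hne : w ≠ v) :
    tw G u v = tw G w v := by
  have h1 := ((mem_pth hT).1 hw).1.symm
  exact tw_cross hT (tw_adj hT h1) (mem_sub_tw hT h1) (mem_sub_of_mem_pth hT hw) hne.symm

lemma pth_comparable (hT : Tr G d) {u v w w' : V} (hw : w ∈ pth G u v) (hw' : w' ∈ pth G u v)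
    (h : G.dist u w < G.dist u w') :
    w' ∈ sub G w (tw G u w) ∧ tw G u w' = tw G w w' ∧ G.dist u w' = G.dist u w + G.dist w w' := by
  obtain ⟨z, h1, h2⟩ := exists_mid hT u w' (G.dist u w) h.le
  obtain ⟨h3, h4⟩ := (mem_pth hT).1 hw
  obtain ⟨-, h5⟩ := (mem_pth hT).1 hw'
  rw [SimpleGraph.dist_comm] at h2
  have h6 := hT.triangle z w' v
  have h7 := hT.triangle u z v
  have h8 : z = w := pth_dist_inj hT ((mem_pth hT).2 ⟨fun hz => h3 (hT.dist_eq_zero.1 (by
    rw [← h1, hz, SimpleGraph.dist_self])).symm, by omega⟩) hw h1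
  subst h8
  have h9 : z ∈ pth G u w' := (mem_pth hT).2 ⟨h3, by omega⟩
  refine ⟨mem_sub_of_mem_pth hT h9, tw_of_mem_pth hT h9 ?_, by omega⟩
  rintro rfl
  exact lt_irrefl _ h

lemma prod_pth_last (hT : Tr G d) {u v : V} (h : u ≠ v) (f : V → V → ℝ) :
    ∏ x ∈ pth G u v, f x (tw G u x) =
      (∏ x ∈ pth G u (tw G u v), f x (tw G u x)) * f v (tw G u v) := by
  rw [pth_eq_insert_last hT h, Finset.prod_insert (notMem_pth_tw hT h), mul_comm]

lemma prod_pth_first (hT : Tr G d) {c a v : V} (h : G.Adj c a) (hv : v ∈ sub G c a)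
    (f : V → V → ℝ) :
    ∏ x ∈ pth G a v, f x (tw G a x) = f c a * ∏ x ∈ pth G c v, f x (tw G c x) := by
  rw [pth_eq_insert_first hT h hv, Finset.prod_insert fun hc => ((mem_pth hT).1 hc).1 rfl,
    tw_of_mem_sub hT h.symm (mem_sub_self h.symm)]
  congr 1
  exact Finset.prod_congr rfl fun x hx => by
    rw [tw_cross hT h (mem_sub_self h.symm) (pth_subset_sub hT h hv hx) ((mem_pth hT).1 hx).1]

lemma prod_pth_split (hT : Tr G d) {u v w : V} (hw : w ∈ pth G u v) (f : V → V → ℝ) :
    ∏ x ∈ pth G u v, f x (tw G u x) =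
      (∏ x ∈ pth G u (tw G u w), f x (tw G u x)) * f w (tw G u w) *
        ∏ x ∈ pth G w v, f x (tw G w x) := by
  induction hn : G.dist w v generalizing v with
  | zero =>
    obtain rfl := hT.dist_eq_zero.1 hn
    rw [pth_self hT, Finset.prod_empty, mul_one, prod_pth_last hT ((mem_pth hT).1 hw).1.symm]
  | succ n ih =>
    have hne : w ≠ v := by
      rintro rfl
      simp at hn
    have huv : u ≠ v := by
      rintro rfl
      simp [pth_self hT] at hw
    have h1 := tw_of_mem_pth hT hw hne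
    have h2 := dist_tw hT hne
    have h3 : w ∈ pth G u (tw G u v) :=
      (Finset.mem_insert.1 (pth_eq_insert_last hT huv ▸ hw)).resolve_left hne
    rw [prod_pth_last hT huv, ih h3 (by rw [h1]; omega), prod_pth_last hT hne, h1, mul_assoc]

lemma mem_sb (hT : Tr G d) {a b v : V} {n : ℕ} :
    v ∈ sb G a b n ↔ G.dist a v ≤ n ∧ v ∈ sub G a b := by
  simp [sb, mem_ball hT]

lemma mem_lev (hT : Tr G d) {z x v : V} {j : ℕ} :
    v ∈ lev G z x j ↔ v ∈ sub G z x ∧ G.dist z v = j := by
  simp only [lev, Finset.mem_filter, mem_ball hT]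
  exact ⟨fun h => h.2, fun h => ⟨h.2.le, h⟩⟩

lemma sb_zero {a b : V} (h : G.Adj a b) : sb G a b 0 = {a} := by
  simp [sb, ball, Finset.filter_singleton, mem_sub_self h]

lemma lev_zero {a b : V} (h : G.Adj a b) : lev G a b 0 = {a} := by
  simp [lev, ball, Finset.filter_singleton, mem_sub_self h]

lemma sum_sb_succ (hT : Tr G d) {a b : V} (h : G.Adj a b) (n : ℕ) {M : Type*} [AddCommMonoid M]
    (f : V → M) :
    ∑ v ∈ sb G a b (n + 1), f v = f a + ∑ c ∈ kids G a b, ∑ v ∈ sb G c a n, f v := by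
  have h1 : sb G a b (n + 1) = insert a ((kids G a b).biUnion fun c => sb G c a n) := by
    ext v
    simp only [mem_sb hT, Finset.mem_insert, Finset.mem_biUnion, mem_sub_iff hT h]
    constructor
    · rintro ⟨h1, h2 | ⟨c, hc, hv⟩⟩
      · exact Or.inl h2
      · have := dist_of_mem_sub hT (mem_kids.1 hc).1.symm hv
        exact Or.inr ⟨c, hc, by omega, hv⟩
    · rintro (rfl | ⟨c, hc, h1, hv⟩)
      · simp
      · have := dist_of_mem_sub hT (mem_kids.1 hc).1.symm hv
        exact ⟨by omega, Or.inr ⟨c, hc, hv⟩⟩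
  rw [h1, Finset.sum_insert (by simp [mem_sb hT, notMem_sub]), Finset.sum_biUnion]
  exact fun c hc c' hc' hne => Finset.disjoint_left.2 fun v hv hv' => hne
    (eq_of_mem_sub hT (mem_kids.1 hc).1 (mem_kids.1 hc').1 ((mem_sb hT).1 hv).2
      ((mem_sb hT).1 hv').2)

lemma sum_lev_succ (hT : Tr G d) {a b : V} (h : G.Adj a b) (j : ℕ) {M : Type*} [AddCommMonoid M]
    (f : V → M) :
    ∑ v ∈ lev G a b (j + 1), f v = ∑ c ∈ kids G a b, ∑ v ∈ lev G c a j, f v := by
  have h1 : lev G a b (j + 1) = (kids G a b).biUnion fun c => lev G c a j := by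
    ext v
    simp only [mem_lev hT, Finset.mem_biUnion, mem_sub_iff hT h]
    constructor
    · rintro ⟨rfl | ⟨c, hc, hv⟩, h1⟩
      · simp at h1
      · have := dist_of_mem_sub hT (mem_kids.1 hc).1.symm hv
        exact ⟨c, hc, hv, by omega⟩
    · rintro ⟨c, hc, hv, h1⟩
      have := dist_of_mem_sub hT (mem_kids.1 hc).1.symm hv
      exact ⟨Or.inr ⟨c, hc, hv⟩, by omega⟩
  rw [h1, Finset.sum_biUnion]
  exact fun c hc c' hc' hne => Finset.disjoint_left.2 fun v hv hv' => hne
    (eq_of_mem_sub hT (mem_kids.1 hc).1 (mem_kids.1 hc').1 ((mem_lev hT).1 hv).1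
      ((mem_lev hT).1 hv').1)

lemma card_lev (hT : Tr G d) {a b : V} (h : G.Adj a b) (j : ℕ) :
    (lev G a b j).card = (d - 1) ^ j := by
  induction j generalizing a b with
  | zero => simp [lev_zero h]
  | succ j ih =>
    rw [Finset.card_eq_sum_ones, sum_lev_succ hT h,
      Finset.sum_congr rfl fun c hc => (Finset.card_eq_sum_ones _).symm.trans
        (ih (mem_kids.1 hc).1.symm), Finset.sum_const, card_kids hT h, smul_eq_mul, pow_succ']

/-- spheres have at most `d (d-1)^(k-1) ≤ 2 (d-1)^k` points -/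
lemma sum_ball_le (hT : Tr G d) (u : V) (R : ℕ) {h : ℕ → ℝ} (h0 : ∀ k, 0 ≤ h k) :
    ∑ v ∈ ball G u R, h (G.dist u v) ≤
      2 * ∑ k ∈ Finset.range (R + 1), ((d : ℝ) - 1) ^ k * h k := by
  rw [← Finset.sum_fiberwise_of_maps_to (t := Finset.range (R + 1)) (g := G.dist u)
    fun v hv => Finset.mem_range.2 (Nat.lt_succ_of_le ((mem_ball hT).1 hv)), Finset.mul_sum]
  refine Finset.sum_le_sum fun k _ => ?_
  rw [Finset.sum_congr rfl fun v hv => by rw [(Finset.mem_filter.1 hv).2], Finset.sum_const,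
    nsmul_eq_mul, ← mul_assoc]
  refine mul_le_mul_of_nonneg_right ?_ (h0 k)
  have h2 := hT.two_le
  have h3 := hT.three
  rcases k with _ | k
  · have : ((ball G u R).filter fun v => G.dist u v = 0).card ≤ 1 :=
      Finset.card_le_one.2 fun a ha b hb => (hT.dist_eq_zero.1 (Finset.mem_filter.1 ha).2).symm.trans
        (hT.dist_eq_zero.1 (Finset.mem_filter.1 hb).2)
    have : (((ball G u R).filter fun v => G.dist u v = 0).card : ℝ) ≤ 1 := by exact_mod_cast this
    linarith
  · have h4 : ((ball G u R).filter fun v => G.dist u v = k + 1) ⊆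
        (G.neighborFinset u).biUnion fun c => lev G c u k := fun v hv => by
      have h5 := (Finset.mem_filter.1 hv).2
      have hne : v ≠ u := by
        rintro rfl
        simp at h5
      have h6 := dist_tw hT hne
      rw [SimpleGraph.dist_comm, SimpleGraph.dist_comm (u := v)] at h6
      exact Finset.mem_biUnion.2 ⟨tw G v u, by simpa using tw_adj hT hne,
        (mem_lev hT).2 ⟨mem_sub_tw hT hne, by omega⟩⟩
    have h5 := (Finset.card_le_card h4).trans (Finset.card_biUnion_le_card_mul _ _ ((d - 1) ^ k)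
      fun c hc => (card_lev hT ((G.mem_neighborFinset u c).1 hc).symm k).le)
    rw [G.card_neighborFinset_eq_degree, hT.reg.degree_eq] at h5
    have h6 : (((ball G u R).filter fun v => G.dist u v = k + 1).card : ℝ) ≤
        d * ((d : ℝ) - 1) ^ k := by
      have h7 : ((d - 1 : ℕ) : ℝ) = d - 1 := by rw [Nat.cast_sub (by omega), Nat.cast_one]
      rw [← h7]
      exact_mod_cast h5
    have h7 : 0 ≤ ((d : ℝ) - 1) ^ k := pow_nonneg (by linarith) k
    rw [pow_succ]
    nlinarith

lemma card_ball_le (hT : Tr G d) (u : V) (R : ℕ) : (ball G u R).card ≤ (d + 1) ^ R := by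
  induction R with
  | zero => simp [ball]
  | succ R ih =>
    have h1 := Finset.card_biUnion_le_card_mul (ball G u R) (fun v => G.neighborFinset v) d
      fun v _ => by rw [G.card_neighborFinset_eq_degree, hT.reg.degree_eq]
    have h2 := Finset.card_union_le (ball G u R) ((ball G u R).biUnion fun v => G.neighborFinset v)
    calc (ball G u (R + 1)).card ≤ (ball G u R).card * (d + 1) := by
          rw [mul_add, mul_one, add_comm (_ * _)]
          exact h2.trans (Nat.add_le_add_left h1 _)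
      _ ≤ _ := by rw [pow_succ]; exact Nat.mul_le_mul_right _ ih

lemma sum_ball_split (hT : Tr G d) {u x : V} (h : G.Adj u x) (R : ℕ) {f : V → ℝ}
    (h0 : ∀ v, 0 ≤ f v) :
    ∑ v ∈ ball G u R, f v ≤ ∑ v ∈ sb G u x R, f v + ∑ v ∈ sb G x u R, f v := by
  rw [← Finset.sum_filter_add_sum_filter_not (ball G u R) fun v => v ∈ sub G u x]
  refine add_le_add le_rfl (Finset.sum_le_sum_of_subset_of_nonneg (fun v hv => ?_) fun v _ _ => h0 v)
  obtain ⟨h1, h2⟩ := Finset.mem_filter.1 hv
  have h3 := (mem_sub_iff_notMem hT h.symm).2 h2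
  have h4 := dist_of_mem_sub hT h.symm h3
  have h5 := (mem_ball hT).1 h1
  exact (mem_sb hT).2 ⟨by omega, h3⟩

lemma sum_ball_erase_le (hT : Tr G d) (u : V) (R : ℕ) {f : V → V → ℝ} (h0 : ∀ p w, 0 ≤ f p w) :
    ∑ w ∈ (ball G u R).erase u, f (tw G w u) w ≤
      ∑ p ∈ G.neighborFinset u, ∑ w ∈ sb G p u R, f p w := by
  rw [← Finset.sum_fiberwise_of_maps_to (t := G.neighborFinset u) (g := fun w => tw G w u)
    fun w hw => (G.mem_neighborFinset _ _).2 (tw_adj hT (Finset.ne_of_mem_erase hw))]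
  refine Finset.sum_le_sum fun p _ => ?_
  rw [Finset.sum_congr rfl fun w hw => by rw [(Finset.mem_filter.1 hw).2]]
  refine Finset.sum_le_sum_of_subset_of_nonneg (fun w hw => ?_) fun w _ _ => h0 p w
  obtain ⟨h1, rfl⟩ := Finset.mem_filter.1 hw
  obtain ⟨h2, h3⟩ := Finset.mem_erase.1 h1
  have h4 := dist_tw hT h2
  have h5 := (mem_ball hT).1 h3
  rw [SimpleGraph.dist_comm, SimpleGraph.dist_comm (u := w)] at h4
  exact (mem_sb hT).2 ⟨by omega, mem_sub_tw hT h2⟩

/-! ### Equivariance -/

omit [G.LocallyFinite] in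
lemma dist_iso (g : G ≃g G) (u v : V) : G.dist (g u) (g v) = G.dist u v := by
  have key : ∀ (g : G ≃g G) (u v : V), G.edist (g u) (g v) ≤ G.edist u v := fun g u v => by
    by_cases h : G.Reachable u v
    · obtain ⟨p, hp⟩ := h.exists_walk_length_eq_edist
      simpa [hp] using SimpleGraph.edist_le (p.map g.toHom)
    · simp [SimpleGraph.edist_eq_top_of_not_reachable h]
  unfold SimpleGraph.dist
  congr 1
  exact le_antisymm (key g u v) (by simpa using key g.symm (g u) (g v))

lemma tw_iso (hT : Tr G d) (g : G ≃g G) (u v : V) : tw G (g u) (g v) = g (tw G u v) := by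
  rcases eq_or_ne u v with rfl | h
  · rw [tw_self, tw_self]
  · exact tw_eq hT (g.map_adj_iff.2 (tw_adj hT h)) (by rw [dist_iso, dist_iso, dist_tw hT h])

omit [G.LocallyFinite] in
lemma mem_sub_iso (g : G ≃g G) {z x v : V} : g v ∈ sub G (g z) (g x) ↔ v ∈ sub G z x := by
  simp [sub, dist_iso]

omit [G.LocallyFinite] in
lemma eq_map_iso (g : G ≃g G) {s t : Finset V} (h : ∀ w, g w ∈ t ↔ w ∈ s) :
    t = s.map g.toEquiv.toEmbedding := by
  ext w
  rw [Finset.mem_map_equiv, ← h]
  exact (g.apply_symm_apply w).symm ▸ Iff.rfl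

lemma ball_iso (hT : Tr G d) (g : G ≃g G) (u : V) (n : ℕ) :
    ball G (g u) n = (ball G u n).map g.toEquiv.toEmbedding := by
  exact eq_map_iso g fun w => by simp [mem_ball hT, dist_iso]

lemma pth_iso (hT : Tr G d) (g : G ≃g G) (u v : V) :
    pth G (g u) (g v) = (pth G u v).map g.toEquiv.toEmbedding := by
  exact eq_map_iso g fun w => by simp [mem_pth hT, dist_iso]

lemma sum_ball_iso (hT : Tr G d) (g : G ≃g G) (u : V) (n : ℕ) {M : Type*} [AddCommMonoid M]
    (f : V → M) : ∑ v ∈ ball G (g u) n, f v = ∑ v ∈ ball G u n, f (g v) := by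
  rw [ball_iso hT, Finset.sum_map]
  rfl

lemma sum_sb_iso (hT : Tr G d) (g : G ≃g G) (a b : V) (n : ℕ) {M : Type*} [AddCommMonoid M]
    (f : V → M) : ∑ v ∈ sb G (g a) (g b) n, f v = ∑ v ∈ sb G a b n, f (g v) := by
  rw [eq_map_iso (s := sb G a b n) (t := sb G (g a) (g b) n) g fun w => by
    simp [mem_sb hT, dist_iso, mem_sub_iso], Finset.sum_map]
  rfl

lemma sum_lev_iso (hT : Tr G d) (g : G ≃g G) (a b : V) (n : ℕ) {M : Type*} [AddCommMonoid M]
    (f : V → M) : ∑ v ∈ lev G (g a) (g b) n, f v = ∑ v ∈ lev G a b n, f (g v) := by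
  rw [eq_map_iso (s := lev G a b n) (t := lev G (g a) (g b) n) g fun w => by
    simp [mem_lev hT, dist_iso, mem_sub_iso], Finset.sum_map]
  rfl

lemma prod_pth_iso (hT : Tr G d) (g : G ≃g G) (u v : V) (f : V → V → ℝ) :
    ∏ w ∈ pth G (g u) (g v), f w (tw G (g u) w) =
      ∏ w ∈ pth G u v, f (g w) (g (tw G u w)) := by
  rw [pth_iso hT, Finset.prod_map]
  exact Finset.prod_congr rfl fun w _ => by rw [← tw_iso hT]; rfl

end

end Crest.Agent.R160
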